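import Crest.Agent.R22.Basic

/-! # Row 22: the factorisation `γ (n - θ) = μ π^k` -/

set_option autoImplicit false

open Polynomial

namespace Crest.Agent.R22

/-- Matrix of multiplication by `vpoly a` on `R[X]/(g)` in the basis `1, X, …, X^(d-1)`. -/
noncomputable def mulMat {R : Type*} [CommRing R] {d : ℕ} (g : R[X]) (a : Fin d → R) :
    Matrix (Fin d) (Fin d) R := fun i j => ((X ^ (j : ℕ) * vpoly a) %ₘ g).coeff i

theorem arith_degree_mod_lt {R : Type*} [CommRing R] {d : ℕ} (g : R[X]) (hg : g.Monic)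
    (hd : g.natDegree = d) (f : R[X]) : (f %ₘ g).degree < d := by
  rcases subsingleton_or_nontrivial R with hR | hR
  · have : f %ₘ g = 0 := Subsingleton.elim _ _
    rw [this, degree_zero]
    exact WithBot.bot_lt_coe _
  · have h1 := degree_modByMonic_lt f hg
    rwa [degree_eq_natDegree hg.ne_zero, hd] at h1

theorem arith_vpoly_inj {R : Type*} [CommRing R] {d : ℕ} {u v : Fin d → R}
    (h : vpoly u = vpoly v) : u = v := by
  funext i
  rw [← coeff_vpoly u i, ← coeff_vpoly v i, h]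

theorem arith_vpoly_zero {R : Type*} [CommRing R] {d : ℕ} : vpoly (0 : Fin d → R) = 0 := by
  simp [vpoly]

theorem arith_vpoly_smul {R : Type*} [CommRing R] {d : ℕ} (t : R) (u : Fin d → R) :
    vpoly (t • u) = C t * vpoly u := by
  simp [vpoly, Finset.mul_sum, mul_assoc]

theorem arith_vpoly_single {R : Type*} [CommRing R] {d : ℕ} (hd : 0 < d) :
    vpoly (Pi.single (⟨0, hd⟩ : Fin d) (1 : R)) = 1 := by
  unfold vpoly
  rw [Finset.sum_eq_single (⟨0, hd⟩ : Fin d)]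
  · simp
  · intro b _ hb
    simp [Pi.single_eq_of_ne hb]
  · simp

/-- At a root `t` of `g` the row vector `(t^i)` is a left eigenvector of `mulMat g a`. -/
theorem arith_row_mulMat {R : Type*} [CommRing R] {d : ℕ} (g : R[X]) (hg : g.Monic)
    (hd : g.natDegree = d) (a : Fin d → R) (t : R) (ht : g.eval t = 0) (j : Fin d) :
    ∑ i : Fin d, t ^ (i : ℕ) * mulMat g a i j = cj a t * t ^ (j : ℕ) := by
  have h1 := vpoly_coeff ((X ^ (j : ℕ) * vpoly a) %ₘ g) (arith_degree_mod_lt g hg hd _)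
  have h2 := congrArg (Polynomial.eval t) h1
  rw [eval_vpoly] at h2
  have h3 := congrArg (Polynomial.eval t) (modByMonic_add_div (X ^ (j : ℕ) * vpoly a) g)
  rw [eval_add, eval_mul, ht, zero_mul, add_zero, eval_mul, eval_pow, eval_X, eval_vpoly] at h3
  rw [mul_comm (cj a t), ← h3, ← h2]
  unfold cj mulMat
  exact Finset.sum_congr rfl fun i _ => mul_comm _ _

theorem arith_dvd_of_dvd_C_mul (g : ℤ[X]) (hg : g.Monic) (c : ℤ) (hc : c ≠ 0) (f : ℤ[X])
    (h : g ∣ C c * f) : g ∣ f := by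
  rw [← modByMonic_eq_zero_iff_dvd hg] at h ⊢
  rw [← smul_eq_C_mul, smul_modByMonic] at h
  exact (smul_eq_zero.1 h).resolve_left hc

/-- Recipe: both sides have degree `< d`; `%ₘ` is linear (`modByMonicHom`, `add_modByMonic`,
`smul_modByMonic`). -/
theorem vpoly_mulVec {R : Type*} [CommRing R] {d : ℕ} (g : R[X]) (hg : g.Monic)
    (hd : g.natDegree = d) (a u : Fin d → R) :
    vpoly ((mulMat g a).mulVec u) = (vpoly u * vpoly a) %ₘ g := by
  rw [← vpoly_coeff ((vpoly u * vpoly a) %ₘ g) (arith_degree_mod_lt g hg hd _)]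
  congr 1
  funext i
  have h1 : vpoly u * vpoly a = ∑ j : Fin d, u j • (X ^ (j : ℕ) * vpoly a) := by
    conv_lhs => rw [vpoly]
    rw [Finset.sum_mul]
    exact Finset.sum_congr rfl fun j _ => by rw [smul_eq_C_mul, mul_assoc]
  have h2 : (vpoly u * vpoly a) %ₘ g = ∑ j : Fin d, u j • ((X ^ (j : ℕ) * vpoly a) %ₘ g) := by
    rw [h1]
    have := map_sum (modByMonicHom g) (fun j : Fin d => u j • (X ^ (j : ℕ) * vpoly a))
      Finset.univ
    simp only [modByMonicHom_apply, smul_modByMonic] at this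
    exact this
  rw [h2, finsetSum_coeff]
  simp only [Matrix.mulVec, dotProduct, mulMat, coeff_smul, smul_eq_mul]
  exact Finset.sum_congr rfl fun j _ => mul_comm _ _

theorem mulMat_map {R S : Type*} [CommRing R] [CommRing S] (f : R →+* S) {d : ℕ} (g : R[X])
    (hg : g.Monic) (a : Fin d → R) :
    (mulMat g a).map f = mulMat (g.map f) fun i => f (a i) := by
  ext i j
  simp only [mulMat, Matrix.map_apply]
  rw [← coeff_map, map_modByMonic f hg, Polynomial.map_mul, Polynomial.map_pow, map_X, map_vpoly]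

/-- Recipe: with `V = Matrix.vandermonde θ` (`V σ i = θ σ ^ i`, invertible),
`V * M = diagonal (π_σ) * V`. -/
theorem det_mulMat {d : ℕ} {g : ℤ[X]} {θ : Fin d → ℂ} (hr : Roots g θ) (a : Fin d → ℤ) :
    ((mulMat g a).det : ℂ) = ∏ σ, cj (fun i => (a i : ℂ)) (θ σ) := by
  have hm : (g.map (Int.castRingHom ℂ)).Monic := hr.monic.map _
  have hdeg : (g.map (Int.castRingHom ℂ)).natDegree = d := by
    rw [hr.monic.natDegree_map, hr.deg]
  have hroot : ∀ σ, (g.map (Int.castRingHom ℂ)).eval (θ σ) = 0 := by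
    intro σ
    rw [hr.prod, eval_prod]
    exact Finset.prod_eq_zero (Finset.mem_univ σ) (by simp)
  have h1 : ((mulMat g a).det : ℂ) =
      (mulMat (g.map (Int.castRingHom ℂ)) fun i => (a i : ℂ)).det := by
    have := (Int.castRingHom ℂ).map_det (mulMat g a)
    rw [RingHom.mapMatrix_apply, mulMat_map _ g hr.monic] at this
    simpa using this
  have h2 : Matrix.vandermonde θ * mulMat (g.map (Int.castRingHom ℂ)) (fun i => (a i : ℂ)) =
      Matrix.diagonal (fun σ => cj (fun i => (a i : ℂ)) (θ σ)) * Matrix.vandermonde θ := by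
    ext σ j
    rw [Matrix.diagonal_mul, Matrix.mul_apply]
    simp only [Matrix.vandermonde_apply]
    exact arith_row_mulMat _ hm hdeg _ _ (hroot σ) j
  have h3 := congrArg Matrix.det h2
  rw [Matrix.det_mul, Matrix.det_mul, Matrix.det_diagonal, mul_comm] at h3
  have h4 : (Matrix.vandermonde θ).det ≠ 0 := Matrix.det_vandermonde_ne_zero_iff.2 hr.inj
  rw [h1]
  exact mul_right_cancel₀ h4 h3

/-- Corank at most one.  Recipe: if `u, v` are independent, then for each `i, j` some nonzero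
combination has zero `i`-th coordinate and is killed by `M.updateRow j (Pi.single i 1)`; so the
adjugate (`Matrix.adjugate_apply`) vanishes mod `p`, `p^d ∣ det (adjugate M) = det M ^ (d-1)`
(`Matrix.det_adjugate`), and `p ∣ cc`. -/
theorem ker_mod_rank_one {d : ℕ} (hd : 1 ≤ d) (M : Matrix (Fin d) (Fin d) ℤ) (p : ℕ)
    (hp : p.Prime) (cc : ℤ) (hdet : M.det = p * cc) (hc : ¬ (p : ℤ) ∣ cc) (u v : Fin d → ZMod p)
    (hu : (M.map (Int.castRingHom (ZMod p))).mulVec u = 0)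
    (hv : (M.map (Int.castRingHom (ZMod p))).mulVec v = 0) (hu0 : u ≠ 0) :
    ∃ t : ZMod p, v = t • u := by
  classical
  haveI : Fact p.Prime := ⟨hp⟩
  obtain ⟨i, hi⟩ : ∃ i, u i ≠ 0 := by
    by_contra h
    push Not at h
    exact hu0 (funext h)
  refine ⟨v i / u i, ?_⟩
  by_contra hne
  set v' : Fin d → ZMod p := v - (v i / u i) • u with hv'
  have hv'0 : v' ≠ 0 := sub_ne_zero.2 hne
  have hv'i : v' i = 0 := by
    simp only [hv', Pi.sub_apply, Pi.smul_apply, smul_eq_mul]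
    rw [div_mul_cancel₀ _ hi, sub_self]
  have hv'k : (M.map (Int.castRingHom (ZMod p))).mulVec v' = 0 := by
    rw [hv', Matrix.mulVec_sub, Matrix.mulVec_smul, hu, hv, smul_zero, sub_zero]
  -- integer lift of `u`
  set U : Fin d → ℤ := fun j => ((u j).val : ℤ) with hU
  have hUc : ∀ j, ((U j : ℤ) : ZMod p) = u j := by
    intro j
    simp [hU]
  have hdiv : ∀ j, (p : ℤ) ∣ M.mulVec U j := by
    intro j
    rw [← ZMod.intCast_zmod_eq_zero_iff_dvd]
    have h1 := congrFun hu j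
    simp only [Matrix.mulVec, dotProduct, Matrix.map_apply, eq_intCast, Pi.zero_apply] at h1
    simp only [Matrix.mulVec, dotProduct, Int.cast_sum, Int.cast_mul, hUc]
    exact h1
  choose w hw using hdiv
  have hw' : M.mulVec U = (p : ℤ) • w := by
    funext j
    rw [hw j, Pi.smul_apply, smul_eq_mul]
  have h1 : M.cramer (M.mulVec U) = M.det • U := by
    rw [Matrix.cramer_eq_adjugate_mulVec, Matrix.mulVec_mulVec, Matrix.adjugate_mul,
      Matrix.smul_mulVec, Matrix.one_mulVec]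
  rw [hw', map_smul] at h1
  have h2 := congrFun h1 i
  rw [Pi.smul_apply, Pi.smul_apply, Matrix.cramer_apply, hdet, smul_eq_mul, smul_eq_mul,
    mul_assoc] at h2
  have hp0 : (p : ℤ) ≠ 0 := by exact_mod_cast hp.ne_zero
  have h3 : (M.updateCol i w).det = cc * U i := mul_left_cancel₀ hp0 h2
  have h4 : ((M.updateCol i w).map (Int.castRingHom (ZMod p))).mulVec v' = 0 := by
    funext j
    have h5 := congrFun hv'k j
    simp only [Matrix.mulVec, dotProduct, Matrix.map_apply] at h5 ⊢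
    rw [← h5]
    refine Finset.sum_congr rfl fun l _ => ?_
    by_cases hl : l = i
    · rw [hl, hv'i, mul_zero, mul_zero]
    · rw [Matrix.updateCol_ne hl]
  have h6 : ((M.updateCol i w).map (Int.castRingHom (ZMod p))).det = 0 :=
    Matrix.exists_mulVec_eq_zero_iff.1 ⟨v', hv'0, h4⟩
  have h7 := (Int.castRingHom (ZMod p)).map_det (M.updateCol i w)
  rw [RingHom.mapMatrix_apply, h6, h3, map_mul, eq_intCast, eq_intCast, hUc] at h7
  rcases mul_eq_zero.1 h7 with h8 | h8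
  · exact hc ((ZMod.intCast_zmod_eq_zero_iff_dvd _ _).1 h8)
  · exact hi h8

/-- Integrality of `μ`.  Recipe: let `g - C (g n) = (X - C n) g₁` (`g₁ = g /ₘ (X - C n)`, monic of
degree `d - 1`), `π̃ = vpoly (adjugate M *ᵥ e₀)`, so `g ∣ π̃ π - C (p cc)`.  Mod `p` the coefficient
vectors of `g₁` and `π̃` are killed by `M` (`π ≡ (X - n) π₁`, `g ≡ (X - n) g₁`), so
`π̃ = t g₁ + p r`.  Then `(n - X) π̃^k ∈ (p^k, g)` because `(n - X) g₁ = g(n) - g`.  Write
`(n - X) π̃^k = p^k μ₀ + g r'`, `γ = cc^k γ'`, `b = (γ' μ₀) %ₘ g`.  Then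
`g ∣ p^k (b π^k - γ (n - X))`; cancel `p^k` (`g` monic: `%ₘ` and torsion-freeness). -/
theorem exists_b {d : ℕ} (hd : 1 ≤ d) (g : ℤ[X]) (hg : g.Monic) (hdeg : g.natDegree = d) (k : ℕ)
    (p : ℕ) (hp : p.Prime) (n : ℤ) (hk : 1 ≤ k) (hpk : (p : ℤ) ^ k ∣ g.eval n) (a : Fin d → ℤ)
    (ha : (p : ℤ) ∣ (vpoly a).eval n) (cc : ℤ) (hdet : (mulMat g a).det = p * cc)
    (hc : ¬ (p : ℤ) ∣ cc) (γ : ℤ) (hγ : cc ^ k ∣ γ) :
    ∃ b : Fin d → ℤ, Rel g k γ ⟨n, a, b⟩ := by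
  classical
  haveI : Fact p.Prime := ⟨hp⟩
  have hp0 : (p : ℤ) ≠ 0 := by exact_mod_cast hp.ne_zero
  set φ := Int.castRingHom (ZMod p) with hφ
  set g₁ : ℤ[X] := g /ₘ (X - C n) with hg₁
  have hg1 : (X - C n) * g₁ = g - C (g.eval n) := by
    rw [hg₁, X_sub_C_mul_divByMonic_eq_sub_modByMonic, modByMonic_X_sub_C_eq_C_eval]
  have hdg : g.degree = d := by rw [degree_eq_natDegree hg.ne_zero, hdeg]
  have hg1deg : g₁.degree < d := by
    rw [← hdg]
    exact degree_divByMonic_lt g (X - C n) hg.ne_zero (by rw [degree_X_sub_C]; exact zero_lt_one)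
  set M := mulMat g a with hM
  set e₀ : Fin d → ℤ := Pi.single (⟨0, hd⟩ : Fin d) 1 with he₀
  set w : Fin d → ℤ := M.adjugate.mulVec e₀ with hw
  have hMw : M.mulVec w = ((p : ℤ) * cc) • e₀ := by
    rw [hw, Matrix.mulVec_mulVec, Matrix.mul_adjugate, Matrix.smul_mulVec, Matrix.one_mulVec, hdet]
  have hππ : g ∣ vpoly w * vpoly a - C ((p : ℤ) * cc) := by
    have h1 := vpoly_mulVec g hg hdeg a w
    rw [← hM, hMw, arith_vpoly_smul, he₀, arith_vpoly_single hd, mul_one] at h1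
    have h2 := modByMonic_add_div (vpoly w * vpoly a) g
    rw [← h1] at h2
    exact ⟨(vpoly w * vpoly a) /ₘ g, by rw [← h2]; ring_nf; rw [h2]⟩
  have hpg : (p : ℤ) ∣ g.eval n := (dvd_pow_self (p : ℤ) (by omega)).trans hpk
  have hφp : φ (p : ℤ) = 0 := by simp [hφ]
  have hgbar : g.map φ = (X - C (φ n)) * g₁.map φ := by
    have h1 := congrArg (Polynomial.map φ) hg1
    have h2 : φ (g.eval n) = 0 := by
      obtain ⟨m, hm⟩ := hpg
      rw [hm, map_mul, hφp, zero_mul]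
    rw [Polynomial.map_mul, Polynomial.map_sub, Polynomial.map_sub, map_X, map_C, map_C, h2,
      C_0, sub_zero] at h1
    exact h1.symm
  have hπbar : (X - C (φ n)) ∣ (vpoly a).map φ := by
    rw [dvd_iff_isRoot, IsRoot.def, eval_map, eval₂_hom]
    obtain ⟨m, hm⟩ := ha
    rw [hm, map_mul, hφp, zero_mul]
  set u : Fin d → ZMod p := fun i => φ (g₁.coeff i) with hu
  have huv : vpoly u = g₁.map φ := by
    rw [hu, ← map_vpoly φ (fun i : Fin d => g₁.coeff i), vpoly_coeff g₁ hg1deg]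
  have hgm : (g.map φ).Monic := hg.map φ
  have hgmd : (g.map φ).natDegree = d := by rw [hg.natDegree_map, hdeg]
  have hu0 : u ≠ 0 := by
    intro h
    rw [h, arith_vpoly_zero] at huv
    rw [← huv, mul_zero] at hgbar
    exact hgm.ne_zero hgbar
  have hMu : (M.map φ).mulVec u = 0 := by
    apply arith_vpoly_inj
    rw [hM, mulMat_map φ g hg, vpoly_mulVec _ hgm hgmd, arith_vpoly_zero,
      modByMonic_eq_zero_iff_dvd hgm, huv, ← map_vpoly φ a, hgbar, mul_comm (X - C (φ n))]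
    exact mul_dvd_mul_left _ hπbar
  have hMw' : (M.map φ).mulVec (fun i => φ (w i)) = 0 := by
    funext j
    have h1 := congrArg φ (congrFun hMw j)
    rw [Pi.smul_apply, smul_eq_mul, map_mul, map_mul, hφp, zero_mul, zero_mul] at h1
    rw [Pi.zero_apply, ← h1]
    simp only [Matrix.mulVec, dotProduct, Matrix.map_apply, map_sum, map_mul]
  obtain ⟨t, ht⟩ := ker_mod_rank_one hd M p hp cc hdet hc u (fun i => φ (w i)) hMu hMw' hu0
  set T : ℤ := (t.val : ℤ) with hT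
  have hTt : φ T = t := by simp [hφ, hT]
  have hr : (C (p : ℤ)) ∣ vpoly w - C T * g₁ := by
    have h1 : (vpoly w - C T * g₁).map φ = 0 := by
      rw [Polynomial.map_sub, Polynomial.map_mul, map_C, hTt, map_vpoly, ht, arith_vpoly_smul,
        huv, sub_self]
    rw [C_dvd_iff_dvd_coeff]
    intro i
    rw [← ZMod.intCast_zmod_eq_zero_iff_dvd]
    have h2 := congrArg (fun f => Polynomial.coeff f i) h1
    simp only [coeff_map, coeff_zero] at h2
    exact h2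
  obtain ⟨r, hr⟩ := hr
  obtain ⟨s, hs⟩ : C T * g₁ ∣ vpoly w ^ k - (C (p : ℤ) * r) ^ k := by
    have h1 : C T * g₁ = vpoly w - C (p : ℤ) * r := by rw [← hr]; ring
    rw [h1]
    exact sub_dvd_pow_sub_pow _ _ _
  obtain ⟨m, hm⟩ := hpk
  set μ₀ : ℤ[X] := (C n - X) * r ^ k + C m * (C T * s) with hμ₀
  have hA : g ∣ (C n - X) * vpoly w ^ k - C ((p : ℤ) ^ k) * μ₀ := by
    refine ⟨-(C T * s), ?_⟩
    have h1 : vpoly w ^ k = (C (p : ℤ)) ^ k * r ^ k + C T * g₁ * s := by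
      rw [← hs]; ring
    have h2 : g = (X - C n) * g₁ + C (p : ℤ) ^ k * C m := by
      rw [hg1, hm, C_mul, C_pow]; ring
    rw [h1, hμ₀, C_pow]
    conv_rhs => rw [h2]
    ring
  have hB : g ∣ (vpoly w * vpoly a) ^ k - (C ((p : ℤ) * cc)) ^ k :=
    hππ.trans (sub_dvd_pow_sub_pow _ _ _)
  have hC : g ∣ C ((p : ℤ) ^ k) * (μ₀ * vpoly a ^ k - C (cc ^ k) * (C n - X)) := by
    have h1 := (hB.mul_left (C n - X)).sub (hA.mul_right (vpoly a ^ k))
    have h2 : (C n - X) * ((vpoly w * vpoly a) ^ k - (C ((p : ℤ) * cc)) ^ k) -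
        ((C n - X) * vpoly w ^ k - C ((p : ℤ) ^ k) * μ₀) * vpoly a ^ k =
        C ((p : ℤ) ^ k) * (μ₀ * vpoly a ^ k - C (cc ^ k) * (C n - X)) := by
      rw [C_mul, C_pow, C_pow]; ring
    rwa [h2] at h1
  have hD := arith_dvd_of_dvd_C_mul g hg _ (pow_ne_zero k hp0) _ hC
  obtain ⟨γ', hγ'⟩ := hγ
  refine ⟨fun i => ((C γ' * μ₀) %ₘ g).coeff i, ?_⟩
  unfold Rel
  dsimp only
  rw [vpoly_coeff _ (arith_degree_mod_lt g hg hdeg _)]
  have hE : g ∣ C γ' * μ₀ - (C γ' * μ₀) %ₘ g :=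
    ⟨(C γ' * μ₀) /ₘ g, by
      have := modByMonic_add_div (C γ' * μ₀) g
      linear_combination -this⟩
  have h1 := (hD.mul_left (C γ')).sub (hE.mul_right (vpoly a ^ k))
  have h2 : C γ' * (μ₀ * vpoly a ^ k - C (cc ^ k) * (C n - X)) -
      (C γ' * μ₀ - (C γ' * μ₀) %ₘ g) * vpoly a ^ k =
      (C γ' * μ₀) %ₘ g * vpoly a ^ k - C γ * (C n - X) := by
    rw [hγ', C_mul]; ring
  rwa [h2] at h1

/-- Pigeonhole (`Finset.exists_ne_map_eq_of_card_lt_of_maps_to` on `piFinset (range (A+1))`),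
`A` maximal with `A^d ≤ p`. -/
theorem exists_small_a {d : ℕ} (hd : 1 ≤ d) (p : ℕ) (hp : 1 ≤ p) (n : ℤ) :
    ∃ (A : ℕ) (a : Fin d → ℤ), 1 ≤ A ∧ A ^ d ≤ p ∧ a ≠ 0 ∧ (∀ i, |a i| ≤ A) ∧
      (p : ℤ) ∣ (vpoly a).eval n := by
  classical
  haveI : NeZero p := ⟨by omega⟩
  have hex : ∃ A : ℕ, p < (A + 1) ^ d := ⟨p, by
    calc p < p + 1 := Nat.lt_succ_self p
      _ ≤ (p + 1) ^ d := Nat.le_self_pow (by omega) _⟩
  set A := Nat.find hex with hA
  have hA1 : p < (A + 1) ^ d := Nat.find_spec hex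
  have hA0 : 1 ≤ A := by
    by_contra h
    have : A = 0 := by omega
    rw [this] at hA1
    simp at hA1
    omega
  have hA2 : A ^ d ≤ p := by
    have h1 := Nat.find_min hex (m := A - 1) (by omega)
    have h2 : A - 1 + 1 = A := by omega
    rw [h2] at h1
    omega
  obtain ⟨f, f', hne, hff⟩ := Fintype.exists_ne_map_eq_of_card_lt
    (fun f : Fin d → Fin (A + 1) => ((cj (fun i => ((f i : ℕ) : ℤ)) n : ℤ) : ZMod p))
    (by simpa using hA1)
  refine ⟨A, fun i => ((f i : ℕ) : ℤ) - ((f' i : ℕ) : ℤ), hA0, hA2, ?_, ?_, ?_⟩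
  · intro h
    apply hne
    funext i
    have h1 := congrFun h i
    simp only [Pi.zero_apply] at h1
    apply Fin.ext
    omega
  · intro i
    have h1 := (f i).2
    have h2 := (f' i).2
    rw [abs_le]
    beta_reduce
    constructor <;> omega
  · rw [eval_vpoly, ← ZMod.intCast_zmod_eq_zero_iff_dvd]
    have h1 : cj (fun i => ((f i : ℕ) : ℤ) - ((f' i : ℕ) : ℤ)) n =
        cj (fun i => ((f i : ℕ) : ℤ)) n - cj (fun i => ((f' i : ℕ) : ℤ)) n := by
      simp only [cj, sub_mul, Finset.sum_sub_distrib]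
    rw [h1, Int.cast_sub, sub_eq_zero]
    exact hff

/-- `p` divides the norm: the row vector `(n^i)_i` is killed mod `p`
(`Matrix.exists_vecMul_eq_zero_iff`). -/
theorem dvd_det_mulMat {d : ℕ} (hd : 1 ≤ d) (g : ℤ[X]) (hg : g.Monic) (hdeg : g.natDegree = d)
    (p : ℕ) (hp : p.Prime) (n : ℤ) (hn : (p : ℤ) ∣ g.eval n) (a : Fin d → ℤ)
    (ha : (p : ℤ) ∣ (vpoly a).eval n) : (p : ℤ) ∣ (mulMat g a).det := by
  classical
  haveI : Fact p.Prime := ⟨hp⟩
  set φ := Int.castRingHom (ZMod p) with hφ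
  have hφp : φ (p : ℤ) = 0 := by simp [hφ]
  have hgm : (g.map φ).Monic := hg.map φ
  have hgmd : (g.map φ).natDegree = d := by rw [hg.natDegree_map, hdeg]
  have hroot : (g.map φ).eval (φ n) = 0 := by
    rw [eval_map, eval₂_hom]
    obtain ⟨m, hm⟩ := hn
    rw [hm, map_mul, hφp, zero_mul]
  have hcj : cj (fun i => φ (a i)) (φ n) = 0 := by
    rw [← map_cj, ← eval_vpoly]
    obtain ⟨m, hm⟩ := ha
    rw [hm, map_mul, hφp, zero_mul]
  have h1 : Matrix.vecMul (fun i : Fin d => φ n ^ (i : ℕ)) ((mulMat g a).map φ) = 0 := by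
    funext j
    rw [mulMat_map φ g hg]
    have h2 := arith_row_mulMat _ hgm hgmd (fun i => φ (a i)) _ hroot j
    rw [hcj, zero_mul] at h2
    exact h2
  have h2 : (fun i : Fin d => φ n ^ (i : ℕ)) ≠ 0 := by
    intro h
    have := congrFun h ⟨0, hd⟩
    simp at this
  have h3 : ((mulMat g a).map φ).det = 0 := Matrix.exists_vecMul_eq_zero_iff.1 ⟨_, h2, h1⟩
  have h4 := φ.map_det (mulMat g a)
  rw [RingHom.mapMatrix_apply, h3] at h4
  exact (ZMod.intCast_zmod_eq_zero_iff_dvd _ _).1 h4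

/-- A nonzero polynomial of degree `< d` does not vanish at `θ σ` (minimal polynomial over `ℚ`). -/
theorem cj_ne_zero {d : ℕ} {g : ℤ[X]} {θ : Fin d → ℂ} (hr : Roots g θ)
    (hirr : Irreducible (g.map (Int.castRingHom ℚ))) (a : Fin d → ℤ) (ha : a ≠ 0) (σ : Fin d) :
    cj (fun i => (a i : ℂ)) (θ σ) ≠ 0 := by
  intro h
  have hm : (g.map (Int.castRingHom ℚ)).Monic := hr.monic.map _
  have hroot : aeval (θ σ) (g.map (Int.castRingHom ℚ)) = 0 := by
    have h1 := hr.aeval_eq_zero σ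
    rw [← h1]
    exact aeval_map_algebraMap ℚ (θ σ) g
  have hmin := minpoly.eq_of_irreducible_of_monic hirr hroot hm
  have hne : vpoly (fun i => (a i : ℚ)) ≠ 0 := by
    intro h0
    apply ha
    funext i
    have h1 := coeff_vpoly (fun i => (a i : ℚ)) i
    rw [h0, coeff_zero] at h1
    exact_mod_cast h1.symm
  have hev : aeval (θ σ) (vpoly (fun i => (a i : ℚ))) = 0 := by
    rw [aeval_def, eval₂_eq_eval_map, map_vpoly, eval_vpoly, ← h]
    simp
  have h1 := minpoly.degree_le_of_ne_zero ℚ (θ σ) hne hev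
  rw [← hmin, degree_eq_natDegree hm.ne_zero, hr.monic.natDegree_map, hr.deg] at h1
  exact absurd (degree_vpoly_lt fun i => (a i : ℚ)) (not_lt.2 h1)

/-- Coordinates and conjugates are comparable (inverse Vandermonde matrix). -/
theorem exists_cj_bounds {d : ℕ} (θ : Fin d → ℂ) (hθ : Function.Injective θ) :
    ∃ C : ℝ, 1 ≤ C ∧ (∀ σ, ‖θ σ‖ ≤ C) ∧ ∀ (u : Fin d → ℂ) (A : ℝ),
      ((∀ i, ‖u i‖ ≤ A) → ∀ σ, ‖cj u (θ σ)‖ ≤ C * A) ∧
      ((∀ σ, ‖cj u (θ σ)‖ ≤ A) → ∀ i, ‖u i‖ ≤ C * A) := by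
  classical
  set V := Matrix.vandermonde θ with hV
  have hdet : IsUnit V.det := (Matrix.det_vandermonde_ne_zero_iff.2 hθ).isUnit
  set S1 : ℝ := ∑ σ, ‖θ σ‖ with hS1
  set S2 : ℝ := ∑ σ, ∑ i, ‖V σ i‖ with hS2
  set S3 : ℝ := ∑ i, ∑ σ, ‖V⁻¹ i σ‖ with hS3
  have h1 : 0 ≤ S1 := by positivity
  have h2 : 0 ≤ S2 := by positivity
  have h3 : 0 ≤ S3 := by positivity
  have key : ∀ (W : Matrix (Fin d) (Fin d) ℂ) (x : Fin d → ℂ) (A : ℝ), (∀ i, ‖x i‖ ≤ A) →
      ∀ σ, ‖W.mulVec x σ‖ ≤ (∑ τ, ∑ i, ‖W τ i‖) * A := by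
    intro W x A hx σ
    have hA : 0 ≤ A := (norm_nonneg _).trans (hx σ)
    calc ‖W.mulVec x σ‖ = ‖∑ i, W σ i * x i‖ := rfl
      _ ≤ ∑ i, ‖W σ i * x i‖ := norm_sum_le _ _
      _ ≤ ∑ i, ‖W σ i‖ * A := Finset.sum_le_sum fun i _ => by
          rw [norm_mul]; exact mul_le_mul_of_nonneg_left (hx i) (norm_nonneg _)
      _ = (∑ i, ‖W σ i‖) * A := by rw [Finset.sum_mul]
      _ ≤ (∑ τ, ∑ i, ‖W τ i‖) * A := by
          apply mul_le_mul_of_nonneg_right _ hA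
          exact Finset.single_le_sum (f := fun τ => ∑ i, ‖W τ i‖)
            (fun τ _ => by positivity) (Finset.mem_univ σ)
  have hcj : ∀ (u : Fin d → ℂ) σ, V.mulVec u σ = cj u (θ σ) := by
    intro u σ
    simp only [Matrix.mulVec, dotProduct, hV, Matrix.vandermonde_apply, cj]
    exact Finset.sum_congr rfl fun i _ => mul_comm _ _
  refine ⟨1 + S1 + S2 + S3, by linarith, fun σ => ?_, fun u A => ⟨fun hu σ => ?_, fun hu i => ?_⟩⟩
  · have : ‖θ σ‖ ≤ S1 :=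
      Finset.single_le_sum (f := fun τ => ‖θ τ‖) (fun τ _ => norm_nonneg _) (Finset.mem_univ σ)
    linarith
  · have hA : 0 ≤ A := (norm_nonneg _).trans (hu σ)
    have h4 := key V u A hu σ
    rw [hcj] at h4
    exact h4.trans (mul_le_mul_of_nonneg_right (by linarith) hA)
  · have hA : 0 ≤ A := (norm_nonneg _).trans (hu i)
    have h4 := key V⁻¹ (V.mulVec u) A (fun σ => by rw [hcj]; exact hu σ) i
    rw [Matrix.mulVec_mulVec, Matrix.nonsing_inv_mul _ hdet, Matrix.one_mulVec] at h4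
    exact h4.trans (mul_le_mul_of_nonneg_right (by linarith) hA)

/-- Recipe: `C₁` from `exists_cj_bounds`, `C' = ⌈C₁^d⌉₊`, `γ = (C'!)^k`, `P₀ = C' + 1`.
`|N π| ≤ (C₁ A)^d ≤ C₁^d p`, so `N π = p cc` with `0 < |cc| ≤ C' < p`.  `|π_σ| ≥ p / (C₁ A)^(d-1)
≥ A / C₁^(d-1)`, so `|μ_σ| A^k ≤ |γ| (X + C₁) C₁^(k(d-1))` (`Rel.conj`) and `|b_j| A^k ≤ C X`.
Since `μ ≠ 0` some `|b_j| ≥ 1`, whence `A ≤ A^k ≤ C X`. -/
theorem exists_point {d k : ℕ} (hd : 1 ≤ d) (hk : 1 ≤ k) (g : ℤ[X]) (θ : Fin d → ℂ)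
    (hr : Roots g θ) (hirr : Irreducible (g.map (Int.castRingHom ℚ))) :
    ∃ (γ : ℤ) (C C' P₀ : ℕ), γ ≠ 0 ∧ 1 ≤ C ∧ ∀ (N p : ℕ) (n : ℤ), 1 ≤ N → p.Prime → P₀ ≤ p →
      |n| ≤ N → (p : ℤ) ^ k ∣ g.eval n → ∃ z : Pt d, z.n = n ∧
        (∃ c, Good g k γ c (C * N) z) ∧ (p : ℤ) ∣ (vpoly z.a).eval n ∧
        ∃ cc : ℤ, cc ≠ 0 ∧ |cc| ≤ C' ∧ ∏ σ, z.pi (θ σ) = p * cc := by
  classical
  obtain ⟨C₁, hC₁, hθ, hb⟩ := exists_cj_bounds θ hr.inj
  set C' : ℕ := ⌈C₁ ^ d⌉₊ with hC'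
  set γ : ℤ := ((C'.factorial : ℕ) : ℤ) ^ k with hγ
  have hγ0 : γ ≠ 0 := pow_ne_zero _ (by exact_mod_cast C'.factorial_ne_zero)
  set K : ℝ := ‖(γ : ℂ)‖ * (1 + C₁) * (C₁ ^ (d - 1)) ^ k with hK
  have hK0 : 0 ≤ K := by positivity
  set C : ℕ := ⌈C₁ * K⌉₊ + 1 with hC
  have hCK : C₁ * K ≤ C := by
    rw [hC]
    push_cast
    linarith [Nat.le_ceil (C₁ * K)]
  refine ⟨γ, C, C', C' + 1, hγ0, by omega, fun N p n hN hp hP hn hpk => ?_⟩
  obtain ⟨A, a, hA1, hAd, ha0, haA, hpa⟩ := exists_small_a hd p hp.one_le n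
  have hpg : (p : ℤ) ∣ g.eval n := (dvd_pow_self (p : ℤ) (by omega)).trans hpk
  obtain ⟨cc, hcc⟩ := dvd_det_mulMat hd g hr.monic hr.deg p hp n hpg a hpa
  set π : Fin d → ℂ := fun σ => cj (fun i => (a i : ℂ)) (θ σ) with hπ
  have hprod : ∏ σ, π σ = (p : ℂ) * cc := by
    have h1 := det_mulMat hr a
    rw [hcc] at h1
    rw [← h1]
    push_cast
    rfl
  have hπ0 : ∀ σ, π σ ≠ 0 := fun σ => cj_ne_zero hr hirr a ha0 σ
  have hcc0 : cc ≠ 0 := by
    intro h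
    rw [h, Int.cast_zero, mul_zero] at hprod
    exact Finset.prod_ne_zero_iff.2 (fun σ _ => hπ0 σ) hprod
  have hπle : ∀ σ, ‖π σ‖ ≤ C₁ * A := by
    apply (hb (fun i => (a i : ℂ)) A).1
    intro i
    rw [Complex.norm_intCast]
    exact_mod_cast haA i
  have hpR : (0 : ℝ) < p := by exact_mod_cast hp.pos
  have hAR : (1 : ℝ) ≤ A := by exact_mod_cast hA1
  have hAdR : (A : ℝ) ^ d ≤ p := by exact_mod_cast hAd
  have hnorm : ∏ σ, ‖π σ‖ = (p : ℝ) * |(cc : ℝ)| := by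
    rw [← norm_prod, hprod, norm_mul, Complex.norm_natCast, Complex.norm_intCast]
  have hccle : |cc| ≤ C' := by
    have h1 : ∏ σ, ‖π σ‖ ≤ (C₁ * A) ^ d := by
      calc ∏ σ, ‖π σ‖ ≤ ∏ _σ : Fin d, (C₁ * A) :=
            Finset.prod_le_prod (fun σ _ => norm_nonneg _) (fun σ _ => hπle σ)
        _ = (C₁ * A) ^ d := by simp
    have h2 : (p : ℝ) * |(cc : ℝ)| ≤ p * C₁ ^ d := by
      rw [← hnorm]
      refine h1.trans ?_
      rw [mul_pow, mul_comm]
      exact mul_le_mul_of_nonneg_right hAdR (by positivity)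
    have h3 : |(cc : ℝ)| ≤ C' := (le_of_mul_le_mul_left h2 hpR).trans (Nat.le_ceil _)
    exact_mod_cast h3
  have hpcc : ¬ (p : ℤ) ∣ cc := by
    intro h
    have h1 := Int.le_of_dvd (abs_pos.2 hcc0) ((dvd_abs _ _).2 h)
    omega
  have hccγ : cc ^ k ∣ γ := by
    apply pow_dvd_pow_of_dvd
    rw [← Int.natAbs_dvd]
    have h1 : cc.natAbs ≤ C' := by
      have := Int.natCast_natAbs cc
      omega
    exact_mod_cast Nat.dvd_factorial (Int.natAbs_pos.2 hcc0) h1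
  obtain ⟨b, hrel⟩ := exists_b hd g hr.monic hr.deg k p hp n hk hpk a hpa cc hcc hpcc γ hccγ
  have hcc1 : (1 : ℝ) ≤ |(cc : ℝ)| := by
    have : 1 ≤ |cc| := Int.one_le_abs hcc0
    exact_mod_cast this
  have hπge : ∀ σ, (A : ℝ) ≤ ‖π σ‖ * C₁ ^ (d - 1) := by
    intro σ
    have h1 : ∏ τ ∈ Finset.univ.erase σ, ‖π τ‖ ≤ (C₁ * A) ^ (d - 1) := by
      calc ∏ τ ∈ Finset.univ.erase σ, ‖π τ‖ ≤ ∏ _τ ∈ Finset.univ.erase σ, (C₁ * A) :=
            Finset.prod_le_prod (fun σ _ => norm_nonneg _) (fun σ _ => hπle σ)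
        _ = (C₁ * A) ^ (d - 1) := by
            rw [Finset.prod_const, Finset.card_erase_of_mem (Finset.mem_univ σ)]
            simp
    have h2 : (A : ℝ) * A ^ (d - 1) ≤ ‖π σ‖ * C₁ ^ (d - 1) * A ^ (d - 1) := by
      calc (A : ℝ) * A ^ (d - 1) = A ^ d := by
            rw [← pow_succ']
            congr 1
            omega
        _ ≤ p := hAdR
        _ ≤ p * |(cc : ℝ)| := le_mul_of_one_le_right hpR.le hcc1
        _ = ‖π σ‖ * ∏ τ ∈ Finset.univ.erase σ, ‖π τ‖ := by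
            rw [← hnorm, Finset.mul_prod_erase _ (fun τ => ‖π τ‖) (Finset.mem_univ σ)]
        _ ≤ ‖π σ‖ * (C₁ * A) ^ (d - 1) := mul_le_mul_of_nonneg_left h1 (norm_nonneg _)
        _ = ‖π σ‖ * C₁ ^ (d - 1) * A ^ (d - 1) := by rw [mul_pow]; ring
    exact le_of_mul_le_mul_right h2 (by positivity)
  have hconj : ∀ σ, cj (fun i => (b i : ℂ)) (θ σ) * π σ ^ k = γ * (n - θ σ) :=
    fun σ => Rel.conj hr hrel σ
  have hNR : (1 : ℝ) ≤ N := by exact_mod_cast hN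
  have hAk : (0 : ℝ) < (A : ℝ) ^ k := by positivity
  have hμ : ∀ σ, ‖cj (fun i => (b i : ℂ)) (θ σ)‖ ≤ K * N / (A : ℝ) ^ k := by
    intro σ
    rw [le_div_iff₀ hAk]
    have h1 : ‖(n : ℂ) - θ σ‖ ≤ (1 + C₁) * N := by
      have h2 : ‖(n : ℂ)‖ ≤ N := by
        rw [Complex.norm_intCast]
        exact_mod_cast hn
      have h3 := norm_sub_le (n : ℂ) (θ σ)
      have h4 := hθ σ
      nlinarith
    have h2 := congrArg norm (hconj σ)
    rw [norm_mul, norm_mul, norm_pow] at h2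
    calc ‖cj (fun i => (b i : ℂ)) (θ σ)‖ * (A : ℝ) ^ k
        ≤ ‖cj (fun i => (b i : ℂ)) (θ σ)‖ * (‖π σ‖ * C₁ ^ (d - 1)) ^ k :=
          mul_le_mul_of_nonneg_left (pow_le_pow_left₀ (by positivity) (hπge σ) k) (norm_nonneg _)
      _ = ‖(γ : ℂ)‖ * ‖(n : ℂ) - θ σ‖ * (C₁ ^ (d - 1)) ^ k := by rw [← h2, mul_pow]; ring
      _ ≤ ‖(γ : ℂ)‖ * ((1 + C₁) * N) * (C₁ ^ (d - 1)) ^ k := by gcongr
      _ = K * N := by rw [hK]; ring
  have hbj : ∀ j, (A : ℤ) ^ k * |b j| ≤ (C * N : ℕ) := by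
    intro j
    have h1 := (hb (fun i => (b i : ℂ)) _).2 hμ j
    rw [Complex.norm_intCast, ← mul_div_assoc, le_div_iff₀ hAk] at h1
    have h2 : (A : ℝ) ^ k * |(b j : ℝ)| ≤ (C : ℝ) * N := by
      calc (A : ℝ) ^ k * |(b j : ℝ)| = |(b j : ℝ)| * (A : ℝ) ^ k := mul_comm _ _
        _ ≤ C₁ * (K * N) := h1
        _ = C₁ * K * N := by ring
        _ ≤ (C : ℝ) * N := mul_le_mul_of_nonneg_right hCK (by positivity)
    exact_mod_cast h2
  obtain ⟨j₀, hj₀⟩ : ∃ j, b j ≠ 0 := by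
    by_contra h
    push Not at h
    have h1 := hconj ⟨0, hd⟩
    have h2 : cj (fun i => (b i : ℂ)) (θ ⟨0, hd⟩) = 0 := by simp [cj, h]
    rw [h2, zero_mul] at h1
    rcases mul_eq_zero.1 h1.symm with h3 | h3
    · exact hγ0 (by exact_mod_cast h3)
    · exact hr.nint n _ (sub_eq_zero.1 h3)
  have hACN : (A : ℤ) ≤ (C * N : ℕ) := by
    have h1 : (1 : ℤ) ≤ A := by exact_mod_cast hA1
    have h2 : (A : ℤ) ≤ (A : ℤ) ^ k := le_self_pow₀ h1 (by omega)
    have h3 : (A : ℤ) ^ k ≤ (A : ℤ) ^ k * |b j₀| :=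
      le_mul_of_one_le_right (by positivity) (Int.one_le_abs hj₀)
    exact h2.trans (h3.trans (hbj j₀))
  obtain ⟨c, hc⟩ : ∃ c, a c ≠ 0 := by
    by_contra h
    push Not at h
    exact ha0 (funext h)
  refine ⟨⟨n, a, b⟩, rfl, ⟨c, hrel, ⟨hc, ?_, fun i => (haA i).trans hACN⟩, fun i j => ?_⟩, hpa,
    cc, hcc0, hccle, hprod⟩
  · have h1 : N ≤ C * N := Nat.le_mul_of_pos_left N (by omega)
    have h2 : (N : ℤ) ≤ (C * N : ℕ) := by exact_mod_cast h1
    exact hn.trans h2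
  · refine le_trans ?_ (hbj j)
    exact mul_le_mul_of_nonneg_right (pow_le_pow_left₀ (abs_nonneg _) (haA i) k) (abs_nonneg _)

end Crest.Agent.R22
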