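import Crest.Agent.R22.Count

/-! # Row 22: asymptotics and numerics -/

set_option autoImplicit false

open Filter

namespace Crest.Agent.R22

theorem Asym_pow_succ_sub {x y : ℝ} (hy : 0 ≤ y) (hxy : y ≤ x) (p : ℕ) :
    x ^ (p + 1) - y ^ (p + 1) ≤ (p + 1) * (x - y) * x ^ p := by
  have h := abs_pow_sub_pow_le x y (p + 1)
  rw [abs_of_nonneg (sub_nonneg.2 hxy), abs_of_nonneg hy, abs_of_nonneg (hy.trans hxy),
    max_eq_left hxy, Nat.add_sub_cancel] at h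
  push_cast at h
  linarith [le_abs_self (x ^ (p + 1) - y ^ (p + 1))]

theorem Asym_sum_pow (D p : ℕ) :
    (D : ℝ) ^ (p + 1) / (p + 1) - (D : ℝ) ^ p ≤ ∑ j ∈ Finset.range D, (j : ℝ) ^ p := by
  have h1 : (D : ℝ) ^ (p + 1) / (p + 1) ≤ ∑ j ∈ Finset.range D, ((j + 1 : ℕ) : ℝ) ^ p := by
    induction D with
    | zero => simp
    | succ D ih =>
      have := Asym_pow_succ_sub (x := D + 1) (y := D) (by positivity) (by linarith) p
      rw [Finset.sum_range_succ, div_le_iff₀ (by positivity)]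
      rw [div_le_iff₀ (by positivity)] at ih
      push_cast at ih ⊢
      linarith
  have h2 := Finset.sum_range_succ (fun j : ℕ => (j : ℝ) ^ p) D
  rw [Finset.sum_range_succ'] at h2
  have h3 : (0 : ℝ) ≤ ((0 : ℕ) : ℝ) ^ p := by positivity
  linarith

theorem Asym_inv : Tendsto (fun D : ℕ => (D : ℝ)⁻¹) atTop (nhds 0) :=
  tendsto_inv_atTop_zero.comp tendsto_natCast_atTop_atTop

theorem Asym_ev {f : ℝ → ℝ} (hf : Continuous f) (h0 : 0 < f 0) :
    ∀ᶠ D : ℕ in atTop, 0 < f (D : ℝ)⁻¹ :=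
  ((hf.tendsto 0).comp Asym_inv).eventually (lt_mem_nhds h0)

/-- Recipe.  Let `p = pw i v`, `t` from `Crit`.  Choose `0 < γ₁ < γ₀` with the strict inequality
of `Crit` still true, `j₀` with `γ₁ j^p ≤ rk j` for `j ≥ j₀`.  For large `D` take
`Hn = ⌊γ₁ D^p⌋₊`, `T = ⌊t D⌋₊`.  Left side `≤ j₀ γ₁ D^p + ∑_{j<D} (γ₁ D^p - γ₁ j^p)
≤ j₀ γ₁ D^p + γ₁ D^(p+1) - γ₁ (D-1)^(p+1)/(p+1)` (use `(j+1)^(p+1) - j^(p+1) ≤ (p+1)(j+1)^p`).
Right side `≥ T Hn - (D+1)^v (T+i).choose (i+1)` (`Finset.sum_range_choose..`, hockey stick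
`Nat.sum_range_add_choose`), `(T+i).choose (i+1) ≤ (tD+i)^(i+1)/(i+1)!` (`Nat.choose_le_pow_div`).
Divide by `D^(p+1)` and let `D → ∞`. -/
theorem asym (i : ℕ) (hi : 1 ≤ i) (v : Bool) (γ₀ lam : ℝ) (hγ : 0 < γ₀) (hlam : 0 < lam) (rk : ℕ → ℕ)
    (hrk : Grow rk (pw i v) γ₀) (hc : Crit i v γ₀ lam) :
    ∃ D T Hn : ℕ, Hn ≤ rk D ∧ ((∑ j ∈ Finset.range D, (Hn - rk j) : ℕ) : ℝ) <
      lam * ((∑ τ ∈ Finset.range T, (Hn - cnt i v D τ) : ℕ) : ℝ) := by
  obtain ⟨t, ht, hc⟩ := hc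
  obtain ⟨w, hp, hw⟩ : ∃ w : ℕ, pw i v = i + w ∧
      ∀ D τ, cnt i v D τ = (τ + i).choose i * (D + 1) ^ w := by
    cases v
    · exact ⟨0, rfl, fun D τ => by simp [cnt]⟩
    · exact ⟨1, rfl, fun D τ => by simp [cnt]⟩
  set p := pw i v with hpdef
  set c : ℝ := ((i + 1).factorial : ℝ) with hcdef
  have hc0 : 0 < c := by positivity
  obtain ⟨γ₁, h0, h1, h2⟩ : ∃ γ₁, 0 < γ₁ ∧ γ₁ < γ₀ ∧
      γ₁ * p / (p + 1) < lam * (γ₁ * t - t ^ (i + 1) / c) := by
    have h3 : ∀ᶠ γ in nhds γ₀, γ * p / (p + 1) < lam * (γ * t - t ^ (i + 1) / c) :=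
      ContinuousAt.eventually_lt (by fun_prop) (by fun_prop) hc
    obtain ⟨γ, h4, h5⟩ := (((h3.and (lt_mem_nhds hγ)).filter_mono nhdsWithin_le_nhds).and
      (self_mem_nhdsWithin (s := Set.Iio γ₀))).exists
    exact ⟨γ, h4.2, h5, h4.1⟩
  obtain ⟨j₀, hj₀⟩ := eventually_atTop.1 (hrk γ₁ h1)
  have hp0 : p ≠ 0 := by omega
  obtain ⟨D, ⟨hD1, hD2⟩, hD3⟩ := (((Asym_ev (f := fun x => lam * ((t - x) * (γ₁ - x ^ p) -
    (1 + x) ^ w * (t + i * x) ^ (i + 1) / c) - (γ₁ * p / (p + 1) + (j₀ + 1) * γ₁ * x))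
    (by fun_prop) (by simpa [hp0, mul_comm t] using h2)).and
    (Asym_ev (f := fun x => t - x) (by fun_prop) (by simpa using ht))).and
    (eventually_ge_atTop (j₀ + 1))).exists
  have hD0 : (0 : ℝ) < D := by exact_mod_cast (by omega : 0 < D)
  set Hn := ⌊γ₁ * (D : ℝ) ^ p⌋₊ with hHn
  set T := ⌊t * D⌋₊ with hT
  have hH1 : (Hn : ℝ) ≤ γ₁ * (D : ℝ) ^ p := Nat.floor_le (by positivity)
  have hH2 : γ₁ * (D : ℝ) ^ p - 1 ≤ Hn := (Nat.sub_one_lt_floor _).le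
  have hT1 : (T : ℝ) ≤ t * D := Nat.floor_le (by positivity)
  have hT2 : t * D - 1 ≤ T := (Nat.sub_one_lt_floor _).le
  have hT3 : 0 ≤ t * D - 1 := by
    have := mul_pos hD2 hD0
    rw [sub_mul, inv_mul_cancel₀ hD0.ne'] at this
    exact this.le
  refine ⟨D, T, Hn, by exact_mod_cast hH1.trans (hj₀ D (by omega)), ?_⟩
  have hL : ((∑ j ∈ Finset.range D, (Hn - rk j) : ℕ) : ℝ) ≤
      γ₁ * p / (p + 1) * (D : ℝ) ^ (p + 1) + (j₀ + 1) * γ₁ * (D : ℝ) ^ p := by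
    have h3 : ((∑ j ∈ Finset.range D, (Hn - rk j) : ℕ) : ℝ) ≤ ∑ j ∈ Finset.range D,
        (γ₁ * (D : ℝ) ^ p - γ₁ * (j : ℝ) ^ p + if j < j₀ then γ₁ * (D : ℝ) ^ p else 0) := by
      rw [Nat.cast_sum]
      refine Finset.sum_le_sum fun j hj => ?_
      have h4 : γ₁ * (j : ℝ) ^ p ≤ γ₁ * (D : ℝ) ^ p := by
        have : (j : ℝ) ≤ D := by exact_mod_cast (Finset.mem_range.1 hj).le
        gcongr
      split_ifs with h5
      · have : ((Hn - rk j : ℕ) : ℝ) ≤ Hn := by exact_mod_cast Nat.sub_le _ _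
        linarith
      · have h6 := hj₀ j (by omega)
        rcases le_total Hn (rk j) with h7 | h7
        · rw [Nat.sub_eq_zero_of_le h7, Nat.cast_zero]
          linarith
        · rw [Nat.cast_sub h7]
          linarith
    have h4 : (Finset.range D).filter (· < j₀) = Finset.range j₀ := by
      ext j
      simp only [Finset.mem_filter, Finset.mem_range]
      omega
    rw [Finset.sum_add_distrib, Finset.sum_sub_distrib, ← Finset.sum_filter, h4, Finset.sum_const,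
      Finset.sum_const, Finset.card_range, Finset.card_range, nsmul_eq_mul, nsmul_eq_mul,
      ← Finset.mul_sum] at h3
    have h5 := mul_le_mul_of_nonneg_left (Asym_sum_pow D p) h0.le
    have e : γ₁ * p / (p + 1) * (D : ℝ) ^ (p + 1) =
        D * (γ₁ * (D : ℝ) ^ p) - γ₁ * ((D : ℝ) ^ (p + 1) / (p + 1)) := by
      field_simp
      ring
    rw [e]
    linarith
  have hR : (t * D - 1) * (γ₁ * (D : ℝ) ^ p - 1) - (D + 1) ^ w * (t * D + i) ^ (i + 1) / c ≤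
      ((∑ τ ∈ Finset.range T, (Hn - cnt i v D τ) : ℕ) : ℝ) := by
    have h3 : ∑ τ ∈ Finset.range T, ((Hn : ℝ) - cnt i v D τ) ≤
        ((∑ τ ∈ Finset.range T, (Hn - cnt i v D τ) : ℕ) : ℝ) := by
      rw [Nat.cast_sum]
      refine Finset.sum_le_sum fun τ _ => ?_
      rw [sub_le_iff_le_add]
      exact_mod_cast le_tsub_add
    have h4 : ∑ τ ∈ Finset.range T, (τ + i).choose i = (T + i).choose (i + 1) := by
      rcases T with _ | T
      · simp
      · rw [Nat.sum_range_add_choose, add_right_comm]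
    have h5 : ((T + i).choose (i + 1) : ℝ) ≤ (t * D + i) ^ (i + 1) / c := by
      refine (Nat.choose_le_pow_div _ _).trans ?_
      push_cast
      gcongr
    rw [Finset.sum_sub_distrib, Finset.sum_const, Finset.card_range, nsmul_eq_mul,
      ← Nat.cast_sum] at h3
    simp only [hw, ← Finset.sum_mul, h4] at h3 ⊢
    have h6 : (t * D - 1) * (γ₁ * (D : ℝ) ^ p - 1) ≤ T * Hn :=
      (mul_le_mul_of_nonneg_left hH2 hT3).trans (mul_le_mul_of_nonneg_right hT2 (by positivity))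
    have h7 := mul_le_mul_of_nonneg_left h5 (by positivity : (0 : ℝ) ≤ (D + 1) ^ w)
    push_cast at h3 ⊢
    rw [← mul_div_assoc] at h7
    linarith
  refine hL.trans_lt (lt_of_lt_of_le ?_ (mul_le_mul_of_nonneg_left hR hlam.le))
  have h3 := mul_pos hD1 (pow_pos hD0 (p + 1))
  have e1 : (1 + (D : ℝ)⁻¹) ^ w * (t + i * (D : ℝ)⁻¹) ^ (i + 1) * (D : ℝ) ^ (p + 1) =
      (D + 1) ^ w * (t * D + i) ^ (i + 1) := by
    rw [hp, show i + w + 1 = w + (i + 1) by ring, pow_add (D : ℝ) w, mul_mul_mul_comm, ← mul_pow,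
      ← mul_pow]
    congr 2 <;> field_simp
  have e2 : (t - (D : ℝ)⁻¹) * (γ₁ - (D : ℝ)⁻¹ ^ p) * (D : ℝ) ^ (p + 1) =
      (t * D - 1) * (γ₁ * (D : ℝ) ^ p - 1) := by
    rw [inv_pow]
    field_simp
    ring
  have e3 : (D : ℝ)⁻¹ * (D : ℝ) ^ (p + 1) = (D : ℝ) ^ p := by
    rw [pow_succ', inv_mul_cancel_left₀ hD0.ne']
  rw [← e1, ← e2, ← e3, ← sub_pos]
  convert h3 using 1
  ring

theorem gam_pos (k i : ℕ) (v : Bool) (hk : 2 ≤ k) : 0 < gam k i v := by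
  have hk' : (2 : ℝ) ≤ k := by exact_mod_cast hk
  have h1 : (0 : ℝ) < (k : ℝ) - 1 := by linarith
  unfold gam
  split_ifs
  · have : 0 < Om i := by
      unfold Om
      split_ifs
      · norm_num
      · norm_num
      · exact Nat.choose_pos (by omega)
    positivity
  · positivity
  · positivity

/-- Recipe: `interval_cases k, i`.  Horizontal (`v = false`): `t = k + 1`.  Vertical:
`t = 2k` for `i = 1`, `t = 7k/4` for `i ≥ 2`.  At `lam = 1/(k+1)` the inequality holds weakly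
(strictly for `i = k + 1`) and the bracket is positive. -/
theorem numerics (k : ℕ) (h2 : 2 ≤ k) (h6 : k ≤ 6) : ∃ lam₀ : ℝ, 0 ≤ lam₀ ∧
    lam₀ < 1 / ((k : ℝ) + 1) ∧
    (∀ (i : ℕ) (v : Bool) (lam : ℝ), 1 ≤ i → i ≤ k + 1 → 1 / ((k : ℝ) + 1) < lam →
      Crit i v (gam k i v) lam) ∧
    ∀ (v : Bool) (lam : ℝ), lam₀ < lam → Crit (k + 1) v (gam k (k + 1) v) lam := by
  have key : ∀ (i : ℕ) (v : Bool) (t l : ℝ), 0 < t →
      0 < gam k i v * t - t ^ (i + 1) / ((i + 1).factorial : ℝ) →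
      gam k i v * (pw i v : ℝ) / ((pw i v : ℝ) + 1) ≤
        l * (gam k i v * t - t ^ (i + 1) / ((i + 1).factorial : ℝ)) →
      ∀ lam, l < lam → Crit i v (gam k i v) lam := fun i v t l ht hB h lam hl =>
    ⟨t, ht, h.trans_lt (mul_lt_mul_of_pos_right hl hB)⟩
  have hk : (0 : ℝ) < k := by exact_mod_cast (by omega : 0 < k)
  refine ⟨99 / 100 / ((k : ℝ) + 1), by positivity, by gcongr; norm_num, fun i v lam h1 h3 => ?_,
    fun v lam => ?_⟩
  · cases v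
    · refine key i false (k + 1) _ (by positivity) ?_ ?_ lam <;>
        interval_cases k <;> interval_cases i <;> norm_num [gam, pw, Nat.factorial]
    · refine key i true (if i = 1 then 2 * k else 7 * k / 4) _ (by positivity) ?_ ?_ lam <;>
        interval_cases k <;> interval_cases i <;> norm_num [gam, pw, Om, Nat.factorial, Nat.choose]
  · cases v
    · refine key _ false (k + 1) _ (by positivity) ?_ ?_ lam <;>
        interval_cases k <;> norm_num [gam, pw, Nat.factorial]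
    · refine key _ true (7 * k / 4) _ (by positivity) ?_ ?_ lam <;>
        interval_cases k <;> norm_num [gam, pw, Om, Nat.factorial, Nat.choose]

/-- `a (j b - c)^p / j^p → a b^p`. -/
theorem grow_of_lower (rk : ℕ → ℕ) (p : ℕ) (a a' b b' c : ℝ) (ha : 0 ≤ a) (ha' : 0 ≤ a')
    (h : ∀ᶠ j : ℕ in atTop, a * (b * j - c) ^ p + a' * j * (b' * j - c) ^ (p - 1) ≤ (rk j : ℝ))
    (hp : 1 ≤ p) : Grow rk p (a * b ^ p + a' * b' ^ (p - 1)) := by
  intro γ₁ h1
  obtain ⟨q, rfl⟩ : ∃ q, p = q + 1 := ⟨p - 1, by omega⟩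
  simp only [Nat.add_sub_cancel] at h h1
  filter_upwards [h, eventually_gt_atTop 0, Asym_ev (f := fun x =>
    a * (b - c * x) ^ (q + 1) + a' * (b' - c * x) ^ q - γ₁) (by fun_prop) (by simpa using h1)]
    with j h2 h3 h4
  have hj : (0 : ℝ) < j := by exact_mod_cast h3
  have e : ∀ β : ℝ, β * j - c = (β - c * (j : ℝ)⁻¹) * j := fun β => by field_simp
  refine le_trans ?_ h2
  rw [e b, e b', mul_pow, mul_pow]
  have := mul_pos h4 (pow_pos hj (q + 1))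
  rw [pow_succ (j : ℝ)] at this ⊢
  linarith

/-- Summation: if `u j ≥ a (b j - c)^p` for `j ≥ j₀` then `∑_{j' ≤ j} u j'` grows like
`a b^p j^(p+1) / (p+1)`. -/
theorem grow_sum (rk u : ℕ → ℕ) (p j₀ : ℕ) (a b c : ℝ) (ha : 0 ≤ a) (hb : 0 < b)
    (hu : ∀ j, j₀ ≤ j → a * (b * j - c) ^ p ≤ (u j : ℝ))
    (h : ∀ j, ∑ j' ∈ Finset.range (j + 1), u j' ≤ rk j) :
    Grow rk (p + 1) (a * b ^ p / (p + 1)) := by
  intro γ₁ h1
  obtain ⟨m, hm⟩ : ∃ m : ℕ, c / b ≤ m := exists_nat_ge _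
  have key : ∀ n : ℕ, a * b ^ p * ∑ l ∈ Finset.range n, (l : ℝ) ^ p ≤
      ∑ j' ∈ Finset.range (j₀ + m + n), (u j' : ℝ) := by
    intro n
    rw [Finset.sum_range_add, Finset.mul_sum]
    refine le_add_of_nonneg_of_le (by positivity) (Finset.sum_le_sum fun l _ => ?_)
    refine le_trans ?_ (hu _ (by omega))
    rw [mul_assoc, ← mul_pow]
    rw [div_le_iff₀ hb] at hm
    have : 0 ≤ b * j₀ := by positivity
    push_cast
    gcongr
    linarith
  filter_upwards [eventually_gt_atTop (j₀ + m), Asym_ev (f := fun x =>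
    a * b ^ p * ((1 - (j₀ + m) * x) ^ (p + 1) / (p + 1) - x * (1 - (j₀ + m) * x) ^ p) - γ₁)
    (by fun_prop) (by simpa [div_eq_mul_inv] using h1)] with j h3 h4
  obtain ⟨n, rfl⟩ : ∃ n, j = j₀ + m + n := ⟨j - (j₀ + m), by omega⟩
  have hj : (0 : ℝ) < (j₀ + m + n : ℕ) := by exact_mod_cast (by omega : 0 < j₀ + m + n)
  have h5 : ∑ j' ∈ Finset.range (j₀ + m + n), (u j' : ℝ) ≤ rk (j₀ + m + n) := by
    have := h (j₀ + m + n)
    rw [Finset.sum_range_succ] at this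
    exact_mod_cast (Nat.le_add_right _ _).trans this
  refine le_trans ?_ ((mul_le_mul_of_nonneg_left (Asym_sum_pow n p) (by positivity)).trans
    ((key n).trans h5))
  set J : ℝ := ((j₀ + m + n : ℕ) : ℝ) with hJ
  have e : (n : ℝ) = (1 - (j₀ + m) * J⁻¹) * J := by
    field_simp
    rw [hJ]
    push_cast
    ring
  have h6 := mul_pos h4 (pow_pos hj (p + 1))
  have e3 : J⁻¹ * J ^ (p + 1) = J ^ p := by rw [pow_succ', inv_mul_cancel_left₀ hj.ne']
  rw [e, mul_pow, mul_pow, ← e3, ← sub_nonneg]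
  convert h6.le using 1
  ring

end Crest.Agent.R22
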