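import Crest.Agent.R22.Defs

/-! # Row 22: elementary lemmas on the definitions -/

set_option autoImplicit false

open Polynomial

namespace Crest.Agent.R22

theorem eval_vpoly {R : Type*} [CommRing R] {d : ℕ} (a : Fin d → R) (t : R) :
    (vpoly a).eval t = cj a t := by
  simp [vpoly, cj, eval_finsetSum]

theorem map_vpoly {R S : Type*} [CommRing R] [CommRing S] (f : R →+* S) {d : ℕ} (a : Fin d → R) :
    (vpoly a).map f = vpoly fun i => f (a i) := by
  simp [vpoly, Polynomial.map_sum]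

theorem map_cj {R S : Type*} [CommRing R] [CommRing S] (f : R →+* S) {d : ℕ} (a : Fin d → R)
    (t : R) : f (cj a t) = cj (fun i => f (a i)) (f t) := by
  simp [cj, map_sum]

theorem degree_vpoly_lt {R : Type*} [CommRing R] {d : ℕ} (a : Fin d → R) :
    (vpoly a).degree < d := by
  exact degree_sum_fin_lt a

theorem coeff_vpoly {R : Type*} [CommRing R] {d : ℕ} (a : Fin d → R) (i : Fin d) :
    (vpoly a).coeff i = a i := by
  simp only [vpoly, finsetSum_coeff, coeff_C_mul_X_pow]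
  rw [Finset.sum_eq_single i]
  · simp
  · intro b _ hb
    rw [if_neg fun h => hb (Fin.ext h.symm)]
  · simp

theorem vpoly_coeff {R : Type*} [CommRing R] {d : ℕ} (p : R[X]) (hp : p.degree < d) :
    vpoly (fun i : Fin d => p.coeff i) = p := by
  ext n
  by_cases hn : n < d
  · exact coeff_vpoly _ ⟨n, hn⟩
  · have hn' : (d : WithBot ℕ) ≤ n := by exact_mod_cast not_lt.1 hn
    rw [coeff_eq_zero_of_degree_lt ((degree_vpoly_lt _).trans_le hn'),
      coeff_eq_zero_of_degree_lt (hp.trans_le hn')]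

theorem mem_sv {d : ℕ} {J : Finset (Fin d)} {j : Fin d} : some j ∈ sv J ↔ j ∈ J := by
  simp [sv]

theorem none_not_mem_sv {d : ℕ} (J : Finset (Fin d)) : none ∉ sv J := by
  simp [sv]

theorem sv_insert {d : ℕ} (J : Finset (Fin d)) (j : Fin d) :
    sv (insert j J) = insert (some j) (sv J) := by
  simp [sv]

/-- Vandermonde: the coefficients lie in the span of the conjugates. Recipe:
`Matrix.det_vandermonde_ne_zero_iff`, invert the matrix over `K` (or Lagrange interpolation). -/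
theorem mem_sp_cj {K A : Type*} [Field K] [CommRing A] [Algebra K A] {d : ℕ} (θ : Fin d → K)
    (hθ : Function.Injective θ) (S : Fin d → A) (i : Fin d) :
    S i ∈ sp K fun σ => cj S (algebraMap K A (θ σ)) := by
  classical
  have hdet : IsUnit (Matrix.vandermonde θ).det :=
    (Matrix.det_vandermonde_ne_zero_iff.2 hθ).isUnit
  have hmul := Matrix.nonsing_inv_mul _ hdet
  have key : S i = ∑ σ, (Matrix.vandermonde θ)⁻¹ i σ • cj S (algebraMap K A (θ σ)) := by
    have h1 : ∀ σ, (Matrix.vandermonde θ)⁻¹ i σ • cj S (algebraMap K A (θ σ)) =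
        ∑ j, ((Matrix.vandermonde θ)⁻¹ i σ * Matrix.vandermonde θ σ j) • S j := by
      intro σ
      rw [cj, Finset.smul_sum]
      refine Finset.sum_congr rfl fun j _ => ?_
      rw [Matrix.vandermonde_apply, ← map_pow, mul_comm (S j), ← Algebra.smul_def, smul_smul]
    simp only [h1]
    rw [Finset.sum_comm]
    simp only [← Finset.sum_smul, ← Matrix.mul_apply, hmul, Matrix.one_apply]
    simp
  rw [key]
  exact Submodule.sum_mem _ fun σ _ =>
    Submodule.smul_mem _ _ (Submodule.subset_span ⟨σ, rfl⟩)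

theorem cj_mem_sp {K A : Type*} [Field K] [CommRing A] [Algebra K A] {d : ℕ} (t : K)
    (S : Fin d → A) : cj S (algebraMap K A t) ∈ sp K S := by
  refine Submodule.sum_mem _ fun j _ => ?_
  rw [← map_pow, mul_comm, ← Algebra.smul_def]
  exact Submodule.smul_mem _ _ (Submodule.subset_span ⟨j, rfl⟩)

theorem basic_sum_le {R : Type*} [CommRing R] {d e : ℕ} {P : MvPolynomial (Var d) R}
    {m : Var d →₀ ℕ} (hm : m ∈ P.support) (h : P.totalDegree ≤ e) : ∑ v, m v ≤ e := by
  have := (MvPolynomial.le_totalDegree hm).trans h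
  rwa [Finsupp.sum_fintype _ _ fun _ => rfl] at this

/-- Exponents in the support are bounded by `e` in each of the `d + 1` variables. -/
theorem card_support_le {R : Type*} [CommRing R] {d e : ℕ} (P : MvPolynomial (Var d) R)
    (h : P.totalDegree ≤ e) : P.support.card ≤ (e + 1) ^ (d + 1) := by
  classical
  have h1 : P.support.card ≤ (Fintype.piFinset fun _ : Var d => Finset.range (e + 1)).card := by
    refine Finset.card_le_card_of_injOn (fun m => ⇑m) (fun m hm => ?_)
      fun m _ m' _ hmm => DFunLike.coe_injective hmm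
    refine Finset.mem_coe.2 (Fintype.mem_piFinset.2 fun v => Finset.mem_range.2 ?_)
    have := basic_sum_le (Finset.mem_coe.1 hm) h
    have h2 : m v ≤ ∑ v, m v :=
      Finset.single_le_sum (f := fun v => m v) (fun _ _ => Nat.zero_le _) (Finset.mem_univ v)
    exact Nat.lt_succ_of_le (h2.trans this)
  simpa using h1

/-- Recipe: `MvPolynomial.aeval_def`, `eval₂_eq'`, `Fintype.prod_option`,
`Ring.mul_inverse_cancel`; for `m` in the support `∑ i, m (some i) ≤ e`. -/
theorem hv_cast {d : ℕ} (O : Type*) [CommRing O] (c : Fin d) (e : ℕ)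
    (P : MvPolynomial (Var d) ℤ) (z : Pt d) (hu : IsUnit (z.a c : O)) (hP : P.totalDegree ≤ e) :
    (hv c e P z : O) = (z.a c : O) ^ e * MvPolynomial.aeval (co O c z) P := by
  rw [MvPolynomial.aeval_def, MvPolynomial.eval₂_eq', Finset.mul_sum, hv]
  push_cast
  refine Finset.sum_congr rfl fun m hm => ?_
  have h1 := basic_sum_le hm hP
  rw [Fintype.sum_option] at h1
  obtain ⟨f, hf⟩ : ∃ f, e = f + ∑ i, m (some i) := ⟨e - ∑ i, m (some i), by omega⟩
  rw [Fintype.prod_option]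
  simp only [co, mul_pow, Finset.prod_mul_distrib, Finset.prod_pow_eq_pow_sum]
  have h2 : e - ∑ i, m (some i) = f := by omega
  rw [h2, hf, pow_add]
  have h3 : (z.a c : O) ^ (∑ i, m (some i)) * Ring.inverse (z.a c : O) ^ (∑ i, m (some i)) = 1 := by
    rw [← mul_pow, Ring.mul_inverse_cancel _ hu, one_pow]
  simp only [algebraMap_int_eq, eq_intCast]
  linear_combination (-((P.coeff m : ℤ) : O) * (z.n : O) ^ m none *
    (∏ i, (z.a i : O) ^ m (some i)) * (z.a c : O) ^ f) * h3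

theorem hv_abs_le {d : ℕ} (c : Fin d) (e H A : ℕ) (P : MvPolynomial (Var d) ℤ) (z : Pt d)
    (hH : 1 ≤ H) (hz : Ht c H z) (hP : P.totalDegree ≤ e) (hA : ∀ m, |P.coeff m| ≤ A) :
    |hv c e P z| ≤ ((e + 1) ^ (d + 1) * A * H ^ (2 * e) : ℕ) := by
  have hH' : (1 : ℤ) ≤ H := by exact_mod_cast hH
  have hterm : ∀ m ∈ P.support, |P.coeff m *
      (z.n ^ m none * (∏ i, z.a i ^ m (some i)) * z.a c ^ (e - ∑ i, m (some i)))| ≤
      (A : ℤ) * (H : ℤ) ^ (2 * e) := by
    intro m hm
    have h1 := basic_sum_le hm hP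
    rw [Fintype.sum_option] at h1
    rw [abs_mul, abs_mul, abs_mul, abs_pow, abs_pow, Finset.abs_prod]
    refine mul_le_mul (hA m) ?_ (by positivity) (by positivity)
    have h2 : |z.n| ^ m none ≤ (H : ℤ) ^ e :=
      (pow_le_pow_left₀ (abs_nonneg _) hz.hn _).trans (pow_le_pow_right₀ hH' (by omega))
    have h3 : ∏ i, |z.a i ^ m (some i)| ≤ (H : ℤ) ^ ∑ i, m (some i) := by
      rw [← Finset.prod_pow_eq_pow_sum]
      refine Finset.prod_le_prod (fun _ _ => abs_nonneg _) fun i _ => ?_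
      rw [abs_pow]
      exact pow_le_pow_left₀ (abs_nonneg _) (hz.ha i) _
    have h4 : |z.a c| ^ (e - ∑ i, m (some i)) ≤ (H : ℤ) ^ (e - ∑ i, m (some i)) :=
      pow_le_pow_left₀ (abs_nonneg _) (hz.ha c) _
    calc _ ≤ (H : ℤ) ^ e * (H : ℤ) ^ (∑ i, m (some i)) * (H : ℤ) ^ (e - ∑ i, m (some i)) := by
          gcongr
      _ = (H : ℤ) ^ (2 * e) := by
          rw [← pow_add, ← pow_add]; congr 1; omega
  refine (Finset.abs_sum_le_sum_abs _ _).trans ((Finset.sum_le_card_nsmul _ _ _ hterm).trans ?_)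
  rw [nsmul_eq_mul]
  push_cast
  rw [mul_assoc]
  have : (P.support.card : ℤ) ≤ ((e : ℤ) + 1) ^ (d + 1) := by exact_mod_cast card_support_le P hP
  gcongr

/-- An integer relation between the rational coordinates holds in every ring where `a_c` is a
unit. -/
theorem aeval_co_eq_zero {d : ℕ} (O : Type*) [CommRing O] (c : Fin d)
    (P : MvPolynomial (Var d) ℤ) (z : Pt d) (h0 : z.a c ≠ 0) (hu : IsUnit (z.a c : O))
    (h : MvPolynomial.aeval (co ℂ c z) P = 0) : MvPolynomial.aeval (co O c z) P = 0 := by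
  have h0' : IsUnit (z.a c : ℂ) := (Int.cast_ne_zero.2 h0).isUnit
  have h1 := hv_cast ℂ c _ P z h0' le_rfl
  rw [h, mul_zero, Int.cast_eq_zero] at h1
  have h2 := hv_cast O c _ P z hu le_rfl
  rw [h1, Int.cast_zero] at h2
  exact ((hu.pow _).mul_right_eq_zero).1 h2.symm

theorem hv_ne_zero {d : ℕ} (c : Fin d) (e : ℕ) (P : MvPolynomial (Var d) ℤ) (z : Pt d)
    (h0 : z.a c ≠ 0) (hP : P.totalDegree ≤ e) (h : MvPolynomial.aeval (co ℂ c z) P ≠ 0) :
    hv c e P z ≠ 0 := by
  have h0' : (z.a c : ℂ) ≠ 0 := Int.cast_ne_zero.2 h0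
  intro h1
  have h2 := hv_cast ℂ c e P z h0'.isUnit hP
  rw [h1, Int.cast_zero] at h2
  exact mul_ne_zero (pow_ne_zero _ h0') h h2.symm

theorem van_map_iff {d : ℕ} (c : Fin d) (Y : Finset (Pt d)) (P : MvPolynomial (Var d) ℤ) :
    Van c Y (P.map (Int.castRingHom ℂ)) ↔ Van c Y P := by
  have : ∀ z : Pt d, MvPolynomial.aeval (co ℂ c z) (P.map (Int.castRingHom ℂ)) =
      MvPolynomial.aeval (co ℂ c z) P := fun z =>
    MvPolynomial.aeval_map_algebraMap ℂ (co ℂ c z) P
  simp only [Van, this]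

theorem totalDegree_pderiv_le {V R : Type*} [CommRing R] (v : V) (P : MvPolynomial V R) :
    (MvPolynomial.pderiv v P).totalDegree ≤ P.totalDegree := by
  refine Finset.sup_le fun m hm => ?_
  have h1 : m + Finsupp.single v 1 ∈ P.support := by
    rw [MvPolynomial.mem_support_iff] at hm ⊢
    rw [MvPolynomial.coeff_pderiv] at hm
    exact left_ne_zero_of_mul hm
  have h2 := MvPolynomial.le_totalDegree h1
  rw [Finsupp.sum_add_index' (fun _ => rfl) fun _ _ _ => rfl] at h2
  omega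

theorem coeff_pderiv_abs_le {d e A : ℕ} (v : Var d) (P : MvPolynomial (Var d) ℤ)
    (hP : P.totalDegree ≤ e) (hA : ∀ m, |P.coeff m| ≤ A) (m : Var d →₀ ℕ) :
    |(MvPolynomial.pderiv v P).coeff m| ≤ (e * A : ℕ) := by
  rw [MvPolynomial.coeff_pderiv]
  by_cases h : P.coeff (m + Finsupp.single v 1) = 0
  · rw [h, zero_mul, abs_zero]; positivity
  · have h1 := basic_sum_le (MvPolynomial.mem_support_iff.2 h) hP
    have h2 : (m + Finsupp.single v 1 : Var d →₀ ℕ) v ≤ ∑ w, (m + Finsupp.single v 1 : Var d →₀ ℕ) w :=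
      Finset.single_le_sum (f := fun w => (m + Finsupp.single v 1 : Var d →₀ ℕ) w)
        (fun _ _ => Nat.zero_le _) (Finset.mem_univ v)
    have h3 : m v + 1 ≤ e := by simpa using h2.trans h1
    have h4 : ((m v : ℤ) + 1) ≤ e := by exact_mod_cast h3
    rw [abs_mul, abs_of_nonneg (by positivity : (0 : ℤ) ≤ (m v : ℤ) + 1)]
    push_cast
    rw [mul_comm]
    exact mul_le_mul h4 (hA _) (abs_nonneg _) (by positivity)

theorem Roots.aeval_eq_zero {d : ℕ} {g : ℤ[X]} {θ : Fin d → ℂ} (hr : Roots g θ) (σ : Fin d) :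
    aeval (θ σ) g = 0 := by
  have h1 : aeval (θ σ) g = (g.map (Int.castRingHom ℂ)).eval (θ σ) := by
    rw [eval_map, aeval_def, algebraMap_int_eq]
  rw [h1, hr.prod, eval_prod]
  exact Finset.prod_eq_zero (Finset.mem_univ σ) (by simp)

theorem Roots.eval_ne_zero {d : ℕ} {g : ℤ[X]} {θ : Fin d → ℂ} (hr : Roots g θ) (n : ℤ) :
    g.eval n ≠ 0 := by
  intro h
  have h1 : (g.map (Int.castRingHom ℂ)).eval (n : ℂ) = 0 := by
    rw [eval_intCast_map, Int.cast_id, h]; simp
  rw [hr.prod, eval_prod, Finset.prod_eq_zero_iff] at h1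
  obtain ⟨σ, _, h2⟩ := h1
  apply hr.nint n σ
  simpa [sub_eq_zero] using h2

theorem Rel.conj {d k : ℕ} {g : ℤ[X]} {θ : Fin d → ℂ} (hr : Roots g θ) {γ : ℤ} {z : Pt d}
    (h : Rel g k γ z) (σ : Fin d) :
    cj (fun i => (z.b i : ℂ)) (θ σ) * z.pi (θ σ) ^ k = γ * (z.n - θ σ) := by
  obtain ⟨q, hq⟩ := h
  have h1 := congrArg (aeval (θ σ)) hq
  have h2 : ∀ a : Fin d → ℤ, aeval (θ σ) (vpoly a) = cj (fun i => (a i : ℂ)) (θ σ) := by
    intro a
    simp [vpoly, cj, map_sum]
  rw [map_mul (aeval (θ σ)) g, hr.aeval_eq_zero, zero_mul, map_sub, sub_eq_zero, map_mul, map_pow,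
    h2, h2] at h1
  simpa [Pt.pi] using h1

theorem Rel.pi_ne_zero {d k : ℕ} {g : ℤ[X]} {θ : Fin d → ℂ} (hr : Roots g θ) {γ : ℤ}
    (hγ : γ ≠ 0) (hk : 1 ≤ k) {z : Pt d} (h : Rel g k γ z) (σ : Fin d) : z.pi (θ σ) ≠ 0 := by
  intro h0
  have h1 := h.conj hr σ
  rw [h0, zero_pow (by omega), mul_zero] at h1
  exact mul_ne_zero (Int.cast_ne_zero.2 hγ) (sub_ne_zero.2 (hr.nint z.n σ)) h1.symm

/-- Recipe: if `w.j ≠ 0` take `i₀, j₀` maximising `|a i|`, `|b j|`. -/
theorem Good.word_abs_le {d k : ℕ} {g : ℤ[X]} {γ : ℤ} {c : Fin d} {H : ℕ} {z : Pt d}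
    (h : Good g k γ c H z) (w : Word d k) : |w.val z.a z.b| ≤ (H : ℤ) ^ w.j := by
  have : Nonempty (Fin d) := ⟨c⟩
  obtain ⟨i₀, hi⟩ := Finite.exists_max fun i => |z.a i|
  obtain ⟨j₀, hj⟩ := Finite.exists_max fun i => |z.b i|
  have h1 : ∏ l, |z.a (w.α l)| ≤ |z.a i₀| ^ (k * w.j) := by
    have := Finset.prod_le_prod (s := Finset.univ) (f := fun l => |z.a (w.α l)|)
      (g := fun _ => |z.a i₀|) (fun _ _ => abs_nonneg _) fun l _ => hi _
    simpa using this
  have h2 : ∏ l, |z.b (w.β l)| ≤ |z.b j₀| ^ w.j := by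
    have := Finset.prod_le_prod (s := Finset.univ) (f := fun l => |z.b (w.β l)|)
      (g := fun _ => |z.b j₀|) (fun _ _ => abs_nonneg _) fun l _ => hj _
    simpa using this
  rw [Word.val, abs_mul, Finset.abs_prod, Finset.abs_prod]
  calc _ ≤ |z.a i₀| ^ (k * w.j) * |z.b j₀| ^ w.j := by gcongr
    _ = (|z.a i₀| ^ k * |z.b j₀|) ^ w.j := by rw [mul_pow, pow_mul]
    _ ≤ _ := pow_le_pow_left₀ (by positivity) (h.hab i₀ j₀) _

theorem exists_eval_abs_le (g : ℤ[X]) : ∃ C : ℕ, ∀ (H : ℕ) (n : ℤ), 1 ≤ H → |n| ≤ H →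
    |g.eval n| ≤ (C * H ^ g.natDegree : ℕ) := by
  refine ⟨∑ i ∈ Finset.range (g.natDegree + 1), (g.coeff i).natAbs, fun H n hH hn => ?_⟩
  have hH' : (1 : ℤ) ≤ H := by exact_mod_cast hH
  rw [eval_eq_sum_range]
  push_cast
  rw [Finset.sum_mul]
  refine (Finset.abs_sum_le_sum_abs _ _).trans (Finset.sum_le_sum fun i hi => ?_)
  rw [abs_mul, abs_pow]
  refine mul_le_mul_of_nonneg_left ?_ (abs_nonneg _)
  have := Finset.mem_range.1 hi
  exact (pow_le_pow_left₀ (abs_nonneg _) hn _).trans (pow_le_pow_right₀ hH' (by omega))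

/-- Roots of an irreducible monic polynomial of degree `≥ 2`. Recipe: irreducible over `ℚ`
implies separable; `Polynomial.Splits` over `ℂ`, `nodup_roots`, enumerate the roots by `Fin d`
(`Finset.equivFinOfCardEq` on `roots.toFinset`); an integer root gives a linear factor over `ℚ`. -/
theorem exists_roots (g : ℤ[X]) (hg : g.Monic) (hirr : Irreducible (g.map (Int.castRingHom ℚ)))
    {d : ℕ} (hd : g.natDegree = d) (h2 : 2 ≤ d) : ∃ θ : Fin d → ℂ, Roots g θ := by
  classical
  set G : ℂ[X] := g.map (Int.castRingHom ℂ) with hG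
  have hGQ : G = (g.map (Int.castRingHom ℚ)).map (algebraMap ℚ ℂ) := by
    rw [Polynomial.map_map, hG]; congr 1
  have hsep : G.Separable := by rw [hGQ]; exact hirr.separable.map
  have hGm : G.Monic := hg.map _
  have hspl : G.Splits := IsAlgClosed.splits G
  have hnd : G.roots.Nodup := nodup_roots hsep
  have hcard : G.roots.toFinset.card = d := by
    rw [Multiset.toFinset_card_of_nodup hnd, ← hspl.natDegree_eq_card_roots, hG,
      hg.natDegree_map, hd]
  let e := Finset.equivFinOfCardEq hcard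
  refine ⟨fun σ => (e.symm σ : ℂ), hg, hd, ?_, fun σ σ' h => e.symm.injective (Subtype.ext h),
    fun n σ h => ?_⟩
  · refine (hspl.eq_prod_roots_of_monic hGm).trans ?_
    rw [Equiv.prod_comp e.symm fun x : G.roots.toFinset => (X - C (x : ℂ)),
      Finset.prod_coe_sort G.roots.toFinset fun x => X - C x, Finset.prod_eq_multiset_prod,
      Multiset.toFinset_val, hnd.dedup]
  · have h1 : (n : ℂ) ∈ G.roots := by rw [h]; exact Multiset.mem_toFinset.1 (e.symm σ).2
    have h2 : g.eval n = 0 := by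
      have := (mem_roots hGm.ne_zero).1 h1
      rw [IsRoot, hG, eval_intCast_map] at this
      simpa using this
    refine hirr.not_isRoot_of_natDegree_ne_one (x := (n : ℚ)) ?_ ?_
    · rw [hg.natDegree_map]; omega
    · rw [IsRoot, eval_intCast_map, Int.cast_id, h2]; simp

end Crest.Agent.R22
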