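import Crest.Agent.R22.Basic

/-! # Row 22: multiplicative independence -/

set_option autoImplicit false

open Polynomial

namespace Crest.Agent.R22

/-- A prime of the ring of algebraic integers above `(p, θ σ₀ - n)`.  Recipe: `𝒪 = integralClosure
ℤ ℂ`; the map `AdjoinRoot g → 𝒪` (`AdjoinRoot.lift`) is injective (`g` is the minimal polynomial
of `θ σ₀`: `minpoly.isIntegrallyClosed_dvd`, Gauss), `𝒪` is integral over it; the kernel of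
`AdjoinRoot g → ZMod p`, `root ↦ n` is maximal; `Ideal.exists_ideal_over_maximal_of_isIntegral`
(or `_prime_`).  One can also use `Polynomial ℤ` itself as base ring: the kernel `(g)` of
`ℤ[X] → 𝒪` is contained in the maximal ideal. -/
theorem exists_prime_over {d : ℕ} {g : ℤ[X]} {θ : Fin d → ℂ} (hr : Roots g θ)
    (hirr : Irreducible (g.map (Int.castRingHom ℚ))) (p : ℕ) (hp : p.Prime) (n : ℤ)
    (hn : (p : ℤ) ∣ g.eval n) (σ₀ : Fin d) (ϑ : Fin d → integralClosure ℤ ℂ)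
    (hϑ : ∀ σ, (ϑ σ : ℂ) = θ σ) :
    ∃ 𝔮 : Ideal (integralClosure ℤ ℂ), 𝔮.IsPrime ∧ ϑ σ₀ - (n : integralClosure ℤ ℂ) ∈ 𝔮 ∧
      ∀ m : ℤ, (m : integralClosure ℤ ℂ) ∈ 𝔮 ↔ (p : ℤ) ∣ m := by
  have : Fact p.Prime := ⟨hp⟩
  let φ : ℤ[X] →+* integralClosure ℤ ℂ := (aeval (ϑ σ₀) : ℤ[X] →ₐ[ℤ] integralClosure ℤ ℂ)
  let : Algebra ℤ[X] (integralClosure ℤ ℂ) := φ.toAlgebra
  have hφ : ∀ f : ℤ[X], algebraMap ℤ[X] (integralClosure ℤ ℂ) f = aeval (ϑ σ₀) f := fun _ => rfl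
  have : IsScalarTower ℤ ℤ[X] (integralClosure ℤ ℂ) :=
    IsScalarTower.of_algebraMap_eq' (RingHom.ext_int _ _)
  have : Algebra.IsIntegral ℤ[X] (integralClosure ℤ ℂ) :=
    ⟨fun x => (Algebra.IsIntegral.isIntegral (R := ℤ) x).tower_top⟩
  let ψ : ℤ[X] →+* ZMod p := (Int.castRingHom (ZMod p)).comp (evalRingHom n)
  have hψ : ∀ f : ℤ[X], f ∈ RingHom.ker ψ ↔ (p : ℤ) ∣ f.eval n := fun f => by
    rw [RingHom.mem_ker]
    exact ZMod.intCast_zmod_eq_zero_iff_dvd _ _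
  have : (RingHom.ker ψ).IsPrime := RingHom.ker_isPrime ψ
  have hker : RingHom.ker (algebraMap ℤ[X] (integralClosure ℤ ℂ)) ≤ RingHom.ker ψ := by
    intro f hf
    rw [RingHom.mem_ker, hφ] at hf
    have h1 : aeval (θ σ₀) f = 0 := by
      rw [← hϑ σ₀]
      have := congrArg (integralClosure ℤ ℂ).val hf
      rwa [← aeval_algHom_apply, map_zero] at this
    have h2 : ∀ f : ℤ[X], aeval (θ σ₀) (f.map (Int.castRingHom ℚ)) = aeval (θ σ₀) f := fun f =>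
      aeval_map_algebraMap ℚ (θ σ₀) f
    have h3 : g.map (Int.castRingHom ℚ) = minpoly ℚ (θ σ₀) :=
      minpoly.eq_of_irreducible_of_monic hirr (by rw [h2, hr.aeval_eq_zero]) (hr.monic.map _)
    have h4 : g.map (Int.castRingHom ℚ) ∣ f.map (Int.castRingHom ℚ) := by
      rw [h3]; exact minpoly.dvd ℚ _ (by rw [h2, h1])
    obtain ⟨u, rfl⟩ := (map_dvd_map _ (RingHom.injective_int _) hr.monic).1 h4
    rw [hψ, eval_mul]
    exact hn.mul_right _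
  obtain ⟨𝔮, h𝔮, hc⟩ :=
    Ideal.exists_ideal_over_prime_of_isIntegral_of_isDomain (RingHom.ker ψ) hker
  have hm : ∀ f : ℤ[X], aeval (ϑ σ₀) f ∈ 𝔮 ↔ (p : ℤ) ∣ f.eval n := fun f => by
    rw [← hψ, ← hc, Ideal.mem_comap, hφ]
  refine ⟨𝔮, h𝔮, ?_, fun m => ?_⟩
  · have := (hm (X - C n)).2 (by simp)
    rwa [map_sub, aeval_X, aeval_C, algebraMap_int_eq, eq_intCast] at this
  · simpa using hm (C m)

/-- A nonzero algebraic integer divides a nonzero integer (constant coefficient of the minimal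
polynomial, or `IsIntegral`/`Ideal.comap_ne_bot_of_integral_mem`). -/
theorem exists_int_dvd (x : integralClosure ℤ ℂ) (hx : x ≠ 0) :
    ∃ m : ℤ, m ≠ 0 ∧ x ∣ (m : integralClosure ℤ ℂ) := by
  have h := Ideal.comap_ne_bot_of_integral_mem (R := ℤ) (I := Ideal.span {x}) hx
    (Ideal.mem_span_singleton_self x) (Algebra.IsIntegral.isIntegral x)
  obtain ⟨m, hm, hm0⟩ := Submodule.exists_mem_ne_zero_of_ne_bot h
  exact ⟨m, hm0, by simpa [Ideal.mem_comap, Ideal.mem_span_singleton] using hm⟩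

/-- Recipe: lift `θ σ` to `ϑ σ ∈ 𝒪`; `Δ ≠ 0` an integer divisible by all `ϑ σ - ϑ σ'` (`σ ≠ σ'`),
`P₁ = |γ Δ| + C' + 1`.  By symmetry (`MRel` is symmetric under `e ↔ e'`) some `σ₀` has
`e' σ₀ < e σ₀`; take `𝔮` over `(p, ϑ σ₀ - n)`.  Then `π_{σ₀} ∈ 𝔮`; `π_σ ∉ 𝔮` for `σ ≠ σ₀`
(else `γ (n - ϑ σ) ∈ 𝔮` by `Rel.conj`); if `p ≠ p'` no `π'_σ ∈ 𝔮` as `∏ π'_σ = p' cc'`.  Cancel
`π_{σ₀}^(e' σ₀) ≠ 0` in the relation: the left side is in `𝔮`, the right side is not. -/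
theorem mrel_imp_eq {d k : ℕ} (hk : 1 ≤ k) {g : ℤ[X]} {θ : Fin d → ℂ} (hr : Roots g θ)
    (hirr : Irreducible (g.map (Int.castRingHom ℚ))) (γ : ℤ) (hγ : γ ≠ 0) (C' : ℕ) :
    ∃ P₁ : ℕ, ∀ (z z' : Pt d) (p p' : ℕ) (cc' : ℤ) (e e' : Fin d → ℕ), p.Prime → p'.Prime →
      P₁ ≤ p → Rel g k γ z → (p : ℤ) ∣ g.eval z.n → (p : ℤ) ∣ (vpoly z.a).eval z.n →
      cc' ≠ 0 → |cc'| ≤ C' → ∏ σ, z'.pi (θ σ) = p' * cc' → e ≠ e' → ∑ σ, e σ = ∑ σ, e' σ →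
      MRel θ e e' z z' → p = p' := by
  classical
  let ϑ : Fin d → integralClosure ℤ ℂ := fun σ => ⟨θ σ, g, hr.monic, hr.aeval_eq_zero σ⟩
  have hϑ : ∀ σ, (ϑ σ : ℂ) = θ σ := fun _ => rfl
  have hinj : Function.Injective (integralClosure ℤ ℂ).val := Subtype.val_injective
  have hcj : ∀ (a : Fin d → ℤ) (σ : Fin d),
      (integralClosure ℤ ℂ).val (cj (fun i => (a i : integralClosure ℤ ℂ)) (ϑ σ)) =
        cj (fun i => (a i : ℂ)) (θ σ) := fun a σ => by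
    simp [cj, map_sum, hϑ]
  have hD : ∀ σ σ' : Fin d, ∃ m : ℤ, m ≠ 0 ∧
      (σ ≠ σ' → ϑ σ - ϑ σ' ∣ (m : integralClosure ℤ ℂ)) := by
    intro σ σ'
    by_cases h : σ = σ'
    · exact ⟨1, one_ne_zero, fun h' => absurd h h'⟩
    · obtain ⟨m, hm, hm'⟩ := exists_int_dvd (ϑ σ - ϑ σ') (sub_ne_zero.2 fun e =>
        h (hr.inj (congrArg Subtype.val e)))
      exact ⟨m, hm, fun _ => hm'⟩
  choose D hD0 hD using hD
  refine ⟨γ.natAbs + (∑ x : Fin d × Fin d, (D x.1 x.2).natAbs) + C' + 1,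
    fun z z' p p' cc' e e' hp hp' hP hrel hg ha hc0 hc hprod hne hsum hM => ?_⟩
  by_contra hpp
  have hsmall : ∀ m : ℤ, m ≠ 0 → m.natAbs < p → ¬ (p : ℤ) ∣ m := fun m hm hlt hd =>
    absurd (Nat.le_of_dvd (Int.natAbs_pos.2 hm) (Int.natCast_dvd.1 hd)) (not_le.2 hlt)
  obtain ⟨σ₀, hσ₀⟩ : ∃ σ₀, e' σ₀ < e σ₀ := by
    by_contra hcon
    push Not at hcon
    exact hne (funext fun σ =>
      (Finset.sum_eq_sum_iff_of_le fun σ _ => hcon σ).1 hsum σ (Finset.mem_univ σ))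
  obtain ⟨𝔮, h𝔮, h𝔮n, h𝔮m⟩ := exists_prime_over hr hirr p hp z.n hg σ₀ ϑ hϑ
  let π : Fin d → integralClosure ℤ ℂ := fun σ => cj (fun i => (z.a i : _)) (ϑ σ)
  let π' : Fin d → integralClosure ℤ ℂ := fun σ => cj (fun i => (z'.a i : _)) (ϑ σ)
  have hπ : ∀ σ, (integralClosure ℤ ℂ).val (π σ) = z.pi (θ σ) := fun σ => hcj _ σ
  have hπ' : ∀ σ, (integralClosure ℤ ℂ).val (π' σ) = z'.pi (θ σ) := fun σ => hcj _ σ
  have h0 : π σ₀ ∈ 𝔮 := by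
    have h1 := sub_dvd_eval_sub (ϑ σ₀) (z.n : integralClosure ℤ ℂ)
      (vpoly fun i => (z.a i : integralClosure ℤ ℂ))
    rw [eval_vpoly, eval_vpoly] at h1
    have h2 : cj (fun i => (z.a i : integralClosure ℤ ℂ)) (z.n : integralClosure ℤ ℂ) ∈ 𝔮 := by
      have h3 := (h𝔮m _).2 ha
      rw [eval_vpoly] at h3
      simpa [cj] using h3
    have h4 := 𝔮.add_mem (Ideal.mem_of_dvd 𝔮 h1 h𝔮n) h2
    rwa [sub_add_cancel] at h4
  have h1 : ∀ σ, σ ≠ σ₀ → π σ ∉ 𝔮 := by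
    intro σ hσ hmem
    have e1 : cj (fun i => (z.b i : integralClosure ℤ ℂ)) (ϑ σ) * π σ ^ k =
        (γ : integralClosure ℤ ℂ) * ((z.n : integralClosure ℤ ℂ) - ϑ σ) := by
      apply hinj
      rw [map_mul, map_pow, hcj, hπ, hrel.conj hr σ]
      simp [hϑ]
    have e2 : (γ : integralClosure ℤ ℂ) * ((z.n : integralClosure ℤ ℂ) - ϑ σ) ∈ 𝔮 := by
      rw [← e1]
      exact 𝔮.mul_mem_left _ (𝔮.pow_mem_of_mem hmem k (by omega))
    rcases h𝔮.mem_or_mem e2 with e3 | e3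
    · exact hsmall γ hγ (by omega) ((h𝔮m γ).1 e3)
    · have e4 := 𝔮.add_mem h𝔮n e3
      rw [sub_add_sub_cancel] at e4
      have e5 := (h𝔮m _).1 (Ideal.mem_of_dvd 𝔮 (hD σ₀ σ hσ.symm) e4)
      have e6 : (D σ₀ σ).natAbs ≤ ∑ x : Fin d × Fin d, (D x.1 x.2).natAbs :=
        Finset.single_le_sum (f := fun x : Fin d × Fin d => (D x.1 x.2).natAbs)
          (fun _ _ => Nat.zero_le _) (Finset.mem_univ (σ₀, σ))
      exact hsmall _ (hD0 σ₀ σ) (by omega) e5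
  have h2 : ∀ σ, π' σ ∉ 𝔮 := by
    intro σ hmem
    have e1 : ∏ σ, π' σ = ((p' * cc' : ℤ) : integralClosure ℤ ℂ) := by
      apply hinj
      rw [map_prod]
      simp only [hπ']
      rw [hprod]
      simp
    have e2 : ((p' * cc' : ℤ) : integralClosure ℤ ℂ) ∈ 𝔮 := by
      rw [← e1]
      exact Ideal.mem_of_dvd 𝔮 (Finset.dvd_prod_of_mem _ (Finset.mem_univ σ)) hmem
    rcases (Nat.prime_iff_prime_int.1 hp).dvd_or_dvd ((h𝔮m _).1 e2) with e3 | e3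
    · exact hpp ((Nat.prime_dvd_prime_iff_eq hp hp').1 (Int.natCast_dvd_natCast.1 e3))
    · refine hsmall cc' hc0 ?_ e3
      have : (cc'.natAbs : ℤ) ≤ C' := by rw [Int.natCast_natAbs]; exact hc
      omega
  have hM' : (∏ σ, π σ ^ e σ) * ∏ σ, π' σ ^ e' σ = (∏ σ, π σ ^ e' σ) * ∏ σ, π' σ ^ e σ := by
    apply hinj
    simp only [map_mul, map_prod, map_pow, hπ, hπ']
    exact hM
  have hπ0 : π σ₀ ≠ 0 := fun h => hrel.pi_ne_zero hr hγ hk σ₀ (by rw [← hπ, h, map_zero])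
  obtain ⟨t, ht⟩ := Nat.exists_eq_add_of_lt hσ₀
  rw [← Finset.mul_prod_erase _ _ (Finset.mem_univ σ₀),
    ← Finset.mul_prod_erase _ (fun σ => π σ ^ e' σ) (Finset.mem_univ σ₀), ht, add_assoc, pow_add,
    mul_assoc, mul_assoc, mul_assoc] at hM'
  have hM'' := mul_left_cancel₀ (pow_ne_zero _ hπ0) hM'
  have hmem : (∏ σ ∈ Finset.univ.erase σ₀, π σ ^ e' σ) * ∏ σ, π' σ ^ e σ ∈ 𝔮 := by
    rw [← hM'']
    exact 𝔮.mul_mem_right _ (𝔮.pow_mem_of_mem h0 _ (by omega))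
  rcases h𝔮.mem_or_mem hmem with e1 | e1
  · obtain ⟨σ, hσ, e2⟩ := Ideal.IsPrime.prod_mem_iff.1 e1
    exact h1 σ (Finset.ne_of_mem_erase hσ) (h𝔮.mem_of_pow_mem _ e2)
  · obtain ⟨σ, -, e2⟩ := Ideal.IsPrime.prod_mem_iff.1 e1
    exact h2 σ (h𝔮.mem_of_pow_mem _ e2)

end Crest.Agent.R22
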