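import Crest.Agent.R22.Core
import Crest.Agent.R22.Arith
import Crest.Agent.R22.MulInd

/-! # Row 22: large primes -/

set_option autoImplicit false

open Polynomial Filter

namespace Crest.Agent.R22

/-- Recipe: `n ↦ (n mod p, (n + N) / p)` is injective; the first component is a root of the monic
polynomial `g` mod `p` (`card_roots'`), the second is `≤ 2 T`. -/
theorem card_roots_Icc_le (g : ℤ[X]) (hg : g.Monic) (p : ℕ) (hp : p.Prime) (N T : ℕ)
    (h : N ≤ T * p) (s : Finset ℤ) (hs : ∀ n ∈ s, |n| ≤ N ∧ (p : ℤ) ∣ g.eval n) :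
    s.card ≤ g.natDegree * (2 * T + 1) := by
  classical
  have := Fact.mk hp
  have hp0 : (0 : ℤ) < p := by exact_mod_cast hp.pos
  have hgm : (g.map (Int.castRingHom (ZMod p))).Monic := hg.map _
  have h1 : s.card ≤ ((g.map (Int.castRingHom (ZMod p))).roots.toFinset ×ˢ
      Finset.Icc (0 : ℤ) (2 * T)).card := by
    refine Finset.card_le_card_of_injOn (fun n => ((n : ZMod p), (n + N) / p)) ?_ ?_
    · intro n hn
      obtain ⟨h1, h2⟩ := hs n hn
      obtain ⟨h3, h4⟩ := abs_le.1 h1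
      simp only [Finset.coe_product, Set.mem_prod, Finset.mem_coe, Multiset.mem_toFinset,
        Finset.mem_Icc]
      refine ⟨(mem_roots hgm.ne_zero).2 ?_, Int.ediv_nonneg (by omega) hp0.le,
        Int.ediv_le_of_le_mul hp0 ?_⟩
      · rw [IsRoot.def, eval_intCast_map, eq_intCast, ZMod.intCast_zmod_eq_zero_iff_dvd]
        exact h2
      · have : (N : ℤ) ≤ T * p := by exact_mod_cast h
        nlinarith
    · intro n _ n' _ e
      simp only [Prod.mk.injEq] at e
      have h1 : (n + N) % p = (n' + N) % p :=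
        Int.ModEq.add_right _ ((ZMod.intCast_eq_intCast_iff _ _ _).1 e.1)
      have h2 := Int.emod_add_mul_ediv (n + N) p
      have h3 := Int.emod_add_mul_ediv (n' + N) p
      rw [h1, e.2] at h2
      omega
  refine h1.trans ?_
  rw [Finset.card_product, Int.card_Icc]
  refine Nat.mul_le_mul ((Multiset.toFinset_card_le _).trans ((card_roots' _).trans
    (natDegree_map_le))) (le_of_eq ?_)
  omega

open Classical in
/-- Recipe: `exists_roots`, `exists_point`, `mrel_imp_eq`, `B = d (2T+1)`.  For `N` large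
(`N > T * max P₀ P₁`) choose for each counted `n` a prime `p n`, a point `z n` and a chart `c n`;
for each chart `c` the image `𝒳_c` of `{n | c n = c}` under `z` (injective, `(z n).n = n`)
satisfies `Good` with `H = C N` and `MI θ B`; `core` with `ε / (d C)`. -/
theorem big_count (g : ℤ[X]) (hg : g.Monic) (hirr : Irreducible (g.map (Int.castRingHom ℚ)))
    (k : ℕ) (hk : k + 2 = g.natDegree) (h2 : 2 ≤ k) (h6 : k ≤ 6) (T : ℕ) (ε : ℝ) (hε : 0 < ε) :
    ∀ᶠ N : ℕ in atTop, (((Finset.Icc (-(N : ℤ)) N).filter fun n =>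
      ∃ p : ℕ, p.Prime ∧ N ≤ T * p ∧ (p : ℤ) ^ k ∣ g.eval n).card : ℝ) ≤ ε * N := by
  obtain ⟨d, hd⟩ : ∃ d, g.natDegree = d := ⟨_, rfl⟩
  rw [hd] at hk
  obtain ⟨θ, hr⟩ := exists_roots g hg hirr hd (by omega)
  obtain ⟨γ, C, C', P₀, hγ, hC, hpt⟩ := exists_point (k := k) (by omega) (by omega) g θ hr hirr
  obtain ⟨P₁, hP₁⟩ := mrel_imp_eq (k := k) (by omega) hr hirr γ hγ C'
  have hd0 : (0 : ℝ) < d := by exact_mod_cast (show 0 < d by omega)
  have hC0 : (0 : ℝ) < C := by exact_mod_cast (show 0 < C by omega)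
  choose H₀ hH₀ using fun c => core hk h2 h6 g θ hr γ hγ c (d * (2 * T + 1)) (ε / (d * C))
    (by positivity)
  filter_upwards [eventually_gt_atTop (T * max P₀ P₁),
    eventually_ge_atTop (Finset.univ.sup H₀)] with N hN1 hN2
  set S := (Finset.Icc (-(N : ℤ)) N).filter fun n =>
    ∃ p : ℕ, p.Prime ∧ N ≤ T * p ∧ (p : ℤ) ^ k ∣ g.eval n with hS
  have hex : ∀ n : ℤ, ∃ (p : ℕ) (z : Pt d) (c : Fin d) (cc : ℤ), n ∈ S → p.Prime ∧ N ≤ T * p ∧
      P₁ ≤ p ∧ |n| ≤ N ∧ (p : ℤ) ∣ g.eval n ∧ z.n = n ∧ Good g k γ c (C * N) z ∧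
      (p : ℤ) ∣ (vpoly z.a).eval n ∧ cc ≠ 0 ∧ |cc| ≤ C' ∧ ∏ σ, z.pi (θ σ) = p * cc := by
    intro n
    by_cases hn : n ∈ S
    · obtain ⟨hn1, p, hp, hp1, hp2⟩ := Finset.mem_filter.1 hn
      have hn2 : |n| ≤ N := abs_le.2 (Finset.mem_Icc.1 hn1)
      have hp3 : max P₀ P₁ < p := Nat.lt_of_mul_lt_mul_left (hN1.trans_le hp1)
      obtain ⟨z, a1, ⟨c, a2⟩, a3, cc, a4⟩ := hpt N p n (by omega) hp
        ((le_max_left _ _).trans hp3.le) hn2 hp2
      exact ⟨p, z, c, cc, fun _ => ⟨hp, hp1, (le_max_right _ _).trans hp3.le, hn2,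
        (dvd_pow_self _ (by omega)).trans hp2, a1, a2, a3, a4⟩⟩
    · exact ⟨0, ⟨0, 0, 0⟩, ⟨0, by omega⟩, 0, fun h => (hn h).elim⟩
  choose p z c cc hz using hex
  have hfib : ∀ c₀ : Fin d, ((S.filter fun n => c n = c₀).card : ℝ) ≤ ε / d * N := by
    intro c₀
    have hinj : Set.InjOn z (S.filter fun n => c n = c₀) := by
      intro n hn n' hn' e
      have h1 := (hz n (Finset.mem_filter.1 hn).1).2.2.2.2.2.1
      have h2 := (hz n' (Finset.mem_filter.1 hn').1).2.2.2.2.2.1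
      rw [← h1, ← h2, e]
    rw [← Finset.card_image_of_injOn hinj]
    have hH : H₀ c₀ ≤ C * N :=
      ((Finset.le_sup (f := H₀) (Finset.mem_univ c₀)).trans hN2).trans
        (Nat.le_mul_of_pos_left _ (by omega))
    refine (hH₀ c₀ (C * N) hH _ ?_ ?_).trans (le_of_eq ?_)
    · intro w hw
      obtain ⟨n, hn, rfl⟩ := Finset.mem_image.1 hw
      obtain ⟨hn1, rfl⟩ := Finset.mem_filter.1 hn
      exact (hz n hn1).2.2.2.2.2.2.1
    · intro e e' hee hsum w hw
      obtain ⟨n₀, hn₀, rfl⟩ := Finset.mem_image.1 hw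
      obtain ⟨a1, a2, a3, -, a5, a6, a7, a8, -⟩ := hz n₀ (Finset.mem_filter.1 hn₀).1
      rw [← Finset.card_image_of_injOn (f := Pt.n)]
      · refine (card_roots_Icc_le g hg (p n₀) a1 N T a2 _ fun m hm => ?_).trans_eq (by rw [hd])
        obtain ⟨w, hw, rfl⟩ := Finset.mem_image.1 hm
        obtain ⟨hw1, hw2⟩ := Finset.mem_filter.1 hw
        obtain ⟨n, hn, rfl⟩ := Finset.mem_image.1 hw1
        obtain ⟨b1, -, -, b4, b5, b6, -, -, b9, b10, b11⟩ := hz n (Finset.mem_filter.1 hn).1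
        have := hP₁ (z n₀) (z n) (p n₀) (p n) (cc n) e e' a1 b1 a3 a7.rel (by rwa [a6])
          (by rwa [a6]) b9 b10 b11 hee hsum hw2
        rw [b6, this]
        exact ⟨b4, b5⟩
      · intro w hw w' hw' e
        obtain ⟨n, hn, rfl⟩ := Finset.mem_image.1 (Finset.mem_filter.1 hw).1
        obtain ⟨n', hn', rfl⟩ := Finset.mem_image.1 (Finset.mem_filter.1 hw').1
        rw [(hz n (Finset.mem_filter.1 hn).1).2.2.2.2.2.1,
          (hz n' (Finset.mem_filter.1 hn').1).2.2.2.2.2.1] at e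
        rw [e]
    · push_cast
      field_simp
  rw [Finset.card_eq_sum_card_fiberwise (f := c) (t := Finset.univ) fun _ _ => Finset.mem_univ _,
    Nat.cast_sum]
  refine (Finset.sum_le_sum fun c₀ _ => hfib c₀).trans (le_of_eq ?_)
  rw [Finset.sum_const, Finset.card_univ, Fintype.card_fin, nsmul_eq_mul]
  field_simp

/-- Recipe: `g = f.integralNormalization` is monic of the same degree,
`g(ℓ n) = ℓ^(d-1) f(n)` (`integralNormalization_eval₂_leadingCoeff_mul`); over `ℚ`,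
`g.comp (C ℓ * X) = C ℓ^(d-1) * f` (`Polynomial.funext` or `scaleRoots`), and composition with
`C ℓ * X` is an automorphism (`algEquivCMulXAddC`), so `g` is irreducible. -/
theorem exists_monic (f : ℤ[X]) (hirr : Irreducible (f.map (Int.castRingHom ℚ)))
    (hd : 1 ≤ f.natDegree) : ∃ (g : ℤ[X]) (l : ℤ), l ≠ 0 ∧ g.Monic ∧ g.natDegree = f.natDegree ∧
      Irreducible (g.map (Int.castRingHom ℚ)) ∧ ∀ n : ℤ, f.eval n ∣ g.eval (l * n) := by
  have hf : f ≠ 0 := by
    rintro rfl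
    simp at hd
  have hl : f.leadingCoeff ≠ 0 := leadingCoeff_ne_zero.2 hf
  refine ⟨f.integralNormalization, f.leadingCoeff, hl, monic_integralNormalization hf,
    natDegree_integralNormalization, ?_, fun n => ?_⟩
  · have hl' : ((f.leadingCoeff : ℤ) : ℚ) ≠ 0 := by exact_mod_cast hl
    let _ : Invertible ((f.leadingCoeff : ℤ) : ℚ) := invertibleOfNonzero hl'
    have key : algEquivCMulXAddC ((f.leadingCoeff : ℤ) : ℚ) 0
        (f.integralNormalization.map (Int.castRingHom ℚ)) =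
        C (((f.leadingCoeff : ℤ) : ℚ) ^ (f.natDegree - 1)) * f.map (Int.castRingHom ℚ) := by
      refine Polynomial.funext fun x => ?_
      have := integralNormalization_eval₂_leadingCoeff_mul hd (Int.castRingHom ℚ) x
      rw [algEquivCMulXAddC_apply, ← comp_eq_aeval, eval_comp, eval_mul, eval_C, eval_map,
        eval_map]
      simpa using this
    rw [← MulEquiv.irreducible_iff (f := algEquivCMulXAddC ((f.leadingCoeff : ℤ) : ℚ) 0), key,
      irreducible_isUnit_mul (isUnit_C.2 (pow_ne_zero _ hl').isUnit)]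
    exact hirr
  · have := integralNormalization_eval₂_leadingCoeff_mul hd (RingHom.id ℤ) n
    rw [eval₂_id, eval₂_id, RingHom.id_apply] at this
    rw [this]
    exact dvd_mul_left _ _

open Classical in
/-- Recipe: `n ↦ l n`, `big_count` at `|l| N` with `T |l|` and `ε / |l|`. -/
theorem big_count_f (f : ℤ[X]) (hirr : Irreducible (f.map (Int.castRingHom ℚ)))
    (k : ℕ) (hk : k + 2 = f.natDegree) (h2 : 2 ≤ k) (h6 : k ≤ 6) (T : ℕ) (ε : ℝ) (hε : 0 < ε) :
    ∀ᶠ N : ℕ in atTop, (((Finset.Icc 1 N).filter fun n : ℕ =>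
      ∃ p : ℕ, p.Prime ∧ N ≤ T * p ∧ (p : ℤ) ^ k ∣ f.eval (n : ℤ)).card : ℝ) ≤ ε * N := by
  obtain ⟨g, l, hl, hg, hdeg, hgi, hdvd⟩ := exists_monic f hirr (by omega)
  have hl0 : 0 < l.natAbs := Int.natAbs_pos.2 hl
  have hl0' : (0 : ℝ) < l.natAbs := by exact_mod_cast hl0
  have h := big_count g hg hgi k (hk.trans hdeg.symm) h2 h6 (l.natAbs * T) (ε / l.natAbs)
    (by positivity)
  have ht : Tendsto (fun N : ℕ => l.natAbs * N) atTop atTop :=
    tendsto_atTop_mono (fun N => Nat.le_mul_of_pos_left N hl0) tendsto_id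
  filter_upwards [ht.eventually h] with N hN
  refine le_trans ?_ (hN.trans (le_of_eq ?_))
  · refine Nat.cast_le.2 (Finset.card_le_card_of_injOn (fun n => l * (n : ℤ)) ?_ ?_)
    · intro n hn
      obtain ⟨h1, p, hp, hp1, hp2⟩ := Finset.mem_filter.1 hn
      refine Finset.mem_filter.2 ⟨Finset.mem_Icc.2 (abs_le.1 ?_), p, hp, ?_, hp2.trans (hdvd n)⟩
      · rw [abs_mul, Nat.cast_mul, Int.natCast_natAbs, Nat.abs_cast]
        exact mul_le_mul_of_nonneg_left (by exact_mod_cast (Finset.mem_Icc.1 h1).2) (abs_nonneg _)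
      · rw [mul_assoc]
        exact Nat.mul_le_mul_left _ hp1
    · intro n _ n' _ e
      exact_mod_cast mul_left_cancel₀ hl e
  · push_cast
    field_simp

end Crest.Agent.R22
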