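import Crest.Agent.R22.Val

/-! # Row 22: few relations between the products `ξ_σ τ_σ'` in top dimension -/

set_option autoImplicit false

open Module MvPowerSeries

namespace Crest.Agent.R22

theorem coeff_lin_mul_lin {K : Type*} [Field K] {d : ℕ} (u v : Fin d → K) (a b : Fin d) :
    MvPolynomial.coeff (Finsupp.single a 1 + Finsupp.single b 1)
      ((∑ x, u x • MvPolynomial.X x) * (∑ y, v y • MvPolynomial.X y) : MvPolynomial (Fin d) K) =
      if a = b then u a * v a else u a * v b + u b * v a := by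
  have h1 : ∀ x y : Fin d, MvPolynomial.coeff (Finsupp.single a 1 + Finsupp.single b 1)
      ((u x • MvPolynomial.X x) * (v y • MvPolynomial.X y) : MvPolynomial (Fin d) K) =
      if (x = a ∧ y = b) ∨ (x = b ∧ y = a) then u x * v y else 0 := fun x y => by
    rw [smul_mul_smul_comm, MvPolynomial.coeff_smul, MvPolynomial.X, MvPolynomial.X,
      MvPolynomial.monomial_mul, MvPolynomial.coeff_monomial]
    simp only [Finsupp.single_add_single_eq_single_add_single one_ne_zero one_ne_zero]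
    simp
  simp only [Finset.sum_mul_sum, MvPolynomial.coeff_sum, h1]
  rw [← Finset.sum_product', ← Finset.sum_filter]
  split_ifs with hab
  · subst hab
    rw [show (Finset.univ ×ˢ Finset.univ).filter
      (fun p : Fin d × Fin d => (p.1 = a ∧ p.2 = a) ∨ (p.1 = a ∧ p.2 = a)) = {(a, a)} by
        ext ⟨x, y⟩; simp, Finset.sum_singleton]
  · rw [show (Finset.univ ×ˢ Finset.univ).filter
      (fun p : Fin d × Fin d => (p.1 = a ∧ p.2 = b) ∨ (p.1 = b ∧ p.2 = a)) = {(a, b), (b, a)} by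
        ext ⟨x, y⟩; simp, Finset.sum_pair (by simp [hab])]

/-- Coefficient extraction.  `l σ`, `l' σ` are coefficient vectors of linear forms
`L σ = ∑ a, l σ a • X a`.  In
`∑ σ σ', (θ σ' - θ σ) L σ L' σ' ∏_{ρ ∉ {σ,σ'}} X ρ ^ k = 0` look at the monomial
`X a X b ∏_{ρ ∉ {σ,σ'}} X ρ ^ k` with `a ∉ {σ, σ'}`: its exponents are `< k` exactly at `σ, σ'`
(`k ≥ 2`), so only the pairs `(σ,σ')`, `(σ',σ)` contribute, and the coefficient of `X a X b` in
`L σ L' σ' - L' σ L σ'` vanishes. -/
theorem coeff_cross {K : Type*} [Field K] {d k : ℕ} (hk : 2 ≤ k) (θ : Fin d → K)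
    (hθ : Function.Injective θ) (l l' : Fin d → Fin d → K)
    (h : ∑ σ, ∑ σ', MvPolynomial.C (θ σ' - θ σ) * (∑ a, l σ a • MvPolynomial.X a) *
      (∑ a, l' σ' a • MvPolynomial.X a) *
      ∏ ρ ∈ (Finset.univ.erase σ).erase σ', (MvPolynomial.X ρ : MvPolynomial (Fin d) K) ^ k = 0)
    (σ σ' : Fin d) (hσ : σ ≠ σ') (a b : Fin d) (ha : a ≠ σ) (ha' : a ≠ σ') :
    if a = b then l σ a * l' σ' a - l' σ a * l σ' a = 0
    else l σ a * l' σ' b + l σ b * l' σ' a - (l' σ a * l σ' b + l' σ b * l σ' a) = 0 := by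
  let E : Fin d → Fin d → (Fin d →₀ ℕ) := fun s s' =>
    ∑ ρ ∈ (Finset.univ.erase s).erase s', Finsupp.single ρ k
  have hE : ∀ s s', ∏ ρ ∈ (Finset.univ.erase s).erase s',
      (MvPolynomial.X ρ : MvPolynomial (Fin d) K) ^ k = MvPolynomial.monomial (E s s') 1 :=
    fun s s' => by
      simp only [E, MvPolynomial.monomial_sum_one, MvPolynomial.X_pow_eq_monomial]
  have hEa : ∀ s s' ρ, E s s' ρ = if ρ ≠ s' ∧ ρ ≠ s then k else 0 := fun s s' ρ => by
    simp only [E, Finsupp.coe_finsetSum, Finset.sum_apply, Finsupp.single_apply]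
    rw [Finset.sum_ite_eq']
    simp
  have hsym : E σ' σ = E σ σ' := by
    ext ρ
    simp only [hEa, and_comm]
  let m : Fin d →₀ ℕ := Finsupp.single a 1 + Finsupp.single b 1
  have hle : ∀ s s', E s s' ≤ m + E σ σ' → (s, s') = (σ, σ') ∨ (s, s') = (σ', σ) := by
    intro s s' hs
    have h1 := hs σ
    have h2 := hs σ'
    simp only [m, Finsupp.add_apply, hEa, Finsupp.single_apply, if_neg ha, if_neg ha', ne_eq,
      not_true, and_false, false_and, if_false] at h1 h2
    have h3 : σ = s' ∨ σ = s := by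
      by_contra hc
      push Not at hc
      rw [if_pos hc] at h1
      split_ifs at h1 <;> omega
    have h4 : σ' = s' ∨ σ' = s := by
      by_contra hc
      push Not at hc
      rw [if_pos hc] at h2
      split_ifs at h2 <;> omega
    rcases h3 with rfl | rfl <;> rcases h4 with rfl | rfl <;> simp_all
  have h1 := congrArg (MvPolynomial.coeff (m + E σ σ')) h
  rw [← Finset.sum_product', MvPolynomial.coeff_sum, MvPolynomial.coeff_zero,
    Finset.univ_product_univ, ← Finset.sum_subset (Finset.subset_univ {(σ, σ'), (σ', σ)}),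
    Finset.sum_pair (by simp [hσ])] at h1
  · simp only [hE, hsym, mul_assoc, MvPolynomial.coeff_C_mul] at h1
    simp only [← mul_assoc, MvPolynomial.coeff_mul_monomial, mul_one, m, coeff_lin_mul_lin] at h1
    have h2 : θ σ' - θ σ ≠ 0 := sub_ne_zero.2 fun h => hσ (hθ h).symm
    split_ifs at h1 ⊢ with hab
    · refine mul_left_cancel₀ h2 ?_
      linear_combination h1
    · refine mul_left_cancel₀ h2 ?_
      linear_combination h1
  · rintro ⟨s, s'⟩ - hs
    rw [hE, MvPolynomial.coeff_mul_monomial', if_neg]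
    intro hc
    exact hs (by simpa using hle s s' hc)

/-- Linear algebra.  Recipe: if for some `σ₀` the projection `l ↦ l σ₀` is injective on `R`, the
rank is `≤ d`.  Otherwise for each `σ₀` take `l ∈ R` nonzero with `l σ₀ = 0`, so `l σ₁ ≠ 0 ≠ l σ₂`
with `σ₁ ≠ σ₂`.  For `l' ∈ R`, `σ' ∈ {σ₁, σ₂}`, `a ∉ {σ₀, σ'}`: `l' σ₀ a * l σ' a = 0` and
`l' σ₀ a * l σ' b + l' σ₀ b * l σ' a = 0` (`b ≠ a`), so `l' σ₀ a = 0`.  Hence `l' σ₀ a = 0` for
all `a ≠ σ₀`, and `l' ↦ fun σ => l' σ σ` is injective on `R`. -/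
theorem finrank_rel_le {K : Type*} [Field K] {d : ℕ} (R : Submodule K (Fin d → Fin d → K))
    (h2 : ∀ l ∈ R, ∀ σ₀, (∀ σ, σ ≠ σ₀ → l σ = 0) → l = 0)
    (h : ∀ l ∈ R, ∀ l' ∈ R, ∀ σ σ', σ ≠ σ' → ∀ a b, a ≠ σ → a ≠ σ' →
      if a = b then l σ a * l' σ' a - l' σ a * l σ' a = 0
      else l σ a * l' σ' b + l σ b * l' σ' a - (l' σ a * l σ' b + l' σ b * l σ' a) = 0) :
    finrank K R ≤ d := by
  have key : ∀ φ : (Fin d → Fin d → K) →ₗ[K] (Fin d → K), (∀ l ∈ R, φ l = 0 → l = 0) →
      finrank K R ≤ d := fun φ hφ => by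
    have := LinearMap.finrank_le_finrank_of_injective (f := φ.domRestrict R)
      ((injective_iff_map_eq_zero _).2 fun l hl => Subtype.ext (hφ l.1 l.2 hl))
    simpa using this
  by_cases hc : ∃ σ₀, ∀ l ∈ R, l σ₀ = 0 → l = 0
  · obtain ⟨σ₀, h0⟩ := hc
    exact key (LinearMap.proj σ₀) h0
  push Not at hc
  refine key (LinearMap.pi fun σ => (LinearMap.proj (φ := fun _ => K) σ).comp
    (LinearMap.proj (φ := fun _ => Fin d → K) σ)) fun l' hl' h0 => ?_
  funext σ₀ a
  by_cases ha : a = σ₀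
  · subst ha
    exact congrFun h0 a
  obtain ⟨l, hl, hl0, hne⟩ := hc σ₀
  obtain ⟨σ', hσ', hσa⟩ : ∃ σ', l σ' ≠ 0 ∧ a ≠ σ' := by
    by_contra hc'
    push Not at hc'
    exact hne (h2 l hl a fun σ hσ => by_contra fun hh => hσ (hc' σ hh).symm)
  have hσ0 : σ₀ ≠ σ' := fun hh => hσ' (hh ▸ hl0)
  by_contra hx
  have hx' : l' σ₀ a ≠ 0 := hx
  have h3 := h l hl l' hl' σ₀ σ' hσ0 a a ha hσa
  rw [if_pos rfl, hl0, Pi.zero_apply, zero_mul, zero_sub, neg_eq_zero] at h3
  have h4 : l σ' a = 0 := (mul_eq_zero.1 h3).resolve_left hx'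
  refine hσ' (funext fun b => ?_)
  by_cases hab : a = b
  · exact hab ▸ h4
  have h5 := h l hl l' hl' σ₀ σ' hσ0 a b ha hσa
  rw [if_neg hab, hl0, h4] at h5
  simp only [Pi.zero_apply, zero_mul, mul_zero, add_zero, zero_sub, neg_eq_zero] at h5
  exact (mul_eq_zero.1 h5).resolve_left hx'

/-- Recipe: `Ψ : (Fin d → Fin d → K) →ₗ PS`, `Ψ l = ∑ σ, (∑ a, l σ a • ξ a) * τ σ`, range in the
product, `R = ker Ψ`.  For `l ∈ R`: `ν A l = B l` with `A l = ∑ σ, L σ ζ σ^k`,
`B l = ∑ σ, θ σ • L σ ζ σ^k`, so `A l * B l' = B l * A l'`; multiply by `∏ ρ, ξ ρ ^ k` (the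
diagonal terms vanish) and apply `eq_zero_of_homog` (degree `2 + (d-2) k`; `Jets.full`) to get the
hypothesis of `coeff_cross`.  `h2`: `τ σ₀` is a unit, the `ξ a` are independent
(`eq_zero_of_homog` in degree one).  Rank-nullity: `d^2 - d ≤ finrank`. -/
theorem finrank_bonus {K : Type*} [Field K] {i k : ℕ} (hk : 2 ≤ k) (θ : Fin (i + 1) → K)
    (hθ : Function.Injective θ) (ξ ζ : Fin (i + 1) → MvPowerSeries (Fin i) K) (hJ : Jets ξ ζ)
    (ν : MvPowerSeries (Fin i) K) (hν : ∀ σ, constantCoeff ν ≠ θ σ) :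
    (i + 1) * i ≤ finrank K (sp K ξ * sp K (tau k θ ζ ν) : Submodule K _) := by
  have hf1 := sp_finite (K := K) ξ
  have hf2 := sp_finite (K := K) (tau k θ ζ ν)
  have hf3 := mul_finite (sp K ξ) (sp K (tau k θ ζ ν))
  let Ψ : (Fin (i + 1) → Fin (i + 1) → K) →ₗ[K] MvPowerSeries (Fin i) K :=
    { toFun := fun l => ∑ σ, (∑ a, l σ a • ξ a) * tau k θ ζ ν σ
      map_add' := fun l l' => by
        simp only [Pi.add_apply, add_smul, Finset.sum_add_distrib, add_mul]
      map_smul' := fun c l => by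
        simp only [Pi.smul_apply, smul_eq_mul, mul_smul, ← Finset.smul_sum, smul_mul_assoc,
          RingHom.id_apply] }
  have hΨ : ∀ l, Ψ l = ∑ σ, (∑ a, l σ a • ξ a) * tau k θ ζ ν σ := fun _ => rfl
  have hrange : LinearMap.range Ψ ≤ sp K ξ * sp K (tau k θ ζ ν) := by
    rintro _ ⟨l, rfl⟩
    rw [hΨ]
    refine Submodule.sum_mem _ fun σ _ => Submodule.mul_mem_mul
      (Submodule.sum_mem (sp K ξ) fun a _ => Submodule.smul_mem _ _ ?_) ?_
    · exact Submodule.subset_span (Set.mem_range_self _)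
    · exact Submodule.subset_span (Set.mem_range_self _)
  have hlin : ∀ u : Fin (i + 1) → K,
      (∑ a, u a • MvPolynomial.X a : MvPolynomial (Fin (i + 1)) K).IsHomogeneous 1 := fun u =>
    (MvPolynomial.homogeneousSubmodule (Fin (i + 1)) K 1).sum_mem fun a _ =>
      Submodule.smul_mem _ _ (MvPolynomial.isHomogeneous_X K a)
  have hker : finrank K (LinearMap.ker Ψ) ≤ i + 1 := by
    refine finrank_rel_le _ (fun l hl σ₀ h0 => ?_) fun l hl l' hl' σ σ' hσ a b ha ha' =>
      coeff_cross hk θ hθ l l' ?_ σ σ' hσ a b ha ha'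
    · rw [LinearMap.mem_ker, hΨ, Finset.sum_eq_single σ₀
        (fun σ _ hσ => by simp [h0 σ hσ]) (by simp)] at hl
      have h1 : tau k θ ζ ν σ₀ ≠ 0 := by
        refine mul_ne_zero (fun hh => hν σ₀ ?_)
          (pow_ne_zero _ (right_ne_zero_of_mul_eq_one (hJ.inv σ₀)))
        rw [sub_eq_zero.1 hh, constantCoeff_C]
      have h2 := eq_zero_of_homog ξ hJ.full _ 1 (hlin (l σ₀))
        (by simpa using (mul_eq_zero.1 hl).resolve_right h1)
      funext σ a
      by_cases hσ : σ = σ₀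
      · subst hσ
        have h3 := congrArg (MvPolynomial.coeff (Finsupp.single a 1)) h2
        simpa [MvPolynomial.coeff_sum, MvPolynomial.coeff_X, Finsupp.single_left_inj one_ne_zero] using h3
      · rw [h0 σ hσ]
        rfl
    · refine eq_zero_of_homog ξ hJ.full _ (2 + (i - 1) * k) ?_ ?_
      · refine MvPolynomial.IsHomogeneous.sum _ _ _ fun s _ =>
          MvPolynomial.IsHomogeneous.sum _ _ _ fun s' _ => ?_
        by_cases hs : s = s'
        · subst hs
          simp only [sub_self, map_zero, zero_mul]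
          exact MvPolynomial.isHomogeneous_zero _ _ _
        have h1 := (((MvPolynomial.isHomogeneous_C (Fin (i + 1)) (θ s' - θ s)).mul
          (hlin (l s))).mul (hlin (l' s'))).mul
          (MvPolynomial.IsHomogeneous.prod ((Finset.univ.erase s).erase s')
            (fun ρ => (MvPolynomial.X ρ : MvPolynomial (Fin (i + 1)) K) ^ k) (fun _ => k)
            fun ρ _ => MvPolynomial.isHomogeneous_X_pow ρ k)
        rw [Finset.sum_const, Finset.card_erase_of_mem (by simp [Ne.symm hs]),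
          Finset.card_erase_of_mem (Finset.mem_univ _), Finset.card_univ, Fintype.card_fin,
          smul_eq_mul, Nat.add_sub_cancel] at h1
        exact h1
      · have hAB : ∀ l ∈ LinearMap.ker Ψ, ν * ∑ σ, (∑ a, l σ a • ξ a) * ζ σ ^ k =
            ∑ σ, C (θ σ) * ((∑ a, l σ a • ξ a) * ζ σ ^ k) := fun l hl => by
          rw [LinearMap.mem_ker, hΨ] at hl
          rw [← sub_eq_zero, ← hl, Finset.mul_sum, ← Finset.sum_sub_distrib]
          refine Finset.sum_congr rfl fun σ _ => ?_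
          rw [tau]
          ring
        have h1 : ∑ s, ∑ s', (C (θ s') - C (θ s)) * ((∑ a, l s a • ξ a) * ζ s ^ k) *
            ((∑ a, l' s' a • ξ a) * ζ s' ^ k) = 0 := by
          have h2 : (∑ σ, (∑ a, l σ a • ξ a) * ζ σ ^ k) *
              (∑ σ, C (θ σ) * ((∑ a, l' σ a • ξ a) * ζ σ ^ k)) -
              (∑ σ, C (θ σ) * ((∑ a, l σ a • ξ a) * ζ σ ^ k)) *
              (∑ σ, (∑ a, l' σ a • ξ a) * ζ σ ^ k) = 0 := by
            rw [← hAB l hl, ← hAB l' hl']
            ring
          rw [← h2, Finset.sum_mul_sum, Finset.sum_mul_sum, ← Finset.sum_sub_distrib]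
          refine Finset.sum_congr rfl fun s _ => ?_
          rw [← Finset.sum_sub_distrib]
          refine Finset.sum_congr rfl fun s' _ => ?_
          ring
        have h2 := congrArg (· * ∏ ρ, ξ ρ ^ k) h1
        simp only [zero_mul] at h2
        rw [← h2, map_sum, Finset.sum_mul]
        refine Finset.sum_congr rfl fun s _ => ?_
        rw [map_sum, Finset.sum_mul]
        refine Finset.sum_congr rfl fun s' _ => ?_
        by_cases hs : s = s'
        · subst hs
          simp only [sub_self, map_zero, zero_mul]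
        rw [← Finset.mul_prod_erase _ _ (Finset.mem_univ s),
          ← Finset.mul_prod_erase (Finset.univ.erase s) _ (show s' ∈ _ by simp [Ne.symm hs])]
        have h3 : ξ s ^ k * ζ s ^ k = 1 := by rw [← mul_pow, hJ.inv, one_pow]
        have h4 : ξ s' ^ k * ζ s' ^ k = 1 := by rw [← mul_pow, hJ.inv, one_pow]
        simp only [map_mul, map_sum, map_smul, map_prod, map_pow, MvPolynomial.aeval_X,
          MvPolynomial.aeval_C, map_sub, MvPowerSeries.algebraMap_apply, Algebra.algebraMap_self,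
          RingHom.id_apply]
        generalize (∑ a, l s a • ξ a) = u
        generalize (∑ a, l' s' a • ξ a) = u'
        generalize (∏ ρ ∈ (Finset.univ.erase s).erase s', ξ ρ ^ k) = w
        linear_combination (-(C (θ s') - C (θ s)) * u * u' * w) * h3 -
          ((C (θ s') - C (θ s)) * u * u' * w * (ξ s ^ k * ζ s ^ k)) * h4
  have h1 := LinearMap.finrank_range_add_finrank_ker Ψ
  have h2 := Submodule.finrank_mono hrange
  rw [Module.finrank_pi_fintype] at h1
  simp only [Module.finrank_fintype_fun_eq_card, Fintype.card_fin, Finset.sum_const,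
    Finset.card_univ, smul_eq_mul] at h1
  nlinarith

end Crest.Agent.R22
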