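import Crest.Agent.R22.Part

/-! # Row 22: a typical point and its pieces -/

set_option autoImplicit false

namespace Crest.Agent.R22

theorem stage_bad {Ω : Type*} [DecidableEq Ω] (𝒳 : Finset Ω) (π₁ π₂ : Ω → Finset Ω)
    (h₁ : IsPart 𝒳 π₁) (h₂ : IsPart 𝒳 π₂) (L : ℕ) :
    L * (𝒳.filter fun x => L * ((π₁ x).image π₂).card * (π₂ x).card < (π₁ x).card).card ≤
      𝒳.card := by
  set bad := 𝒳.filter fun x => L * ((π₁ x).image π₂).card * (π₂ x).card < (π₁ x).card with hbad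
  have e1 : bad.card = ∑ P ∈ 𝒳.image π₁, (bad.filter fun x => π₁ x = P).card :=
    Finset.card_eq_sum_card_fiberwise fun x hx =>
      Finset.mem_image_of_mem _ (Finset.mem_filter.1 hx).1
  have e2 : 𝒳.card = ∑ P ∈ 𝒳.image π₁, (𝒳.filter fun x => π₁ x = P).card :=
    Finset.card_eq_sum_card_fiberwise fun x hx => Finset.mem_image_of_mem _ hx
  rw [e1, e2, Finset.mul_sum]
  refine Finset.sum_le_sum fun P hP => ?_
  obtain ⟨x₀, hx₀, rfl⟩ := Finset.mem_image.1 hP
  have hPle : (π₁ x₀).card ≤ (𝒳.filter fun x => π₁ x = π₁ x₀).card :=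
    Finset.card_le_card fun y hy =>
      Finset.mem_filter.2 ⟨(h₁ x₀ hx₀).2.1 hy, (h₁ x₀ hx₀).2.2 y hy⟩
  refine le_trans ?_ hPle
  set N := ((π₁ x₀).image π₂).card with hN
  have hNpos : 0 < N := Finset.card_pos.2 ⟨_, Finset.mem_image_of_mem _ (h₁ x₀ hx₀).1⟩
  set F := ((π₁ x₀).image π₂).filter fun B => L * N * B.card < (π₁ x₀).card with hF
  have hsub : (bad.filter fun x => π₁ x = π₁ x₀) ⊆ F.biUnion id := by
    intro y hy
    obtain ⟨hy1, hy2⟩ := Finset.mem_filter.1 hy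
    obtain ⟨hy3, hy4⟩ := Finset.mem_filter.1 hy1
    refine Finset.mem_biUnion.2 ⟨π₂ y, Finset.mem_filter.2 ⟨?_, ?_⟩, (h₂ y hy3).1⟩
    · refine Finset.mem_image_of_mem _ ?_
      rw [← hy2]
      exact (h₁ y hy3).1
    · rw [hy2] at hy4
      exact hy4
  have h3 : (bad.filter fun x => π₁ x = π₁ x₀).card ≤ ∑ B ∈ F, B.card :=
    (Finset.card_le_card hsub).trans Finset.card_biUnion_le
  have h4 : L * N * ∑ B ∈ F, B.card ≤ N * (π₁ x₀).card := by
    rw [Finset.mul_sum]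
    calc _ ≤ ∑ _B ∈ F, (π₁ x₀).card :=
          Finset.sum_le_sum fun B hB => (Finset.mem_filter.1 hB).2.le
      _ = F.card * (π₁ x₀).card := by rw [Finset.sum_const, smul_eq_mul]
      _ ≤ _ := Nat.mul_le_mul_right _ (Finset.card_filter_le _ _)
  refine (Nat.mul_le_mul_left L h3).trans (Nat.le_of_mul_le_mul_left ?_ hNpos)
  calc N * (L * ∑ B ∈ F, B.card) = L * N * ∑ B ∈ F, B.card := by ring
    _ ≤ _ := h4

/-- Union bound.  Recipe: `L = card T + 1`.  For fixed `t` call `x` bad if the inequality fails.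
Inside one coarse piece `P` with `N` fine pieces, the bad points form a union of at most `N` fine
pieces, each of size `< |P| / (L N)`, so `L * #bad(P) ≤ |P|`; sum over coarse pieces
(`Finset.card_eq_sum_card_fiberwise`): `L * #bad_t ≤ |𝒳|`.  Then `#⋃ bad_t < |𝒳|`. -/
theorem exists_typical {Ω T : Type*} [DecidableEq Ω] [Fintype T] (𝒳 : Finset Ω)
    (hne : 𝒳.Nonempty) (π₁ π₂ : T → Ω → Finset Ω) (h₁ : ∀ t, IsPart 𝒳 (π₁ t))
    (h₂ : ∀ t, IsPart 𝒳 (π₂ t)) (href : ∀ t, ∀ x ∈ 𝒳, π₂ t x ⊆ π₁ t x) :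
    ∃ x ∈ 𝒳, ∀ t, (π₁ t x).card ≤
      (Fintype.card T + 1) * ((π₁ t x).image (π₂ t)).card * (π₂ t x).card := by
  classical
  by_contra hc
  push Not at hc
  set L := Fintype.card T + 1 with hL
  have hsub : 𝒳 ⊆ Finset.univ.biUnion fun t => 𝒳.filter fun x =>
      L * ((π₁ t x).image (π₂ t)).card * (π₂ t x).card < (π₁ t x).card := by
    intro x hx
    obtain ⟨t, ht⟩ := hc x hx
    exact Finset.mem_biUnion.2 ⟨t, Finset.mem_univ _, Finset.mem_filter.2 ⟨hx, ht⟩⟩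
  have h1 := (Finset.card_le_card hsub).trans Finset.card_biUnion_le
  have h2 := Nat.mul_le_mul_left L h1
  rw [Finset.mul_sum] at h2
  have h3 := h2.trans (Finset.sum_le_sum fun t _ => stage_bad 𝒳 (π₁ t) (π₂ t) (h₁ t) (h₂ t) L)
  rw [Finset.sum_const, smul_eq_mul, Finset.card_univ, hL] at h3
  have h4 := Finset.card_pos.2 hne
  nlinarith

/-- the bound for the number of pieces -/
def stageKb (Kp : ℕ → ℕ) : ℕ → ℕ
  | 0 => Kp 0
  | s + 1 => stageKb Kp s ^ (s + 1) * Kp (s + 1)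

theorem stageKb_eq (Kp : ℕ → ℕ) (s : ℕ) : stageKb Kp s = stageKb Kp (s - 1) ^ s * Kp s := by
  cases s with
  | zero => simp [stageKb]
  | succ s => simp [stageKb]

/-- the recursion, with a fuel parameter -/
def stageW {Ω : Type} [DecidableEq Ω] {L : ℕ → Type} [∀ i, DecidableEq (L i)]
    (lab : ∀ i, Ω → L i) (𝒳 : Finset Ω) (ρ : Finset ℕ → Finset Ω → Ω → Finset Ω) :
    ℕ → Finset ℕ → Ω → Finset Ω
  | 0 => fun _ _ => 𝒳
  | s + 1 => fun Q x => ρ Q (𝒳.filter fun z => (∀ i ∈ Q, lab i z = lab i x) ∧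
      ∀ j ∈ Q, z ∈ stageW lab 𝒳 ρ s (Q.erase j) x) x

theorem stage_rec {Ω : Type} [DecidableEq Ω] {L : ℕ → Type} [∀ i, DecidableEq (L i)]
    (lab : ∀ i, Ω → L i) (𝒳 : Finset Ω) (ρ : Finset ℕ → Finset Ω → Ω → Finset Ω) :
    ∃ Z : Finset ℕ → Ω → Finset Ω, ∀ Q x, Z Q x = ρ Q (𝒳.filter fun z =>
      (∀ i ∈ Q, lab i z = lab i x) ∧ ∀ j ∈ Q, z ∈ Z (Q.erase j) x) x := by
  refine ⟨fun Q => stageW lab 𝒳 ρ (Q.card + 1) Q, fun Q x => ?_⟩
  simp only [stageW]
  congr 1
  refine Finset.filter_congr fun z _ => and_congr_right fun _ => forall₂_congr fun j hj => ?_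
  rw [← Finset.card_erase_add_one hj]
  simp only [stageW]

/-- Abstract recursion over finite sets of indices.  `lab i` is the labelling by the `i`-th
residue class and `Ni Q` the niceness predicate.  Recipe: choose `ρ Q A` from `h`; define by
strong recursion on `Q` (`Finset.strongInduction`, or by recursion on the size with a
coherence-free formulation `∃ Z : Finset ℕ → Ω → Finset Ω, ∀ Q, Q.card ≤ s → ...` for each `s`
followed by well-founded definition)
`Z Q x = ρ Q (base Q x) x`,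
`base Q x = 𝒳.filter fun z => (∀ i ∈ Q, lab i z = lab i x) ∧ ∀ j ∈ Q, z ∈ Z (Q.erase j) x`.
`Kb 0 = Kp 0`, `Kb (s+1) = Kb s ^ (s+1) * Kp (s+1)`: inside a class the base is determined by
the family `(Z (Q.erase j) z)_{j ∈ Q}`. Monotonicity in `Q`: induction on `Q' \ Q`. -/
theorem exists_tower (Kp : ℕ → ℕ) : ∃ Kb : ℕ → ℕ, ∀ {Ω : Type} [DecidableEq Ω]
    {L : ℕ → Type} [∀ i, DecidableEq (L i)] (lab : ∀ i, Ω → L i) (𝒳 : Finset Ω)
    (Ni : Finset ℕ → Finset Ω → Prop),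
    (∀ (Q : Finset ℕ) (A : Finset Ω), A ⊆ 𝒳 → ∃ π, IsPart A π ∧ (A.image π).card ≤ Kp Q.card ∧
      ∀ z ∈ A, Ni Q (π z)) →
    ∃ Z : Finset ℕ → Ω → Finset Ω, (∀ Q, IsPart 𝒳 (Z Q)) ∧
      (∀ Q Q', Q ⊆ Q' → ∀ x ∈ 𝒳, Z Q' x ⊆ Z Q x) ∧
      (∀ Q, ∀ x ∈ 𝒳, ∀ i ∈ Q, ∀ z ∈ Z Q x, lab i z = lab i x) ∧
      (∀ Q, ∀ x ∈ 𝒳, Ni Q (Z Q x)) ∧
      ∀ Q x, ((𝒳.filter fun z => ∀ i ∈ Q, lab i z = lab i x).image (Z Q)).card ≤ Kb Q.card := by
  refine ⟨stageKb Kp, ?_⟩
  intro Ω _ L _ lab 𝒳 Ni h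
  choose! ρ hρ1 hρ2 hρ3 using h
  obtain ⟨Z, hZ⟩ := stage_rec lab 𝒳 ρ
  set base : Finset ℕ → Ω → Finset Ω := fun Q x => 𝒳.filter fun z =>
    (∀ i ∈ Q, lab i z = lab i x) ∧ ∀ j ∈ Q, z ∈ Z (Q.erase j) x with hbase
  have hZ' : ∀ Q x, Z Q x = ρ Q (base Q x) x := hZ
  have hb : ∀ Q x, base Q x ⊆ 𝒳 := fun Q x => Finset.filter_subset _ _
  have hmem : ∀ Q, (∀ j ∈ Q, IsPart 𝒳 (Z (Q.erase j))) → ∀ x ∈ 𝒳, x ∈ base Q x :=
    fun Q ih x hx => Finset.mem_filter.2 ⟨hx, fun _ _ => rfl, fun j hj => (ih j hj x hx).1⟩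
  have hpart : ∀ Q, IsPart 𝒳 (Z Q) := by
    intro Q
    induction Q using Finset.strongInduction with
    | H Q ih =>
      have ih' : ∀ j ∈ Q, IsPart 𝒳 (Z (Q.erase j)) := fun j hj =>
        ih _ (Finset.erase_ssubset hj)
      intro x hx
      have hx' := hρ1 Q _ (hb Q x) x (hmem Q ih' x hx)
      rw [hZ']
      refine ⟨hx'.1, hx'.2.1.trans (hb Q x), fun y hy => ?_⟩
      obtain ⟨-, hy1, hy2⟩ := Finset.mem_filter.1 (hx'.2.1 hy)
      have hbe : base Q y = base Q x := by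
        refine Finset.filter_congr fun z _ => and_congr (forall₂_congr fun i hi => ?_)
          (forall₂_congr fun j hj => ?_)
        · rw [hy1 i hi]
        · rw [(ih' j hj x hx).2.2 y (hy2 j hj)]
      rw [hZ', hbe]
      exact hx'.2.2 y hy
  have hmem' : ∀ Q, ∀ x ∈ 𝒳, x ∈ base Q x := fun Q => hmem Q fun j _ => hpart _
  have hZb : ∀ Q, ∀ x ∈ 𝒳, Z Q x ⊆ base Q x := fun Q x hx => by
    rw [hZ']
    exact (hρ1 Q _ (hb Q x) x (hmem' Q x hx)).2.1
  refine ⟨Z, hpart, ?_, fun Q x hx i hi z hz => (Finset.mem_filter.1 (hZb Q x hx hz)).2.1 i hi,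
    fun Q x hx => ?_, ?_⟩
  · intro Q Q'
    induction Q' using Finset.strongInduction with
    | H Q' ih =>
      intro hQ x hx
      by_cases he : Q' ⊆ Q
      · rw [Finset.Subset.antisymm hQ he]
      · obtain ⟨j, hj, hj'⟩ := Finset.not_subset.1 he
        intro z hz
        exact ih _ (Finset.erase_ssubset hj) (Finset.subset_erase.2 ⟨hQ, hj'⟩) x hx
          ((Finset.mem_filter.1 (hZb Q' x hx hz)).2.2 j hj)
  · rw [hZ']
    exact hρ3 Q _ (hb Q x) x (hmem' Q x hx)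
  · intro Q
    induction Q using Finset.strongInduction with
    | H Q ih =>
      intro x
      set C := 𝒳.filter fun z => ∀ i ∈ Q, lab i z = lab i x with hC
      have h1 : C.image (Z Q) ⊆ (C.image (base Q)).biUnion fun B => B.image (ρ Q B) := by
        intro B hB
        obtain ⟨z, hz, rfl⟩ := Finset.mem_image.1 hB
        refine Finset.mem_biUnion.2 ⟨base Q z, Finset.mem_image_of_mem _ hz, ?_⟩
        rw [hZ']
        exact Finset.mem_image_of_mem _ (hmem' Q z (Finset.mem_filter.1 hz).1)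
      have h2 : C.image (base Q) ⊆ (Q.pi fun j => C.image (Z (Q.erase j))).image
          fun f => 𝒳.filter fun y => (∀ i ∈ Q, lab i y = lab i x) ∧ ∀ j (hj : j ∈ Q), y ∈ f j hj := by
        intro B hB
        obtain ⟨z, hz, rfl⟩ := Finset.mem_image.1 hB
        refine Finset.mem_image.2 ⟨fun j _ => Z (Q.erase j) z,
          Finset.mem_pi.2 fun j _ => Finset.mem_image_of_mem _ hz, ?_⟩
        refine Finset.filter_congr fun y _ => and_congr (forall₂_congr fun i hi => ?_) Iff.rfl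
        rw [(Finset.mem_filter.1 hz).2 i hi]
      have h3 : (C.image (base Q)).card ≤ stageKb Kp (Q.card - 1) ^ Q.card := by
        refine (Finset.card_le_card h2).trans (Finset.card_image_le.trans ?_)
        rw [Finset.card_pi]
        refine Finset.prod_le_pow_card _ _ _ fun j hj => ?_
        rw [← Finset.card_erase_of_mem hj]
        refine le_trans (Finset.card_le_card (Finset.image_subset_image ?_))
          (ih _ (Finset.erase_ssubset hj) x)
        intro y hy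
        obtain ⟨hy1, hy2⟩ := Finset.mem_filter.1 hy
        exact Finset.mem_filter.2 ⟨hy1, fun i hi => hy2 i (Finset.mem_of_mem_erase hi)⟩
      refine (Finset.card_le_card h1).trans ?_
      refine (Finset.card_biUnion_le_card_mul _ _ (Kp Q.card) fun B hB => ?_).trans ?_
      · obtain ⟨z, -, rfl⟩ := Finset.mem_image.1 hB
        exact hρ2 Q _ (hb Q z)
      · rw [stageKb_eq]
        exact Nat.mul_le_mul_right _ h3

/-- Recipe: `Kp s` from `exists_nice_partition d r s`, `exists_tower` with `lab i = cls c (q i)`,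
`Ni Q = Nice c H r (Q.image q)`; `exists_typical` with
`T = Option ((range r).powerset × Fin r)`: for `none` the coarse partition is `fun _ => 𝒳` and
the fine one `Z ∅`; for `(Q, i)` they are `Z Q` and `Z (insert i Q)`.  The number of fine pieces
in `Z Q x` is at most (number of `q i`-classes met) `* Kb (insert i Q).card`.
`K = (card T + 1) * sup_{s ≤ r} Kb s`. -/
theorem stage (d r : ℕ) : ∃ K : ℕ, ∀ (c : Fin d) (H : ℕ), 1 ≤ H → ∀ (q : ℕ → ℕ)
    (𝒳 : Finset (Pt d)), 𝒳.Nonempty → (∀ z ∈ 𝒳, Ht c H z) →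
    ∃ (x : Pt d) (Y : Finset ℕ → Finset (Pt d)), (∀ Q, x ∈ Y Q) ∧ (∀ Q, Y Q ⊆ 𝒳) ∧
      (∀ Q Q', Q ⊆ Q' → Y Q' ⊆ Y Q) ∧
      (∀ Q, ∀ i ∈ Q, ∀ z ∈ Y Q, cls c (q i) z = cls c (q i) x) ∧
      (∀ Q, Nice c H r (Q.image q) (Y Q)) ∧ 𝒳.card ≤ K * (Y ∅).card ∧
      ∀ Q, Q ⊆ Finset.range r → ∀ i < r,
        (Y Q).card ≤ K * ((Y Q).image (cls c (q i))).card * (Y (insert i Q)).card := by
  choose Kp hKp using exists_nice_partition d r
  obtain ⟨Kb, hKb⟩ := exists_tower Kp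
  let T := Option ({Q // Q ∈ (Finset.range r).powerset} × Fin r)
  set M := (Finset.range (r + 1)).sup Kb with hM
  have hMle : ∀ s, s ≤ r → Kb s ≤ M := fun s hs =>
    Finset.le_sup (f := Kb) (Finset.mem_range.2 (Nat.lt_succ_of_le hs))
  refine ⟨(Fintype.card T + 1) * M, fun c H hH q 𝒳 hne hht => ?_⟩
  obtain ⟨Z, hZ1, hZ2, hZ3, hZ4, hZ5⟩ := hKb (L := fun i => Option (Fin d → ZMod (q i)))
    (fun i => cls c (q i)) 𝒳 (fun Q A => Nice c H r (Q.image q) A)
    (fun Q A hA => hKp Q.card c H hH (Q.image q) Finset.card_image_le A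
      fun z hz => hht z (hA hz))
  let π₁ : T → Pt d → Finset (Pt d) := fun t => match t with
    | none => fun _ => 𝒳
    | some p => Z p.1.1
  let π₂ : T → Pt d → Finset (Pt d) := fun t => match t with
    | none => Z ∅
    | some p => Z (insert p.2.1 p.1.1)
  obtain ⟨x, hx, hty⟩ := exists_typical 𝒳 hne π₁ π₂
    (fun t => match t with
      | none => fun y hy => ⟨hy, Finset.Subset.refl _, fun _ _ => rfl⟩
      | some p => hZ1 _)
    (fun t => match t with
      | none => hZ1 _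
      | some p => hZ1 _)
    (fun t => match t with
      | none => fun y hy => (hZ1 _ y hy).2.1
      | some p => fun y hy => hZ2 _ _ (Finset.subset_insert _ _) y hy)
  refine ⟨x, fun Q => Z Q x, fun Q => (hZ1 Q x hx).1, fun Q => (hZ1 Q x hx).2.1,
    fun Q Q' h => hZ2 Q Q' h x hx, fun Q => hZ3 Q x hx, fun Q => hZ4 Q x hx, ?_, ?_⟩
  · refine (hty none).trans (Nat.mul_le_mul_right _ (Nat.mul_le_mul_left _ ?_))
    refine le_trans ?_ ((hZ5 ∅ x).trans (hMle _ (by simp)))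
    refine Finset.card_le_card (Finset.image_subset_image fun y hy => ?_)
    exact Finset.mem_filter.2 ⟨hy, by simp⟩
  · intro Q hQ i hi
    refine (hty (some (⟨Q, Finset.mem_powerset.2 hQ⟩, ⟨i, hi⟩))).trans
      (Nat.mul_le_mul_right _ ?_)
    rw [mul_assoc]
    refine Nat.mul_le_mul_left _ ?_
    change ((Z Q x).image (Z (insert i Q))).card ≤ _
    have h1 : (Z Q x).image (Z (insert i Q)) ⊆ ((Z Q x).image (cls c (q i))).biUnion
        fun κ => ((Z Q x).filter fun y => cls c (q i) y = κ).image (Z (insert i Q)) := by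
      intro B hB
      obtain ⟨y, hy, rfl⟩ := Finset.mem_image.1 hB
      exact Finset.mem_biUnion.2 ⟨_, Finset.mem_image_of_mem _ hy,
        Finset.mem_image_of_mem _ (Finset.mem_filter.2 ⟨hy, rfl⟩)⟩
    refine (Finset.card_le_card h1).trans ?_
    rw [mul_comm]
    refine Finset.card_biUnion_le_card_mul _ _ _ fun κ hκ => ?_
    obtain ⟨y, hy, rfl⟩ := Finset.mem_image.1 hκ
    have hcard : (insert i Q).card ≤ r := by
      have : insert i Q ⊆ Finset.range r :=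
        Finset.insert_subset (Finset.mem_range.2 hi) hQ
      simpa using Finset.card_le_card this
    refine le_trans ?_ ((hZ5 (insert i Q) y).trans (hMle _ hcard))
    refine Finset.card_le_card (Finset.image_subset_image fun z hz => ?_)
    obtain ⟨hz1, hz2⟩ := Finset.mem_filter.1 hz
    refine Finset.mem_filter.2 ⟨(hZ1 Q x hx).2.1 hz1, fun j hj => ?_⟩
    rcases Finset.mem_insert.1 hj with rfl | hj
    · exact hz2
    · rw [hZ3 Q x hx j hj z hz1, hZ3 Q x hx j hj y hy]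

end Crest.Agent.R22
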