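import Crest.Agent.R22.SysB
import Crest.Agent.R22.Stage

/-! # Row 22: the core counting theorem -/

set_option autoImplicit false

open Filter Polynomial

namespace Crest.Agent.R22

theorem Sys.chain {d : ℕ} {g : ℤ[X]} {θ : Fin d → ℂ} {k : ℕ} {γ : ℤ} {c : Fin d} {B : ℕ} {η : ℝ}
    (S : Sys g θ k γ c B η) (hη : 0 ≤ η) (u : ℕ → ℕ) (s₀ : ℕ)
    (h : Le S.H (fun r => ((S.Y ((Finset.range s₀).image u) r).card : ℝ)) 0) :
    ∀ t, t ≤ s₀ → Le S.H (fun r => ((S.Y ((Finset.range (s₀ - t)).image u) r).card : ℝ))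
      (η * ∑ s ∈ Finset.Ico (s₀ - t) s₀, (dimS (S.P ((Finset.range s).image u)) : ℝ)) := by
  intro t
  induction t with
  | zero => intro _; simpa using h
  | succ t ih =>
    intro ht
    have ih' := ih (by omega)
    have e1 : s₀ - t = (s₀ - (t + 1)) + 1 := by omega
    have e2 : (Finset.range (s₀ - t)).image u =
        insert (u (s₀ - (t + 1))) ((Finset.range (s₀ - (t + 1))).image u) := by
      rw [e1, Finset.range_add_one, Finset.image_insert]
    rw [e2] at ih'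
    have := S.le_step hη _ _ _ ih'
    have e3 : ∑ s ∈ Finset.Ico (s₀ - (t + 1)) s₀, (dimS (S.P ((Finset.range s).image u)) : ℝ) =
        (dimS (S.P ((Finset.range (s₀ - (t + 1))).image u)) : ℝ) +
        ∑ s ∈ Finset.Ico (s₀ - t) s₀, (dimS (S.P ((Finset.range s).image u)) : ℝ) := by
      rw [Finset.sum_eq_sum_Ico_succ_bot (by omega : s₀ - (t + 1) < s₀), ← e1]
    rw [e3, mul_add, add_comm (η * _)]
    exact this

theorem Sys.bound {d k : ℕ} (hk : k + 2 = d) (h2 : 2 ≤ k) (h6 : k ≤ 6) :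
    ∃ η κ : ℝ, 0 < η ∧ κ < 1 ∧ ∀ (g : ℤ[X]) (θ : Fin d → ℂ) (γ : ℤ) (c : Fin d) (B : ℕ),
      Roots g θ → γ ≠ 0 → ∀ S : Sys g θ k γ c B η,
        Le S.H (fun r => ((S.X r).card : ℝ)) κ := by
  classical
  obtain ⟨lam₀, hl0, hl1, hcrit, hcritN⟩ := numerics k h2 h6
  have hk1 : (0 : ℝ) < (k : ℝ) + 1 := by positivity
  set δ : ℝ := 1 / ((k : ℝ) + 1) - lam₀ with hδ
  have hδ0 : 0 < δ := by linarith
  set η : ℝ := δ / (2 * (((k : ℝ) + 1) * (((d + 1 : ℕ) : ℝ) + 1))) with hη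
  have hη0 : 0 < η := by positivity
  refine ⟨η, lam₀ + k / ((k : ℝ) + 1) + η * (k + 1) * (((d + 1 : ℕ) : ℝ) + 1), hη0, ?_, ?_⟩
  · have e1 : η * (k + 1) * (((d + 1 : ℕ) : ℝ) + 1) = δ / 2 := by
      rw [hη]; field_simp
    have e2 : (k : ℝ) / ((k : ℝ) + 1) = 1 - 1 / ((k : ℝ) + 1) := by field_simp; ring
    rw [e1, e2]; linarith
  intro g θ γ c B hr hγ S
  obtain ⟨ht, hb, hmono⟩ := exists_height FF (Var d)
  have hcard : Fintype.card (Var d) = d + 1 := by simp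
  obtain ⟨a, ha⟩ := exists_nat_gt (1 / ((k : ℝ) + 1) / η)
  obtain ⟨M, hM, Dr, hDr, hsl⟩ := sliding S.P (fun Q => ht (S.P Q)) (d + 1)
    (fun Q => hcard ▸ hb _ (S.prime Q))
    (fun Q Q' h => by
      rcases (S.P_mono h).lt_or_eq with h' | h'
      · exact (hmono _ _ (S.prime Q) (S.prime Q') h').le
      · simp only [h', le_refl])
    (fun Q Q' h he => by
      rcases (S.P_mono h).lt_or_eq with h' | h'
      · exact absurd he (hmono _ _ (S.prime Q) (S.prime Q') h').ne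
      · exact h') (a + d + 2)
  set u : ℕ → ℕ := fun n => (hM.natEmbedding M n : ℕ) with hu
  have huinj : Function.Injective u := fun x y h =>
    (hM.natEmbedding M).injective (Subtype.ext h)
  have huM : ∀ s, (((Finset.range s).image u : Finset ℕ) : Set ℕ) ⊆ M := by
    intro s x hx
    simp only [Finset.coe_image, Set.mem_image] at hx
    obtain ⟨y, _, rfl⟩ := hx
    exact (hM.natEmbedding M y).2
  have hucard : ∀ s, ((Finset.range s).image u).card = s := fun s => by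
    rw [Finset.card_image_of_injective _ huinj, Finset.card_range]
  set i : ℕ → ℕ := fun s => dimS (S.P ((Finset.range s).image u)) with hi
  have hile : ∀ s, i s ≤ k + 1 := fun s => by
    have := S.dimS_le ((Finset.range s).image u)
    simp only [hi]; omega
  have hstep : ∀ s < a + d + 2, s ∉ Dr → 1 ≤ i s →
      ∃ v, ¬ Crit (i s) v (gam k (i s) v) (η * s) := by
    intro s hs hsD h1
    have := S.det_step hr hγ hk h2 hη0 M hM ((Finset.range s).image u)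
      (fun Q' hQ' hc => hsl s hs hsD Q' _ hQ' (huM s) (by rw [hc, hucard]) (hucard s)) h1
    rwa [hucard] at this
  have h1 : ∀ s < a + d + 2, s ∉ Dr → 1 ≤ i s → η * s ≤ 1 / ((k : ℝ) + 1) := by
    intro s hs hsD h1
    obtain ⟨v, hv⟩ := hstep s hs hsD h1
    by_contra hlt
    exact hv (hcrit _ v _ h1 (hile s) (not_le.1 hlt))
  have h2' : ∀ s < a + d + 2, s ∉ Dr → i s = k + 1 → η * s ≤ lam₀ := by
    intro s hs hsD h1
    obtain ⟨v, hv⟩ := hstep s hs hsD (by omega)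
    by_contra hlt
    rw [h1] at hv
    exact hv (hcritN v _ (not_le.1 hlt))
  -- a non-drop index beyond the thresholds
  obtain ⟨s₀, hs₀, hs₀D⟩ : ∃ s₀ ∈ Finset.Ico a (a + d + 2), s₀ ∉ Dr := by
    by_contra hcon
    push Not at hcon
    have := Finset.card_le_card (show Finset.Ico a (a + d + 2) ⊆ Dr from hcon)
    rw [Nat.card_Ico] at this
    omega
  rw [Finset.mem_Ico] at hs₀
  have hi0 : i s₀ = 0 := by
    by_contra hne
    have := h1 s₀ hs₀.2 hs₀D (by omega)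
    have h3 : (a : ℝ) ≤ s₀ := by exact_mod_cast hs₀.1
    rw [div_lt_iff₀ hη0] at ha
    nlinarith
  have hz := S.zero_dim (by omega) _ hi0
  have hch := S.chain hη0.le u s₀ hz s₀ le_rfl
  rw [Nat.sub_self, Finset.range_zero, Finset.image_empty, ← Finset.range_eq_Ico] at hch
  have hsum := sum_dims_le k (d + 1) s₀ η lam₀ hη0 hl0 i Dr hDr hile
    (fun s hs => h1 s (by omega)) (fun s hs => h2' s (by omega))
  have hK := Le.of_pow_le S.hH S.hK
  have hprod := Le.mul S.hH hK hch (fun r => Nat.cast_nonneg _) (fun r => Nat.cast_nonneg _)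
  rw [zero_add] at hprod
  refine Le.mono S.hH (Le.of_le hprod (Eventually.of_forall fun r => ?_)) hsum
  exact_mod_cast S.card0 r

theorem exists_sys {d k : ℕ} (g : ℤ[X]) (θ : Fin d → ℂ) (γ : ℤ) (c : Fin d) (B : ℕ) (η ε : ℝ)
    (hη : 0 < η) (hε : 0 < ε)
    (h : ∀ H₀ : ℕ, ∃ H, H₀ ≤ H ∧ ∃ 𝒳 : Finset (Pt d), (∀ z ∈ 𝒳, Good g k γ c H z) ∧
      MI θ B 𝒳 ∧ ε * H < 𝒳.card) :
    ∃ S : Sys g θ k γ c B η, ∀ r, ε * S.H r < (S.X r).card := by
  classical
  choose K hK using fun r => stage d r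
  choose H hH 𝒳 hgood hmi hcard using fun r => h (max (r + 1) (K r ^ r))
  have hH1 : ∀ r, r + 1 ≤ H r := fun r => le_trans (le_max_left _ _) (hH r)
  have hH1' : ∀ r, 1 ≤ H r := fun r => le_trans (Nat.le_add_left 1 r) (hH1 r)
  have hpow : ∀ r, (1 : ℝ) ≤ (H r : ℝ) ^ η := fun r =>
    Real.one_le_rpow (by exact_mod_cast hH1' r) hη.le
  have hZ : ∀ r, 1 ≤ ⌈(H r : ℝ) ^ η⌉₊ := fun r => Nat.one_le_iff_ne_zero.2 (by
    have := hpow r
    exact (Nat.ceil_pos.2 (by linarith)).ne')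
  choose q hqinj hq using fun r => exists_primes _ (hZ r)
  have hne : ∀ r, (𝒳 r).Nonempty := fun r => by
    rw [← Finset.card_pos]
    have h0 : (0 : ℝ) ≤ ε * H r := by positivity
    exact_mod_cast lt_of_le_of_lt h0 (hcard r)
  choose x Y hmem hsub hanti hcls hnice hc0 hcS using fun r =>
    hK r c (H r) (hH1' r) (q r) (𝒳 r) (hne r) (fun z hz => (hgood r z hz).ht)
  refine ⟨⟨H, 𝒳, x, fun Q r => Y r Q, q, K, hH1, hgood, hmi, fun Q r => hmem r Q,
    fun Q r => hsub r Q, fun Q Q' r h => hanti r Q Q' h, fun Q r => hcls r Q,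
    fun Q r _ => hnice r Q, hc0, fun Q r => hcS r Q, fun r i => (hq r i).1, hqinj,
    fun r i => ?_, fun r i => ?_, fun r => le_trans (le_max_right _ _) (hH r)⟩, hcard⟩
  · exact le_trans (Nat.le_ceil _) (by exact_mod_cast (hq r i).2.1)
  · have h1 : (q r i : ℝ) ≤ 2 ^ (i + 1) * (⌈(H r : ℝ) ^ η⌉₊ : ℝ) := by
      exact_mod_cast (hq r i).2.2
    have h2 : (⌈(H r : ℝ) ^ η⌉₊ : ℝ) ≤ 2 * (H r : ℝ) ^ η := by
      have := Nat.ceil_lt_add_one (show (0 : ℝ) ≤ (H r : ℝ) ^ η by linarith [hpow r])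
      linarith [hpow r]
    calc (q r i : ℝ) ≤ 2 ^ (i + 1) * (2 * (H r : ℝ) ^ η) :=
          h1.trans (mul_le_mul_of_nonneg_left h2 (by positivity))
      _ = 2 ^ (i + 2) * (H r : ℝ) ^ η := by ring

/-- The core theorem. -/
theorem core {d k : ℕ} (hk : k + 2 = d) (h2 : 2 ≤ k) (h6 : k ≤ 6) (g : ℤ[X]) (θ : Fin d → ℂ)
    (hr : Roots g θ) (γ : ℤ) (hγ : γ ≠ 0) (c : Fin d) (B : ℕ) (ε : ℝ) (hε : 0 < ε) :
    ∃ H₀ : ℕ, ∀ H, H₀ ≤ H → ∀ 𝒳 : Finset (Pt d), (∀ z ∈ 𝒳, Good g k γ c H z) → MI θ B 𝒳 →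
      (𝒳.card : ℝ) ≤ ε * H := by
  by_contra hcon
  push Not at hcon
  obtain ⟨η, κ, hη, hκ, hb⟩ := Sys.bound hk h2 h6
  obtain ⟨S, hS⟩ := exists_sys g θ γ c B η ε hη hε (fun H₀ => by
    obtain ⟨H, hH, 𝒳, h1, h2, h3⟩ := hcon H₀
    exact ⟨H, hH, 𝒳, h1, h2, h3⟩)
  have h1 := hb g θ γ c B hr hγ S
  have h2 := Le.mul S.hH (Le.const S.hH ε⁻¹) h1 (fun _ => by positivity)
    (fun r => Nat.cast_nonneg _)
  have h3 := Le.le_of_rpow_le S.hH (a := 1) h2 (Eventually.of_forall fun r => by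
    rw [Real.rpow_one, ← div_eq_inv_mul, le_div_iff₀ hε, mul_comm]
    exact (hS r).le)
  linarith

end Crest.Agent.R22
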