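import Crest.Agent.R22.Siegel

/-! # Row 22: number of residue classes met by a set of small dimension -/

set_option autoImplicit false

namespace Crest.Agent.R22

open Finset MvPolynomial

section Aux
set_option linter.unusedSectionVars false
variable {𝔽 : Type*} [Field 𝔽] {σ : Type*} [DecidableEq σ]

/-- The one-variable polynomial `a ↦ P (update b v a)`. -/
noncomputable def Cost_U (v : σ) (b : σ → 𝔽) : MvPolynomial σ 𝔽 →ₐ[𝔽] Polynomial 𝔽 :=
  aeval fun w => if w = v then Polynomial.X else Polynomial.C (b w)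

theorem Cost_U_eval (v : σ) (b : σ → 𝔽) (a : 𝔽) (P : MvPolynomial σ 𝔽) :
    (Cost_U v b P).eval a = eval (Function.update b v a) P := by
  induction P using MvPolynomial.induction_on with
  | C c => simp [Cost_U]
  | add p q hp hq => simp only [map_add, Polynomial.eval_add, hp, hq]
  | mul_X p w hp =>
    simp only [map_mul, Polynomial.eval_mul, hp, eval_X]
    congr 1
    by_cases h : w = v
    · subst h; simp [Cost_U]
    · simp [Cost_U, h]

theorem Cost_U_deg (v : σ) (b : σ → 𝔽) (P : MvPolynomial σ 𝔽) :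
    (Cost_U v b P).natDegree ≤ P.totalDegree := by
  have := MvPolynomial.aeval_natDegree_le P le_rfl
    (fun w => if w = v then Polynomial.X else Polynomial.C (b w)) (n := 1) fun w => by
      split_ifs <;> simp
  simpa [Cost_U] using this

theorem Cost_eval_congr {P : MvPolynomial σ 𝔽} {x y : σ → 𝔽} (h : ∀ w ∈ P.vars, x w = y w) :
    eval x P = eval y P :=
  hom_congr_vars (f₁ := eval x) (f₂ := eval y) (by ext; simp) (fun w hw _ => by simp [h w hw]) rfl

theorem Cost_U_const (v : σ) (b : σ → 𝔽) {P : MvPolynomial σ 𝔽} (h : v ∉ P.vars) :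
    Cost_U v b P = Polynomial.C (eval b P) :=
  hom_congr_vars (f₁ := (Cost_U v b : MvPolynomial σ 𝔽 →+* Polynomial 𝔽))
    (f₂ := Polynomial.C.comp (eval b)) (by ext <;> simp [Cost_U])
    (fun w hw _ => by
      have : w ≠ v := fun e => h (e ▸ hw)
      simp [Cost_U, this]) rfl

theorem Cost_div_vars (v : σ) (P : MvPolynomial σ 𝔽) :
    (P.divMonomial (Finsupp.single v 1)).vars ⊆ P.vars := by
  intro w hw
  obtain ⟨m, hm, hw⟩ := (mem_vars_iff_mem_support w).1 hw
  refine (mem_vars_iff_mem_support w).2 ⟨Finsupp.single v 1 + m, ?_, ?_⟩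
  · rwa [mem_support_iff, coeff_divMonomial, ← mem_support_iff] at hm
  · rw [Finsupp.mem_support_iff] at hw ⊢
    simp only [Finsupp.add_apply]
    omega

theorem Cost_div_ne {v : σ} {P : MvPolynomial σ 𝔽} (h : v ∈ P.vars) :
    P.divMonomial (Finsupp.single v 1) ≠ 0 := by
  obtain ⟨m, hm, hv⟩ := (mem_vars_iff_mem_support v).1 h
  have hle : Finsupp.single v 1 ≤ m := by
    rw [Finsupp.single_le_iff]
    exact Nat.one_le_iff_ne_zero.2 (Finsupp.mem_support_iff.1 hv)
  intro h0
  have := coeff_divMonomial (Finsupp.single v 1) P (m - Finsupp.single v 1)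
  rw [h0, add_tsub_cancel_of_le hle, coeff_zero] at this
  exact mem_support_iff.1 hm this.symm

theorem Cost_div_deg {v : σ} {P : MvPolynomial σ 𝔽} (h : v ∈ P.vars) :
    (P.divMonomial (Finsupp.single v 1)).totalDegree < P.totalDegree := by
  obtain ⟨m, hm, he⟩ := Finset.exists_mem_eq_sup _ (support_nonempty.2 (Cost_div_ne h))
    fun s : σ →₀ ℕ => s.sum fun _ e => e
  rw [totalDegree, he]
  rw [mem_support_iff, coeff_divMonomial, ← mem_support_iff] at hm
  have := le_totalDegree hm
  rw [Finsupp.sum_add_index' (fun _ => rfl) (fun _ _ _ => rfl), Finsupp.sum_single_index rfl] at this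
  omega

theorem Cost_mod_vars (v : σ) (P : MvPolynomial σ 𝔽) :
    v ∉ (P.modMonomial (Finsupp.single v 1)).vars := by
  intro h
  obtain ⟨m, hm, hv⟩ := (mem_vars_iff_mem_support v).1 h
  refine mem_support_iff.1 hm (coeff_modMonomial_of_le _ ?_)
  rw [Finsupp.single_le_iff]
  exact Nat.one_le_iff_ne_zero.2 (Finsupp.mem_support_iff.1 hv)

theorem Cost_U_ne (v : σ) (b : σ → 𝔽) (P : MvPolynomial σ 𝔽) (a : 𝔽)
    (h : eval (Function.update b v a) (P.divMonomial (Finsupp.single v 1)) ≠ 0) :
    Cost_U v b P ≠ 0 := by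
  intro h0
  rw [← divMonomial_add_modMonomial_single P v, map_add, map_mul,
    Cost_U_const v b (Cost_mod_vars v P)] at h0
  have hX : Cost_U v b (X v) = Polynomial.X := by simp [Cost_U]
  rw [hX] at h0
  apply h
  rw [← Cost_U_eval]
  have : Cost_U v b (P.divMonomial (Finsupp.single v 1)) = 0 := by
    ext k
    have := congrArg (fun p => Polynomial.coeff p (k + 1)) h0
    simpa using this
  rw [this, Polynomial.eval_zero]

/-- Keep the coordinates in `V`. -/
def Cost_proj (V : Finset σ) (t : σ → 𝔽) : σ → 𝔽 := fun v => if v ∈ V then t v else 0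

theorem Cost_step [DecidableEq (σ → 𝔽)] (e B : ℕ) (V : Finset σ) (T : Finset (σ → 𝔽))
    (hB : ∀ v ∈ V, (T.image (Cost_proj (V.erase v))).card ≤ B) (m : ℕ) :
    ∀ (P : MvPolynomial σ 𝔽) (T' : Finset (σ → 𝔽)), P ≠ 0 → P.vars ⊆ V → P.totalDegree ≤ m →
      P.totalDegree ≤ e → T' ⊆ T → (∀ t ∈ T', eval t P = 0) →
      (T'.image (Cost_proj V)).card ≤ m * e * B := by
  classical
  induction m with
  | zero =>
    intro P T' h0 _ hm _ _ hT
    have hP := totalDegree_eq_zero_iff_eq_C.1 (Nat.le_zero.1 hm)
    have : T' = ∅ := by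
      refine Finset.eq_empty_of_forall_notMem fun t ht => h0 ?_
      have := hT t ht
      rw [hP, eval_C] at this
      rw [hP, this, C_0]
    simp [this]
  | succ m ih =>
    intro P T' h0 hV hm he hT' hT
    rcases P.vars.eq_empty_or_nonempty with hv | ⟨v, hv⟩
    · have hP := vars_eq_empty_iff_eq_C.1 hv
      have : T' = ∅ := by
        refine Finset.eq_empty_of_forall_notMem fun t ht => h0 ?_
        have := hT t ht
        rw [hP, eval_C] at this
        rw [hP, this, C_0]
      simp [this]
    set Q := P.divMonomial (Finsupp.single v 1) with hQ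
    have hQd : Q.totalDegree < P.totalDegree := Cost_div_deg hv
    have hQV : Q.vars ⊆ V := (Cost_div_vars v P).trans hV
    have h1 := ih Q (T'.filter fun t => eval t Q = 0) (Cost_div_ne hv) hQV (by omega) (by omega)
      ((filter_subset _ _).trans hT') fun t ht => (mem_filter.1 ht).2
    have hup : ∀ t : σ → 𝔽, ∀ w ∈ V,
        Function.update (Cost_proj (V.erase v) (Cost_proj V t)) v (t v) w = t w := by
      intro t w hw
      by_cases h : w = v
      · subst h; simp
      · simp [Function.update_of_ne h, Cost_proj, h, hw]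
    have h2 : ((T'.filter fun t => ¬ eval t Q = 0).image (Cost_proj V)).card ≤
        e * (T.image (Cost_proj (V.erase v))).card := by
      refine card_le_mul_card_image_of_maps_to (f := Cost_proj (V.erase v)) ?_ e ?_
      · intro x hx
        obtain ⟨t, ht, rfl⟩ := mem_image.1 hx
        refine mem_image.2 ⟨t, hT' (mem_filter.1 ht).1, funext fun w => ?_⟩
        by_cases h : w ∈ V.erase v
        · simp only [Cost_proj, if_pos h, if_pos (mem_of_mem_erase h)]
        · simp only [Cost_proj, if_neg h]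
      · intro b _
        rcases (((T'.filter fun t => ¬ eval t Q = 0).image (Cost_proj V)).filter
          fun a => Cost_proj (V.erase v) a = b).eq_empty_or_nonempty with h | ⟨x₀, hx₀⟩
        · rw [h]; simp
        obtain ⟨hx₀, hb⟩ := mem_filter.1 hx₀
        obtain ⟨t₀, ht₀, rfl⟩ := mem_image.1 hx₀
        have hU : Cost_U v b P ≠ 0 := Cost_U_ne v b P (t₀ v) (by
          rw [← hb, Cost_eval_congr fun w hw => hup t₀ w (hQV hw)]
          exact (mem_filter.1 ht₀).2)
        refine le_trans (card_le_card_of_injOn (t := (Cost_U v b P).roots.toFinset)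
          (fun x => x v) ?_ ?_) ?_
        · intro x hx
          obtain ⟨hx, hxb⟩ := mem_filter.1 (mem_coe.1 hx)
          obtain ⟨t, ht, rfl⟩ := mem_image.1 hx
          rw [mem_coe, Multiset.mem_toFinset, Polynomial.mem_roots hU, Polynomial.IsRoot,
            Cost_U_eval, ← hxb]
          have : Cost_proj V t v = t v := if_pos (hV hv)
          beta_reduce
          rw [this, Cost_eval_congr fun w hw => hup t w (hV hw)]
          exact hT t (mem_filter.1 ht).1
        · intro x hx y hy hxy
          obtain ⟨hx, hxb⟩ := mem_filter.1 (mem_coe.1 hx)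
          obtain ⟨hy, hyb⟩ := mem_filter.1 (mem_coe.1 hy)
          obtain ⟨t, -, rfl⟩ := mem_image.1 hx
          obtain ⟨t', -, rfl⟩ := mem_image.1 hy
          funext w
          by_cases h : w = v
          · subst h; exact hxy
          · by_cases hw : w ∈ V
            · have := congrFun (hxb.trans hyb.symm) w
              simpa [Cost_proj, h, hw] using this
            · simp [Cost_proj, hw]
        · exact (Multiset.toFinset_card_le _).trans ((Polynomial.card_roots' _).trans
            ((Cost_U_deg v b P).trans he))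
    have h3 : T'.image (Cost_proj V) = (T'.filter fun t => eval t Q = 0).image (Cost_proj V) ∪
        (T'.filter fun t => ¬ eval t Q = 0).image (Cost_proj V) := by
      rw [← image_union, filter_union_filter_not_eq]
    rw [h3]
    refine (card_union_le _ _).trans ?_
    have h4 := Nat.mul_le_mul_left e (hB v (hV hv))
    calc _ ≤ m * e * B + e * B := Nat.add_le_add h1 (h2.trans h4)
      _ = (m + 1) * e * B := by ring

theorem Cost_main [Fintype 𝔽] [DecidableEq (σ → 𝔽)] (i e : ℕ) (T : Finset (σ → 𝔽))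
    (h : ∀ J : Finset σ, J.card = i + 1 → ∃ P : MvPolynomial σ 𝔽, P ≠ 0 ∧
      P.vars ⊆ J ∧ P.totalDegree ≤ e ∧ ∀ t ∈ T, eval t P = 0) (n : ℕ) :
    ∀ V : Finset σ, V.card = n →
      (T.image (Cost_proj V)).card ≤ (e ^ 2 + 1) ^ n * Fintype.card 𝔽 ^ i := by
  classical
  have small : ∀ V : Finset σ, V.card ≤ i →
      (T.image (Cost_proj V)).card ≤ Fintype.card 𝔽 ^ i := by
    intro V hV
    have h1 : (T.image (Cost_proj V)).card ≤ (univ : Finset (V → 𝔽)).card := by
      refine card_le_card_of_injOn (fun x (v : V) => x v) (fun _ _ => mem_coe.2 (mem_univ _)) ?_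
      intro x hx y hy hxy
      obtain ⟨t, -, rfl⟩ := mem_image.1 (mem_coe.1 hx)
      obtain ⟨t', -, rfl⟩ := mem_image.1 (mem_coe.1 hy)
      funext w
      by_cases hw : w ∈ V
      · exact congrFun hxy ⟨w, hw⟩
      · simp [Cost_proj, hw]
    rw [card_univ, Fintype.card_fun, Fintype.card_coe] at h1
    exact h1.trans (Nat.pow_le_pow_right Fintype.card_pos hV)
  induction n with
  | zero =>
    intro V hV
    simpa using small V (by omega)
  | succ n ih =>
    intro V hV
    by_cases hi : V.card ≤ i
    · exact (small V hi).trans (Nat.le_mul_of_pos_left _ (by positivity))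
    obtain ⟨J, hJV, hJ⟩ := exists_subset_card_eq (show i + 1 ≤ V.card by omega)
    obtain ⟨P, h0, hP, he, hT⟩ := h J hJ
    have := Cost_step e ((e ^ 2 + 1) ^ n * Fintype.card 𝔽 ^ i) V T
      (fun v hv => ih _ (by rw [card_erase_of_mem hv, hV]; rfl)) e P T h0 (hP.trans hJV) he he
      subset_rfl hT
    refine this.trans ?_
    rw [pow_succ' (e ^ 2 + 1), mul_assoc (e ^ 2 + 1)]
    exact Nat.mul_le_mul_right _ (by nlinarith)

end Aux

/-- Recipe: prove, by induction on `V.card`, for all `V : Finset (Fin d)` and `T` with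
`t v = 0` for `t ∈ T`, `v ∉ V` and the hypothesis for `J ⊆ V`, the bound
`(e^2+1)^V.card * q^i`.  If `V.card ≤ i` restrict to `V`.  Otherwise take `J ⊆ V` of size `i+1`
and show by strong induction on the total degree `m ≤ e` of a nonzero `P` with `vars ⊆ V`
vanishing on `T' ⊆ T` that `|T'| ≤ m * e * (e^2+1)^(V.card-1) * q^i`: if `T'` is nonempty, `P` is
not constant; pick `v ∈ vars P`, let `P_r` be the leading coefficient of `P` in `X v`
(e.g. `∑ m ∈ support with m v = r, monomial (m.erase v) (coeff m)`, `r = degreeOf v P ≥ 1`), of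
total degree `< m`.  Where `P_r ≠ 0` the projection `t ↦ Function.update t v 0` has fibres of
size `≤ r ≤ e` (roots of a nonzero one-variable polynomial) and its image of `T` satisfies the
hypothesis for `V.erase v`. -/
theorem card_le_of_dep {𝔽 : Type*} [Field 𝔽] [Fintype 𝔽] {d : ℕ} (i e : ℕ)
    (T : Finset (Fin d → 𝔽))
    (h : ∀ J : Finset (Fin d), J.card = i + 1 → ∃ P : MvPolynomial (Fin d) 𝔽, P ≠ 0 ∧
      P.vars ⊆ J ∧ P.totalDegree ≤ e ∧ ∀ t ∈ T, MvPolynomial.eval t P = 0) :
    T.card ≤ (e ^ 2 + 1) ^ d * Fintype.card 𝔽 ^ i := by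
  classical
  have h1 := Cost_main i e T h d univ (by simp)
  have h2 : T.image (Cost_proj univ) = T := by
    have : (Cost_proj univ : (Fin d → 𝔽) → Fin d → 𝔽) = id := by
      funext t v; simp [Cost_proj]
    rw [this, image_id]
  rwa [h2] at h1

/-- A polynomial in the variables `s_j` comes from `MvPolynomial (Fin d)`
(`MvPolynomial.exists_rename_eq_of_vars_subset_range`). -/
theorem exists_rename_some {R : Type*} [CommRing R] {d : ℕ} (J : Finset (Fin d))
    (P : MvPolynomial (Var d) R) (hP : P.vars ⊆ sv J) :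
    ∃ P' : MvPolynomial (Fin d) R, MvPolynomial.rename some P' = P ∧ P'.vars ⊆ J ∧
      P'.totalDegree = P.totalDegree := by
  classical
  obtain ⟨P', rfl⟩ := exists_rename_eq_of_vars_subset_range P (some : Fin d → Var d)
    (Option.some_injective _) fun v hv => by
      obtain ⟨j, -, rfl⟩ := mem_map.1 (hP (mem_coe.1 hv))
      exact ⟨j, rfl⟩
  refine ⟨P', rfl, fun j hj => ?_, ?_⟩
  · have : some j ∈ (rename (some : Fin d → Var d) P').vars := by
      rw [mem_vars_iff_degreeOf_ne_zero] at hj ⊢
      rwa [degreeOf_rename_of_injective (Option.some_injective _)]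
    obtain ⟨j', hj', he⟩ := mem_map.1 (hP this)
    have : j' = j := Option.some_injective _ he
    exact this ▸ hj'
  · rw [totalDegree, totalDegree, support_rename_of_injective (Option.some_injective _),
      sup_image]
    refine sup_congr rfl fun m _ => ?_
    exact (Finsupp.sum_mapDomain_index (h := fun _ e => e) (fun _ => rfl) fun _ _ _ => rfl).symm

/-- Recipe: `exists_poly_mod`, `exists_rename_some`, `card_le_of_dep` over `ZMod q`; one extra
class `none`. -/
theorem card_cls_le {d : ℕ} (c : Fin d) (H : ℕ) (hH : 1 ≤ H) (Y : Finset (Pt d))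
    (hY : ∀ z ∈ Y, Ht c H z) (q : ℕ) (hq : q.Prime) (i e : ℕ)
    (h : ∀ J : Finset (Fin d), J.card = i + 1 → DepC c Y (sv J) e) :
    (Y.image (cls c q)).card ≤ ((e ^ 2 + 1) ^ d + 1) * q ^ i := by
  classical
  have : Fact q.Prime := ⟨hq⟩
  set T : Finset (Fin d → ZMod q) := (Y.filter fun z => ¬ (q : ℤ) ∣ z.a c).image
    fun z i => co (ZMod q) c z (some i) with hT
  have h1 := card_le_of_dep i e T fun J hJ => by
    obtain ⟨P, h0, hP, he, hv⟩ := exists_poly_mod c H hH Y hY (sv J) e (h J hJ) q hq
    obtain ⟨P', rfl, hP', he'⟩ := exists_rename_some J P hP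
    refine ⟨P', fun h' => h0 (by rw [h', map_zero]), hP', he' ▸ he, fun t ht => ?_⟩
    obtain ⟨z, hz, rfl⟩ := mem_image.1 ht
    have := hv z (mem_filter.1 hz).1 (mem_filter.1 hz).2
    rwa [eval_rename] at this
  rw [ZMod.card] at h1
  have h2 : Y.image (cls c q) ⊆ insert none (T.image some) := by
    intro x hx
    obtain ⟨z, hz, rfl⟩ := mem_image.1 hx
    unfold cls
    split_ifs with hd
    · exact mem_insert_self _ _
    · exact mem_insert_of_mem (mem_image.2 ⟨_, mem_image.2 ⟨z, mem_filter.2 ⟨hz, hd⟩, rfl⟩, rfl⟩)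
  have h3 := (card_le_card h2).trans ((card_insert_le _ _).trans
    (Nat.add_le_add_right card_image_le 1))
  have h4 : 1 ≤ q ^ i := Nat.one_le_pow _ _ hq.pos
  rw [add_mul, one_mul]
  omega

/-- Dimension zero.  Recipe: each `s_j` takes at most `e` values on `Y` (roots of a nonzero
one-variable polynomial), so the vector `s` takes at most `e^d` values; two points with the same
`s` have proportional `a`, hence are `MRel`-related for `e = Pi.single 0 1`, `e' = Pi.single 1 1`
(`a' _ * a_c = a _ * a'_c`), so each fibre has at most `B` points. -/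
theorem card_le_of_dim_zero {d : ℕ} (hd : 2 ≤ d) (c : Fin d) (θ : Fin d → ℂ) (B : ℕ)
    (𝒳 Y : Finset (Pt d)) (hmi : MI θ B 𝒳) (hY : Y ⊆ 𝒳) (hc : ∀ z ∈ Y, z.a c ≠ 0) (e : ℕ)
    (h : ∀ j : Fin d, DepC c Y (sv {j}) e) : Y.card ≤ e ^ d * B := by
  classical
  have key : ∀ j : Fin d, ∃ R : Finset ℂ, R.card ≤ e ∧ ∀ z ∈ Y, co ℂ c z (some j) ∈ R := by
    intro j
    obtain ⟨P, h0, hP, he, hv⟩ := h j
    have hP' : ∀ w ∈ P.vars, w = some j := fun w hw => by
      obtain ⟨j', hj', rfl⟩ := mem_map.1 (hP hw)
      rw [mem_singleton.1 hj']; rfl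
    have hU : Cost_U (some j) (fun _ => 0) P ≠ 0 := by
      intro hU
      have h1 : ((Polynomial.aeval (X (some j) : MvPolynomial (Var d) ℂ)).comp
          (Cost_U (some j) fun _ => 0)) P = P :=
        hom_congr_vars (f₁ := (((Polynomial.aeval (X (some j) : MvPolynomial (Var d) ℂ)).comp
          (Cost_U (some j) fun _ => 0) : MvPolynomial (Var d) ℂ →ₐ[ℂ] MvPolynomial (Var d) ℂ) :
            MvPolynomial (Var d) ℂ →+* MvPolynomial (Var d) ℂ)) (f₂ := RingHom.id _)
          (by ext1 a; simp [Cost_U]) (fun w hw _ => by rw [hP' w hw]; simp [Cost_U]) rfl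
      rw [AlgHom.comp_apply, hU, map_zero] at h1
      exact h0 h1.symm
    refine ⟨(Cost_U (some j) (fun _ => 0) P).roots.toFinset, (Multiset.toFinset_card_le _).trans
      ((Polynomial.card_roots' _).trans ((Cost_U_deg _ _ P).trans he)), fun z hz => ?_⟩
    rw [Multiset.mem_toFinset, Polynomial.mem_roots hU, Polynomial.IsRoot, Cost_U_eval,
      Cost_eval_congr (y := co ℂ c z) fun w hw => by rw [hP' w hw, Function.update_self]]
    exact hv z hz
  choose R hR hRY using key
  have h1 : Y.card ≤ B * (Fintype.piFinset R).card := by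
    refine card_le_mul_card_image_of_maps_to (f := fun z j => co ℂ c z (some j))
      (fun z hz => Fintype.mem_piFinset.2 fun j => hRY j z hz) B fun b _ => ?_
    rcases (Y.filter fun z => (fun j => co ℂ c z (some j)) = b).eq_empty_or_nonempty with
      h | ⟨z₀, hz₀⟩
    · rw [h]; simp
    obtain ⟨hz₀, hb⟩ := mem_filter.1 hz₀
    let i0 : Fin d := ⟨0, by omega⟩
    let i1 : Fin d := ⟨1, by omega⟩
    have h01 : i0 ≠ i1 := by simp [i0, i1]
    have hne : (Pi.single i0 1 : Fin d → ℕ) ≠ Pi.single i1 1 := fun h' => by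
      have := congrFun h' i0
      simp [h01] at this
    refine le_trans (card_le_card fun z hz => ?_)
      (hmi (Pi.single i0 1) (Pi.single i1 1) hne (by simp) z₀ (hY hz₀))
    obtain ⟨hz, hzb⟩ := mem_filter.1 hz
    refine mem_filter.2 ⟨hY hz, ?_⟩
    have hp : ∀ (f : Fin d → ℂ) (k : Fin d), ∏ s, f s ^ (Pi.single k 1 : Fin d → ℕ) s = f k := by
      intro f k
      rw [prod_eq_single k (fun s _ hs => by simp [hs]) (by simp)]
      simp
    have hpi : ∀ y ∈ Y, (fun j => co ℂ c y (some j)) = b → ∀ t, y.pi t = y.a c * cj b t := by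
      intro y hy hyb t
      rw [← hyb]
      have : (y.a c : ℂ) ≠ 0 := by exact_mod_cast hc y hy
      simp only [Pt.pi, cj, co, Ring.inverse_eq_inv', mul_sum]
      refine sum_congr rfl fun s _ => ?_
      field_simp
    unfold MRel
    rw [hp (fun s => z₀.pi (θ s)), hp (fun s => z₀.pi (θ s)), hp (fun s => z.pi (θ s)),
      hp (fun s => z.pi (θ s))]
    simp only [hpi z₀ hz₀ hb, hpi z hz hzb]
    ring
  rw [mul_comm]
  refine h1.trans (Nat.mul_le_mul_left _ ?_)
  rw [Fintype.card_piFinset]
  simpa using prod_le_pow_card univ (fun j => (R j).card) e fun j _ => hR j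

end Crest.Agent.R22
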