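import Crest.Agent.R22.Defs

/-! # Row 22: counting lattice points in simplices -/

set_option autoImplicit false

namespace Crest.Agent.R22

/-- Exponent vectors of total degree `≤ m`. -/
def simplex (ι : Type*) [Fintype ι] [DecidableEq ι] (m : ℕ) : Finset (ι → ℕ) :=
  (Finset.range (m + 1)).biUnion fun l => Finset.piAntidiag Finset.univ l

theorem mem_simplex {ι : Type*} [Fintype ι] [DecidableEq ι] {m : ℕ} {α : ι → ℕ} :
    α ∈ simplex ι m ↔ ∑ j, α j ≤ m := by
  simp [simplex]

/-- Recipe: `Finset.card_finsuppAntidiag_nat_eq_choose` / `Sym.card_sym_eq_choose` or induction. -/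
theorem card_piAntidiag_univ {ι : Type*} [Fintype ι] [DecidableEq ι] {n : ℕ}
    (h : Fintype.card ι = n + 1) (m : ℕ) :
    (Finset.piAntidiag (Finset.univ : Finset ι) m).card = (m + n).choose n := by
  have h1 := Finset.card_finsuppAntidiag_nat_eq_choose (s := (Finset.univ : Finset ι)) m
  rw [Finset.finsuppAntidiag, Finset.card_map, Finset.card_attach, Finset.card_univ, h] at h1
  rw [h1, show n + 1 + m - 1 = m + n by omega, Nat.choose_symm_add]

/-- Recipe: bijection with `piAntidiag univ m` on `Option ι` (slack variable), or hockey stick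
`Finset.sum_range_choose..`/`Nat.sum_range_add_choose` (treat `card ι = 0` apart). -/
theorem card_simplex (ι : Type*) [Fintype ι] [DecidableEq ι] (m : ℕ) :
    (simplex ι m).card = (m + Fintype.card ι).choose (Fintype.card ι) := by
  rw [← card_piAntidiag_univ (ι := Option ι) (by simp) m]
  refine Finset.card_nbij' (fun α o => o.elim (m - ∑ j, α j) α) (fun β j => β (some j))
    (fun α hα => ?_) (fun β hβ => ?_) (fun α _ => rfl) fun β hβ => ?_
  · have := mem_simplex.1 (Finset.mem_coe.1 hα)
    simp only [Finset.mem_coe, Finset.mem_piAntidiag, Fintype.sum_option, Option.elim,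
      Finset.mem_univ, implies_true, and_true]
    omega
  · have := (Finset.mem_piAntidiag.1 (Finset.mem_coe.1 hβ)).1
    rw [Fintype.sum_option] at this
    exact Finset.mem_coe.2 (mem_simplex.2 (this ▸ Nat.le_add_left _ _))
  · have := (Finset.mem_piAntidiag.1 (Finset.mem_coe.1 hβ)).1
    rw [Fintype.sum_option] at this
    funext o
    cases o with
    | none => simp only [Option.elim]; omega
    | some j => rfl

/-- `(m+n).choose n = (m+1)...(m+n)/n! ≥ m^n/n!` (`Nat.pow_le_choose`, or ascFactorial). -/
theorem pow_div_factorial_le_choose (m n : ℕ) :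
    (m : ℝ) ^ n / (n.factorial : ℝ) ≤ ((m + n).choose n : ℝ) := by
  refine le_trans ?_ (Nat.pow_le_choose (α := ℝ) n (m + n))
  rw [show m + n + 1 - n = m + 1 by omega]
  push_cast
  gcongr
  linarith

/-- Finitely supported exponents of degree `≤ m`. -/
noncomputable def degLE (i m : ℕ) : Finset (Fin i →₀ ℕ) :=
  (simplex (Fin i) m).map Finsupp.equivFunOnFinite.symm.toEmbedding

theorem mem_degLE {i m : ℕ} {α : Fin i →₀ ℕ} : α ∈ degLE i m ↔ α.degree ≤ m := by
  rw [degLE, Finset.mem_map_equiv, mem_simplex, Finsupp.degree_eq_sum]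
  rfl

theorem card_degLE (i m : ℕ) : (degLE i m).card = (m + i).choose i := by
  rw [degLE, Finset.card_map, card_simplex, Fintype.card_fin]

/-- Finitely supported exponents of degree exactly `m`. -/
noncomputable def degEq (i m : ℕ) : Finset (Fin i →₀ ℕ) :=
  (Finset.piAntidiag (Finset.univ : Finset (Fin i)) m).map
    Finsupp.equivFunOnFinite.symm.toEmbedding

theorem mem_degEq {i m : ℕ} {α : Fin i →₀ ℕ} : α ∈ degEq i m ↔ α.degree = m := by
  rw [degEq, Finset.mem_map_equiv, Finset.mem_piAntidiag, Finsupp.degree_eq_sum]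
  simp

theorem card_degEq (n m : ℕ) : (degEq (n + 1) m).card = (m + n).choose n := by
  rw [degEq, Finset.card_map, card_piAntidiag_univ (Fintype.card_fin _)]

end Crest.Agent.R22
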