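import Crest.Agent.R22.Count

/-! # Row 22: divisibility of determinants and an abstract Hensel lemma -/

set_option autoImplicit false

open Polynomial

namespace Crest.Agent.R22

theorem pow_dvd_det_aux {n N : ℕ} {κ : Type*} (A : Finset κ) (q : ℤ) (w : κ → ℕ)
    (cf : Fin n → κ → ℤ) (u : κ → Fin n → ℤ)
    (hN : ∀ φ : Fin n → κ, (∀ h, φ h ∈ A) → Function.Injective φ → N ≤ ∑ h, w (φ h)) :
    q ^ N ∣ Matrix.det (Matrix.of fun h => ∑ t ∈ A, (cf h t * q ^ w t) • u t) := by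
  classical
  have h1 := (Matrix.detRowAlternating (n := Fin n) (R := ℤ)).toMultilinearMap.map_sum_finset
    (fun h t => (cf h t * q ^ w t) • u t) (fun _ => A)
  have h2 : Matrix.det (Matrix.of fun h => ∑ t ∈ A, (cf h t * q ^ w t) • u t) = _ := h1
  rw [h2]
  refine Finset.dvd_sum fun φ hφ => ?_
  rw [MultilinearMap.map_smul_univ]
  by_cases hi : Function.Injective φ
  · refine Dvd.dvd.mul_right ?_ _
    rw [Finset.prod_mul_distrib, Finset.prod_pow_eq_pow_sum]
    exact Dvd.dvd.mul_left (pow_dvd_pow q (hN φ (Fintype.mem_piFinset.1 hφ) hi)) _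
  · have : (Matrix.detRowAlternating (n := Fin n) (R := ℤ)).toMultilinearMap
        (fun h => u (φ h)) = 0 :=
      (Matrix.detRowAlternating (n := Fin n) (R := ℤ)).map_eq_zero_of_not_injective _
        fun hu => hi (Function.Injective.of_comp (f := u) hu)
    rw [this, smul_zero]
    exact dvd_zero _

theorem pow_dvd_det_count {n T : ℕ} {κ : Type*} (w : κ → ℕ) (φ : Fin n → κ)
    (c : ℕ → ℕ) (hc : ∀ τ < T, (Finset.univ.filter fun h => w (φ h) ≤ τ).card ≤ c τ) :
    ∑ τ ∈ Finset.range T, (n - c τ) ≤ ∑ h, w (φ h) := by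
  calc ∑ τ ∈ Finset.range T, (n - c τ)
      ≤ ∑ τ ∈ Finset.range T, ∑ h, if τ < w (φ h) then 1 else 0 := by
        refine Finset.sum_le_sum fun τ hτ => ?_
        have h1 := hc τ (Finset.mem_range.1 hτ)
        have h2 := Finset.card_filter_add_card_filter_not (s := Finset.univ)
          fun h => w (φ h) ≤ τ
        rw [Finset.card_univ, Fintype.card_fin] at h2
        rw [← Finset.card_filter]
        simp only [not_le] at h2
        omega
    _ ≤ ∑ h, w (φ h) := by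
        rw [Finset.sum_comm]
        refine Finset.sum_le_sum fun h _ => ?_
        rw [← Finset.card_filter]
        refine (Finset.card_le_card (t := Finset.range (w (φ h))) fun τ hτ => ?_).trans
          (Finset.card_range _).le
        exact Finset.mem_range.2 (Finset.mem_filter.1 hτ).2

/-- Recipe.  Absorb the errors: index set `ι' = s ⊕ Fin n`, the row `h` of `M` is
`∑ t, cf' h t • v' t` with `v' (inr h') = (error row h')`, divisible by `q^T`, `cf' h (inr h') =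
δ`, weight `w' (inr _) = T`.  Expand the determinant multilinearly in the rows
(`Matrix.detRowAlternating.toMultilinearMap.map_sum`): `det M = ∑ φ : Fin n → ι',
(∏ cf' h (φ h)) * det (v' ∘ φ)`.  The term vanishes unless `φ` is injective
(`Matrix.det_zero_of_row_eq`), and is divisible by `q ^ ∑ h, w' (φ h)` (`Matrix.det_mul_row`-type
or `Finset.prod_dvd..` in the Leibniz formula), where
`∑ h, w' (φ h) ≥ ∑ τ < T, #{h | τ < w' (φ h)} ≥ ∑ τ < T, (n - #{t ∈ s | w t ≤ τ})`. -/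
theorem pow_dvd_det {n T : ℕ} {ι : Type*} (s : Finset ι) (q : ℤ) (w : ι → ℕ)
    (M : Matrix (Fin n) (Fin n) ℤ) (cf : Fin n → ι → ℤ) (v : ι → Fin n → ℤ)
    (hv : ∀ t ∈ s, ∀ m, q ^ w t ∣ v t m)
    (hM : ∀ h m, q ^ T ∣ M h m - ∑ t ∈ s, cf h t * v t m) :
    q ^ (∑ τ ∈ Finset.range T, (n - (s.filter fun t => w t ≤ τ).card)) ∣ M.det := by
  classical
  have hv' : ∀ t m, ∃ x : ℤ, t ∈ s → v t m = q ^ w t * x := fun t m => by
    by_cases ht : t ∈ s
    · obtain ⟨x, hx⟩ := hv t ht m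
      exact ⟨x, fun _ => hx⟩
    · exact ⟨0, fun h => absurd h ht⟩
  choose u hu using hv'
  choose u' hu' using hM
  have key := pow_dvd_det_aux (N := ∑ τ ∈ Finset.range T, (n - (s.filter fun t => w t ≤ τ).card))
    (s.disjSum (Finset.univ : Finset (Fin n))) q (Sum.elim w fun _ => T)
    (fun h => Sum.elim (cf h) fun h' => if h = h' then 1 else 0) (Sum.elim u u')
    fun φ hφ hi => pow_dvd_det_count _ φ _ fun τ hτ => by
      rw [← Finset.card_map (⟨Sum.inl, Sum.inl_injective⟩ : ι ↪ ι ⊕ Fin n)]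
      refine Finset.card_le_card_of_injOn φ (fun h hh => ?_) hi.injOn
      have h1 := (Finset.mem_filter.1 (Finset.mem_coe.1 hh)).2
      have h2 := hφ h
      rcases hφ' : φ h with t | h'
      · rw [hφ'] at h1 h2
        exact Finset.mem_coe.2 (Finset.mem_map.2 ⟨t, Finset.mem_filter.2
          ⟨Finset.inl_mem_disjSum.1 h2, h1⟩, rfl⟩)
      · rw [hφ'] at h1
        exact absurd h1 (not_le.2 hτ)
  convert key using 2
  ext h m
  rw [Matrix.of_apply, Finset.sum_apply, Finset.sum_disjSum]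
  simp only [Sum.elim_inl, Sum.elim_inr, Pi.smul_apply, smul_eq_mul, ite_mul, one_mul, zero_mul,
    Finset.sum_ite_eq, Finset.mem_univ, if_true]
  rw [← hu', Finset.sum_congr rfl fun t ht => by rw [mul_assoc, ← hu t m ht]]
  ring

/-- Evaluation at a point of a subalgebra of functions. -/
def evAt {O Z : Type*} [CommRing O] (ℰ : Subalgebra O (Z → O)) (y : Z) : ℰ →+* O :=
  (Pi.evalRingHom (fun _ => O) y).comp ℰ.val.toRingHom

@[simp] theorem evAt_apply {O Z : Type*} [CommRing O] (ℰ : Subalgebra O (Z → O)) (y : Z)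
    (f : ℰ) : evAt ℰ y f = f.1 y := rfl

/-- Newton iteration inside `ℰ`.  Recipe: by induction on `m` find `f ∈ ℰ` with
`f y - ψ y ∈ 𝔮^(m+1)` for all `y`: start with the constant `c₀`, step `f - u⁻¹ • p.eval f`;
`Polynomial.binomExpansion` (or `evalSubFactor`/`aeval_add_of_sq_eq_zero`-free Taylor formula)
gives `p_y(f y) = p_y'(ψ y) (f y - ψ y) + k (f y - ψ y)^2`. -/
theorem hensel_mem {O Z : Type*} [CommRing O] (𝔮 : Ideal O) (T : ℕ) (h𝔮 : 𝔮 ^ T = ⊥)
    (ℰ : Subalgebra O (Z → O)) (p : ℰ[X]) (ψ : Z → O) (c₀ u : O) (hu : IsUnit u)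
    (h0 : ∀ y, ψ y - c₀ ∈ 𝔮) (hp : ∀ y, (p.map (evAt ℰ y)).eval (ψ y) = 0)
    (hd : ∀ y, (derivative (p.map (evAt ℰ y))).eval (ψ y) - u ∈ 𝔮) : ψ ∈ ℰ := by
  obtain ⟨u, rfl⟩ := hu
  have key : ∀ m : ℕ, ∃ f : ℰ, ∀ y, f.1 y - ψ y ∈ 𝔮 ^ (m + 1) := by
    intro m
    induction m with
    | zero =>
      refine ⟨algebraMap O ℰ c₀, fun y => ?_⟩
      rw [zero_add, pow_one, ← neg_mem_iff, neg_sub]
      exact h0 y
    | succ m ih =>
      obtain ⟨f, hf⟩ := ih
      refine ⟨f - (↑u⁻¹ : O) • p.eval f, fun y => ?_⟩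
      have h1 : (p.eval f).1 y = (p.map (evAt ℰ y)).eval (ψ y + (f.1 y - ψ y)) := by
        rw [add_sub_cancel, ← evAt_apply ℰ y f, eval_map, eval₂_at_apply, evAt_apply]
      obtain ⟨k, hk⟩ := (p.map (evAt ℰ y)).binomExpansion (ψ y) (f.1 y - ψ y)
      have h2 : (f - (↑u⁻¹ : O) • p.eval f).1 y - ψ y =
          -(↑u⁻¹ : O) * ((f.1 y - ψ y) * (((derivative (p.map (evAt ℰ y))).eval (ψ y) - u) +
            k * (f.1 y - ψ y))) := by
        have h3 : (f - (↑u⁻¹ : O) • p.eval f).1 y = f.1 y - (↑u⁻¹ : O) * (p.eval f).1 y := rfl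
        rw [h3, h1, hk, hp]
        linear_combination (-(f.1 y - ψ y)) * u.inv_mul
      rw [h2, pow_succ]
      refine Ideal.mul_mem_left _ _ (Ideal.mul_mem_mul (hf y) (Ideal.add_mem _ (hd y) ?_))
      exact Ideal.mul_mem_left _ _ (Ideal.pow_le_self (Nat.succ_ne_zero m) (hf y))
  obtain ⟨f, hf⟩ := key T
  have : ψ = f.1 := funext fun y => by
    have h1 := Ideal.pow_le_pow_right (Nat.le_succ T) (hf y)
    rw [h𝔮, Ideal.mem_bot, sub_eq_zero] at h1
    exact h1.symm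
  rw [this]
  exact f.2

/-- Truncated Taylor expansion.  Recipe: `Algebra.adjoin_range_eq_range_aeval`; monomials of
degree `≥ T` take values in `𝔮^T = ⊥`. -/
theorem expand_of_mem_adjoin {O Z ι : Type*} [CommRing O] [Fintype ι] [DecidableEq ι]
    (𝔮 : Ideal O) (T : ℕ) (h𝔮 : 𝔮 ^ T = ⊥) (δ : ι → Z → O) (hδ : ∀ j y, δ j y ∈ 𝔮)
    (f : Z → O) (hf : f ∈ Algebra.adjoin O (Set.range δ)) :
    ∃ cf : (ι → ℕ) → O, ∀ y, f y = ∑ α ∈ simplex ι T, cf α * ∏ j, δ j y ^ α j := by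
  classical
  rw [Algebra.adjoin_range_eq_range_aeval] at hf
  obtain ⟨P, rfl⟩ := hf
  refine ⟨fun α => P.coeff (Finsupp.equivFunOnFinite.symm α), fun y => ?_⟩
  have h1 : (MvPolynomial.aeval δ).toRingHom P y =
      ∑ α ∈ P.support.map Finsupp.equivFunOnFinite.toEmbedding,
        P.coeff (Finsupp.equivFunOnFinite.symm α) * ∏ j, δ j y ^ α j := by
    rw [Finset.sum_map]
    show MvPolynomial.aeval δ P y = _
    rw [MvPolynomial.aeval_def, MvPolynomial.eval₂_eq', Finset.sum_apply]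
    refine Finset.sum_congr rfl fun α _ => ?_
    simp
  rw [h1]
  refine (Finset.sum_subset Finset.subset_union_left fun α _ hα => ?_).trans
    (Finset.sum_subset Finset.subset_union_right fun α _ hα => ?_).symm
  · rw [Finset.mem_map_equiv, MvPolynomial.notMem_support_iff] at hα
    rw [hα, zero_mul]
  · rw [mem_simplex, not_le] at hα
    have h2 : ∏ j, δ j y ^ α j ∈ 𝔮 ^ ∑ j, α j := by
      rw [← Finset.prod_pow_eq_pow_sum]
      exact Ideal.prod_mem_prod fun j _ => Ideal.pow_mem_pow (hδ j y) _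
    have h3 := Ideal.pow_le_pow_right hα.le h2
    rw [h𝔮, Ideal.mem_bot] at h3
    rw [h3, mul_zero]

theorem exists_inv_mod_aux {R : Type*} [CommRing R] (w a g r : R) (T : ℕ)
    (h : (1 - w * a - g * r) ^ T = 0) : ∃ ρ : R, g ∣ ρ * a - 1 := by
  obtain ⟨U, hU⟩ := IsNilpotent.isUnit_one_sub ⟨T, h⟩
  refine ⟨↑U⁻¹ * w, -(↑U⁻¹ * r), ?_⟩
  have h3 := U.inv_mul
  rw [hU] at h3
  linear_combination h3

/-- Inverting modulo a monic polynomial.  All coefficients of `a` are congruent modulo `𝔮` to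
those of `a₀`, which is invertible modulo `(g, 𝔮)`.  Recipe: `ε = 1 - w a - g r` has all its
coefficients in the ideal `𝒩 = ⨅ y, 𝔮.comap (evAt ℰ y)` of `ℰ`, with `𝒩^T = ⊥`; so
`ε ∈ 𝒩.map C` is nilpotent and `1 - ε` is a unit of `ℰ[X]`. -/
theorem exists_inv_mod {O Z : Type*} [CommRing O] (𝔮 : Ideal O) (T : ℕ) (h𝔮 : 𝔮 ^ T = ⊥)
    (ℰ : Subalgebra O (Z → O)) (g a₀ w r : O[X]) (a : ℰ[X])
    (ha : ∀ y i, (a.coeff i).1 y - a₀.coeff i ∈ 𝔮)
    (hw : ∀ i, (1 - w * a₀ - g * r).coeff i ∈ 𝔮) :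
    ∃ ρ : ℰ[X], g.map (algebraMap O ℰ) ∣ ρ * a - 1 := by
  set ε : ℰ[X] := 1 - w.map (algebraMap O ℰ) * a - g.map (algebraMap O ℰ) * r.map (algebraMap O ℰ)
    with hε
  have hid : ∀ y, (evAt ℰ y).comp (algebraMap O ℰ) = RingHom.id O := fun y => RingHom.ext fun _ => rfl
  have h1 : ∀ y, ε.map (evAt ℰ y) ∈ 𝔮.map (C : O →+* O[X]) := fun y => by
    have h2 : ε.map (evAt ℰ y) = (1 - w * a₀ - g * r) - w * (a.map (evAt ℰ y) - a₀) := by
      simp only [hε, Polynomial.map_sub, Polynomial.map_mul, Polynomial.map_one, Polynomial.map_map,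
        hid, Polynomial.map_id]
      ring
    rw [h2]
    refine Ideal.sub_mem _ (Ideal.mem_map_C_iff.2 hw)
      (Ideal.mul_mem_left _ _ (Ideal.mem_map_C_iff.2 fun i => ?_))
    rw [coeff_sub, coeff_map]
    exact ha y i
  have h2 : ε ^ T = 0 := by
    ext i y
    have h3 := Ideal.pow_mem_pow (h1 y) T
    rw [← Ideal.map_pow, h𝔮, Ideal.map_bot, Ideal.mem_bot, ← Polynomial.map_pow] at h3
    have h4 := congrArg (fun P => coeff P i) h3
    simp only [coeff_map, coeff_zero] at h4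
    exact h4
  rw [hε] at h2
  exact exists_inv_mod_aux (R := ℰ[X]) (w.map (algebraMap O ℰ)) a (g.map (algebraMap O ℰ))
    (r.map (algebraMap O ℰ)) T h2

end Crest.Agent.R22
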