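import Crest.Agent.R22.Hensel0

/-! # Row 22: the elementary sieve -/

set_option autoImplicit false

open Polynomial Filter Topology Crest.NumberTheoryR

namespace Crest.Agent.R22

/-- A periodic predicate has a density (`Nat.filter_Ico_card_eq_of_periodic`, `Nat.count`). -/
theorem tendsto_periodic (Pr : ℕ → Prop) [DecidablePred Pr] (W : ℕ) (hW : 0 < W)
    (hper : ∀ n, Pr (n + W) ↔ Pr n) :
    Tendsto (fun N : ℕ => (((Finset.Icc 1 N).filter Pr).card : ℝ) / N) atTop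
      (𝓝 ((((Finset.range W).filter Pr).card : ℝ) / W)) := by
  set c : ℕ → ℕ := fun N => ((Finset.Icc 1 N).filter Pr).card with hc
  set r : ℕ := ((Finset.range W).filter Pr).card with hr
  have hP : Function.Periodic Pr W := fun n => propext (hper n)
  have hstep : ∀ N, c (N + W) = c N + r := by
    intro N
    have h1 : Finset.Icc 1 (N + W) = Finset.Icc 1 N ∪ Finset.Ico (N + 1) (N + 1 + W) := by
      ext n; simp only [Finset.mem_union, Finset.mem_Icc, Finset.mem_Ico]; omega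
    have h2 : Disjoint ((Finset.Icc 1 N).filter Pr)
        ((Finset.Ico (N + 1) (N + 1 + W)).filter Pr) := by
      refine Finset.disjoint_filter_filter (Finset.disjoint_left.2 fun n h h' => ?_)
      simp only [Finset.mem_Icc, Finset.mem_Ico] at h h'; omega
    simp only [hc]
    rw [h1, Finset.filter_union, Finset.card_union_of_disjoint h2,
      Nat.filter_Ico_card_eq_of_periodic _ _ _ hP, Nat.count_eq_card_filter_range]
  set g : ℕ → ℝ := fun N => W * (c N : ℝ) - r * N with hg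
  have hgP : Function.Periodic g W := by
    intro N
    simp only [hg, hstep]
    push_cast
    ring
  have hW' : (0 : ℝ) < W := by exact_mod_cast hW
  have hrW : (r : ℝ) ≤ W := by
    have : r ≤ W := (Finset.card_filter_le _ _).trans (by simp)
    exact_mod_cast this
  have hgb : ∀ N, |g N| ≤ W * W := by
    intro N
    rw [← hgP.map_mod_nat N]
    have h1 : N % W < W := Nat.mod_lt _ hW
    have h2 : c (N % W) ≤ W := (Finset.card_filter_le _ _).trans (by simp; omega)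
    have h3 : (c (N % W) : ℝ) ≤ W := by exact_mod_cast h2
    have h4 : ((N % W : ℕ) : ℝ) ≤ W := by exact_mod_cast h1.le
    have h5 : (0 : ℝ) ≤ c (N % W) := Nat.cast_nonneg _
    have h6 : (0 : ℝ) ≤ (N % W : ℕ) := Nat.cast_nonneg _
    have h7 : (0 : ℝ) ≤ r := Nat.cast_nonneg _
    simp only [hg]
    rw [abs_le]
    constructor <;> nlinarith [mul_nonneg h7 h6, mul_nonneg hW'.le h5,
      mul_le_mul hrW h4 h6 hW'.le]
  rw [tendsto_iff_norm_sub_tendsto_zero]
  refine squeeze_zero' (Eventually.of_forall fun _ => norm_nonneg _) ?_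
    (tendsto_const_div_atTop_nhds_zero_nat (W : ℝ))
  filter_upwards [eventually_gt_atTop 0] with N hN
  have hN' : (0 : ℝ) < N := by exact_mod_cast hN
  have h1 : (c N : ℝ) / N - r / W = g N / (W * N) := by
    simp only [hg]; field_simp
  change ‖(c N : ℝ) / N - r / W‖ ≤ _
  rw [h1, Real.norm_eq_abs, abs_div, abs_of_pos (mul_pos hW' hN'),
    div_le_div_iff₀ (mul_pos hW' hN') hN']
  nlinarith [hgb N]

theorem Sieve_crt (P Q : ℕ → Prop) [DecidablePred P] [DecidablePred Q] {a b : ℕ}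
    (hab : a.Coprime b) (ha : a ≠ 0) (hb : b ≠ 0) (hP : Function.Periodic P a)
    (hQ : Function.Periodic Q b) :
    ((Finset.range (a * b)).filter fun n => P n ∧ Q n).card =
      ((Finset.range a).filter P).card * ((Finset.range b).filter Q).card := by
  rw [← Finset.card_product]
  refine Finset.card_nbij (fun n => (n % a, n % b)) (fun n hn => ?_) (fun n hn m hm h => ?_)
    fun x hx => ?_
  · simp only [Finset.coe_filter, Finset.mem_range, Set.mem_ofPred_eq] at hn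
    simp only [Finset.coe_product, Finset.coe_filter, Finset.mem_range, Set.mem_prod,
      Set.mem_ofPred_eq, hP.map_mod_nat, hQ.map_mod_nat]
    exact ⟨⟨Nat.mod_lt _ (Nat.pos_of_ne_zero ha), hn.2.1⟩,
      Nat.mod_lt _ (Nat.pos_of_ne_zero hb), hn.2.2⟩
  · simp only [Finset.coe_filter, Finset.mem_range, Set.mem_ofPred_eq] at hn hm
    simp only [Prod.mk.injEq] at h
    exact Nat.ModEq.eq_of_lt_of_lt ((Nat.modEq_and_modEq_iff_modEq_mul hab).1 h) hn.1 hm.1
  · simp only [Finset.coe_product, Finset.coe_filter, Finset.mem_range, Set.mem_prod,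
      Set.mem_ofPred_eq] at hx
    obtain ⟨h1, h2⟩ := (Nat.chineseRemainder hab x.1 x.2).2
    have e1 : (Nat.chineseRemainder hab x.1 x.2 : ℕ) % a = x.1 :=
      (show _ % a = x.1 % a from h1).trans (Nat.mod_eq_of_lt hx.1.1)
    have e2 : (Nat.chineseRemainder hab x.1 x.2 : ℕ) % b = x.2 :=
      (show _ % b = x.2 % b from h2).trans (Nat.mod_eq_of_lt hx.2.1)
    refine ⟨Nat.chineseRemainder hab x.1 x.2, ?_, Prod.ext e1 e2⟩
    simp only [Finset.coe_filter, Finset.mem_range, Set.mem_ofPred_eq]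
    refine ⟨Nat.chineseRemainder_lt_mul hab _ _ ha hb, ?_, ?_⟩
    · rw [← hP.map_mod_nat, e1]; exact hx.1.2
    · rw [← hQ.map_mod_nat, e2]; exact hx.2.2

theorem Sieve_per (f : ℤ[X]) (q W : ℕ) (h : q ∣ W) (n : ℕ) :
    (q : ℤ) ∣ f.eval ((n + W : ℕ) : ℤ) ↔ (q : ℤ) ∣ f.eval (n : ℤ) := by
  have h1 := Polynomial.sub_dvd_eval_sub ((n + W : ℕ) : ℤ) (n : ℤ) f
  have h2 : ((n + W : ℕ) : ℤ) - n = W := by push_cast; ring
  rw [h2] at h1
  exact dvd_iff_dvd_of_dvd_sub ((Int.natCast_dvd_natCast.2 h).trans h1)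

theorem Sieve_per_all (f : ℤ[X]) (k : ℕ) (s : Finset ℕ) (n : ℕ) :
    (∀ p ∈ s, ¬ ((p : ℤ) ^ k ∣ f.eval ((n + ∏ p ∈ s, p ^ k : ℕ) : ℤ))) ↔
      ∀ p ∈ s, ¬ ((p : ℤ) ^ k ∣ f.eval (n : ℤ)) := by
  refine forall₂_congr fun p hp => not_congr ?_
  have := Sieve_per f (p ^ k) (∏ p ∈ s, p ^ k) (Finset.dvd_prod_of_mem _ hp) n
  rwa [Nat.cast_pow] at this

/-- Chinese remainder theorem.  Recipe: induction on `s`; for coprime `a, b` and predicates
periodic mod `a`, `b`, the count on `range (a b)` is the product (`n ↦ (n % a, n % b)` is a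
bijection: injective by `Nat.modEq_and_modEq_iff_modEq_mul`, cardinalities agree).
`(q:ℤ) ∣ f.eval n` is periodic mod any multiple of `q` (`Polynomial.sub_dvd_eval_sub`). -/
theorem card_crt (f : ℤ[X]) (k : ℕ) (s : Finset ℕ) (hs : ∀ p ∈ s, p.Prime) :
    ((Finset.range (∏ p ∈ s, p ^ k)).filter fun n : ℕ =>
      ∀ p ∈ s, ¬ ((p : ℤ) ^ k ∣ f.eval (n : ℤ))).card =
      ∏ p ∈ s, (p ^ k - polyRootCountMod f (p ^ k)) := by
  classical
  induction s using Finset.induction_on with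
  | empty => simp
  | insert q s hq ih =>
    have hs' : ∀ p ∈ s, p.Prime := fun p hp => hs p (Finset.mem_insert_of_mem hp)
    have hqp : q.Prime := hs q (Finset.mem_insert_self _ _)
    rw [Finset.prod_insert hq, Finset.prod_insert hq, ← ih hs']
    have hco : (q ^ k).Coprime (∏ p ∈ s, p ^ k) := by
      refine Nat.Coprime.prod_right fun p hp => Nat.Coprime.pow _ _ ?_
      exact (Nat.coprime_primes hqp (hs' p hp)).2 fun h => hq (h ▸ hp)
    have h1 := Sieve_crt (fun n : ℕ => ¬ ((q : ℤ) ^ k ∣ f.eval (n : ℤ)))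
      (fun n : ℕ => ∀ p ∈ s, ¬ ((p : ℤ) ^ k ∣ f.eval (n : ℤ))) hco (pow_pos hqp.pos k).ne'
      (Finset.prod_pos fun p hp => pow_pos (hs' p hp).pos k).ne'
      (fun n => by
        have := Sieve_per f (q ^ k) (q ^ k) dvd_rfl n
        push_cast at this
        simp only [Nat.cast_add, Nat.cast_pow, this])
      (fun n => propext (Sieve_per_all f k s n))
    have h2 : ((Finset.range (q ^ k)).filter fun n : ℕ => ¬ ((q : ℤ) ^ k ∣ f.eval (n : ℤ))).card =
        q ^ k - polyRootCountMod f (q ^ k) := by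
      have := Finset.card_filter_add_card_filter_not (s := Finset.range (q ^ k))
        fun n : ℕ => (q : ℤ) ^ k ∣ f.eval (n : ℤ)
      rw [Finset.card_range] at this
      unfold polyRootCountMod
      simp only [Nat.cast_pow]
      omega
    rw [← h2, ← h1]
    congr 1
    ext n
    simp only [Finset.mem_filter, Finset.forall_mem_insert]

theorem density_small (f : ℤ[X]) (k : ℕ) (s : Finset ℕ) (hs : ∀ p ∈ s, p.Prime) :
    Tendsto (fun N : ℕ => (((Finset.Icc 1 N).filter fun n : ℕ =>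
      ∀ p ∈ s, ¬ ((p : ℤ) ^ k ∣ f.eval (n : ℤ))).card : ℝ) / N) atTop
      (𝓝 (∏ p ∈ s, (1 - (polyRootCountMod f (p ^ k) : ℝ) / (p : ℝ) ^ k))) := by
  have hW : 0 < ∏ p ∈ s, p ^ k := Finset.prod_pos fun p hp => pow_pos (hs p hp).pos k
  have h := tendsto_periodic (fun n : ℕ => ∀ p ∈ s, ¬ ((p : ℤ) ^ k ∣ f.eval (n : ℤ))) _ hW
    (Sieve_per_all f k s)
  rw [card_crt f k s hs] at h
  convert h using 2
  rw [Nat.cast_prod, Nat.cast_prod, ← Finset.prod_div_distrib]
  refine Finset.prod_congr rfl fun p hp => ?_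
  have h1 : polyRootCountMod f (p ^ k) ≤ p ^ k := (Finset.card_filter_le _ _).trans (by simp)
  have h2 : (0 : ℝ) < (p : ℝ) ^ k := pow_pos (by exact_mod_cast (hs p hp).pos) k
  rw [Nat.cast_sub h1, Nat.cast_pow]
  field_simp

open Classical in
/-- Middle range.  Recipe: union bound over `p ∈ Ioc z (N / T)`, `card_dvd_le`,
`∑_{z < p} 1/p^2 ≤ 1/z` (`sum_Ioc_inv_sq_le_sub`). -/
theorem middle_count (f : ℤ[X]) (k : ℕ) (hk : 2 ≤ k) (D z T N : ℕ) (hz : 1 ≤ z) (hT : 1 ≤ T)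
    (hρ : ∀ p : ℕ, p.Prime → z < p → polyRootCountMod f (p ^ k) ≤ D) :
    (((Finset.Icc 1 N).filter fun n : ℕ => ∃ p : ℕ, p.Prime ∧ z < p ∧ T * p < N ∧
      (p : ℤ) ^ k ∣ f.eval (n : ℤ)).card : ℝ) ≤ D * ((N : ℝ) / z + (N : ℝ) / T) := by
  set S : Finset ℕ := (Finset.Ioc z (N / T)).filter Nat.Prime with hS
  have hsub : ((Finset.Icc 1 N).filter fun n : ℕ => ∃ p : ℕ, p.Prime ∧ z < p ∧ T * p < N ∧
      (p : ℤ) ^ k ∣ f.eval (n : ℤ)) ⊆ S.biUnion fun p =>
        (Finset.Icc 1 N).filter fun n : ℕ => ((p ^ k : ℕ) : ℤ) ∣ f.eval (n : ℤ) := by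
    intro n hn
    obtain ⟨hn1, p, hp, hzp, hTp, hd⟩ := Finset.mem_filter.1 hn
    refine Finset.mem_biUnion.2 ⟨p, Finset.mem_filter.2 ⟨Finset.mem_Ioc.2 ⟨hzp, ?_⟩, hp⟩,
      Finset.mem_filter.2 ⟨hn1, by rwa [Nat.cast_pow]⟩⟩
    rw [Nat.le_div_iff_mul_le (by omega), mul_comm]
    exact hTp.le
  have h1 := (Finset.card_le_card hsub).trans Finset.card_biUnion_le
  have hz' : (0 : ℝ) < z := by exact_mod_cast hz
  have hN : (0 : ℝ) ≤ N := Nat.cast_nonneg _
  have hD : (0 : ℝ) ≤ D := Nat.cast_nonneg _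
  have h2 : ∑ p ∈ Finset.Ioc z (N / T), ((p : ℝ) ^ 2)⁻¹ ≤ (z : ℝ)⁻¹ := by
    rcases le_total z (N / T) with h | h
    · refine (sum_Ioc_inv_sq_le_sub (by omega) h).trans ?_
      have : (0 : ℝ) ≤ ((N / T : ℕ) : ℝ)⁻¹ := by positivity
      linarith
    · rw [Finset.Ioc_eq_empty (by omega), Finset.sum_empty]
      positivity
  have h3 : ((Finset.Ioc z (N / T)).card : ℝ) ≤ (N : ℝ) / T := by
    refine le_trans ?_ Nat.cast_div_le
    rw [Nat.card_Ioc]
    exact_mod_cast Nat.sub_le _ _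
  calc _ ≤ ∑ p ∈ S, (((Finset.Icc 1 N).filter
        fun n : ℕ => ((p ^ k : ℕ) : ℤ) ∣ f.eval (n : ℤ)).card : ℝ) := by exact_mod_cast h1
    _ ≤ ∑ p ∈ S, D * (N * ((p : ℝ) ^ 2)⁻¹ + 1) := by
      refine Finset.sum_le_sum fun p hp => ?_
      obtain ⟨hp1, hp2⟩ := Finset.mem_filter.1 hp
      refine (card_dvd_le f (p ^ k) N (pow_pos hp2.pos k)).trans ?_
      have h4 : (polyRootCountMod f (p ^ k) : ℝ) ≤ D := by
        exact_mod_cast hρ p hp2 (Finset.mem_Ioc.1 hp1).1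
      have h5 : (1 : ℝ) ≤ p := by exact_mod_cast hp2.pos
      have h6 : (N : ℝ) / ((p ^ k : ℕ) : ℝ) ≤ N * ((p : ℝ) ^ 2)⁻¹ := by
        rw [← div_eq_mul_inv, Nat.cast_pow]
        exact div_le_div_of_nonneg_left hN (by positivity) (pow_le_pow_right₀ h5 hk)
      gcongr
    _ ≤ ∑ p ∈ Finset.Ioc z (N / T), D * (N * ((p : ℝ) ^ 2)⁻¹ + 1) :=
      Finset.sum_le_sum_of_subset_of_nonneg (Finset.filter_subset _ _) fun _ _ _ => by positivity
    _ = D * (N * ∑ p ∈ Finset.Ioc z (N / T), ((p : ℝ) ^ 2)⁻¹ + (Finset.Ioc z (N / T)).card) := by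
      rw [← Finset.mul_sum, Finset.sum_add_distrib, ← Finset.mul_sum]
      simp
    _ ≤ _ := by
      rw [div_eq_mul_inv (N : ℝ) z]
      gcongr

open Classical in
/-- Recipe: given `ε`, choose `z ≥ P₀`, `T = z` with `|c_z - c| < ε/4`, `2 D / z < ε/4`; the count
of power-free values lies between `count_z - middle - big` and `count_z`. -/
theorem sieve_main (f : ℤ[X]) (k : ℕ) (hk : 2 ≤ k)
    (hirr : Irreducible (f.map (Int.castRingHom ℚ)))
    (hloc : ∀ p : ℕ, p.Prime → polyRootCountMod f (p ^ k) < p ^ k)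
    (hbig : ∀ (T : ℕ) (ε : ℝ), 0 < ε → ∀ᶠ N : ℕ in atTop, (((Finset.Icc 1 N).filter fun n : ℕ =>
      ∃ p : ℕ, p.Prime ∧ N ≤ T * p ∧ (p : ℤ) ^ k ∣ f.eval (n : ℤ)).card : ℝ) ≤ ε * N) :
    ∃ c : ℝ, 0 < c ∧
      HasProd (fun p : Nat.Primes =>
        1 - (polyRootCountMod f ((p : ℕ) ^ k) : ℝ) / ((p : ℕ) : ℝ) ^ k) c ∧
      Tendsto (fun N : ℕ => (powerFreeValueCount f k N : ℝ) / (N : ℝ)) atTop (𝓝 c) := by
  obtain ⟨P₀, hP₀⟩ := rho_le f hirr
  have hρ : ∀ p : ℕ, p.Prime → P₀ ≤ p → polyRootCountMod f (p ^ k) ≤ f.natDegree :=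
    fun p hp h => hP₀ p k hp h (by omega)
  obtain ⟨c, hc0, hc⟩ := euler f k hk P₀ f.natDegree hρ hloc
  refine ⟨c, hc0, hc, Metric.tendsto_nhds.2 fun ε hε => ?_⟩
  have hpp := tendsto_partial_prod
    (fun p : ℕ => 1 - (polyRootCountMod f (p ^ k) : ℝ) / (p : ℝ) ^ k) c hc
  have hε4 : 0 < ε / 4 := by positivity
  have hlim : Tendsto (fun z : ℕ => (2 * f.natDegree : ℝ) / z) atTop (𝓝 0) :=
    tendsto_const_div_atTop_nhds_zero_nat _
  obtain ⟨z, hz1, hz2, hz3, hz4⟩ := ((Metric.tendsto_nhds.1 hpp _ hε4).and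
    ((eventually_ge_atTop P₀).and ((eventually_ge_atTop 1).and
      (hlim.eventually (gt_mem_nhds hε4))))).exists
  set s : Finset ℕ := (Finset.range (z + 1)).filter Nat.Prime with hs
  have hd := density_small f k s fun p hp => (Finset.mem_filter.1 hp).2
  filter_upwards [Metric.tendsto_nhds.1 hd _ hε4, hbig z _ hε4, eventually_gt_atTop 0]
    with N h1 h2 hN
  have h3 := middle_count f k hk f.natDegree z z N hz3 hz3 fun p hp h => hρ p hp (by omega)
  have hN' : (0 : ℝ) < N := by exact_mod_cast hN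
  set A := (Finset.Icc 1 N).filter fun n : ℕ => ∀ p ∈ s, ¬ ((p : ℤ) ^ k ∣ f.eval (n : ℤ))
    with hA
  set B := (Finset.Icc 1 N).filter fun n : ℕ =>
    ∃ p : ℕ, p.Prime ∧ N ≤ z * p ∧ (p : ℤ) ^ k ∣ f.eval (n : ℤ) with hB
  set M := (Finset.Icc 1 N).filter fun n : ℕ =>
    ∃ p : ℕ, p.Prime ∧ z < p ∧ z * p < N ∧ (p : ℤ) ^ k ∣ f.eval (n : ℤ) with hM
  set G := (Finset.Icc 1 N).filter fun n : ℕ => IsPowerFree k (f.eval (n : ℤ)) with hG
  have hGA : G ⊆ A := fun n hn => by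
    obtain ⟨hn1, hn2⟩ := Finset.mem_filter.1 hn
    exact Finset.mem_filter.2 ⟨hn1, fun p hp => hn2 p (Finset.mem_filter.1 hp).2⟩
  have hAG : A ⊆ G ∪ M ∪ B := fun n hn => by
    obtain ⟨hn1, hn2⟩ := Finset.mem_filter.1 hn
    by_cases hpf : IsPowerFree k (f.eval (n : ℤ))
    · exact Finset.mem_union_left _ (Finset.mem_union_left _ (Finset.mem_filter.2 ⟨hn1, hpf⟩))
    · unfold IsPowerFree at hpf
      push Not at hpf
      obtain ⟨p, hp, hpd⟩ := hpf
      have hzp : z < p := by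
        by_contra h
        exact hn2 p (Finset.mem_filter.2 ⟨Finset.mem_range.2 (by omega), hp⟩) hpd
      rcases lt_or_ge (z * p) N with h | h
      · exact Finset.mem_union_left _ (Finset.mem_union_right _
          (Finset.mem_filter.2 ⟨hn1, p, hp, hzp, h, hpd⟩))
      · exact Finset.mem_union_right _ (Finset.mem_filter.2 ⟨hn1, p, hp, h, hpd⟩)
  have h4 : (G.card : ℝ) ≤ A.card := by exact_mod_cast Finset.card_le_card hGA
  have h5 : (A.card : ℝ) ≤ G.card + M.card + B.card := by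
    have := (Finset.card_le_card hAG).trans ((Finset.card_union_le _ _).trans
      (Nat.add_le_add_right (Finset.card_union_le _ _) _))
    exact_mod_cast this
  have h6 : (M.card : ℝ) ≤ ε / 4 * N := by
    refine h3.trans ?_
    have : (f.natDegree : ℝ) * ((N : ℝ) / z + (N : ℝ) / z) = 2 * f.natDegree / z * N := by ring
    rw [this]
    exact mul_le_mul_of_nonneg_right hz4.le hN'.le
  have h7 : (G.card : ℝ) / N ≤ A.card / N := by gcongr
  have h8 : (A.card : ℝ) / N ≤ G.card / N + ε / 2 := by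
    rw [div_add' _ _ _ hN'.ne']
    gcongr
    linarith
  change dist ((G.card : ℝ) / N) c < ε
  rw [Real.dist_eq, abs_lt] at h1 hz1 ⊢
  constructor <;> linarith [h1.1, h1.2, hz1.1, hz1.2]

end Crest.Agent.R22
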