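import Crest.Agent.R22.Big
import Crest.Agent.R22.Sieve

/-! # Row 22: assembly -/

set_option autoImplicit false

open Polynomial Filter Topology Crest.NumberTheoryR

namespace Crest.Agent.R22

theorem final (f : Polynomial ℤ) (k : ℕ)
    (hirr : Irreducible (f.map (Int.castRingHom ℚ))) (hdeg : 4 ≤ f.natDegree ∧ f.natDegree ≤ 8)
    (hk : k + 2 = f.natDegree) (hloc : ∀ p : ℕ, p.Prime → polyRootCountMod f (p ^ k) < p ^ k) :
    ∃ c : ℝ, 0 < c ∧
      HasProd (fun p : Nat.Primes =>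
        1 - (polyRootCountMod f ((p : ℕ) ^ k) : ℝ) / ((p : ℕ) : ℝ) ^ k) c ∧
      Tendsto (fun N : ℕ => (powerFreeValueCount f k N : ℝ) / (N : ℝ)) atTop (𝓝 c) :=
  sieve_main f k (by omega) hirr hloc fun T ε hε =>
    big_count_f f hirr k hk (by omega) (by omega) T ε hε

end Crest.Agent.R22
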