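import Crest.Agent.R22.Basic

/-! # Row 22: transfer between the ultrapower and the finite stages -/

set_option autoImplicit false

open Filter

namespace Crest.Agent.R22

theorem UF_le_atTop : (UF : Filter ℕ) ≤ atTop := by
  exact Nat.hyperfilter_le_atTop

/-- `cst` as a ring homomorphism (`Filter.Germ.coeRingHom` composed with `Pi.constRingHom`). -/
noncomputable def cstHom : ℂ →+* FF := (Germ.coeRingHom (UF : Filter ℕ)).comp (Pi.constRingHom ℕ ℂ)

theorem cstHom_apply (t : ℂ) : cstHom t = cst t := rfl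

/-- Łoś: choose a counterexample where there is one. -/
theorem los {d : ℕ} {Y : ℕ → Finset (Pt d)} (hne : ∀ r, (Y r).Nonempty) (φ : ℕ → Pt d → Prop)
    (h : ∀ z ∈ Itl Y, ∀ᶠ r in (UF : Filter ℕ), φ r (z r)) :
    ∀ᶠ r in (UF : Filter ℕ), ∀ w ∈ Y r, φ r w := by
  classical
  have hz : ∀ r, ∃ z ∈ Y r, φ r z → ∀ w ∈ Y r, φ r w := fun r => by
    by_cases hr : ∀ w ∈ Y r, φ r w
    · obtain ⟨z, hz⟩ := hne r
      exact ⟨z, hz, fun _ => hr⟩
    · push Not at hr
      obtain ⟨z, hz, hφ⟩ := hr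
      exact ⟨z, hz, fun h => absurd h hφ⟩
  choose z hzY hzφ using hz
  exact (h z (Eventually.of_forall hzY)).mono hzφ

/-- `Pr` is a sequence of polynomials with supports in a fixed finite set representing `P`. -/
def Rep {V : Type*} (P : MvPolynomial V FF) (Pr : ℕ → MvPolynomial V ℂ) : Prop :=
  (∃ S : Finset (V →₀ ℕ), ∀ r, (Pr r).support ⊆ S) ∧
    ∀ m, P.coeff m = ((fun r => (Pr r).coeff m : ℕ → ℂ) : FF)

theorem exists_rep {V : Type*} (P : MvPolynomial V FF) :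
    ∃ Pr, Rep P Pr ∧ ∀ r, (Pr r).support ⊆ P.support := by
  classical
  have hf : ∀ m, ∃ f : ℕ → ℂ, P.coeff m = (f : FF) := fun m =>
    Germ.inductionOn (P.coeff m) (p := fun x => ∃ f : ℕ → ℂ, x = (f : FF)) fun f => ⟨f, rfl⟩
  choose f hf using hf
  have hc : ∀ r m, (∑ m ∈ P.support, MvPolynomial.monomial m (f m r)).coeff m =
      if m ∈ P.support then f m r else 0 := fun r m => by
    simp [MvPolynomial.coeff_sum, MvPolynomial.coeff_monomial]
  have hs : ∀ r, (∑ m ∈ P.support, MvPolynomial.monomial m (f m r)).support ⊆ P.support :=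
    fun r m hm => by
      by_contra h
      exact MvPolynomial.mem_support_iff.1 hm (by rw [hc, if_neg h])
  refine ⟨fun r => ∑ m ∈ P.support, MvPolynomial.monomial m (f m r), ⟨⟨_, hs⟩, fun m => ?_⟩, hs⟩
  simp only [hc]
  split_ifs with h
  · exact hf m
  · exact MvPolynomial.notMem_support_iff.1 h

theorem exists_germ {V : Type*} (Pr : ℕ → MvPolynomial V ℂ) (S : Finset (V →₀ ℕ))
    (h : ∀ r, (Pr r).support ⊆ S) : ∃ P, Rep P Pr ∧ P.support ⊆ S := by
  classical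
  have hc : ∀ m, (∑ m ∈ S, MvPolynomial.monomial m
      ((fun r => (Pr r).coeff m : ℕ → ℂ) : FF)).coeff m =
      if m ∈ S then ((fun r => (Pr r).coeff m : ℕ → ℂ) : FF) else 0 := fun m => by
    simp [MvPolynomial.coeff_sum, MvPolynomial.coeff_monomial]
  refine ⟨∑ m ∈ S, MvPolynomial.monomial m ((fun r => (Pr r).coeff m : ℕ → ℂ) : FF),
    ⟨⟨S, h⟩, fun m => ?_⟩, fun m hm => ?_⟩
  · rw [hc]
    split_ifs with hm
    · rfl
    · have : (fun r => (Pr r).coeff m : ℕ → ℂ) = 0 := funext fun r =>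
        MvPolynomial.notMem_support_iff.1 fun h' => hm (h r h')
      rw [this]; rfl
  · by_contra h'
    exact MvPolynomial.mem_support_iff.1 hm (by rw [hc, if_neg h'])

theorem Germ_aeval_eq_sum {V R : Type*} [CommRing R] (P : MvPolynomial V R) (y : V → R)
    {S : Finset (V →₀ ℕ)} (h : P.support ⊆ S) :
    MvPolynomial.aeval y P = ∑ m ∈ S, P.coeff m * ∏ v ∈ m.support, y v ^ m v := by
  rw [MvPolynomial.aeval_def, MvPolynomial.eval₂_eq]
  refine Finset.sum_subset h fun m _ hm => ?_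
  rw [MvPolynomial.notMem_support_iff.1 hm, map_zero, zero_mul]

theorem Rep.support_subset {V : Type*} {P : MvPolynomial V FF} {Pr : ℕ → MvPolynomial V ℂ}
    (h : Rep P Pr) {S : Finset (V →₀ ℕ)} (hS : ∀ r, (Pr r).support ⊆ S) : P.support ⊆ S := by
  intro m hm
  by_contra h'
  refine MvPolynomial.mem_support_iff.1 hm ?_
  have : (fun r => (Pr r).coeff m : ℕ → ℂ) = 0 := funext fun r =>
    MvPolynomial.notMem_support_iff.1 fun h'' => h' (hS r h'')
  rw [h.2, this]; rfl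

theorem Rep.aeval {V : Type*} {P : MvPolynomial V FF} {Pr : ℕ → MvPolynomial V ℂ}
    (h : Rep P Pr) (y : ℕ → V → ℂ) :
    MvPolynomial.aeval (fun v => ((fun r => y r v : ℕ → ℂ) : FF)) P =
      ((fun r => MvPolynomial.aeval (y r) (Pr r) : ℕ → ℂ) : FF) := by
  obtain ⟨S, hS⟩ := h.1
  have h1 : (fun r => MvPolynomial.aeval (y r) (Pr r) : ℕ → ℂ) =
      ∑ m ∈ S, (fun r => (Pr r).coeff m) * ∏ v ∈ m.support, (fun r => y r v) ^ m v := by
    funext r
    simp [Germ_aeval_eq_sum _ _ (hS r)]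
  rw [Germ_aeval_eq_sum _ _ (h.support_subset hS), h1]
  refine Eq.trans ?_ (map_sum (Germ.coeRingHom (UF : Filter ℕ)) _ S).symm
  refine Finset.sum_congr rfl fun m _ => ?_
  rw [map_mul, map_prod, h.2]
  simp only [map_pow]
  rfl

theorem Rep.eq_zero_iff {V : Type*} {P : MvPolynomial V FF} {Pr : ℕ → MvPolynomial V ℂ}
    (h : Rep P Pr) : P = 0 ↔ ∀ᶠ r in (UF : Filter ℕ), Pr r = 0 := by
  obtain ⟨S, hS⟩ := h.1
  constructor
  · rintro rfl
    have : ∀ m ∈ S, ∀ᶠ r in (UF : Filter ℕ), (Pr r).coeff m = 0 := fun m _ =>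
      Germ.coe_eq.1 (h.2 m).symm
    refine ((eventually_all_finset S).2 this).mono fun r hr => ?_
    ext m
    by_cases hm : m ∈ S
    · exact hr m hm
    · exact MvPolynomial.notMem_support_iff.1 fun h' => hm (hS r h')
  · intro h0
    ext m
    rw [h.2]
    exact Germ.coe_eq.2 (h0.mono fun r hr => by simp [hr])

theorem Rep.mem_IF_iff {d : ℕ} (c : Fin d) {Y : ℕ → Finset (Pt d)} (hne : ∀ r, (Y r).Nonempty)
    {P : MvPolynomial (Var d) FF} {Pr : ℕ → MvPolynomial (Var d) ℂ} (h : Rep P Pr) :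
    P ∈ IF c Y ↔ ∀ᶠ r in (UF : Filter ℕ), Van c (Y r) (Pr r) := by
  rw [IF, MvPolynomial.mem_vanishingIdeal_iff]
  constructor
  · intro h0
    refine los hne (fun r w => MvPolynomial.aeval (co ℂ c w) (Pr r) = 0) fun z hz => ?_
    have := h0 _ ⟨z, hz, rfl⟩
    exact Germ.coe_eq.1 ((h.aeval fun r => co ℂ c (z r)).symm.trans this)
  · rintro h0 _ ⟨z, hz, rfl⟩
    refine (h.aeval fun r => co ℂ c (z r)).trans (Germ.coe_eq.2 ?_)
    filter_upwards [h0, hz] with r hr hzr using hr _ hzr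

theorem IF_anti {d : ℕ} (c : Fin d) {Y Y' : ℕ → Finset (Pt d)} (h : ∀ r, Y' r ⊆ Y r) :
    IF c Y ≤ IF c Y' := by
  refine MvPolynomial.vanishingIdeal_anti_mono (Set.image_mono fun z hz => ?_)
  exact Eventually.mono hz fun r hr => h r hr

/-- Recipe: representatives `Pr, Pr'` with supports in those of `P, P'` (so degrees `≤ E`);
`los` gives `Van (Y r) (Pr r * Pr' r)` eventually; `Ultrafilter.eventually_or`. -/
theorem IF_isPrime {d : ℕ} (c : Fin d) {Y : ℕ → Finset (Pt d)} (hne : ∀ r, (Y r).Nonempty)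
    (hirr : ∀ E : ℕ, ∀ᶠ r in (UF : Filter ℕ), ∀ f g : MvPolynomial (Var d) ℂ,
      f.totalDegree ≤ E → g.totalDegree ≤ E → Van c (Y r) (f * g) →
        Van c (Y r) f ∨ Van c (Y r) g) : (IF c Y).IsPrime := by
  refine ⟨fun h => ?_, fun {P P'} hPP => ?_⟩
  · choose z hz using hne
    have h1 : (1 : MvPolynomial (Var d) FF) ∈ IF c Y := h ▸ Submodule.mem_top
    have := MvPolynomial.mem_vanishingIdeal_iff.1 h1 _ ⟨z, Eventually.of_forall hz, rfl⟩
    simp at this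
  · obtain ⟨Pr, hP, hs⟩ := exists_rep P
    obtain ⟨Pr', hP', hs'⟩ := exists_rep P'
    rw [hP.mem_IF_iff c hne, hP'.mem_IF_iff c hne, ← Ultrafilter.eventually_or]
    have h1 := los hne (fun r w => MvPolynomial.aeval (co ℂ c w) (Pr r * Pr' r) = 0) fun z hz => by
      have := MvPolynomial.mem_vanishingIdeal_iff.1 hPP _ ⟨z, hz, rfl⟩
      rw [map_mul] at this
      have h2 := (congrArg₂ (· * ·) (hP.aeval fun r => co ℂ c (z r))
        (hP'.aeval fun r => co ℂ c (z r))).symm.trans this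
      simp only [map_mul]
      exact Germ.coe_eq.1 h2
    filter_upwards [h1, hirr (max P.totalDegree P'.totalDegree)] with r h1 h2
    exact h2 _ _ (le_max_of_le_left (Finset.sup_mono (hs r)))
      (le_max_of_le_right (Finset.sup_mono (hs' r))) h1

theorem Germ_exists_finset {V : Type*} [Finite V] (S : Finset V) (e : ℕ) :
    ∃ T : Finset (V →₀ ℕ), (∀ m ∈ T, m.support ⊆ S) ∧ ∀ P : MvPolynomial V ℂ,
      P.vars ⊆ S → P.totalDegree ≤ e → P.support ⊆ T := by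
  classical
  have hfin : {m : V →₀ ℕ | m.degree ≤ e}.Finite := Finsupp.finite_of_degree_le e
  refine ⟨hfin.toFinset.filter fun m => m.support ⊆ S, fun m hm => (Finset.mem_filter.1 hm).2,
    fun P hv he m hm => Finset.mem_filter.2 ⟨hfin.mem_toFinset.2 ?_, fun v hvm =>
      hv ((MvPolynomial.mem_vars_iff_mem_support v).2 ⟨m, hm, hvm⟩)⟩⟩
  exact (MvPolynomial.le_totalDegree hm).trans he

/-- Recipe: `→`: `exists_rep`, `e = P.totalDegree`.  `←`: choose witnesses (and `0` at the other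
`r`); all supports lie in the finite set of exponents of degree `≤ e` supported in `S`. -/
theorem depI_iff {d : ℕ} (c : Fin d) {Y : ℕ → Finset (Pt d)} (hne : ∀ r, (Y r).Nonempty)
    (S : Finset (Var d)) :
    DepI (IF c Y) S ↔ ∃ e, ∀ᶠ r in (UF : Filter ℕ), DepC c (Y r) S e := by
  classical
  constructor
  · rintro ⟨P, hP, h0, hv⟩
    obtain ⟨Pr, hr, hs⟩ := exists_rep P
    refine ⟨P.totalDegree, ?_⟩
    have h1 := Ultrafilter.eventually_not.2 (mt hr.eq_zero_iff.2 h0)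
    filter_upwards [h1, (hr.mem_IF_iff c hne).1 hP] with r h1 h2
    refine ⟨Pr r, h1, fun v hv' => hv ?_, Finset.sup_mono (hs r), h2⟩
    obtain ⟨m, hm, hvm⟩ := (MvPolynomial.mem_vars_iff_mem_support v).1 hv'
    exact (MvPolynomial.mem_vars_iff_mem_support v).2 ⟨m, hs r hm, hvm⟩
  · rintro ⟨e, he⟩
    have : ∀ r, ∃ P : MvPolynomial (Var d) ℂ, P.vars ⊆ S ∧ P.totalDegree ≤ e ∧
        (DepC c (Y r) S e → P ≠ 0 ∧ Van c (Y r) P) := fun r => by
      by_cases h : DepC c (Y r) S e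
      · obtain ⟨P, h1, h2, h3, h4⟩ := h
        exact ⟨P, h2, h3, fun _ => ⟨h1, h4⟩⟩
      · exact ⟨0, by simp, by simp, fun h' => absurd h' h⟩
    choose Pr h1 h2 h3 using this
    obtain ⟨T, hT, hT'⟩ := Germ_exists_finset S e
    obtain ⟨P, hP, hs⟩ := exists_germ Pr T fun r => hT' _ (h1 r) (h2 r)
    refine ⟨P, (hP.mem_IF_iff c hne).2 (he.mono fun r hr => (h3 r hr).2), fun h0 => ?_,
      fun v hv => ?_⟩
    · obtain ⟨r, h4, h5⟩ := ((hP.eq_zero_iff.1 h0).and he).exists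
      exact (h3 r h5).1 h4
    · obtain ⟨m, hm, hvm⟩ := (MvPolynomial.mem_vars_iff_mem_support v).1 hv
      exact hT m (hs hm) hvm

theorem DepC.mono {d : ℕ} {c : Fin d} {Y : Finset (Pt d)} {S : Finset (Var d)} {e e' : ℕ}
    (h : DepC c Y S e) (he : e ≤ e') : DepC c Y S e' := by
  obtain ⟨P, h1, h2, h3, h4⟩ := h
  exact ⟨P, h1, h2, h3.trans he, h4⟩

/-- Recipe: replace `P r` by `0` where the degree bound fails, map to `ℂ`, `exists_germ`,
`Rep.mem_IF_iff` twice, `van_map_iff`. -/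
theorem van_transfer {d : ℕ} (c : Fin d) {Y Y' : ℕ → Finset (Pt d)} (hne : ∀ r, (Y r).Nonempty)
    (hne' : ∀ r, (Y' r).Nonempty) (h : IF c Y ≤ IF c Y') (P : ℕ → MvPolynomial (Var d) ℤ)
    (e : ℕ) (hP : ∀ᶠ r in (UF : Filter ℕ), (P r).totalDegree ≤ e ∧ Van c (Y r) (P r)) :
    ∀ᶠ r in (UF : Filter ℕ), Van c (Y' r) (P r) := by
  classical
  obtain ⟨T, -, hT⟩ := Germ_exists_finset (Finset.univ : Finset (Var d)) e
  let Pr : ℕ → MvPolynomial (Var d) ℂ := fun r =>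
    if (P r).totalDegree ≤ e then (P r).map (Int.castRingHom ℂ) else 0
  obtain ⟨Q, hQ, -⟩ := exists_germ Pr T fun r => hT _ (Finset.subset_univ _) (by
    simp only [Pr]
    split_ifs with h
    · exact (Finset.sup_mono (MvPolynomial.support_map_subset _ _)).trans h
    · simp)
  have h1 := (hQ.mem_IF_iff c hne').1 (h ((hQ.mem_IF_iff c hne).2 (hP.mono fun r hr => by
    simp only [Pr, if_pos hr.1]
    exact (van_map_iff c _ _).2 hr.2)))
  filter_upwards [h1, hP] with r h1 hr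
  simp only [Pr, if_pos hr.1] at h1
  exact (van_map_iff c _ _).1 h1

/-! ### Subpolynomial bookkeeping -/

theorem Germ_one_le {H : ℕ → ℕ} (hH : ∀ r, r + 1 ≤ H r) (r : ℕ) : (1 : ℝ) ≤ H r := by
  exact_mod_cast (Nat.le_add_left 1 r).trans (hH r)

theorem Germ_tendsto {H : ℕ → ℕ} (hH : ∀ r, r + 1 ≤ H r) {ε : ℝ} (hε : 0 < ε) :
    Tendsto (fun r => (H r : ℝ) ^ ε) (UF : Filter ℕ) atTop := by
  refine ((tendsto_rpow_atTop hε).comp (tendsto_natCast_atTop_atTop.comp ?_)).mono_left UF_le_atTop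
  exact tendsto_atTop_mono (fun r => (Nat.le_succ r).trans (hH r)) tendsto_id

theorem Le.mul {H : ℕ → ℕ} (hH : ∀ r, r + 1 ≤ H r) {u u' : ℕ → ℝ} {κ κ' : ℝ} (h : Le H u κ)
    (h' : Le H u' κ') (h0 : ∀ r, 0 ≤ u r) (h0' : ∀ r, 0 ≤ u' r) :
    Le H (fun r => u r * u' r) (κ + κ') := by
  intro ε hε
  filter_upwards [h (ε / 2) (half_pos hε), h' (ε / 2) (half_pos hε)] with r h1 h2
  have hp : (0 : ℝ) < H r := one_pos.trans_le (Germ_one_le hH r)
  refine (mul_le_mul h1 h2 (h0' r) (by positivity)).trans (le_of_eq ?_)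
  rw [← Real.rpow_add hp]
  congr 1
  ring

theorem Le.const {H : ℕ → ℕ} (hH : ∀ r, r + 1 ≤ H r) (a : ℝ) : Le H (fun _ => a) 0 := by
  intro ε hε
  rw [zero_add]
  exact (Germ_tendsto hH hε).eventually_ge_atTop a

theorem Le.rpow {H : ℕ → ℕ} (hH : ∀ r, r + 1 ≤ H r) (κ : ℝ) :
    Le H (fun r => (H r : ℝ) ^ κ) κ := by
  exact fun ε hε => Eventually.of_forall fun r =>
    Real.rpow_le_rpow_of_exponent_le (Germ_one_le hH r) (by linarith)

theorem Le.of_le {H : ℕ → ℕ} {u u' : ℕ → ℝ} {κ : ℝ} (h : Le H u' κ)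
    (hu : ∀ᶠ r in (UF : Filter ℕ), u r ≤ u' r) : Le H u κ := by
  intro ε hε
  filter_upwards [h ε hε, hu] with r h1 h2 using h2.trans h1

theorem Le.mono {H : ℕ → ℕ} (hH : ∀ r, r + 1 ≤ H r) {u : ℕ → ℝ} {κ κ' : ℝ} (h : Le H u κ)
    (hκ : κ ≤ κ') : Le H u κ' := by
  exact fun ε hε => (h ε hε).mono fun r hr =>
    hr.trans (Real.rpow_le_rpow_of_exponent_le (Germ_one_le hH r) (by linarith))

theorem Le.prod {H : ℕ → ℕ} (hH : ∀ r, r + 1 ≤ H r) {ι : Type*} (s : Finset ι)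
    (u : ι → ℕ → ℝ) (κ : ι → ℝ) (h : ∀ t ∈ s, Le H (u t) (κ t)) (h0 : ∀ t ∈ s, ∀ r, 0 ≤ u t r) :
    Le H (fun r => ∏ t ∈ s, u t r) (∑ t ∈ s, κ t) := by
  classical
  induction s using Finset.induction_on with
  | empty => simpa using Le.const hH 1
  | insert a s ha ih =>
    simp only [Finset.prod_insert ha, Finset.sum_insert ha]
    exact Le.mul hH (h a (Finset.mem_insert_self _ _))
      (ih (fun t ht => h t (Finset.mem_insert_of_mem ht))
        fun t ht => h0 t (Finset.mem_insert_of_mem ht)) (h0 a (Finset.mem_insert_self _ _))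
      fun r => Finset.prod_nonneg fun t ht => h0 t (Finset.mem_insert_of_mem ht) r

/-- A lower bound `H^a ≤ u` forces `a ≤ κ`. -/
theorem Le.le_of_rpow_le {H : ℕ → ℕ} (hH : ∀ r, r + 1 ≤ H r) {u : ℕ → ℝ} {κ a : ℝ}
    (h : Le H u κ) (ha : ∀ᶠ r in (UF : Filter ℕ), (H r : ℝ) ^ a ≤ u r) : a ≤ κ := by
  refine le_of_forall_pos_le_add fun ε hε => ?_
  obtain ⟨r, ⟨h1, h2⟩, h3⟩ :=
    (((h ε hε).and ha).and (UF_le_atTop (eventually_ge_atTop 1))).exists
  have : (1 : ℝ) < H r := by exact_mod_cast (Nat.lt_succ_of_le h3).trans_le (hH r)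
  exact (Real.rpow_le_rpow_left_iff this).1 (h2.trans h1)

theorem Le.of_pow_le {H K : ℕ → ℕ} (hH : ∀ r, r + 1 ≤ H r) (hK : ∀ r, K r ^ r ≤ H r) :
    Le H (fun r => (K r : ℝ)) 0 := by
  intro ε hε
  obtain ⟨N, hN⟩ := exists_nat_gt (1 / ε)
  filter_upwards [UF_le_atTop (eventually_ge_atTop N)] with r hr
  have hr' : 1 / ε < r := hN.trans_le (by exact_mod_cast hr)
  have hr0 : (0 : ℝ) < r := (one_div_pos.2 hε).trans hr'
  have h1 : (K r : ℝ) ≤ (H r : ℝ) ^ (r : ℝ)⁻¹ := by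
    rw [Real.le_rpow_inv_iff_of_pos (Nat.cast_nonneg _) (Nat.cast_nonneg _) hr0, Real.rpow_natCast]
    exact_mod_cast hK r
  refine h1.trans (Real.rpow_le_rpow_of_exponent_le (Germ_one_le hH r) ?_)
  rw [zero_add, inv_le_comm₀ hr0 hε, ← one_div]
  exact hr'.le

end Crest.Agent.R22
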