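import Crest.Agent.R22.Defs

/-! # Row 22: linear algebra of the spaces `Lev` -/

set_option autoImplicit false

open Module

namespace Crest.Agent.R22

section
variable {K A : Type*} [Field K] [CommRing A] [Algebra K A] {d k : ℕ}

theorem Lev_mono (x μ : Fin d → A) : Monotone (Lev K k x μ) := by
  intro j j' h
  refine Submodule.span_mono ?_
  rintro f ⟨w, hw, rfl⟩
  exact ⟨w, hw.trans h, rfl⟩

/-- Finitely many words of level `≤ j` (finite union over `j' ≤ j` of ranges of functions on
finite types). -/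
theorem Lev_finite (x μ : Fin d → A) (j : ℕ) : Module.Finite K (Lev K k x μ j) := by
  refine Module.Finite.span_of_finite K ?_
  refine ((Set.finite_Iic j).biUnion fun j' _ => Set.finite_range
    fun p : (Fin (k * j') → Fin d) × (Fin j' → Fin d) =>
      Word.val (⟨j', p.1, p.2⟩ : Word d k) x μ).subset ?_
  rintro f ⟨w, hw, rfl⟩
  exact Set.mem_biUnion (show w.j ∈ Set.Iic j from hw) ⟨(w.α, w.β), rfl⟩

theorem sp_finite (x : Fin d → A) : Module.Finite K (sp K x) := by
  exact Module.Finite.span_of_finite K (Set.finite_range x)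

/-- `Submodule.FG.mul`, `Module.Finite.iff_fg`. -/
theorem mul_finite (U V : Submodule K A) [Module.Finite K U] [Module.Finite K V] :
    Module.Finite K (U * V : Submodule K A) := by
  rw [Module.Finite.iff_fg] at *
  exact Submodule.FG.mul ‹U.FG› ‹V.FG›

theorem pow_finite (U : Submodule K A) [Module.Finite K U] (n : ℕ) :
    Module.Finite K (U ^ n : Submodule K A) := by
  rw [Module.Finite.iff_fg] at *
  exact Submodule.FG.pow ‹U.FG› n

theorem LM_finite (ξ ζ : Fin d → A) (M : ℕ) : Module.Finite K (LM K ξ ζ M) := by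
  have := sp_finite (K := K) ξ
  have := sp_finite (K := K) ζ
  have := pow_finite (sp K ξ) M
  have := pow_finite (sp K ζ) M
  exact mul_finite _ _

theorem LM_comp_le {d' : ℕ} (ε : Fin d' → Fin d) (ξ ζ : Fin d → A) (M : ℕ) :
    LM K (ξ ∘ ε) (ζ ∘ ε) M ≤ LM K ξ ζ M := by
  exact mul_le_mul'
    (pow_le_pow_left' (Submodule.span_mono (Set.range_comp_subset_range _ _)) M)
    (pow_le_pow_left' (Submodule.span_mono (Set.range_comp_subset_range _ _)) M)

theorem prod_mem_pow {ι : Type*} (s : Finset ι) (U : Submodule K A) (f : ι → A)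
    (hf : ∀ l ∈ s, f l ∈ U) : ∏ l ∈ s, f l ∈ U ^ s.card := by
  induction s using Finset.cons_induction with
  | empty => simpa using (Submodule.one_le (R := K) (A := A)).1 le_rfl
  | cons a s ha ih =>
    rw [Finset.prod_cons, Finset.card_cons, pow_succ']
    exact Submodule.mul_mem_mul (hf a (Finset.mem_cons_self _ _))
      (ih fun l hl => hf l (Finset.mem_cons_of_mem hl))

theorem prod_pow_mem_sp_pow (x : Fin d → A) (e : Fin d → ℕ) :
    ∏ σ, x σ ^ e σ ∈ sp K x ^ (∑ σ, e σ) := by
  generalize (Finset.univ : Finset (Fin d)) = s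
  induction s using Finset.cons_induction with
  | empty => simpa using (Submodule.one_le (R := K) (A := A)).1 le_rfl
  | cons a s ha ih =>
    rw [Finset.prod_cons, Finset.sum_cons, pow_add]
    exact Submodule.mul_mem_mul
      (Submodule.pow_mem_pow _ (Submodule.subset_span (Set.mem_range_self a)) _) ih

/-- Recipe: `Submodule.span_pow`, `Set.mem_pow` (or induction on `m`). -/
theorem sp_pow_eq_span_words (x : Fin d → A) (m : ℕ) :
    sp K x ^ m = Submodule.span K (Set.range fun α : Fin m → Fin d => ∏ l, x (α l)) := by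
  rw [Submodule.span_pow]
  congr 1
  ext f
  rw [Set.mem_pow]
  constructor
  · rintro ⟨g, rfl⟩
    choose α hα using fun l => (g l).2
    exact ⟨α, by simp only [hα, List.prod_ofFn]⟩
  · rintro ⟨α, rfl⟩
    exact ⟨fun l => ⟨x (α l), Set.mem_range_self _⟩, List.prod_ofFn⟩

theorem sp_pow_eq_span_monomials (x : Fin d → A) (m : ℕ) :
    sp K x ^ m = Submodule.span K {f | ∃ e : Fin d → ℕ, ∑ σ, e σ = m ∧ f = ∏ σ, x σ ^ e σ} := by
  refine le_antisymm ?_ (Submodule.span_le.2 ?_)
  · rw [sp_pow_eq_span_words]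
    refine Submodule.span_mono ?_
    rintro f ⟨α, rfl⟩
    refine ⟨fun σ => (Finset.univ.filter fun l => α l = σ).card, ?_, ?_⟩
    · rw [← Finset.card_eq_sum_card_fiberwise fun l _ => Finset.mem_coe.2 (Finset.mem_univ (α l))]
      simp
    · simp only
      rw [← Finset.prod_fiberwise_of_maps_to (fun l _ => Finset.mem_univ (α l))]
      refine Finset.prod_congr rfl fun σ _ => ?_
      rw [← Finset.prod_const]
      exact Finset.prod_congr rfl fun l hl => by rw [(Finset.mem_filter.1 hl).2]
  · rintro f ⟨e, rfl, rfl⟩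
    exact prod_pow_mem_sp_pow x e

theorem word_mem (x μ : Fin d → A) (w : Word d k) :
    w.val x μ ∈ sp K x ^ (k * w.j) * sp K μ ^ w.j := by
  have h1 := prod_mem_pow Finset.univ (sp K x) (fun l => x (w.α l))
    fun l _ => Submodule.subset_span (Set.mem_range_self _)
  have h2 := prod_mem_pow Finset.univ (sp K μ) (fun l => μ (w.β l))
    fun l _ => Submodule.subset_span (Set.mem_range_self _)
  rw [Finset.card_univ, Fintype.card_fin] at h1 h2
  exact Submodule.mul_mem_mul h1 h2

theorem pow_mul_pow_le_Lev (x μ : Fin d → A) {j' j : ℕ} (h : j' ≤ j) :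
    sp K x ^ (k * j') * sp K μ ^ j' ≤ Lev K k x μ j := by
  rw [sp_pow_eq_span_words, sp_pow_eq_span_words, Submodule.span_mul_span]
  refine Submodule.span_mono ?_
  rintro f ⟨a, ⟨α, rfl⟩, b, ⟨β, rfl⟩, rfl⟩
  exact ⟨⟨j', α, β⟩, h, rfl⟩

theorem Lev_le_Lev (x μ x' μ' : Fin d → A) (hx : ∀ σ, x σ ∈ sp K x') (hμ : ∀ σ, μ σ ∈ sp K μ')
    (j : ℕ) : Lev K k x μ j ≤ Lev K k x' μ' j := by
  refine Submodule.span_le.2 ?_
  rintro f ⟨w, hw, rfl⟩
  have h1 : sp K x ≤ sp K x' := Submodule.span_le.2 (Set.range_subset_iff.2 hx)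
  have h2 : sp K μ ≤ sp K μ' := Submodule.span_le.2 (Set.range_subset_iff.2 hμ)
  exact pow_mul_pow_le_Lev x' μ' hw
    (mul_le_mul' (pow_le_pow_left' h1 _) (pow_le_pow_left' h2 _) (word_mem x μ w))

theorem Word.map_val {A A' G : Type*} [CommMonoid A] [CommMonoid A'] [FunLike G A A']
    [MonoidHomClass G A A'] (f : G) (w : Word d k) (x μ : Fin d → A) :
    f (w.val x μ) = w.val (f ∘ x) (f ∘ μ) := by
  simp only [Word.val, map_mul, map_prod, Function.comp]

theorem map_Lev {A' : Type*} [CommRing A'] [Algebra K A'] (f : A →ₐ[K] A') (x μ : Fin d → A)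
    (j : ℕ) : (Lev K k x μ j).map f.toLinearMap = Lev K k (f ∘ x) (f ∘ μ) j := by
  unfold Lev
  rw [Submodule.map_span]
  congr 1
  ext y
  constructor
  · rintro ⟨_, ⟨w, hw, rfl⟩, rfl⟩
    exact ⟨w, hw, Word.map_val f w x μ⟩
  · rintro ⟨w, hw, rfl⟩
    exact ⟨_, ⟨w, hw, rfl⟩, Word.map_val f w x μ⟩

theorem la_extend_one (x μ : Fin d → A) {D n s : ℕ}
    (h : ∃ w : Fin n → Word d k, (∀ h, (w h).j ≤ D) ∧
      LinearIndependent K (fun h => (w h).val x μ) ∧ ∑ h, (w h).j ≤ s)
    (hn : n < finrank K (Lev K k x μ D)) :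
    ∃ w : Fin (n + 1) → Word d k, (∀ h, (w h).j ≤ D) ∧
      LinearIndependent K (fun h => (w h).val x μ) ∧ ∑ h, (w h).j ≤ s + D := by
  obtain ⟨w, h1, h2, h3⟩ := h
  obtain ⟨w₀, hw₀, hnot⟩ : ∃ w₀ : Word d k, w₀.j ≤ D ∧
      w₀.val x μ ∉ Submodule.span K (Set.range fun h => (w h).val x μ) := by
    by_contra hc
    push Not at hc
    have hle : Lev K k x μ D ≤ Submodule.span K (Set.range fun h => (w h).val x μ) := by
      refine Submodule.span_le.2 ?_
      rintro f ⟨w₀, hw₀, rfl⟩
      exact hc w₀ hw₀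
    have := Module.Finite.span_of_finite K (Set.finite_range fun h => (w h).val x μ)
    have h4 := Submodule.finrank_mono hle
    rw [finrank_span_eq_card h2, Fintype.card_fin] at h4
    omega
  refine ⟨Fin.cons w₀ w, fun h => ?_, ?_, ?_⟩
  · refine Fin.cases ?_ (fun i => ?_) h
    · exact hw₀
    · exact h1 i
  · have : (fun h => ((Fin.cons w₀ w : Fin (n + 1) → Word d k) h).val x μ) =
        Fin.cons (w₀.val x μ) fun h => (w h).val x μ := by
      funext h
      refine Fin.cases ?_ (fun i => ?_) h <;> rfl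
    rw [this]
    exact linearIndependent_finCons.2 ⟨h2, hnot⟩
  · rw [Fin.sum_univ_succ]
    simp only [Fin.cons_zero, Fin.cons_succ]
    omega

theorem la_extend (x μ : Fin d → A) {D n s : ℕ}
    (h : ∃ w : Fin n → Word d k, (∀ h, (w h).j ≤ D) ∧
      LinearIndependent K (fun h => (w h).val x μ) ∧ ∑ h, (w h).j ≤ s)
    (t : ℕ) (hn : n + t ≤ finrank K (Lev K k x μ D)) :
    ∃ w : Fin (n + t) → Word d k, (∀ h, (w h).j ≤ D) ∧
      LinearIndependent K (fun h => (w h).val x μ) ∧ ∑ h, (w h).j ≤ s + D * t := by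
  induction t with
  | zero => simpa using h
  | succ t ih =>
    have := la_extend_one x μ (ih (by omega)) (by omega)
    rwa [add_assoc s, ← Nat.mul_succ] at this

/-- Independent words of small total level.  Recipe: first an auxiliary lemma: an independent
family of `n < finrank (Lev D)` words of level `≤ D` can be extended by one word of level `≤ D`
(some word is not in the span; `linearIndependent_finCons` / `Fin.snoc`), hence from `ρ` to any
`Hn ≤ finrank (Lev D)` words with the sum of levels increasing by at most `D (Hn - ρ)`.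
Induct on `D` (for all `Hn`): if `Hn ≤ rk (D-1)` use the hypothesis, otherwise take the family
for `ρ = rk (D-1)` and extend; `Hn - rk j = (Hn - ρ) + (ρ - rk j)` for `j ≤ D - 1`. -/
theorem exists_words (x μ : Fin d → A) (D Hn : ℕ) (h : Hn ≤ finrank K (Lev K k x μ D)) :
    ∃ w : Fin Hn → Word d k, (∀ h, (w h).j ≤ D) ∧
      LinearIndependent K (fun h => (w h).val x μ) ∧
      ∑ h, (w h).j ≤ ∑ j ∈ Finset.range D, (Hn - finrank K (Lev K k x μ j)) := by
  induction D generalizing Hn with
  | zero =>
    have := la_extend x μ (D := 0) (n := 0) (s := 0) ⟨Fin.elim0, fun h => h.elim0,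
      linearIndependent_empty_type, by simp⟩ Hn (by simpa using h)
    rw [zero_add] at this
    simpa using this
  | succ D ih =>
    by_cases hD : Hn ≤ finrank K (Lev K k x μ D)
    · obtain ⟨w, h1, h2, h3⟩ := ih Hn hD
      refine ⟨w, fun h => (h1 h).trans (Nat.le_succ D), h2, h3.trans ?_⟩
      rw [Finset.sum_range_succ]
      exact Nat.le_add_right _ _
    · obtain ⟨t, rfl⟩ := Nat.exists_eq_add_of_le (not_le.1 hD).le
      obtain ⟨w, h1, h2, h3⟩ := ih _ le_rfl
      obtain ⟨w', h1', h2', h3'⟩ := la_extend x μ (D := D + 1)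
        ⟨w, fun h => (h1 h).trans (Nat.le_succ D), h2, h3⟩ t h
      refine ⟨w', h1', h2', h3'.trans (le_of_eq ?_)⟩
      have h4 : ∀ j ∈ Finset.range D, finrank K (Lev K k x μ D) + t - finrank K (Lev K k x μ j) =
          (finrank K (Lev K k x μ D) - finrank K (Lev K k x μ j)) + t := fun j hj => by
        have := Lev_finite (K := K) (k := k) x μ D
        have := Submodule.finrank_mono (Lev_mono (K := K) (k := k) x μ (Finset.mem_range.1 hj).le)
        omega
      rw [Finset.sum_range_succ, Finset.sum_congr rfl h4, Finset.sum_add_distrib, Finset.sum_const,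
        Finset.card_range, smul_eq_mul, Nat.add_sub_cancel_left]
      ring

/-- Recipe: the vectors `(f h z)_h`, `z : Z`, span `Fin n → K` (otherwise a nonzero functional
kills them, contradicting independence); extract a basis among them
(`exists_linearIndependent'`/`Basis.mk`, `Matrix.linearIndependent_cols_iff_isUnit`). -/
theorem exists_det_ne_zero {Z : Type*} {n : ℕ} (f : Fin n → Z → K)
    (hf : LinearIndependent K f) :
    ∃ y : Fin n → Z, (Matrix.of fun h m => f h (y m)).det ≠ 0 := by
  induction n with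
  | zero => exact ⟨Fin.elim0, by simp⟩
  | succ n ih =>
    obtain ⟨y, hy⟩ := ih (fun h => f h.succ) (hf.comp _ (Fin.succ_injective n))
    by_contra hc
    push Not at hc
    have := Fintype.linearIndependent_iff.1 hf
      (fun i => (-1) ^ (i : ℕ) * (Matrix.of fun h m => f (i.succAbove h) (y m)).det) (by
        funext z
        have h1 := hc (Fin.cons z y)
        rw [Matrix.det_succ_column_zero] at h1
        rw [Finset.sum_apply, Pi.zero_apply, ← h1]
        refine Finset.sum_congr rfl fun i _ => ?_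
        rw [Pi.smul_apply, smul_eq_mul, mul_right_comm]
        rfl) 0
    exact hy (by simpa using this)

end

/-- Rank comparison.  Recipe: let `n = finrank K (Lev x' μ' j)`; `exists_words` gives `n` words
whose values in `B` are `K`-independent; their values in `A` are `F`-independent: a relation
`∑ c_h w_h(x, μ) = 0` is `aeval _ P = 0` for `P = ∑ c_h • w_h(X inl, X inr)`, hence holds in `B`
(`Word.val` commutes with ring homs).  Then `LinearIndependent.fintype_card_le_finrank`. -/
theorem finrank_Lev_le {F K A B : Type*} [Field F] [Field K] [Algebra F K] [CommRing A]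
    [Algebra F A] [CommRing B] [Algebra K B] [Algebra F B] [IsScalarTower F K B] {d k : ℕ}
    (x μ : Fin d → A) (x' μ' : Fin d → B)
    (h : ∀ P : MvPolynomial (Fin d ⊕ Fin d) F, MvPolynomial.aeval (Sum.elim x μ) P = 0 →
      MvPolynomial.aeval (Sum.elim x' μ') P = 0) (j : ℕ) :
    finrank K (Lev K k x' μ' j) ≤ finrank F (Lev F k x μ j) := by
  obtain ⟨w, h1, h2, -⟩ := exists_words (K := K) (k := k) x' μ' j _ le_rfl
  have h3 : LinearIndependent F fun h => (w h).val x μ := by
    refine Fintype.linearIndependent_iff.2 fun g hg => ?_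
    refine Fintype.linearIndependent_iff.1 (h2.restrict_scalars' F) g ?_
    have := h (∑ i, g i • (w i).val (fun σ => MvPolynomial.X (Sum.inl σ))
      fun σ => MvPolynomial.X (Sum.inr σ)) (by
        simpa [Word.map_val, Function.comp_def] using hg)
    simpa [Word.map_val, Function.comp_def] using this
  have := Lev_finite (K := F) (k := k) x μ j
  have h4 : LinearIndependent F fun h => (⟨(w h).val x μ,
      Submodule.subset_span ⟨w h, h1 h, rfl⟩⟩ : Lev F k x μ j) :=
    LinearIndependent.of_comp (Lev F k x μ j).subtype h3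
  simpa using h4.fintype_card_le_finrank

end Crest.Agent.R22
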