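import Crest.Agent.R22.Germ
import Crest.Agent.R22.LevAlg

/-! # Row 22: internal points as a `GeoSet`, and nonzero determinants -/

set_option autoImplicit false

open Filter Polynomial Module

namespace Crest.Agent.R22

/-- the germ map as a ring homomorphism -/
noncomputable def gmB : (ℕ → ℂ) →+* FF := Germ.coeRingHom (UF : Filter ℕ)

theorem gmB_apply (f : ℕ → ℂ) : gmB f = (f : FF) := rfl

theorem gmB_eq {f g : ℕ → ℂ} : gmB f = gmB g ↔ ∀ᶠ r in (UF : Filter ℕ), f r = g r := Germ.coe_eq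

theorem gmB_ne {f g : ℕ → ℂ} : gmB f ≠ gmB g ↔ ∀ᶠ r in (UF : Filter ℕ), f r ≠ g r := by
  rw [Ne, gmB_eq, Ultrafilter.eventually_not]

theorem gmB_ne_zero {f : ℕ → ℂ} : gmB f ≠ 0 ↔ ∀ᶠ r in (UF : Filter ℕ), f r ≠ 0 := by
  rw [← map_zero gmB, gmB_ne]
  rfl

theorem gmB_div (f g : ℕ → ℂ) : gmB (f / g) = gmB f / gmB g := rfl

theorem gmB_inv (f : ℕ → ℂ) : gmB f⁻¹ = (gmB f)⁻¹ := rfl

theorem GermB_cj_apply {ι R : Type*} [CommRing R] {d : ℕ} (a : Fin d → ι → R) (t : ι → R) (z : ι) :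
    cj a t z = cj (fun i => a i z) (t z) := map_cj (Pi.evalRingHom (fun _ => R) z) a t

theorem GermB_cj_mul {R : Type*} [CommRing R] {d : ℕ} (a : Fin d → R) (u t : R) :
    cj (fun i => u * a i) t = u * cj a t := by
  simp only [cj, Finset.mul_sum, mul_assoc]

theorem GermB_cj {d : ℕ} (a : Fin d → ℕ → ℂ) (t : ℂ) :
    cj (fun i => gmB (a i)) (cst t) = gmB fun r => cj (fun i => a i r) t := by
  have h := map_cj gmB a fun _ => t
  rw [show cst t = gmB fun _ => t from rfl, ← h]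
  congr 1
  funext r
  exact GermB_cj_apply a _ r

theorem GermB_val_map {d k : ℕ} {A B : Type*} [CommMonoid A] [CommMonoid B] (f : A →* B)
    (w : Word d k) (x μ : Fin d → A) :
    f (w.val x μ) = w.val (fun i => f (x i)) fun i => f (μ i) := by
  simp only [Word.val, map_mul, map_prod]

/-- `xf` at an internal point is the germ of `π_σ / a_c`. -/
theorem xf_coF {d : ℕ} (c : Fin d) (θ : Fin d → ℂ) (Y : ℕ → Finset (Pt d)) (z : ℕ → Pt d)
    (hz : coF c z ∈ PtsF c Y) (σ : Fin d) :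
    xf (fun σ => cst (θ σ)) (PtsF c Y) σ ⟨coF c z, hz⟩ =
      ((fun r => (z r).pi (θ σ) / ((z r).a c : ℂ) : ℕ → ℂ) : FF) := by
  change cj (fun i => gmB fun r => co ℂ c (z r) (some i)) (cst (θ σ)) = gmB _
  rw [GermB_cj]
  congr 1
  funext r
  simp only [co, Ring.inverse_eq_inv', Pt.pi]
  rw [div_eq_inv_mul, ← GermB_cj_mul]
  simp only [mul_comm]

/-- Recipe for `mi`: if the set is infinite it has a subset of `B + 1` elements
(`Set.Infinite.exists_subset_card_eq`); lift them to internal points `z'_0, …, z'_B`; these are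
pairwise distinct at most stages (`Ultrafilter.eventually_not`), lie in `X r`, and satisfy `MRel`
with `z r` (clear the denominators `a_c^{∑ e} a'_c^{∑ e}`), contradicting `MI`. -/
theorem geoSet_PtsF {d k : ℕ} {g : ℤ[X]} {θ : Fin d → ℂ} (hr : Roots g θ) {γ : ℤ} (hγ : γ ≠ 0)
    (hk : 1 ≤ k) (c : Fin d) (B : ℕ) (H : ℕ → ℕ) (𝒳 Y : ℕ → Finset (Pt d))
    (hgood : ∀ r, ∀ z ∈ 𝒳 r, Good g k γ c (H r) z) (hmi : ∀ r, MI θ B (𝒳 r))
    (hY : ∀ r, Y r ⊆ 𝒳 r) : GeoSet (fun σ => cst (θ σ)) c (PtsF c Y) := by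
  classical
  have hgd : ∀ z ∈ Itl Y, ∀ᶠ r in (UF : Filter ℕ), Good g k γ c (H r) (z r) := fun z hz =>
    Filter.Eventually.mono hz fun r h => hgood r _ (hY r h)
  refine ⟨fun σ τ h => hr.inj (cstHom.injective h), ?_, ?_, ?_, ?_⟩
  · rintro _ ⟨z, hz, rfl⟩
    change gmB (fun r => co ℂ c (z r) (some c)) = 1
    rw [← map_one gmB, gmB_eq]
    filter_upwards [hgd z hz] with r h
    have h0 : ((z r).a c : ℂ) ≠ 0 := by exact_mod_cast h.ht.chart
    simp only [co, Ring.inverse_eq_inv', Pi.one_apply]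
    exact mul_inv_cancel₀ h0
  · rintro σ ⟨_, z, hz, rfl⟩
    rw [xf_coF, ← gmB_apply, gmB_ne_zero]
    filter_upwards [hgd z hz] with r h
    exact div_ne_zero (h.rel.pi_ne_zero hr hγ hk σ) (by exact_mod_cast h.ht.chart)
  · rintro _ ⟨z, hz, rfl⟩ σ
    change gmB (fun r => co ℂ c (z r) none) ≠ gmB fun _ => θ σ
    rw [gmB_ne]
    exact Filter.Eventually.of_forall fun r => hr.nint _ σ
  · intro e e' hne hsum y
    by_contra hinf
    obtain ⟨t, ht, hcard⟩ := Set.Infinite.exists_subset_card_eq hinf (B + 1)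
    have hrep : ∀ y : PtsF c Y, ∃ z ∈ Itl Y, coF c z = y.1 := fun y => y.2
    choose rep hrep1 hrep2 using hrep
    have hxf : ∀ (σ : Fin d) (y : PtsF c Y), xf (fun σ => cst (θ σ)) (PtsF c Y) σ y =
        gmB fun r => (rep y r).pi (θ σ) / ((rep y r).a c : ℂ) := by
      intro σ y
      rw [gmB_apply, ← xf_coF c θ Y (rep y) ⟨_, hrep1 y, rfl⟩ σ]
      congr 1
      exact Subtype.ext (hrep2 y).symm
    have h1 : ∀ᶠ r in (UF : Filter ℕ), ∀ y' ∈ t, rep y' r ∈ 𝒳 r ∧
        MRel θ e e' (rep y r) (rep y' r) := by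
      rw [Filter.eventually_all_finset]
      intro y' hy'
      have h2 := ht hy'
      simp only [Set.mem_ofPred_eq, hxf, ← map_pow, ← map_prod, ← map_mul] at h2
      rw [gmB_eq] at h2
      filter_upwards [h2, hgd _ (hrep1 y), hgd _ (hrep1 y'), hrep1 y'] with r h3 h4 h5 h6
      refine ⟨hY r h6, ?_⟩
      have a1 : ((rep y r).a c : ℂ) ≠ 0 := by exact_mod_cast h4.ht.chart
      have a2 : ((rep y' r).a c : ℂ) ≠ 0 := by exact_mod_cast h5.ht.chart
      simp only [Pi.mul_apply, Finset.prod_apply, Pi.pow_apply, div_pow, Finset.prod_div_distrib,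
        Finset.prod_pow_eq_pow_sum, ← hsum] at h3
      unfold MRel
      field_simp at h3
      exact h3
    have h2 : ∀ᶠ r in (UF : Filter ℕ), ∀ y' ∈ t, ∀ y'' ∈ t, rep y' r = rep y'' r → y' = y'' := by
      rw [Filter.eventually_all_finset]
      intro y' _
      rw [Filter.eventually_all_finset]
      intro y'' _
      by_cases hy : y' = y''
      · exact Filter.Eventually.of_forall fun _ _ => hy
      · have h3 : ¬ ∀ᶠ r in (UF : Filter ℕ), rep y' r = rep y'' r := by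
          intro h3
          apply hy
          apply Subtype.ext
          rw [← hrep2 y', ← hrep2 y'']
          funext v
          exact Germ.coe_eq.2 (h3.mono fun r h => by simp only [h])
        exact (Ultrafilter.eventually_not.2 h3).mono fun r h h' => absurd h' h
    obtain ⟨r, h3, h4, h5⟩ := (h1.and (h2.and (hrep1 y))).exists
    have h6 := hmi r e e' hne hsum (rep y r) (hY r h5)
    have h7 := Finset.card_le_card_of_injOn (s := t)
      (t := (𝒳 r).filter fun z' => MRel θ e e' (rep y r) z') (fun y' => rep y' r)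
      (fun y' hy' => by
        simp only [Finset.coe_filter, Set.mem_ofPred_eq]
        exact h3 y' hy')
      (fun y' hy' y'' hy'' h => h4 y' hy' y'' hy'' h)
    omega

/-- Recipe.  Let `A' = Itl Y → FF`, `x' i z = coF c z (some i)`, `μ' i z =` germ of
`a_c ^ k * b_i`.  The pull-back `(PtsF c Y → FF) →ₐ A'` is injective; by `map_Lev`, `Lev_le_Lev`,
`cj_mem_sp` and `Rel.conj` (`mf σ = γ⁻¹ • cj μ' (θ σ)`) the rank `rk j` on `PtsF` is at most the
rank `rk' j` of `Lev FF k x' μ' j`.  Apply `exists_words` to `x', μ'` and `exists_det_ne_zero`.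
The value of a word at `z` is the germ of the integer `w.val a b` (the powers of `a_c` cancel), and
the determinant is the germ of the integer determinants (`RingHom.map_det`, `Germ.coeRingHom`). -/
theorem exists_det {d k : ℕ} {g : ℤ[X]} {θ : Fin d → ℂ} (hr : Roots g θ) {γ : ℤ} (hγ : γ ≠ 0)
    (hk : 1 ≤ k) (c : Fin d) (H : ℕ → ℕ) (Y : ℕ → Finset (Pt d))
    (hgood : ∀ r, ∀ z ∈ Y r, Good g k γ c (H r) z) (D Hn : ℕ)
    (h : Hn ≤ finrank FF (Lev FF k (xf (fun σ => cst (θ σ)) (PtsF c Y))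
      (mf k (fun σ => cst (θ σ)) (PtsF c Y)) D)) :
    ∃ (w : Fin Hn → Word d k) (y : Fin Hn → ℕ → Pt d), (∀ h, (w h).j ≤ D) ∧
      ∑ h, (w h).j ≤ ∑ j ∈ Finset.range D, (Hn - finrank FF (Lev FF k
        (xf (fun σ => cst (θ σ)) (PtsF c Y)) (mf k (fun σ => cst (θ σ)) (PtsF c Y)) j)) ∧
      ∀ᶠ r in (UF : Filter ℕ), (∀ m, y m r ∈ Y r) ∧
        (Matrix.of fun h m => (w h).val (y m r).a (y m r).b).det ≠ 0 := by
  have hgd : ∀ z : Itl Y, ∀ᶠ r in (UF : Filter ℕ), Good g k γ c (H r) (z.1 r) := fun z =>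
    Filter.Eventually.mono z.2 fun r h => hgood r _ h
  let x' : Fin d → Itl Y → FF := fun i z => coF c z.1 (some i)
  let μ' : Fin d → Itl Y → FF := fun i z => gmB fun r => ((z.1 r).a c : ℂ) ^ k * ((z.1 r).b i : ℂ)
  let φ : (PtsF c Y → FF) →ₐ[FF] (Itl Y → FF) :=
    { toFun := fun f z => f ⟨coF c z.1, z.1, z.2, rfl⟩
      map_one' := rfl
      map_mul' := fun _ _ => rfl
      map_zero' := rfl
      map_add' := fun _ _ => rfl
      commutes' := fun _ => rfl }
  have hφ : Function.Injective φ := by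
    intro f f' hf
    funext ⟨_, z, hz, rfl⟩
    exact congrFun hf ⟨z, hz⟩
  have hx : ∀ σ, (φ ∘ xf (fun σ => cst (θ σ)) (PtsF c Y)) σ ∈ sp FF x' := by
    intro σ
    have e : (φ ∘ xf (fun σ => cst (θ σ)) (PtsF c Y)) σ =
        cj x' (algebraMap FF (Itl Y → FF) (cst (θ σ))) := by
      funext z
      rw [GermB_cj_apply]
      rfl
    rw [e]
    exact cj_mem_sp _ _
  have hμ : ∀ σ, (φ ∘ mf k (fun σ => cst (θ σ)) (PtsF c Y)) σ ∈ sp FF μ' := by
    intro σ
    have e : (φ ∘ mf k (fun σ => cst (θ σ)) (PtsF c Y)) σ =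
        cst (γ : ℂ)⁻¹ • cj μ' (algebraMap FF (Itl Y → FF) (cst (θ σ))) := by
      funext z
      rw [Pi.smul_apply, GermB_cj_apply, smul_eq_mul]
      change (gmB (fun r => co ℂ c (z.1 r) none) - gmB fun _ => θ σ) /
        xf (fun σ => cst (θ σ)) (PtsF c Y) σ ⟨coF c z.1, z.1, z.2, rfl⟩ ^ k =
        gmB (fun _ => (γ : ℂ)⁻¹) * cj (fun i => gmB fun r =>
          ((z.1 r).a c : ℂ) ^ k * ((z.1 r).b i : ℂ)) (cst (θ σ))
      rw [xf_coF, ← gmB_apply, GermB_cj, ← map_pow, ← map_sub, ← gmB_div, ← map_mul, gmB_eq]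
      filter_upwards [hgd z] with r h
      have a1 : ((z.1 r).a c : ℂ) ≠ 0 := by exact_mod_cast h.ht.chart
      have a2 := h.rel.pi_ne_zero hr hγ hk σ
      have a3 : (γ : ℂ) ≠ 0 := by exact_mod_cast hγ
      have a4 := h.rel.conj hr σ
      simp only [Pi.div_apply, Pi.sub_apply, Pi.pow_apply, Pi.mul_apply, co, GermB_cj_mul, div_pow]
      field_simp
      linear_combination -a4
    rw [e]
    exact Submodule.smul_mem _ _ (cj_mem_sp _ _)
  have hrk : ∀ j, finrank FF (Lev FF k (xf (fun σ => cst (θ σ)) (PtsF c Y))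
      (mf k (fun σ => cst (θ σ)) (PtsF c Y)) j) ≤ finrank FF (Lev FF k x' μ' j) := by
    intro j
    have := Lev_finite (K := FF) (k := k) x' μ' j
    rw [(Submodule.equivMapOfInjective φ.toLinearMap hφ _).finrank_eq, map_Lev]
    exact Submodule.finrank_mono (Lev_le_Lev _ _ _ _ hx hμ j)
  obtain ⟨w, hw1, hw2, hw3⟩ := exists_words (K := FF) (k := k) x' μ' D Hn (h.trans (hrk D))
  obtain ⟨y, hy⟩ := exists_det_ne_zero _ hw2
  refine ⟨w, fun m => (y m).1, hw1,
    hw3.trans (Finset.sum_le_sum fun j _ => Nat.sub_le_sub_left (hrk j) _), ?_⟩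
  have hval : ∀ (u : Word d k) (z : Itl Y), u.val x' μ' z =
      gmB fun r => ((u.val (z.1 r).a (z.1 r).b : ℤ) : ℂ) := by
    intro u z
    have e1 : u.val x' μ' z = u.val (fun i => x' i z) fun i => μ' i z :=
      GermB_val_map (Pi.evalMonoidHom (fun _ : Itl Y => FF) z) u x' μ'
    have e2 := GermB_val_map (gmB : (ℕ → ℂ) →* FF) u (fun i r => co ℂ c (z.1 r) (some i))
      fun i r => ((z.1 r).a c : ℂ) ^ k * ((z.1 r).b i : ℂ)
    rw [e1]
    refine e2.symm.trans (gmB_eq.2 ?_)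
    filter_upwards [hgd z] with r h
    have a1 : ((z.1 r).a c : ℂ) ≠ 0 := by exact_mod_cast h.ht.chart
    simp only [Word.val, Pi.mul_apply, Finset.prod_apply, co, Ring.inverse_eq_inv',
      Finset.prod_mul_distrib, Finset.prod_const, Finset.card_univ, Fintype.card_fin, ← pow_mul,
      inv_pow]
    push_cast
    field_simp
  have hdet : (Matrix.of fun h m => (w h).val x' μ' (y m)).det =
      gmB (Matrix.of fun h m => fun r =>
        (((w h).val ((y m).1 r).a ((y m).1 r).b : ℤ) : ℂ)).det := by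
    rw [RingHom.map_det]
    congr 1
    ext h m
    exact hval _ _
  rw [hdet, gmB_ne_zero] at hy
  have hmem : ∀ᶠ r in (UF : Filter ℕ), ∀ m, (y m).1 r ∈ Y r :=
    Filter.eventually_all.2 fun m => (y m).2
  filter_upwards [hy, hmem] with r h1 h2
  refine ⟨h2, fun h0 => h1 ?_⟩
  have e1 := (Pi.evalRingHom (fun _ : ℕ => ℂ) r).map_det (Matrix.of fun h m => fun r =>
    (((w h).val ((y m).1 r).a ((y m).1 r).b : ℤ) : ℂ))
  have e2 := (Int.castRingHom ℂ).map_det
    (Matrix.of fun h m => (w h).val ((y m).1 r).a ((y m).1 r).b)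
  rw [h0, map_zero] at e2
  exact e1.trans e2.symm

/-- Leibniz bound with rowwise bounds. -/
theorem det_words_abs_le {d k : ℕ} {g : ℤ[X]} {γ : ℤ} {c : Fin d} {H n : ℕ}
    (w : Fin n → Word d k) (y : Fin n → Pt d) (hy : ∀ m, Good g k γ c H (y m)) :
    |(Matrix.of fun h m => (w h).val (y m).a (y m).b).det| ≤
      (n.factorial * H ^ (∑ h, (w h).j) : ℕ) := by
  rw [Matrix.det_apply']
  refine (Finset.abs_sum_le_sum_abs _ _).trans ?_
  have h1 : ∀ σ : Equiv.Perm (Fin n), |((Equiv.Perm.sign σ : ℤ) : ℤ) *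
      ∏ i, (Matrix.of fun h m => (w h).val (y m).a (y m).b) (σ i) i| ≤
      (H : ℤ) ^ (∑ h, (w h).j) := by
    intro σ
    rw [abs_mul, Equiv.Perm.sign_abs, one_mul, Finset.abs_prod,
      ← Equiv.sum_comp σ fun h => (w h).j, ← Finset.prod_pow_eq_pow_sum]
    exact Finset.prod_le_prod (fun i _ => abs_nonneg _) fun i _ => (hy i).word_abs_le _
  refine (Finset.sum_le_sum fun σ _ => h1 σ).trans (le_of_eq ?_)
  simp [Fintype.card_perm]

end Crest.Agent.R22
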