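import Mathlib
import Crest.Prelude.Def_PowerFree

/-! # Row 22: roots modulo prime powers and the Euler product -/

set_option autoImplicit false

open Polynomial Filter Topology Crest.NumberTheoryR

namespace Crest.Agent.R22

/-- Recipe: `f, f'` are coprime over `ℚ` (`Irreducible.separable`); clearing denominators
(`IsLocalization.integerNormalization`, or `Polynomial.exists_mul_add_mul_eq_C_resultant`) gives
`u f + v f' = C R`, `R ≠ 0`.  For `p > |R| + |lead f|`: `a ↦ a mod p` is injective on the roots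
mod `p^k` in `range (p^k)` (`f a - f b = (a - b) (f' b + (a - b) h)`, `Polynomial.binomExpansion`,
second factor prime to `p`), with image in the roots of `f mod p ≠ 0`. -/
theorem rho_le (f : ℤ[X]) (hirr : Irreducible (f.map (Int.castRingHom ℚ))) :
    ∃ P₀ : ℕ, ∀ p k : ℕ, p.Prime → P₀ ≤ p → 1 ≤ k → polyRootCountMod f (p ^ k) ≤ f.natDegree := by
  have hinj : Function.Injective (Int.castRingHom ℚ) := RingHom.injective_int _
  have hd : f.natDegree ≠ 0 := by
    rw [← natDegree_map_eq_of_injective hinj]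
    exact hirr.natDegree_pos.ne'
  obtain ⟨u, v, -, -, huv⟩ :=
    exists_mul_add_mul_eq_C_resultant f (derivative f) le_rfl le_rfl (Or.inl hd)
  have hR : f.resultant (derivative f) ≠ 0 := by
    have h1 := resultant_ne_zero _ _ hirr.separable
    rw [derivative_map, natDegree_map_eq_of_injective hinj, natDegree_map_eq_of_injective hinj,
      resultant_map_map] at h1
    exact fun h => h1 (by rw [h, map_zero])
  generalize f.resultant (derivative f) = R at huv hR
  refine ⟨R.natAbs + 1, fun p k hp hpR hk => ?_⟩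
  have := Fact.mk hp
  have hpR' : ¬ (p : ℤ) ∣ R := fun h =>
    absurd (Nat.le_of_dvd (Int.natAbs_pos.2 hR) (Int.natCast_dvd.1 h)) (by omega)
  have hf0 : f.map (Int.castRingHom (ZMod p)) ≠ 0 := fun h => by
    have h1 := congrArg (Polynomial.map (Int.castRingHom (ZMod p))) huv
    rw [Polynomial.map_add, Polynomial.map_mul, Polynomial.map_mul, ← derivative_map, h,
      derivative_zero, zero_mul, zero_mul, zero_add, map_C, eq_comm, C_eq_zero] at h1
    exact hpR' ((ZMod.intCast_zmod_eq_zero_iff_dvd R p).1 h1)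
  have hpk : ∀ {x : ℤ}, ((p ^ k : ℕ) : ℤ) ∣ x → (p : ℤ) ∣ x := fun h =>
    (Int.natCast_dvd_natCast.2 (dvd_pow_self p (by omega))).trans h
  refine le_trans ?_ ((Multiset.toFinset_card_le _).trans ((card_roots' _).trans
    (natDegree_map_le (f := Int.castRingHom (ZMod p)))))
  refine Finset.card_le_card_of_injOn (fun a : ℕ => (a : ZMod p)) (fun a ha => ?_)
    fun a ha b hb hab => ?_
  · have h1 := (ZMod.intCast_zmod_eq_zero_iff_dvd _ p).2 (hpk (Finset.mem_filter.1 ha).2)
    rw [Finset.mem_coe, Multiset.mem_toFinset, mem_roots hf0, IsRoot.def]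
    simp [h1]
  · obtain ⟨ha1, ha2⟩ := Finset.mem_filter.1 ha
    obtain ⟨hb1, hb2⟩ := Finset.mem_filter.1 hb
    have h1 : (p : ℤ) ∣ b - a :=
      Nat.modEq_iff_dvd.1 ((ZMod.natCast_eq_natCast_iff a b p).1 hab)
    obtain ⟨h, hh⟩ := binomExpansion f a (b - a)
    rw [add_sub_cancel] at hh
    have h2 : ((p ^ k : ℕ) : ℤ) ∣ (b - a) * (f.derivative.eval (a : ℤ) + h * (b - a)) := by
      have h2 := dvd_sub hb2 ha2
      rwa [show f.eval (b : ℤ) - f.eval (a : ℤ) =
        (b - a) * (f.derivative.eval (a : ℤ) + h * (b - a)) by rw [hh]; ring] at h2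
    have h3 : ¬ (p : ℤ) ∣ f.derivative.eval (a : ℤ) + h * (b - a) := fun h3 => by
      have h4 := (dvd_add_left (h1.mul_left h)).1 h3
      have h5 := congrArg (eval (a : ℤ)) huv
      rw [eval_add, eval_mul, eval_mul, eval_C] at h5
      exact hpR' (h5 ▸ dvd_add ((hpk ha2).mul_right _) (h4.mul_right _))
    rw [Nat.cast_pow] at h2
    have h4 := (Nat.prime_iff_prime_int.1 hp).pow_dvd_of_dvd_mul_right k h3 h2
    exact (Nat.modEq_iff_dvd.2 (by exact_mod_cast h4)).eq_of_lt_of_lt (Finset.mem_range.1 ha1)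
      (Finset.mem_range.1 hb1)

/-- Recipe: `∑ ρ(p^k)/p^k` is summable (compare with `D / p^2` off a finite set);
`Real.summable_log_one_add_of_summable`, `Real.hasProd_of_hasSum_log` (positive factors),
`c = exp (∑' log ..)`. -/
theorem euler (f : ℤ[X]) (k : ℕ) (hk : 2 ≤ k) (P₀ D : ℕ)
    (hρ : ∀ p : ℕ, p.Prime → P₀ ≤ p → polyRootCountMod f (p ^ k) ≤ D)
    (hloc : ∀ p : ℕ, p.Prime → polyRootCountMod f (p ^ k) < p ^ k) :
    ∃ c : ℝ, 0 < c ∧ HasProd (fun p : Nat.Primes =>
      1 - (polyRootCountMod f ((p : ℕ) ^ k) : ℝ) / ((p : ℕ) : ℝ) ^ k) c := by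
  have hs : Summable fun p : Nat.Primes =>
      -((polyRootCountMod f ((p : ℕ) ^ k) : ℝ) / ((p : ℕ) : ℝ) ^ k) := by
    have h1 : Summable fun p : Nat.Primes => (D : ℝ) * (((p : ℕ) : ℝ) ^ 2)⁻¹ :=
      ((Real.summable_nat_pow_inv.2 one_lt_two).comp_injective Subtype.val_injective).mul_left _
    refine (h1.of_norm_bounded_eventually ?_).neg
    have h2 : ∀ᶠ p : Nat.Primes in cofinite, P₀ ≤ (p : ℕ) :=
      (Subtype.val_injective.tendsto_cofinite).eventually
        (Nat.cofinite_eq_atTop ▸ eventually_ge_atTop P₀)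
    filter_upwards [h2] with p hp
    have h3 : (1 : ℝ) ≤ (p : ℕ) := by exact_mod_cast p.2.one_le
    rw [Real.norm_of_nonneg (by positivity), ← div_eq_mul_inv]
    exact div_le_div₀ (Nat.cast_nonneg _) (by exact_mod_cast hρ p p.2 hp) (by positivity)
      (pow_le_pow_right₀ h3 hk)
  refine ⟨_, Real.exp_pos _, Real.hasProd_of_hasSum_log (fun p => ?_)
    (Real.summable_log_one_add_of_summable hs).hasSum⟩
  have h3 : (0 : ℝ) < (p : ℕ) := by exact_mod_cast p.2.pos
  rw [sub_pos, div_lt_one (by positivity)]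
  exact_mod_cast hloc p p.2

/-- Partial products over `p ≤ z` converge (`HasProd` along the finsets of primes `≤ z`, which tend
to `atTop`: `Filter.tendsto_atTop_finset_of_monotone`; `Finset.subtype`, `Finset.prod_subtype..`). -/
theorem tendsto_partial_prod (a : ℕ → ℝ) (c : ℝ) (h : HasProd (fun p : Nat.Primes => a p) c) :
    Tendsto (fun z : ℕ => ∏ p ∈ (Finset.range (z + 1)).filter Nat.Prime, a p) atTop (𝓝 c) := by
  have h1 : Tendsto (fun z : ℕ => ((Finset.range (z + 1)).subtype Nat.Prime : Finset Nat.Primes))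
      atTop atTop := tendsto_atTop_finset_of_monotone
    (fun a b hab => Finset.subtype_mono (Finset.range_mono (Nat.succ_le_succ hab)))
    fun p => ⟨p, Finset.mem_subtype.2 (Finset.self_mem_range_succ _)⟩
  exact (Tendsto.comp h h1).congr fun z => Finset.prod_subtype_eq_prod_filter a

/-- A residue class condition mod `q` holds for at most `ρ (N / q + 1)` integers in `[1, N]`. -/
theorem card_dvd_le (f : ℤ[X]) (q N : ℕ) (hq : 0 < q) :
    (((Finset.Icc 1 N).filter fun n : ℕ => (q : ℤ) ∣ f.eval (n : ℤ)).card : ℝ) ≤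
      polyRootCountMod f q * ((N : ℝ) / q + 1) := by
  have h1 : ((Finset.Icc 1 N).filter fun n : ℕ => (q : ℤ) ∣ f.eval (n : ℤ)).card ≤
      (((Finset.range q).filter fun a : ℕ => (q : ℤ) ∣ f.eval (a : ℤ)) ×ˢ
        Finset.range (N / q + 1)).card := by
    refine Finset.card_le_card_of_injOn (fun n => (n % q, n / q)) (fun n hn => ?_)
      fun a _ b _ hab => ?_
    · obtain ⟨h1, h2⟩ := Finset.mem_filter.1 hn
      refine Finset.mem_coe.2 (Finset.mem_product.2 ⟨Finset.mem_filter.2
        ⟨Finset.mem_range.2 (Nat.mod_lt _ hq), ?_⟩, Finset.mem_range.2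
          (Nat.lt_succ_of_le (Nat.div_le_div_right (Finset.mem_Icc.1 h1).2))⟩)
      have h3 : (q : ℤ) ∣ n - (n % q : ℕ) := Nat.modEq_iff_dvd.1 (Nat.mod_modEq n q)
      simpa using dvd_sub h2 (h3.trans (sub_dvd_eval_sub _ _ f))
    · obtain ⟨h1, h2⟩ := Prod.mk.inj hab
      rw [← Nat.mod_add_div a q, ← Nat.mod_add_div b q, h1, h2]
  rw [Finset.card_product, Finset.card_range] at h1
  refine (Nat.cast_le.2 h1).trans ?_
  push_cast
  exact mul_le_mul_of_nonneg_left (add_le_add_left Nat.cast_div_le 1) (Nat.cast_nonneg _)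

end Crest.Agent.R22
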