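import Crest.Agent.R22.Val

/-! # Row 22: second order jets in the horizontal case -/

set_option autoImplicit false

open Module MvPowerSeries

namespace Crest.Agent.R22

/-- Restriction to the line `u = ε v`: a ring homomorphism to `PowerSeries K`.  Recipe: define
`ρ f = PowerSeries.mk fun e => ∑ α ∈ degEq i e, v^α * coeff α f`; multiplicativity by
`coeff_mul` and reindexing; or use `MvPowerSeries.substAlgHom` / `rescale`. -/
theorem exists_line {K : Type*} [Field K] {i : ℕ} (v : Fin i → K) :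
    ∃ ρ : MvPowerSeries (Fin i) K →ₐ[K] PowerSeries K, ∀ f e,
      PowerSeries.coeff e (ρ f) = ∑ α ∈ degEq i e, (α.prod fun j n => v j ^ n) * coeff α f := by
  have ha : MvPowerSeries.HasSubst
      (fun j => (PowerSeries.C (v j) * PowerSeries.X : PowerSeries K)) :=
    hasSubst_of_constantCoeff_zero fun j => by
      change PowerSeries.constantCoeff _ = 0
      simp
  refine ⟨substAlgHom ha, fun f e => ?_⟩
  have key : ∀ α : Fin i →₀ ℕ, PowerSeries.coeff e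
      (α.prod fun j n => (PowerSeries.C (v j) * PowerSeries.X : PowerSeries K) ^ n) =
      if e = α.degree then α.prod fun j n => v j ^ n else 0 := by
    intro α
    simp only [mul_pow, Finsupp.prod, Finset.prod_mul_distrib, ← map_pow, ← map_prod,
      Finset.prod_pow_eq_pow_sum, PowerSeries.coeff_C_mul, PowerSeries.coeff_X_pow, mul_ite,
      mul_one, mul_zero]
    rfl
  have h := coeff_subst ha f (Finsupp.single () e)
  rw [substAlgHom_apply]
  refine h.trans ?_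
  rw [finsum_eq_sum_of_support_subset (s := degEq i e)]
  · refine Finset.sum_congr rfl fun α hα => ?_
    rw [smul_eq_mul, mul_comm]
    exact congrArg (· * _) ((key α).trans (if_pos (mem_degEq.1 hα).symm))
  · intro α hα
    by_contra hne
    refine hα ?_
    have h2 := (key α).trans (if_neg fun e' => hne (mem_degEq.2 e'.symm))
    exact (congrArg (coeff α f • ·) h2).trans (smul_zero _)

section one

variable {K : Type*} [Field K]

theorem Jet_mul0 (f g : PowerSeries K) :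
    PowerSeries.coeff 0 (f * g) = PowerSeries.coeff 0 f * PowerSeries.coeff 0 g := by
  simp [PowerSeries.coeff_mul]

theorem Jet_mul1 (f g : PowerSeries K) :
    PowerSeries.coeff 1 (f * g) = PowerSeries.coeff 0 f * PowerSeries.coeff 1 g +
      PowerSeries.coeff 1 f * PowerSeries.coeff 0 g := by
  rw [PowerSeries.coeff_mul, Finset.Nat.sum_antidiagonal_succ]
  simp

theorem Jet_mul2 (f g : PowerSeries K) :
    PowerSeries.coeff 2 (f * g) = PowerSeries.coeff 0 f * PowerSeries.coeff 2 g +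
      PowerSeries.coeff 1 f * PowerSeries.coeff 1 g +
      PowerSeries.coeff 2 f * PowerSeries.coeff 0 g := by
  rw [PowerSeries.coeff_mul, Finset.Nat.sum_antidiagonal_succ, Finset.Nat.sum_antidiagonal_succ]
  simp [add_assoc]

theorem Jet_pow (x : PowerSeries K) (α a : K)
    (h1 : PowerSeries.coeff 1 x = α * PowerSeries.coeff 0 x)
    (h2 : PowerSeries.coeff 2 x = a * PowerSeries.coeff 0 x) (k : ℕ) :
    PowerSeries.coeff 0 (x ^ k) = PowerSeries.coeff 0 x ^ k ∧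
    PowerSeries.coeff 1 (x ^ k) = PowerSeries.coeff 0 x ^ k * (k * α) ∧
    2 * PowerSeries.coeff 2 (x ^ k) =
      PowerSeries.coeff 0 x ^ k * (2 * k * a + k * (k - 1) * α ^ 2) := by
  induction k with
  | zero => simp [PowerSeries.coeff_one]
  | succ k ih =>
    obtain ⟨e0, e1, e2⟩ := ih
    rw [pow_succ x, Jet_mul0, Jet_mul1, Jet_mul2, e0, e1, h1, h2]
    push_cast
    refine ⟨by ring, by ring, ?_⟩
    linear_combination PowerSeries.coeff 0 x * e2

theorem Jet_quad {A B C δ₁ δ₂ δ₃ : K} (h12 : δ₁ ≠ δ₂) (h13 : δ₁ ≠ δ₃) (h23 : δ₂ ≠ δ₃)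
    (e1 : A * δ₁ ^ 2 + B * δ₁ + C = 0) (e2 : A * δ₂ ^ 2 + B * δ₂ + C = 0)
    (e3 : A * δ₃ ^ 2 + B * δ₃ + C = 0) : A = 0 := by
  have f2 : A * (δ₁ + δ₂) + B = 0 :=
    mul_left_cancel₀ (sub_ne_zero.2 h12) (by linear_combination e1 - e2)
  have f3 : A * (δ₁ + δ₃) + B = 0 :=
    mul_left_cancel₀ (sub_ne_zero.2 h13) (by linear_combination e1 - e3)
  exact mul_left_cancel₀ (sub_ne_zero.2 h23) (by linear_combination f2 - f3)

/-- Orders zero, one and two of `t x^k = n - θ`. -/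
theorem Jet_rel {k : ℕ} {θ : K} {x t n : PowerSeries K} (hn : PowerSeries.coeff 0 n ≠ θ)
    (hrel : t * x ^ k = n - PowerSeries.C θ) :
    PowerSeries.coeff 0 t ≠ 0 ∧ (k ≠ 0 → PowerSeries.coeff 0 x ≠ 0) ∧
    ∀ ω β α a : K, PowerSeries.coeff 1 t = ω * PowerSeries.coeff 0 t →
      PowerSeries.coeff 2 t = β * PowerSeries.coeff 0 t →
      PowerSeries.coeff 1 x = α * PowerSeries.coeff 0 x →
      PowerSeries.coeff 2 x = a * PowerSeries.coeff 0 x →
      ω + k * α = (PowerSeries.coeff 0 n - θ)⁻¹ * PowerSeries.coeff 1 n ∧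
      2 * β + 2 * k * α * ω + 2 * k * a + k * (k - 1) * α ^ 2 =
        2 * (PowerSeries.coeff 0 n - θ)⁻¹ * PowerSeries.coeff 2 n := by
  have hne := sub_ne_zero.2 hn
  have r0 : PowerSeries.coeff 0 t * PowerSeries.coeff 0 x ^ k = PowerSeries.coeff 0 n - θ := by
    have := congrArg (PowerSeries.coeff 0) hrel
    simpa using this
  refine ⟨fun h => hne (by rw [← r0, h, zero_mul]),
    fun hk h => hne (by rw [← r0, h, zero_pow hk, mul_zero]), fun ω β α a h1 h2 h3 h4 => ?_⟩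
  obtain ⟨e0, e1, e2⟩ := Jet_pow x α a h3 h4 k
  have r1 := congrArg (PowerSeries.coeff 1) hrel
  have r2 := congrArg (PowerSeries.coeff 2) hrel
  rw [Jet_mul1, e0, e1, h1, map_sub, PowerSeries.coeff_C, if_neg (by norm_num), sub_zero] at r1
  rw [Jet_mul2, e0, e1, h1, h2, map_sub, PowerSeries.coeff_C, if_neg (by norm_num), sub_zero] at r2
  constructor
  · rw [eq_inv_mul_iff_mul_eq₀ hne, ← r0]
    linear_combination r1
  · rw [mul_assoc 2 _⁻¹, mul_left_comm 2, eq_inv_mul_iff_mul_eq₀ hne, ← r0]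
    linear_combination 2 * r2 - PowerSeries.coeff 0 t * e2

end one

/-- One-variable core.  `x σ, t σ` are power series with `t σ * x σ ^ k = n - θ σ`; if a
functional `c₀ h₀ + c₁ h₁ + c₂ h₂` with `c₂ ≠ 0` kills all `x σ * t σ'` and the logarithmic
derivatives `ω` of the `t σ` at `0` agree, then those of the `x σ` agree.
Recipe: normalise `x̂ = 1 + α ε + a ε²`, `t̂ = 1 + ω ε + β ε²`, `δ_σ = 1/(n₀ - θ σ)` (distinct).
The hypothesis gives `β σ = β` and `a σ = r + r' α σ`.  Orders one and two of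
`t̂ x̂^k = 1 + δ (n - n₀)`: `ω + k α = δ n₁`, `β + k α ω + k a + C(k,2) α² = δ n₂`.  Substituting
`α = (δ n₁ - ω)/k` gives a quadratic polynomial in `δ` with three roots and leading coefficient
`C(k,2) n₁²/k²`, so `n₁ = 0`. -/
theorem line_core {K : Type*} [Field K] [CharZero K] {d k : ℕ} (hk : 2 ≤ k) (hd : 3 ≤ d)
    (θ : Fin d → K) (hθ : Function.Injective θ) (x t : Fin d → PowerSeries K) (n : PowerSeries K)
    (hn : ∀ σ, PowerSeries.coeff 0 n ≠ θ σ)
    (hrel : ∀ σ, t σ * x σ ^ k = n - PowerSeries.C (θ σ)) (ω : K)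
    (hω : ∀ σ, PowerSeries.coeff 1 (t σ) = ω * PowerSeries.coeff 0 (t σ)) (c₀ c₁ c₂ : K)
    (hc : c₂ ≠ 0)
    (h : ∀ σ σ', c₀ * PowerSeries.coeff 0 (x σ * t σ') + c₁ * PowerSeries.coeff 1 (x σ * t σ') +
      c₂ * PowerSeries.coeff 2 (x σ * t σ') = 0) :
    ∃ a : K, ∀ σ, PowerSeries.coeff 1 (x σ) = a * PowerSeries.coeff 0 (x σ) := by
  have hk0 : k ≠ 0 := by omega
  have hkK : (k : K) ≠ 0 := by exact_mod_cast hk0
  have hk1 : (k : K) - 1 ≠ 0 := by
    rw [sub_ne_zero]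
    exact_mod_cast (by omega : k ≠ 1)
  have ht0 := fun σ => (Jet_rel (hn σ) (hrel σ)).1
  have hx0 := fun σ => (Jet_rel (hn σ) (hrel σ)).2.1 hk0
  set α := fun σ => PowerSeries.coeff 1 (x σ) / PowerSeries.coeff 0 (x σ)
  set a := fun σ => PowerSeries.coeff 2 (x σ) / PowerSeries.coeff 0 (x σ)
  set β := fun σ => PowerSeries.coeff 2 (t σ) / PowerSeries.coeff 0 (t σ)
  set δ := fun σ => (PowerSeries.coeff 0 n - θ σ)⁻¹
  have hα : ∀ σ, PowerSeries.coeff 1 (x σ) = α σ * PowerSeries.coeff 0 (x σ) :=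
    fun σ => (div_mul_cancel₀ _ (hx0 σ)).symm
  have ha : ∀ σ, PowerSeries.coeff 2 (x σ) = a σ * PowerSeries.coeff 0 (x σ) :=
    fun σ => (div_mul_cancel₀ _ (hx0 σ)).symm
  have hβ : ∀ σ, PowerSeries.coeff 2 (t σ) = β σ * PowerSeries.coeff 0 (t σ) :=
    fun σ => (div_mul_cancel₀ _ (ht0 σ)).symm
  have hδ : Function.Injective δ := fun σ σ' e =>
    hθ (sub_right_injective (inv_injective e))
  have r1 : ∀ σ, ω + k * α σ = δ σ * PowerSeries.coeff 1 n := fun σ =>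
    ((Jet_rel (hn σ) (hrel σ)).2.2 ω _ _ _ (hω σ) (hβ σ) (hα σ) (ha σ)).1
  have r2 : ∀ σ, 2 * β σ + 2 * k * α σ * ω + 2 * k * a σ + k * (k - 1) * α σ ^ 2 =
      2 * δ σ * PowerSeries.coeff 2 n := fun σ =>
    ((Jet_rel (hn σ) (hrel σ)).2.2 ω _ _ _ (hω σ) (hβ σ) (hα σ) (ha σ)).2
  have h' : ∀ σ σ', c₀ + c₁ * (α σ + ω) + c₂ * (a σ + α σ * ω + β σ') = 0 := fun σ σ' => by
    have := h σ σ'
    rw [Jet_mul0, Jet_mul1, Jet_mul2, hα, ha, hβ, hω] at this
    refine mul_left_cancel₀ (mul_ne_zero (hx0 σ) (ht0 σ')) ?_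
    linear_combination this
  let σ₀ : Fin d := ⟨0, by omega⟩
  have hβ' : ∀ σ, β σ = β σ₀ := fun σ =>
    mul_left_cancel₀ hc (by linear_combination h' σ₀ σ - h' σ₀ σ₀)
  set n₁ := PowerSeries.coeff 1 n
  set n₂ := PowerSeries.coeff 2 n
  have q : ∀ σ, (c₂ * (k - 1) * n₁ ^ 2) * δ σ ^ 2 +
      (2 * k * c₂ * ω * n₁ - 2 * k * (c₁ + c₂ * ω) * n₁ - 2 * c₂ * (k - 1) * n₁ * ω -
        2 * k * c₂ * n₂) * δ σ +
      (2 * k * c₂ * β σ₀ - 2 * k * c₂ * ω ^ 2 - 2 * k ^ 2 * (c₀ + c₁ * ω + c₂ * β σ₀) +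
        2 * k * (c₁ + c₂ * ω) * ω + c₂ * (k - 1) * ω ^ 2) = 0 := fun σ => by
    have e2 := r2 σ
    have e1 := r1 σ
    rw [hβ'] at e2
    linear_combination k * c₂ * e2 - 2 * k ^ 2 * h' σ σ₀ -
      (2 * k * c₂ * ω - 2 * k * (c₁ + c₂ * ω) +
        c₂ * (k - 1) * (δ σ * n₁ - ω + k * α σ)) * e1
  have hA := Jet_quad (hδ.ne (a₁ := σ₀) (a₂ := ⟨1, by omega⟩) (by simp [σ₀]))
    (hδ.ne (a₁ := σ₀) (a₂ := ⟨2, by omega⟩) (by simp [σ₀]))
    (hδ.ne (a₁ := ⟨1, by omega⟩) (a₂ := ⟨2, by omega⟩) (by simp)) (q _) (q _) (q _)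
  have hn1 : n₁ = 0 := by simpa [hc, hk1] using hA
  refine ⟨-ω / k, fun σ => ?_⟩
  rw [hα]
  congr 1
  rw [eq_div_iff hkK]
  have := r1 σ
  rw [hn1] at this
  linear_combination this

section deg

variable {i : ℕ}

theorem Jet_split {α : Fin i →₀ ℕ} {m : ℕ} (h : α.degree = m + 1) :
    ∃ j β, β.degree = m ∧ α = Finsupp.single j 1 + β := by
  obtain ⟨j, hj⟩ : α.support.Nonempty := by
    rw [Finsupp.support_nonempty_iff]
    rintro rfl
    simp at h
  obtain ⟨β, rfl⟩ := le_iff_exists_add.1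
    (show Finsupp.single j 1 ≤ α by simpa [Nat.one_le_iff_ne_zero] using hj)
  refine ⟨j, β, ?_, rfl⟩
  rw [map_add, Finsupp.degree_single] at h
  omega

theorem Jet_deg1 {α : Fin i →₀ ℕ} (h : α.degree = 1) : ∃ j, α = Finsupp.single j 1 := by
  obtain ⟨j, β, hβ, rfl⟩ := Jet_split (m := 0) h
  exact ⟨j, by rw [(Finsupp.degree_eq_zero_iff β).1 hβ, add_zero]⟩

theorem Jet_deg2 {α : Fin i →₀ ℕ} (h : α.degree = 2) :
    ∃ j l, α = Finsupp.single j 1 + Finsupp.single l 1 := by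
  obtain ⟨j, β, hβ, rfl⟩ := Jet_split (m := 1) h
  obtain ⟨l, rfl⟩ := Jet_deg1 hβ
  exact ⟨j, l, rfl⟩

variable {M : Type*} [AddCommMonoid M] (F : (Fin i →₀ ℕ) → M)

theorem Jet_sum0 : ∑ α ∈ degEq i 0, F α = F 0 := by
  have : degEq i 0 = {0} := by
    ext α
    rw [mem_degEq, Finsupp.degree_eq_zero_iff, Finset.mem_singleton]
  rw [this, Finset.sum_singleton]

theorem Jet_sum1 : ∑ α ∈ degEq i 1, F α = ∑ l, F (Finsupp.single l 1) := by
  refine (Finset.sum_of_injOn (fun l => Finsupp.single l 1)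
    (Finsupp.single_left_injective one_ne_zero).injOn (fun l _ => mem_degEq.2 (by simp))
    (fun α hα hn => ?_) fun _ _ => rfl).symm
  obtain ⟨j, rfl⟩ := Jet_deg1 (mem_degEq.1 hα)
  exact absurd ⟨j, by simp, rfl⟩ hn

theorem Jet_sumLE (m : ℕ) :
    ∑ α ∈ degLE i (m + 1), F α = ∑ α ∈ degLE i m, F α + ∑ α ∈ degEq i (m + 1), F α := by
  classical
  rw [← Finset.sum_union]
  · refine Finset.sum_congr ?_ fun _ _ => rfl
    ext α
    rw [Finset.mem_union, mem_degLE, mem_degLE, mem_degEq]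
    omega
  · rw [Finset.disjoint_left]
    intro α h1 h2
    rw [mem_degLE] at h1
    rw [mem_degEq] at h2
    omega

theorem Jet_sumLE1 : ∑ α ∈ degLE i 1, F α = F 0 + ∑ l, F (Finsupp.single l 1) := by
  have : degLE i 0 = {0} := by
    ext α
    rw [mem_degLE, Nat.le_zero, Finsupp.degree_eq_zero_iff, Finset.mem_singleton]
  rw [Jet_sumLE, this, Finset.sum_singleton, Jet_sum1]

theorem Jet_sumLE2 : ∑ α ∈ degLE i 2, F α =
    F 0 + ∑ l, F (Finsupp.single l 1) + ∑ α ∈ degEq i 2, F α := by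
  rw [Jet_sumLE, Jet_sumLE1]

end deg

section der

variable {K : Type*} [Field K] {i : ℕ}

theorem Jet_shift (lam : (Fin i →₀ ℕ) → K) (j : Fin i) (f : MvPowerSeries (Fin i) K) (m : ℕ) :
    ∑ α ∈ degLE i (m + 1), lam α * coeff α (X j * f) =
      ∑ β ∈ degLE i m, lam (Finsupp.single j 1 + β) * coeff β f := by
  refine (Finset.sum_of_injOn (fun β => Finsupp.single j 1 + β)
    (add_right_injective _).injOn (fun β hβ => ?_) (fun α hα hn => ?_) fun β _ => ?_).symm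
  · rw [Finset.mem_coe, mem_degLE] at hβ ⊢
    rw [map_add, Finsupp.degree_single]
    omega
  · rw [X_def, coeff_monomial_mul, if_neg, mul_zero]
    intro hle
    obtain ⟨β, rfl⟩ := le_iff_exists_add.1 hle
    refine hn ⟨β, ?_, rfl⟩
    rw [mem_degLE, map_add, Finsupp.degree_single] at hα
    rw [Finset.mem_coe, mem_degLE]
    omega
  · rw [X_def, coeff_add_monomial_mul, one_mul]

/-- The directional derivative at the origin. -/
noncomputable def Jet_D (v : Fin i → K) (f : MvPowerSeries (Fin i) K) : K :=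
  ∑ l, v l * coeff (Finsupp.single l 1) f

theorem Jet_D_sub_smul (v v' : Fin i → K) (c : K) (f : MvPowerSeries (Fin i) K) :
    Jet_D (v - c • v') f = Jet_D v f - c * Jet_D v' f := by
  simp only [Jet_D, Pi.sub_apply, Pi.smul_apply, smul_eq_mul, sub_mul, Finset.sum_sub_distrib,
    Finset.mul_sum, mul_assoc]

theorem Jet_line (v : Fin i → K) :
    ∃ ρ : MvPowerSeries (Fin i) K →ₐ[K] PowerSeries K, ∀ f,
      PowerSeries.coeff 0 (ρ f) = coeff 0 f ∧ PowerSeries.coeff 1 (ρ f) = Jet_D v f ∧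
      PowerSeries.coeff 2 (ρ f) =
        ∑ α ∈ degEq i 2, (α.prod fun j n => v j ^ n) * coeff α f := by
  obtain ⟨ρ, hρ⟩ := exists_line v
  refine ⟨ρ, fun f => ⟨?_, ?_, hρ f 2⟩⟩
  · rw [hρ, Jet_sum0]; simp
  · rw [hρ, Jet_sum1]; simp [Jet_D]

theorem Jet_one {d : ℕ} {ξ ζ : Fin d → MvPowerSeries (Fin i) K} (hJ : Jets ξ ζ) {v : Fin i → K}
    {a : K} (h : ∀ σ, Jet_D v (ξ σ) = a * coeff 0 (ξ σ)) : v = 0 := by
  have key : ∀ f ∈ sp K ξ, Jet_D v f = a * coeff 0 f := by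
    intro f hf
    induction hf using Submodule.span_induction with
    | mem f hf => obtain ⟨σ, rfl⟩ := hf; exact h σ
    | zero => simp [Jet_D]
    | add f g _ _ hf hg =>
      rw [map_add, mul_add, ← hf, ← hg]
      simp only [Jet_D, map_add, mul_add, Finset.sum_add_distrib]
    | smul c f _ hf =>
      rw [map_smul, smul_eq_mul, mul_left_comm, ← hf]
      simp only [Jet_D, map_smul, smul_eq_mul, Finset.mul_sum, mul_left_comm c]
  funext j
  have := key _ (hJ.hX j)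
  simpa [Jet_D, coeff_index_single_X, coeff_zero_X] using this

theorem Jet_tau {d k : ℕ} (θ : Fin d → K) {ξ ζ : Fin d → MvPowerSeries (Fin i) K}
    (hJ : Jets ξ ζ) (ν : MvPowerSeries (Fin i) K)
    (ρ : MvPowerSeries (Fin i) K →ₐ[K] PowerSeries K) (σ : Fin d) :
    ρ (tau k θ ζ ν σ) * ρ (ξ σ) ^ k = ρ ν - PowerSeries.C (θ σ) := by
  rw [← map_pow, ← map_mul, tau, mul_assoc, ← mul_pow, mul_comm (ζ σ), hJ.inv, one_pow, mul_one,
    map_sub]
  exact congrArg _ (ρ.commutes (θ σ))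

theorem Jet_two [CharZero K] {d k : ℕ} (hk : k ≠ 0) (θ : Fin d → K)
    {ξ ζ : Fin d → MvPowerSeries (Fin i) K} (hJ : Jets ξ ζ) {ν : MvPowerSeries (Fin i) K}
    (hν : ∀ σ, constantCoeff ν ≠ θ σ) {v : Fin i → K} {ω : K}
    (h : ∀ σ, Jet_D v (tau k θ ζ ν σ) = ω * coeff 0 (tau k θ ζ ν σ)) (h0 : Jet_D v ν = 0) :
    v = 0 := by
  obtain ⟨ρ, hρ⟩ := Jet_line v
  have hkK : (k : K) ≠ 0 := by exact_mod_cast hk
  refine Jet_one hJ (a := -ω / k) fun σ => ?_
  obtain ⟨ht, hx, hr⟩ := Jet_rel (n := ρ ν) (θ := θ σ) (by rw [(hρ ν).1]; exact hν σ)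
    (Jet_tau (k := k) θ hJ ν ρ σ)
  have e := (hr ω _ _ _ (by rw [(hρ _).1, (hρ _).2.1, h]) (div_mul_cancel₀ _ ht).symm
    (div_mul_cancel₀ _ (hx hk)).symm (div_mul_cancel₀ _ (hx hk)).symm).1
  rw [(hρ ν).2.1, h0, mul_zero] at e
  have hx' := hx hk
  rw [← (hρ _).1, ← (hρ _).2.1]
  field_simp at e ⊢
  linear_combination e

end der

/-- Recipe: `full_of_dual`; let `Λ f = ∑ lam α * coeff α f` kill `U₁ U₂`, `w j = lam (e_j)`,
`Q j l = lam (e_j + e_l)`.  For a vector `v` write `D_v f = ∑ l, v l * coeff (e_l) f` (a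
derivation at `0`: order one coefficient of `exists_line`).
(1) If `D_v ξ_σ = a ξ_σ(0)` for all `σ` then `v = 0` (extend to the span; test on `1`, `X j`).
(2) Let `Z = {v | ∃ ω, ∀ σ, D_v τ_σ = ω τ_σ(0)}` (a subspace).  From `τ_σ ξ_σ^k = ν - θ_σ`: if
`v ∈ Z` and `D_v ν = 0` then `v = 0` by (1).
(3) `Λ (X j * τ_σ) = w j τ_σ(0) + D_{Q j} τ_σ = 0`, so `Q j ∈ Z` with `ω = - w j`.
(4) If all `D_{Q j} ν = 0` then `Q = 0`, `w = 0`, and `lam 0 = 0` from `Λ τ_σ = 0`.  Otherwise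
pick `j₀` with `κ₀ = D_{Q j₀} ν ≠ 0`, `v = Q j₀`; then `Q j = (κ_j/κ₀) v`, and symmetry gives
`v j₀ ≠ 0`, `Q j l = v j v l / v j₀`, `w j = w j₀ v j / v j₀`.  Hence
`Λ f = lam 0 * h₀ + (w j₀ / v j₀) h₁ + (1 / v j₀) h₂` for `h = ρ_v f`; `line_core` and (1) give
`v = 0`, a contradiction. -/
theorem full_two {K : Type*} [Field K] [CharZero K] {i d k : ℕ} (hk : 2 ≤ k) (hd : 3 ≤ d)
    (θ : Fin d → K) (hθ : Function.Injective θ) (ξ ζ : Fin d → MvPowerSeries (Fin i) K)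
    (hJ : Jets ξ ζ) (ν : MvPowerSeries (Fin i) K) (hν : ∀ σ, constantCoeff ν ≠ θ σ) :
    Full (sp K ξ * sp K (tau k θ ζ ν)) 2 := by
  refine full_of_dual _ _ fun lam hΛ => ?_
  have hk0 : k ≠ 0 := by omega
  let σ₀ : Fin d := ⟨0, by omega⟩
  have hτ : ∀ σ, tau k θ ζ ν σ ∈ sp K (tau k θ ζ ν) := fun σ => Submodule.subset_span ⟨σ, rfl⟩
  have hτ0 : coeff 0 (tau k θ ζ ν σ₀) ≠ 0 := by
    obtain ⟨ρ, hρ⟩ := Jet_line (0 : Fin i → K)
    rw [← (hρ _).1]
    exact (Jet_rel (n := ρ ν) (θ := θ σ₀) (by rw [(hρ ν).1]; exact hν σ₀)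
      (Jet_tau (k := k) θ hJ ν ρ σ₀)).1
  set w : Fin i → K := fun j => lam (Finsupp.single j 1) with hw
  set Q : Fin i → Fin i → K := fun j l => lam (Finsupp.single j 1 + Finsupp.single l 1) with hQ
  have h3 : ∀ j σ, Jet_D (Q j) (tau k θ ζ ν σ) = -w j * coeff 0 (tau k θ ζ ν σ) := fun j σ => by
    have := hΛ _ (Submodule.mul_mem_mul (hJ.hX j) (hτ σ))
    rw [Jet_shift, Jet_sumLE1, add_zero] at this
    rw [Jet_D]
    linear_combination this
  have hQ0 : ∀ j, Q j = 0 := by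
    by_contra hcon
    obtain ⟨j₀, hj₀⟩ : ∃ j₀, Jet_D (Q j₀) ν ≠ 0 := by
      by_contra hall
      push Not at hall
      exact hcon fun j => Jet_two hk0 θ hJ hν (h3 j) (hall j)
    set v := Q j₀ with hv
    have h4 : ∀ j, Q j = (Jet_D (Q j) ν / Jet_D v ν) • v := fun j => by
      refine sub_eq_zero.1 (Jet_two hk0 θ hJ hν
        (ω := -w j + Jet_D (Q j) ν / Jet_D v ν * w j₀) (fun σ => ?_) ?_)
      · rw [Jet_D_sub_smul, h3, hv, h3]
        ring
      · rw [Jet_D_sub_smul, div_mul_cancel₀ _ hj₀, sub_self]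
    have h5 : ∀ j, v j = (Jet_D (Q j) ν / Jet_D v ν) * v j₀ := fun j => by
      have := congrFun (h4 j) j₀
      rw [Pi.smul_apply, smul_eq_mul] at this
      rw [← this, hv]
      simp only [hQ, add_comm]
    have hv0 : v ≠ 0 := fun e => hj₀ (by rw [e]; simp [Jet_D])
    have hvj : v j₀ ≠ 0 := fun e => hv0 (funext fun j => by rw [h5 j, e, mul_zero]; rfl)
    have h6 : ∀ j, Jet_D (Q j) ν / Jet_D v ν = v j / v j₀ := fun j => by
      rw [h5 j, mul_div_cancel_right₀ _ hvj]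
    have h7 : ∀ j, w j = w j₀ / v j₀ * v j := fun j => by
      have e1 := Jet_D_sub_smul (Q j) v (v j / v j₀) (tau k θ ζ ν σ₀)
      rw [← h6, ← h4, sub_self, h6, h3, hv, h3, ← hv] at e1
      have e2 : Jet_D 0 (tau k θ ζ ν σ₀) = 0 := by simp [Jet_D]
      rw [e2] at e1
      refine mul_right_cancel₀ hτ0 ?_
      rw [div_mul_eq_mul_div, mul_div_assoc]
      linear_combination e1
    obtain ⟨ρ, hρ⟩ := Jet_line v
    have h8 : ∀ f, ∑ α ∈ degLE i 2, lam α * coeff α f = lam 0 * PowerSeries.coeff 0 (ρ f) +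
        w j₀ / v j₀ * PowerSeries.coeff 1 (ρ f) + (v j₀)⁻¹ * PowerSeries.coeff 2 (ρ f) := by
      intro f
      rw [Jet_sumLE2, (hρ f).1, (hρ f).2.1, (hρ f).2.2, Jet_D, Finset.mul_sum, Finset.mul_sum]
      congr 1
      · congr 1
        refine Finset.sum_congr rfl fun l _ => ?_
        rw [← mul_assoc, ← h7]
      · refine Finset.sum_congr rfl fun α hα => ?_
        obtain ⟨j, l, rfl⟩ := Jet_deg2 (mem_degEq.1 hα)
        have e := congrFun (h4 j) l
        rw [h6, Pi.smul_apply, smul_eq_mul] at e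
        rw [Finsupp.prod_add_index' (by simp) (fun _ _ _ => pow_add _ _ _),
          Finsupp.prod_single_index (by simp), Finsupp.prod_single_index (by simp)]
        change Q j l * _ = _
        rw [e]
        ring
    obtain ⟨a, ha⟩ := line_core hk hd θ hθ (fun σ => ρ (ξ σ)) (fun σ => ρ (tau k θ ζ ν σ)) (ρ ν)
      (fun σ => by rw [(hρ ν).1]; exact hν σ) (Jet_tau θ hJ ν ρ) (-w j₀)
      (fun σ => by rw [(hρ _).1, (hρ _).2.1, hv, h3]) (lam 0) (w j₀ / v j₀) (v j₀)⁻¹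
      (inv_ne_zero hvj) fun σ σ' => by
        rw [← map_mul, ← h8]
        exact hΛ _ (Submodule.mul_mem_mul (Submodule.subset_span ⟨σ, rfl⟩) (hτ σ'))
    exact hv0 (Jet_one hJ (a := a) fun σ => by rw [← (hρ _).1, ← (hρ _).2.1, ha])
  have hw0 : ∀ j, w j = 0 := fun j => by
    have := h3 j σ₀
    rw [hQ0] at this
    have e : Jet_D 0 (tau k θ ζ ν σ₀) = 0 := by simp [Jet_D]
    rw [e] at this
    exact neg_eq_zero.1 ((mul_eq_zero.1 this.symm).resolve_right hτ0)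
  have h2 : ∀ α ∈ degEq i 2, lam α = 0 := fun α hα => by
    obtain ⟨j, l, rfl⟩ := Jet_deg2 (mem_degEq.1 hα)
    exact congrFun (hQ0 j) l
  have h0 : lam 0 = 0 := by
    have := hΛ _ (Submodule.mul_mem_mul hJ.one (hτ σ₀))
    rw [one_mul, Jet_sumLE2,
      Finset.sum_eq_zero fun l _ => by rw [show lam _ = 0 from hw0 l, zero_mul],
      Finset.sum_eq_zero fun α hα => by rw [h2 α hα, zero_mul], add_zero, add_zero] at this
    exact (mul_eq_zero.1 this).resolve_right hτ0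
  intro α hα
  rw [mem_degLE] at hα
  obtain h | h | h : α.degree = 0 ∨ α.degree = 1 ∨ α.degree = 2 := by omega
  · rw [(Finsupp.degree_eq_zero_iff α).1 h, h0]
  · obtain ⟨j, rfl⟩ := Jet_deg1 h
    exact hw0 j
  · exact h2 α (mem_degEq.2 h)

end Crest.Agent.R22
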