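import Crest.Agent.R22.Basic
import Crest.Agent.R22.DetDiv

/-! # Row 22: the local (q-adic) part of the determinant method -/

set_option autoImplicit false

open Polynomial

namespace Crest.Agent.R22

/-- Evaluation of integer polynomials. -/
noncomputable def lcEv {V S : Type*} [CommRing S] (f : V → S) : MvPolynomial V ℤ →+* S :=
  MvPolynomial.eval₂Hom (Int.castRingHom S) f

theorem lc_aeval {V S : Type*} [CommRing S] [Algebra ℤ S] (f : V → S) (P : MvPolynomial V ℤ) :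
    MvPolynomial.aeval f P = lcEv f P := by
  rw [MvPolynomial.aeval_def, lcEv, RingHom.ext_int (algebraMap ℤ S) (Int.castRingHom S)]
  rfl

theorem lcEv_X {V S : Type*} [CommRing S] (f : V → S) (v : V) :
    lcEv f (MvPolynomial.X v) = f v := MvPolynomial.eval₂Hom_X' _ _ _

theorem lc_map_ev {V S S' : Type*} [CommRing S] [CommRing S'] (φ : S →+* S') (f : V → S)
    (g : V → S') (P : MvPolynomial V ℤ) (h : ∀ v ∈ P.vars, φ (f v) = g v) :
    φ (lcEv f P) = lcEv g P :=
  MvPolynomial.hom_congr_vars (f₁ := φ.comp (lcEv f)) (f₂ := lcEv g) (RingHom.ext_int _ _)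
    (fun v hv _ => by rw [RingHom.comp_apply, lcEv_X, lcEv_X, h v hv]) rfl

theorem lc_ev_sub_mem {V S : Type*} [CommRing S] (I : Ideal S) (f g : V → S)
    (P : MvPolynomial V ℤ) (h : ∀ v ∈ P.vars, f v - g v ∈ I) : lcEv f P - lcEv g P ∈ I := by
  rw [← Ideal.Quotient.eq, lc_map_ev _ f (fun v => Ideal.Quotient.mk I (g v)) P
    fun v hv => Ideal.Quotient.eq.2 (h v hv), lc_map_ev _ g _ P fun v _ => rfl]

theorem lc_vars_pderiv {V : Type*} (ψ : V) (P : MvPolynomial V ℤ) :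
    (MvPolynomial.pderiv ψ P).vars ⊆ P.vars := by
  intro v hv
  obtain ⟨m, hm, hv⟩ := (MvPolynomial.mem_vars_iff_mem_support v).1 hv
  refine (MvPolynomial.mem_vars_iff_mem_support v).2 ⟨m + Finsupp.single ψ 1, ?_, ?_⟩
  · rw [MvPolynomial.mem_support_iff] at hm ⊢
    rw [MvPolynomial.coeff_pderiv] at hm
    exact left_ne_zero_of_mul hm
  · rw [Finsupp.mem_support_iff] at hv ⊢
    rw [Finsupp.add_apply]
    omega

/-- Specialise all the variables but `ψ`. -/
noncomputable def lcSp {V S : Type*} [DecidableEq V] [CommRing S] (ψ : V) (a : V → S)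
    (P : MvPolynomial V ℤ) : S[X] :=
  lcEv (fun v => if v = ψ then X else C (a v)) P

theorem lc_derivative {V S : Type*} [DecidableEq V] [CommRing S] (ψ : V) (a : V → S)
    (P : MvPolynomial V ℤ) :
    derivative (lcSp ψ a P) = lcSp ψ a (MvPolynomial.pderiv ψ P) := by
  unfold lcSp
  induction P using MvPolynomial.induction_on with
  | C n => simp [lcEv]
  | add p q hp hq => simp only [map_add, hp, hq]
  | mul_X p v hp =>
    rw [map_mul, derivative_mul, hp, Derivation.leibniz, lcEv_X, smul_eq_mul, smul_eq_mul, map_add,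
      map_mul, map_mul, lcEv_X]
    by_cases hv : v = ψ
    · subst hv
      simp only [if_true, derivative_X, MvPolynomial.pderiv_X_self, map_one]
      ring
    · simp only [if_neg hv, derivative_C, MvPolynomial.pderiv_X_of_ne hv, map_zero]
      ring

theorem lc_eval_sp {V S S' : Type*} [DecidableEq V] [CommRing S] [CommRing S'] (φ : S →+* S')
    (ψ : V) (a : V → S) (g : V → S') (P : MvPolynomial V ℤ)
    (h : ∀ v ∈ P.vars, v ≠ ψ → φ (a v) = g v) :
    ((lcSp ψ a P).map φ).eval (g ψ) = lcEv g P := by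
  refine lc_map_ev ((evalRingHom (g ψ)).comp (mapRingHom φ)) _ g P fun v hv => ?_
  by_cases hv' : v = ψ
  · simp [hv']
  · simp [hv', h v hv hv']

theorem lc_natDegree_sp {V S : Type*} [DecidableEq V] [CommRing S] (ψ : V) (a : V → S)
    (P : MvPolynomial V ℤ) : (lcSp ψ a P).natDegree ≤ P.totalDegree := by
  have h1 := MvPolynomial.aeval_natDegree_le (P.map (Int.castRingHom S)) (m := P.totalDegree)
    (n := 1) (Finset.sup_mono (MvPolynomial.support_map_subset _ _))
    (fun v => if v = ψ then X else C (a v)) fun v => by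
      split_ifs
      · exact natDegree_X_le
      · simp
  rw [mul_one] at h1
  refine le_trans (le_of_eq ?_) h1
  congr 1
  exact (MvPolynomial.hom_congr_vars (f₁ := lcEv _) (f₂ :=
    (MvPolynomial.aeval (R := S) fun v => if v = ψ then X else C (a v)).toRingHom.comp
      (MvPolynomial.map (Int.castRingHom S))) (RingHom.ext_int _ _)
    (fun v _ _ => by simp [lcEv_X]) rfl)

theorem lc_isUnit {q : ℕ} (hq : q.Prime) (T : ℕ) {a : ℤ} (h : ¬ (q : ℤ) ∣ a) :
    IsUnit (a : ZMod (q ^ T)) := by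
  rw [ZMod.coe_int_isUnit_iff_isCoprime, Nat.cast_pow]
  exact IsCoprime.pow_left
    ((Nat.prime_iff_prime_int.1 hq).irreducible.coprime_iff_not_dvd.2 h)

theorem lc_isUnit' {q : ℕ} (hq : q.Prime) {a : ℤ} (h : ¬ (q : ℤ) ∣ a) : IsUnit (a : ZMod q) := by
  rw [ZMod.coe_int_isUnit_iff_isCoprime]
  exact (Nat.prime_iff_prime_int.1 hq).irreducible.coprime_iff_not_dvd.2 h

theorem lc_span_pow (q T : ℕ) : Ideal.span {(q : ZMod (q ^ T))} ^ T = ⊥ := by
  rw [Ideal.span_singleton_pow, Ideal.span_singleton_eq_bot, ← Nat.cast_pow, ZMod.natCast_self]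

theorem lc_mem_span {O : Type*} [CommRing O] {q : ℕ} {a : ℤ} (h : (q : ℤ) ∣ a) :
    (a : O) ∈ Ideal.span {(q : O)} := by
  obtain ⟨b, rfl⟩ := h
  rw [Ideal.mem_span_singleton]
  exact ⟨b, by push_cast; rfl⟩

theorem lc_mul_co {d : ℕ} {O : Type*} [CommRing O] {c : Fin d} {z : Pt d}
    (hu : IsUnit (z.a c : O)) (i : Fin d) : (z.a c : O) * co O c z (some i) = z.a i := by
  rw [co, mul_left_comm, Ring.mul_inverse_cancel _ hu, mul_one]

/-- Consequences of the equality of classes. -/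
theorem cls_eq_iff {d : ℕ} {c : Fin d} {q : ℕ} {x z : Pt d} (hc : ¬ (q : ℤ) ∣ x.a c) :
    cls c q z = cls c q x ↔ ¬ (q : ℤ) ∣ z.a c ∧
      ∀ i, co (ZMod q) c z (some i) = co (ZMod q) c x (some i) := by
  unfold cls
  rw [if_neg hc]
  by_cases hz : (q : ℤ) ∣ z.a c
  · simp [hz]
  · rw [if_neg hz, Option.some_inj, funext_iff]
    simp [hz]

/-- Points in the same class have congruent coordinates in `ZMod (q ^ T)`. -/
theorem lc_co_sub_mem {d : ℕ} {c : Fin d} {q : ℕ} (hq : q.Prime) (T : ℕ) {x z : Pt d}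
    (hc : ¬ (q : ℤ) ∣ x.a c) (h : cls c q z = cls c q x) (i : Fin d) :
    co (ZMod (q ^ T)) c z (some i) - co (ZMod (q ^ T)) c x (some i) ∈
      Ideal.span {(q : ZMod (q ^ T))} := by
  obtain ⟨h1, h2⟩ := (cls_eq_iff hc).1 h
  have h3 : (q : ℤ) ∣ z.a i * x.a c - x.a i * z.a c := by
    rw [← ZMod.intCast_zmod_eq_zero_iff_dvd]
    push_cast
    rw [← lc_mul_co (lc_isUnit' hq h1) i, ← lc_mul_co (lc_isUnit' hq hc) i, h2 i]
    ring
  have h4 := lc_mem_span (O := ZMod (q ^ T)) h3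
  push_cast at h4
  rw [← lc_mul_co (lc_isUnit hq T h1) i, ← lc_mul_co (lc_isUnit hq T hc) i] at h4
  rw [← Ideal.unit_mul_mem_iff_mem _ ((lc_isUnit hq T h1).mul (lc_isUnit hq T hc))]
  convert h4 using 1
  ring

/-- Recipe: `p = aeval (fun v => match v with | none => X | some i => C (co (ZMod q) c x (some i)))
P : (ZMod q)[X]` has `natDegree ≤ e`, its derivative at `x.n` is `aeval (co ..) (pderiv none P)`,
nonzero by `hv_cast`; so `p ≠ 0`, and every `z.n`, `z ∈ Y`, is a root (`aeval_co_eq_zero`). -/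
theorem ncl_card_le {d : ℕ} (c : Fin d) (q : ℕ) (hq : q.Prime) (x : Pt d) (e : ℕ)
    (P : MvPolynomial (Var d) ℤ) (Y : Finset (Pt d)) (hdeg : P.totalDegree ≤ e) (hvan : Van c Y P)
    (hcls : ∀ z ∈ Y, cls c q z = cls c q x) (hc : ¬ (q : ℤ) ∣ x.a c)
    (hP : ¬ (q : ℤ) ∣ hv c e (MvPolynomial.pderiv none P) x) :
    (Y.image fun z => z.n % (q : ℤ)).card ≤ e := by
  classical
  have := Fact.mk hq
  have hux := lc_isUnit' hq hc
  set p := lcSp none (co (ZMod q) c x) P with hp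
  have hp0 : p ≠ 0 := by
    intro h0
    have h1 := lc_eval_sp (RingHom.id _) none (co (ZMod q) c x) (co (ZMod q) c x)
      (MvPolynomial.pderiv none P) fun _ _ _ => rfl
    rw [← lc_derivative, ← hp, h0, derivative_zero, Polynomial.map_zero, eval_zero,
      ← lc_aeval] at h1
    have h2 := hv_cast (ZMod q) c e _ x hux ((totalDegree_pderiv_le none P).trans hdeg)
    rw [← h1, mul_zero, ZMod.intCast_zmod_eq_zero_iff_dvd] at h2
    exact hP h2
  have hroot : ∀ z ∈ Y, (z.n : ZMod q) ∈ p.roots.toFinset := fun z hz => by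
    obtain ⟨h1, h2⟩ := (cls_eq_iff hc).1 (hcls z hz)
    have h3 := lc_eval_sp (RingHom.id _) none (co (ZMod q) c x) (co (ZMod q) c z) P
      fun v _ hv => by
        cases v with
        | none => exact absurd rfl hv
        | some i => exact (h2 i).symm
    rw [← lc_aeval, aeval_co_eq_zero _ c P z (fun h => h1 (h ▸ dvd_zero _)) (lc_isUnit' hq h1)
      (hvan z hz), Polynomial.map_id] at h3
    exact Multiset.mem_toFinset.2 ((mem_roots hp0).2 h3)
  calc (Y.image fun z => z.n % (q : ℤ)).card ≤ p.roots.toFinset.card := by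
        refine Finset.card_le_card_of_injOn (fun t : ℤ => (t : ZMod q)) (fun t ht => ?_) ?_
        · obtain ⟨z, hz, rfl⟩ := Finset.mem_image.1 (Finset.mem_coe.1 ht)
          simp only [ZMod.intCast_mod]
          exact Finset.mem_coe.2 (hroot z hz)
        · intro t ht t' ht' h
          obtain ⟨z, -, rfl⟩ := Finset.mem_image.1 (Finset.mem_coe.1 ht)
          obtain ⟨z', -, rfl⟩ := Finset.mem_image.1 (Finset.mem_coe.1 ht')
          simpa only [ZMod.intCast_mod, ZMod.intCast_eq_intCast_iff'] using h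
    _ ≤ p.natDegree := (Multiset.toFinset_card_le _).trans (card_roots' p)
    _ ≤ e := (lc_natDegree_sp _ _ _).trans hdeg

/-- Hensel step for one coordinate.  Here `O = ZMod (q^T)`, `𝔮 = span {q}`.  Recipe: apply
`hensel_mem` to `p = aeval (fun v => if v = ψ then X else if h : v ∈ sv J then C ⟨_, _⟩ else 0) P`
with `c₀ = co O c x ψ`, `u = aeval (co O c x) (pderiv ψ P)`; units and congruences are tested
after the reduction `ZMod.castHom : ZMod (q^T) →+* ZMod q` (kernel `span {q}` for `T ≥ 1`;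
`co` commutes with ring homs when `a_c` is a unit). -/
theorem coord_mem {d n : ℕ} (c : Fin d) (q T : ℕ) (hq : q.Prime) (x : Pt d) (y : Fin n → Pt d)
    (hcls : ∀ m, cls c q (y m) = cls c q x) (hc : ¬ (q : ℤ) ∣ x.a c) (J : Finset (Fin d))
    (ℰ : Subalgebra (ZMod (q ^ T)) (Fin n → ZMod (q ^ T)))
    (hJ : ∀ j ∈ J, (fun m => co (ZMod (q ^ T)) c (y m) (some j)) ∈ ℰ) (ψ : Var d)
    (hψ : ψ = none → ∀ m, (y m).n % (q : ℤ) = x.n % (q : ℤ)) (e : ℕ)
    (P : MvPolynomial (Var d) ℤ) (hvars : P.vars ⊆ insert ψ (sv J)) (hdeg : P.totalDegree ≤ e)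
    (hvan : ∀ m, MvPolynomial.aeval (co ℂ c (y m)) P = 0)
    (hP : ¬ (q : ℤ) ∣ hv c e (MvPolynomial.pderiv ψ P) x) :
    (fun m => co (ZMod (q ^ T)) c (y m) ψ) ∈ ℰ := by
  classical
  have hy := fun m => ((cls_eq_iff hc).1 (hcls m)).1
  have hcong : ∀ v ∈ insert ψ (sv J), ∀ m, co (ZMod (q ^ T)) c (y m) v - co (ZMod (q ^ T)) c x v ∈
      Ideal.span {(q : ZMod (q ^ T))} := fun v hv m => by
    cases v with
    | some i => exact lc_co_sub_mem hq T hc (hcls m) i
    | none =>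
      have h1 : ψ = none := by
        rcases Finset.mem_insert.1 hv with h | h
        · exact h.symm
        · exact absurd h (none_not_mem_sv J)
      have h2 := lc_mem_span (O := ZMod (q ^ T)) (Int.ModEq.dvd (hψ h1 m).symm)
      rwa [Int.cast_sub] at h2
  obtain ⟨a, ha⟩ : ∃ a : Var d → ℰ, ∀ v ∈ sv J, ∀ m, (a v).1 m = co (ZMod (q ^ T)) c (y m) v := by
    refine ⟨fun v => if h : (fun m => co (ZMod (q ^ T)) c (y m) v) ∈ ℰ then ⟨_, h⟩ else 0,
      fun v hv m => ?_⟩
    cases v with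
    | none => exact absurd hv (none_not_mem_sv J)
    | some i => simp only [dif_pos (hJ i (mem_sv.1 hv))]
  have hev : ∀ Q : MvPolynomial (Var d) ℤ, Q.vars ⊆ insert ψ (sv J) → ∀ m,
      ((lcSp ψ a Q).map (evAt ℰ m)).eval (co (ZMod (q ^ T)) c (y m) ψ) =
        lcEv (co (ZMod (q ^ T)) c (y m)) Q := fun Q hQ m =>
    lc_eval_sp _ ψ a _ Q fun v hv hv' => ha v ((Finset.mem_insert.1 (hQ hv)).resolve_left hv') m
  refine hensel_mem _ T (lc_span_pow q T) ℰ (lcSp ψ a P) _ (co _ c x ψ)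
    (lcEv (co _ c x) (MvPolynomial.pderiv ψ P)) ?_ (hcong ψ (Finset.mem_insert_self _ _))
    (fun m => ?_) fun m => ?_
  · have h1 := lc_isUnit hq T hP
    rw [hv_cast _ c e _ x (lc_isUnit hq T hc) ((totalDegree_pderiv_le ψ P).trans hdeg),
      lc_aeval] at h1
    exact isUnit_of_mul_isUnit_right h1
  · rw [hev P hvars, ← lc_aeval]
    exact aeval_co_eq_zero _ c P _ (fun h => hy m (h ▸ dvd_zero _)) (lc_isUnit hq T (hy m)) (hvan m)
  · rw [derivative_map, lc_derivative, hev _ ((lc_vars_pderiv ψ P).trans hvars)]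
    exact lc_ev_sub_mem _ _ _ _ fun v hv => hcong v (hvars (lc_vars_pderiv ψ P hv)) m

/-- The basic relation in affine coordinates. -/
theorem lc_rel {d k : ℕ} {O : Type*} [CommRing O] {g : ℤ[X]} {γ : ℤ} {c : Fin d} {z : Pt d}
    (h : Rel g k γ z) (hu : IsUnit (z.a c : O)) :
    g.map (Int.castRingHom O) ∣ (vpoly fun i => ((z.a c ^ k * z.b i : ℤ) : O)) *
      vpoly (fun i => co O c z (some i)) ^ k - C (γ : O) * (C (z.n : O) - X) := by
  have h1 := Polynomial.map_dvd (Int.castRingHom O) h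
  have h2 : ∀ (t : O) (a : Fin d → O), vpoly (fun i => t * a i) = C t * vpoly a := fun t a => by
    simp only [vpoly, Finset.mul_sum, map_mul, mul_assoc]
  simp only [Polynomial.map_sub, Polynomial.map_mul, Polynomial.map_pow, map_vpoly, map_C, map_X,
    eq_intCast (Int.castRingHom O)] at h1
  have h3 : (fun i => (z.a i : O)) = fun i => (z.a c : O) * co O c z (some i) :=
    funext fun i => (lc_mul_co hu i).symm
  rw [h3, h2] at h1
  push_cast
  rw [h2]
  convert h1 using 2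
  rw [mul_pow, map_pow]
  ring

theorem lc_exists_inv {d k : ℕ} {O : Type*} [CommRing O] {g : ℤ[X]} {γ : ℤ} {c : Fin d} {z : Pt d}
    (h : Rel g k γ z) (hu : IsUnit (z.a c : O)) (hγ : IsUnit ((γ * g.eval z.n : ℤ) : O)) :
    ∃ w r : O[X], 1 - w * vpoly (fun i => co O c z (some i)) ^ k -
      g.map (Int.castRingHom O) * r = 0 := by
  obtain ⟨r, hr⟩ := lc_rel h hu
  obtain ⟨g₁, hg₁⟩ := X_sub_C_dvd_sub_C_eval (a := (z.n : O)) (p := g.map (Int.castRingHom O))
  obtain ⟨N, hN⟩ := hγ.exists_left_inv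
  rw [eval_intCast_map, eq_intCast, Int.cast_id] at hg₁
  have hN' := congrArg C hN
  rw [Int.cast_mul, map_mul, map_mul, map_one] at hN'
  refine ⟨C N * g₁ * vpoly fun i => ((z.a c ^ k * z.b i : ℤ) : O),
    -(C N * (g₁ * r - C (γ : O))), ?_⟩
  linear_combination (-(C N * g₁)) * hr - hN' - C N * C (γ : O) * hg₁

/-- The `b`-coordinates are affine in `n` with coefficients in `ℰ`.  Recipe: in `O = ZMod (q^T)`
let `s i = co O c · (some i) ∈ ℰ`, `a = (vpoly s)^k ∈ ℰ[X]`, `a₀ = (vpoly s(x))^k`.  From `Rel` at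
`x` and `g(X) - g(n) = (X - n) g₁`: `g ∣ b π^k g₁ - γ g(n)`; as `γ g(n)` and `a_c` are units in `O`
this gives `w, r` with `1 - w a₀ - g r = 0`.  `exists_inv_mod` gives `ρ`; put
`u = ρ %ₘ g`, `v = (X ρ) %ₘ g`.  At each `y m`, `g ∣ a_c^k b - γ (n u - v)` and both sides have
degree `< d` (`degree_modByMonic_lt`, trivial ring apart), so the coefficients agree. -/
theorem b_affine {d k n : ℕ} (g : ℤ[X]) (hg : g.Monic) (hdeg : g.natDegree = d) (γ : ℤ)
    (c : Fin d) (q T : ℕ) (hq : q.Prime) (x : Pt d) (hx : Rel g k γ x) (y : Fin n → Pt d)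
    (hy : ∀ m, Rel g k γ (y m)) (hcls : ∀ m, cls c q (y m) = cls c q x)
    (hc : ¬ (q : ℤ) ∣ x.a c) (hγ : ¬ (q : ℤ) ∣ γ * g.eval x.n)
    (ℰ : Subalgebra (ZMod (q ^ T)) (Fin n → ZMod (q ^ T)))
    (hs : ∀ i, (fun m => co (ZMod (q ^ T)) c (y m) (some i)) ∈ ℰ) (i : Fin d) :
    ∃ u ∈ ℰ, ∃ v ∈ ℰ, ∀ m, (((y m).a c ^ k * (y m).b i : ℤ) : ZMod (q ^ T)) =
      ((y m).n : ZMod (q ^ T)) * u m + v m := by
  rcases subsingleton_or_nontrivial (ZMod (q ^ T)) with hO | hO
  · exact ⟨0, zero_mem _, 0, zero_mem _, fun m => Subsingleton.elim _ _⟩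
  have hyc := fun m => ((cls_eq_iff hc).1 (hcls m)).1
  set g' := g.map (Int.castRingHom (ZMod (q ^ T))) with hg'
  have hm' : g'.Monic := hg.map _
  have hd' : g'.degree = d := by rw [degree_eq_natDegree hm'.ne_zero, hg.natDegree_map, hdeg]
  obtain ⟨w, r, hw⟩ := lc_exists_inv (O := ZMod (q ^ T)) hx (lc_isUnit hq T hc) (lc_isUnit hq T hγ)
  obtain ⟨ρ, hρ⟩ := exists_inv_mod _ T (lc_span_pow q T) ℰ g'
    (vpoly (fun i => co (ZMod (q ^ T)) c x (some i)) ^ k) w r
    (vpoly (fun i => (⟨_, hs i⟩ : ℰ)) ^ k) (fun m j => by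
      have h1 : ((vpoly (fun i => (⟨_, hs i⟩ : ℰ)) ^ k).map (evAt ℰ m)).map
          (Ideal.Quotient.mk (Ideal.span {(q : ZMod (q ^ T))})) =
          (vpoly (fun i => co (ZMod (q ^ T)) c x (some i)) ^ k).map (Ideal.Quotient.mk _) := by
        simp only [Polynomial.map_pow, map_vpoly, evAt_apply]
        congr 2
        funext i
        exact Ideal.Quotient.eq.2 (lc_co_sub_mem hq T hc (hcls m) i)
      have h2 := congrArg (fun p => p.coeff j) h1
      simp only [coeff_map] at h2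
      exact Ideal.Quotient.eq.1 h2)
    (fun j => by rw [hw, coeff_zero]; exact zero_mem _)
  set G := g'.map (algebraMap (ZMod (q ^ T)) ℰ) with hG
  have hGm : G.Monic := hm'.map _
  refine ⟨_, ((γ : ℰ) * (ρ %ₘ G).coeff i).2, _, (-((γ : ℰ) * ((X * ρ) %ₘ G).coeff i)).2,
    fun m => ?_⟩
  have hGe : G.map (evAt ℰ m) = g' := by
    rw [hG, Polynomial.map_map]
    have : (evAt ℰ m).comp (algebraMap (ZMod (q ^ T)) ℰ) = RingHom.id _ := RingHom.ext fun _ => rfl
    rw [this, Polynomial.map_id]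
  have h1 := Polynomial.map_dvd (evAt ℰ m) hρ
  simp only [hGe, Polynomial.map_sub, Polynomial.map_mul, Polynomial.map_pow, map_vpoly,
    evAt_apply, Polynomial.map_one] at h1
  have h2 := lc_rel (O := ZMod (q ^ T)) (hy m) (lc_isUnit hq T (hyc m))
  set B := vpoly fun i => (((y m).a c ^ k * (y m).b i : ℤ) : ZMod (q ^ T)) with hB
  set A := vpoly (fun i => co (ZMod (q ^ T)) c (y m) (some i)) ^ k
  set R := ρ.map (evAt ℰ m) with hR
  have h3 : g' ∣ B - (((γ : ZMod (q ^ T)) * (y m).n) • R - (γ : ZMod (q ^ T)) • (X * R)) := by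
    have := dvd_sub (h2.mul_left R) (h1.mul_left B)
    convert this using 1
    simp only [smul_eq_C_mul, map_mul]
    ring
  have h4 := modByMonic_eq_of_dvd_sub hm' h3
  rw [(modByMonic_eq_self_iff hm').2 (hd' ▸ degree_vpoly_lt _), sub_modByMonic, smul_modByMonic,
    smul_modByMonic] at h4
  have h5 := congrArg (fun p => p.coeff i) h4
  simp only [hB, coeff_vpoly, coeff_sub, coeff_smul, smul_eq_mul] at h5
  have h6 : ∀ p : ℰ[X], evAt ℰ m ((p %ₘ G).coeff i) = (p.map (evAt ℰ m) %ₘ g').coeff i :=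
    fun p => by rw [← coeff_map, map_modByMonic _ hGm, hGe]
  rw [h5, ← evAt_apply, ← evAt_apply, map_neg, map_mul, map_mul, h6, h6, map_intCast,
    Polynomial.map_mul, map_X]
  ring

/-- Recipe: `O = ZMod (q^T)`, `δ j m = s_j(y m) - s_j(x)` for `j : J`,
`ℰ = Algebra.adjoin O (range δ)`.  All `s_i ∈ ℰ` (`coord_mem`); in the case `v = false` also
`n ∈ ℰ`.  The value of a word of level `j ≤ D` is `∏ s_{α l} * ∏ (a_c^k b_{β l})`, so it equals
`∑ β ≤ D', f β * n^β` with `f β ∈ ℰ`, `D' = if v then D else 0` (evaluate a polynomial over `ℰ` of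
`natDegree ≤ j`).  `expand_of_mem_adjoin`, lift coefficients to `ℤ` (`ZMod.val`/`ZMod.intCast_surjective`),
lift `δ j m` to a multiple of `q`; apply `pow_dvd_det` with
`s = simplex J T ×ˢ range (D'+1)`, weight `∑ j, α j`; count with `card_simplex`. -/
theorem local_dvd {d k n : ℕ} (g : ℤ[X]) (hg : g.Monic) (hdeg : g.natDegree = d) (γ : ℤ)
    (c : Fin d) (q : ℕ) (hq : q.Prime) (x : Pt d) (hx : Rel g k γ x) (y : Fin n → Pt d)
    (hy : ∀ m, Rel g k γ (y m)) (hcls : ∀ m, cls c q (y m) = cls c q x)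
    (hc : ¬ (q : ℤ) ∣ x.a c) (hγ : ¬ (q : ℤ) ∣ γ * g.eval x.n) (J : Finset (Fin d)) (v : Bool)
    (e : ℕ) (P : Var d → MvPolynomial (Var d) ℤ)
    (hP : ∀ ψ, ψ ∉ sv J → (ψ = none → v = false) → (P ψ).vars ⊆ insert ψ (sv J) ∧
      (P ψ).totalDegree ≤ e ∧ (∀ m, MvPolynomial.aeval (co ℂ c (y m)) (P ψ) = 0) ∧
      ¬ (q : ℤ) ∣ hv c e (MvPolynomial.pderiv ψ (P ψ)) x)
    (hn : v = false → ∀ m, (y m).n % (q : ℤ) = x.n % (q : ℤ)) (D T : ℕ) (w : Fin n → Word d k)
    (hw : ∀ h, (w h).j ≤ D) :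
    (q : ℤ) ^ (∑ τ ∈ Finset.range T, (n - cnt J.card v D τ)) ∣
      (Matrix.of fun h m => (w h).val (y m).a (y m).b).det := by
  classical
  have hyc := fun m => ((cls_eq_iff hc).1 (hcls m)).1
  set δ : J → Fin n → ZMod (q ^ T) := fun j m =>
    co (ZMod (q ^ T)) c (y m) (some j) - co (ZMod (q ^ T)) c x (some j) with hδ
  have hδq : ∀ j m, δ j m ∈ Ideal.span {(q : ZMod (q ^ T))} := fun j m =>
    lc_co_sub_mem hq T hc (hcls m) j
  set ℰ := Algebra.adjoin (ZMod (q ^ T)) (Set.range δ) with hℰ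
  have hJ : ∀ j ∈ J, (fun m => co (ZMod (q ^ T)) c (y m) (some j)) ∈ ℰ := fun j hj => by
    have := add_mem (Algebra.subset_adjoin (Set.mem_range_self (f := δ) ⟨j, hj⟩))
      (ℰ.algebraMap_mem (co (ZMod (q ^ T)) c x (some j)))
    convert this using 1
    funext m
    simp [hδ]
  have hco : ∀ ψ, (ψ = none → v = false) → (fun m => co (ZMod (q ^ T)) c (y m) ψ) ∈ ℰ := by
    intro ψ hψ
    by_cases h : ψ ∈ sv J
    · cases ψ with
      | none => exact absurd h (none_not_mem_sv J)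
      | some j => exact hJ j (mem_sv.1 h)
    · obtain ⟨h1, h2, h3, h4⟩ := hP ψ h hψ
      exact coord_mem c q T hq x y hcls hc J ℰ hJ ψ (fun h' => hn (hψ h')) e _ h1 h2 h3 h4
  have hs := fun i => hco (some i) (fun h => by cases h)
  have hL : ∀ i, ∃ L : ℰ[X], L.natDegree ≤ (if v then 1 else 0) ∧ ∀ m,
      (L.map (evAt ℰ m)).eval ((y m).n : ZMod (q ^ T)) =
        (((y m).a c ^ k * (y m).b i : ℤ) : ZMod (q ^ T)) := fun i => by
    obtain ⟨u₁, hu₁, u₂, hu₂, h⟩ := b_affine g hg hdeg γ c q T hq x hx y hy hcls hc hγ ℰ hs i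
    cases v with
    | true =>
      refine ⟨C ⟨u₁, hu₁⟩ * X + C ⟨u₂, hu₂⟩, natDegree_linear_le, fun m => ?_⟩
      rw [h m, Polynomial.map_add, Polynomial.map_mul, map_C, map_C, map_X, eval_add, eval_mul,
        eval_C, eval_C, eval_X, mul_comm]
      rfl
    | false =>
      refine ⟨C (⟨_, hco none fun _ => rfl⟩ * ⟨u₁, hu₁⟩ + ⟨u₂, hu₂⟩), (natDegree_C _).le,
        fun m => ?_⟩
      rw [h m, map_C, eval_C]
      rfl
  choose L hL1 hL2 using hL
  set D' := if v then D else 0 with hD'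
  have hW : ∀ h, ∃ cf : ℕ → (J → ℕ) → ZMod (q ^ T), ∀ m,
      (((w h).val (y m).a (y m).b : ℤ) : ZMod (q ^ T)) = ∑ β ∈ Finset.range (D' + 1),
        (∑ α ∈ simplex J T, cf β α * ∏ j, δ j m ^ α j) * ((y m).n : ZMod (q ^ T)) ^ β := by
    intro h
    set W : ℰ[X] := C (∏ l, ⟨_, hs ((w h).α l)⟩) * ∏ l, L ((w h).β l) with hW
    have hWd : W.natDegree < D' + 1 := by
      refine Nat.lt_succ_of_le ((natDegree_C_mul_le _ _).trans ((natDegree_prod_le _ _).trans
        ((Finset.sum_le_sum fun l _ => hL1 _).trans ?_)))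
      have := hw h
      rw [hD']
      split_ifs <;> simp [this]
    choose cf hcf using fun β => expand_of_mem_adjoin _ T (lc_span_pow q T) δ hδq _ (W.coeff β).2
    refine ⟨cf, fun m => ?_⟩
    have h1 : (W.map (evAt ℰ m)).eval ((y m).n : ZMod (q ^ T)) =
        (((w h).val (y m).a (y m).b : ℤ) : ZMod (q ^ T)) := by
      rw [hW, Polynomial.map_mul, map_C, Polynomial.map_prod, eval_mul, eval_C, eval_prod, map_prod]
      simp only [hL2, evAt_apply, Word.val]
      push_cast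
      simp only [← lc_mul_co (lc_isUnit hq T (hyc m)) ((w h).α _), Finset.prod_mul_distrib,
        Finset.prod_const, Finset.card_univ, Fintype.card_fin]
      ring
    rw [← h1, eval_eq_sum_range' (natDegree_map_le.trans_lt hWd)]
    simp only [coeff_map, evAt_apply, hcf]
  choose cf hcf using hW
  choose cf' hcf' using fun h (t : (J → ℕ) × ℕ) => ZMod.intCast_surjective (cf h t.2 t.1)
  have hδ' : ∀ j m, ∃ t : ℤ, ((q * t : ℤ) : ZMod (q ^ T)) = δ j m := fun j m => by
    obtain ⟨t, ht⟩ := Ideal.mem_span_singleton.1 (hδq j m)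
    obtain ⟨t', rfl⟩ := ZMod.intCast_surjective t
    exact ⟨t', by rw [ht]; push_cast; rfl⟩
  choose δ' hδ' using hδ'
  have key := pow_dvd_det (T := T) (simplex J T ×ˢ Finset.range (D' + 1)) (q : ℤ)
    (fun t => ∑ j, t.1 j) (Matrix.of fun h m => (w h).val (y m).a (y m).b) cf'
    (fun t m => (∏ j, (q * δ' j m) ^ t.1 j) * (y m).n ^ t.2)
    (fun t _ m => by
      simp only [mul_pow, Finset.prod_mul_distrib, Finset.prod_pow_eq_pow_sum]
      exact (dvd_mul_right _ _).mul_right _)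
    (fun h m => by
      rw [← Nat.cast_pow, ← ZMod.intCast_zmod_eq_zero_iff_dvd, Int.cast_sub, Matrix.of_apply, hcf,
        sub_eq_zero, Finset.sum_product_right]
      simp only [Int.cast_sum, Int.cast_mul (cf' _ _), Int.cast_mul (∏ _, _), Int.cast_prod,
        Int.cast_pow, hδ', hcf', Finset.sum_mul, mul_assoc])
  convert key using 3 with τ hτ
  have h1 : ((simplex J T ×ˢ Finset.range (D' + 1)).filter fun t => ∑ j, t.1 j ≤ τ) =
      simplex J τ ×ˢ Finset.range (D' + 1) := by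
    have := Finset.mem_range.1 hτ
    ext t
    simp only [Finset.mem_filter, Finset.mem_product, mem_simplex]
    exact ⟨fun h => ⟨h.2, h.1.2⟩, fun h => ⟨⟨h.1.trans this.le, h.2⟩, h.1⟩⟩
  rw [h1, Finset.card_product, card_simplex, Fintype.card_coe, Finset.card_range, cnt, hD']
  split_ifs <;> rfl

end Crest.Agent.R22
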