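import Crest.Agent.R22.Siegel

/-! # Row 22: partitions into nice pieces -/

set_option autoImplicit false

namespace Crest.Agent.R22

/-- Abstract iteration.  Recipe: strong induction on `Φ A`.  Take `π₀` from `step`; for each
piece `B` choose `ρ B` (the constant map `fun _ => B` if `B` is final, otherwise the partition
from the induction hypothesis) and put `π x = ρ (π₀ x) x`.  Count:
`A.image π ⊆ (A.image π₀).biUnion fun B => B.image (ρ B)`. -/
theorem exists_partition {Ω : Type*} [DecidableEq Ω] (Φ : Finset Ω → ℕ)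
    (Fi Adm : Finset Ω → Prop) (m : ℕ) (hadm : ∀ A B, B ⊆ A → Adm A → Adm B)
    (step : ∀ A, Adm A → ∃ π, IsPart A π ∧ (A.image π).card ≤ m ∧
      ∀ x ∈ A, Fi (π x) ∨ Φ (π x) < Φ A) :
    ∀ A, Adm A → ∃ π, IsPart A π ∧ (A.image π).card ≤ (m + 1) ^ (Φ A + 1) ∧
      ∀ x ∈ A, Fi (π x) := by
  suffices h : ∀ n, ∀ A, Φ A = n → Adm A → ∃ π, IsPart A π ∧
      (A.image π).card ≤ (m + 1) ^ (Φ A + 1) ∧ ∀ x ∈ A, Fi (π x) from
    fun A hA => h _ A rfl hA
  intro n
  induction n using Nat.strong_induction_on with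
  | _ n ih =>
    intro A hn hA
    obtain ⟨π₀, hπ₀, hcard, hfin⟩ := step A hA
    have key : ∀ B : Finset Ω, ∃ ρ : Ω → Finset Ω, B ∈ A.image π₀ →
        IsPart B ρ ∧ (B.image ρ).card ≤ (m + 1) ^ Φ A ∧ ∀ x ∈ B, Fi (ρ x) := by
      intro B
      by_cases hB : B ∈ A.image π₀
      · obtain ⟨x, hx, rfl⟩ := Finset.mem_image.1 hB
        rcases hfin x hx with h | h
        · refine ⟨fun _ => π₀ x, fun _ => ⟨fun y hy => ⟨hy, subset_rfl, fun _ _ => rfl⟩, ?_,
            fun _ _ => h⟩⟩
          refine le_trans ?_ (Nat.one_le_pow _ _ (Nat.succ_pos m))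
          refine Finset.card_le_one.2 fun a ha b hb => ?_
          obtain ⟨_, _, rfl⟩ := Finset.mem_image.1 ha
          obtain ⟨_, _, rfl⟩ := Finset.mem_image.1 hb
          rfl
        · obtain ⟨ρ, h1, h2, h3⟩ := ih (Φ (π₀ x)) (hn ▸ h) (π₀ x) rfl
            (hadm A _ (hπ₀ x hx).2.1 hA)
          exact ⟨ρ, fun _ => ⟨h1, h2.trans (Nat.pow_le_pow_right (Nat.succ_pos m) h), h3⟩⟩
      · exact ⟨fun _ => ∅, fun h => absurd h hB⟩
    choose ρ hρ using key
    have hmem : ∀ x ∈ A, π₀ x ∈ A.image π₀ := fun x hx => Finset.mem_image_of_mem _ hx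
    refine ⟨fun x => ρ (π₀ x) x, fun x hx => ?_, ?_, fun x hx => ?_⟩
    · obtain ⟨h1, h2, h3⟩ := (hρ _ (hmem x hx)).1 x (hπ₀ x hx).1
      refine ⟨h1, h2.trans (hπ₀ x hx).2.1, fun y hy => ?_⟩
      have := (hπ₀ x hx).2.2 y (h2 hy)
      show ρ (π₀ y) y = ρ (π₀ x) x
      rw [this]
      exact h3 y hy
    · have hsub : A.image (fun x => ρ (π₀ x) x) ⊆
          (A.image π₀).biUnion fun B => B.image (ρ B) := by
        intro B hB
        obtain ⟨x, hx, rfl⟩ := Finset.mem_image.1 hB
        exact Finset.mem_biUnion.2 ⟨π₀ x, hmem x hx, Finset.mem_image_of_mem _ (hπ₀ x hx).1⟩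
      refine (Finset.card_le_card hsub).trans ?_
      refine (Finset.card_biUnion_le_card_mul _ _ ((m + 1) ^ Φ A)
        fun B hB => (hρ B hB).2.1).trans ?_
      rw [pow_succ, mul_comm]
      exact Nat.mul_le_mul_left _ (hcard.trans (Nat.le_succ m))
    · exact (hρ _ (hmem x hx)).2.2 x (hπ₀ x hx).1

/-- Partition by the fibres of a labelling. -/
theorem isPart_fiber {Ω L : Type*} [DecidableEq Ω] [DecidableEq L] (A : Finset Ω) (lab : Ω → L) :
    IsPart A (fun x => A.filter fun y => lab y = lab x) ∧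
      (A.image fun x => A.filter fun y => lab y = lab x).card ≤ (A.image lab).card := by
  refine ⟨fun x hx => ⟨by simp [hx], Finset.filter_subset _ _, fun y hy => ?_⟩, ?_⟩
  · have := (Finset.mem_filter.1 hy).2
    simp only [this]
  · have : (A.image fun x => A.filter fun y => lab y = lab x) =
        (A.image lab).image fun l => A.filter fun y => lab y = l := by
      rw [Finset.image_image]
      rfl
    rw [this]
    exact Finset.card_image_le

section Aux

variable {d : ℕ}

theorem Van.mono {c : Fin d} {A B : Finset (Pt d)} (h : B ⊆ A) {R : Type*} [CommRing R]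
    [Algebra R ℂ] {P : MvPolynomial (Var d) R} (hP : Van c A P) : Van c B P :=
  fun z hz => hP z (h hz)

/-- Polynomials of degree `≤ N` vanishing on `A`. -/
noncomputable def VanSub (c : Fin d) (N : ℕ) (A : Finset (Pt d)) :
    Submodule ℂ (MvPolynomial.restrictTotalDegree (Var d) ℂ N) where
  carrier := {P | Van c A (P : MvPolynomial (Var d) ℂ)}
  add_mem' := by
    intro P Q hP hQ z hz
    have h1 := hP z hz
    have h2 := hQ z hz
    rw [Submodule.coe_add, map_add, h1, h2, add_zero]
  zero_mem' := by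
    intro z _
    simp
  smul_mem' := by
    intro a P hP z hz
    have h1 := hP z hz
    rw [Submodule.coe_smul, map_smul, h1, smul_zero]

/-- First part of the potential. -/
noncomputable def PhiA (c : Fin d) (N : ℕ) (A : Finset (Pt d)) : ℕ :=
  Module.finrank ℂ (MvPolynomial.restrictTotalDegree (Var d) ℂ N) -
    Module.finrank ℂ (VanSub c N A)

/-- Second part of the potential. -/
noncomputable def PhiB (Qs : Finset ℕ) (A : Finset (Pt d)) : ℕ :=
  (Qs.filter fun q : ℕ => 1 < (A.image fun z => z.n % (q : ℤ)).card).card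

theorem VanSub_le {c : Fin d} {N : ℕ} {A B : Finset (Pt d)} (h : B ⊆ A) :
    VanSub c N A ≤ VanSub c N B := fun _ hP => Van.mono h hP

theorem PhiA_le {c : Fin d} {N : ℕ} {A B : Finset (Pt d)} (h : B ⊆ A) :
    PhiA c N B ≤ PhiA c N A :=
  Nat.sub_le_sub_left (Submodule.finrank_mono (VanSub_le h)) _

theorem PhiA_lt {c : Fin d} {N : ℕ} {A B : Finset (Pt d)} (h : B ⊆ A)
    {P : MvPolynomial (Var d) ℂ} (hP : P.totalDegree ≤ N) (hB : Van c B P) (hA : ¬ Van c A P) :
    PhiA c N B < PhiA c N A := by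
  have hlt : VanSub c N A < VanSub c N B := by
    refine lt_of_le_of_ne (VanSub_le h) fun he => hA ?_
    have : (⟨P, (MvPolynomial.mem_restrictTotalDegree _ _ _).2 hP⟩ :
        MvPolynomial.restrictTotalDegree (Var d) ℂ N) ∈ VanSub c N B := hB
    rw [← he] at this
    exact this
  have h1 := Submodule.finrank_lt_finrank_of_lt hlt
  have h2 := Submodule.finrank_le (VanSub c N B)
  unfold PhiA
  omega

theorem PhiB_subset {Qs : Finset ℕ} {A B : Finset (Pt d)} (h : B ⊆ A) :
    (Qs.filter fun q : ℕ => 1 < (B.image fun z => z.n % (q : ℤ)).card) ⊆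
      Qs.filter fun q : ℕ => 1 < (A.image fun z => z.n % (q : ℤ)).card := by
  intro q hq
  rw [Finset.mem_filter] at hq ⊢
  exact ⟨hq.1, hq.2.trans_le (Finset.card_le_card (Finset.image_subset_image h))⟩

theorem PhiB_le {Qs : Finset ℕ} {A B : Finset (Pt d)} (h : B ⊆ A) : PhiB Qs B ≤ PhiB Qs A :=
  Finset.card_le_card (PhiB_subset h)

theorem PhiB_lt {Qs : Finset ℕ} {A B : Finset (Pt d)} (h : B ⊆ A) {q : ℕ} (hq : q ∈ Qs)
    (hA : 1 < (A.image fun z => z.n % (q : ℤ)).card)
    (hB : (B.image fun z => z.n % (q : ℤ)).card ≤ 1) : PhiB Qs B < PhiB Qs A := by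
  refine Finset.card_lt_card ⟨PhiB_subset h, fun hs => ?_⟩
  have := (Finset.mem_filter.1 (hs (Finset.mem_filter.2 ⟨hq, hA⟩))).2
  omega

theorem totalDegree_map_int_le (P : MvPolynomial (Var d) ℤ) :
    (P.map (Int.castRingHom ℂ)).totalDegree ≤ P.totalDegree :=
  Finset.sup_mono (MvPolynomial.support_map_subset _ _)

theorem aeval_map_int (v : Var d → ℂ) (P : MvPolynomial (Var d) ℤ) :
    MvPolynomial.aeval v (P.map (Int.castRingHom ℂ)) = MvPolynomial.aeval v P := by
  rw [MvPolynomial.aeval_def, MvPolynomial.aeval_def, MvPolynomial.eval₂_map]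
  congr 1

/-- Products of non-vanishing polynomials do not vanish when the vanishing ideal is prime in
bounded degree. -/
theorem not_van_prod {c : Fin d} {A : Finset (Pt d)} (hA : A.Nonempty) {N E : ℕ} (hE : E ≤ N)
    (hp : ∀ f g : MvPolynomial (Var d) ℂ, f.totalDegree ≤ N → g.totalDegree ≤ N →
      Van c A (f * g) → Van c A f ∨ Van c A g) {ι : Type*} (R : ι → MvPolynomial (Var d) ℂ)
    (hR : ∀ t, (R t).totalDegree ≤ E ∧ ¬ Van c A (R t)) (s : Finset ι) (hs : E * s.card ≤ N) :
    (∏ t ∈ s, R t).totalDegree ≤ E * s.card ∧ ¬ Van c A (∏ t ∈ s, R t) := by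
  classical
  induction s using Finset.induction_on with
  | empty =>
    refine ⟨by simp, fun h => ?_⟩
    obtain ⟨z, hz⟩ := hA
    simpa using h z hz
  | insert t s ht ih =>
    rw [Finset.card_insert_of_notMem ht, Nat.mul_succ] at hs
    rw [Finset.prod_insert ht, Finset.card_insert_of_notMem ht, Nat.mul_succ]
    obtain ⟨h1, h2⟩ := ih (by omega)
    refine ⟨(MvPolynomial.totalDegree_mul _ _).trans ?_, fun h => ?_⟩
    · have := (hR t).1
      omega
    · rcases hp _ _ ((hR t).1.trans hE) (h1.trans (by omega)) h with h | h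
      · exact (hR t).2 h
      · exact h2 h

/-- In the prime case there is a polynomial `R` off whose zero set `irr` and `cert` hold. -/
theorem exists_good_R {c : Fin d} {H E N : ℕ} (hH : 1 ≤ H) {A : Finset (Pt d)} (hA : A.Nonempty)
    (hHt : ∀ z ∈ A, Ht c H z)
    (hN : E * (Fintype.card (Finset (Var d) × Var d × Fin (E + 1)) + 2) ≤ N)
    (hp : ∀ f g : MvPolynomial (Var d) ℂ, f.totalDegree ≤ N → g.totalDegree ≤ N →
      Van c A (f * g) → Van c A f ∨ Van c A g) :
    ∃ R : MvPolynomial (Var d) ℂ, R.totalDegree ≤ N ∧ ¬ Van c A R ∧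
      ∀ Y : Finset (Pt d), (∀ z, z ∈ Y ↔ z ∈ A ∧ MvPolynomial.aeval (co ℂ c z) R ≠ 0) →
        Nice c H E ∅ Y := by
  classical
  have hE2 : 2 * E ≤ N := by
    rw [Nat.mul_add] at hN
    omega
  have hE3 : E * Fintype.card (Finset (Var d) × Var d × Fin (E + 1)) ≤ N := by
    rw [Nat.mul_add] at hN
    omega
  have hE : E ≤ N := by omega
  have key : ∀ t : Finset (Var d) × Var d × Fin (E + 1), ∃ R : MvPolynomial (Var d) ℂ,
      (R.totalDegree ≤ E ∧ ¬ Van c A R) ∧
      (DepC c A (insert t.2.1 t.1) t.2.2 → ¬ DepC c A t.1 t.2.2 →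
        ∃ P : MvPolynomial (Var d) ℤ, P.vars ⊆ insert t.2.1 t.1 ∧ P.totalDegree ≤ t.2.2 ∧
          (∀ m, |P.coeff m| ≤ cb d t.2.2 H) ∧ Van c A P ∧
          R = (MvPolynomial.pderiv t.2.1 P).map (Int.castRingHom ℂ)) := by
    rintro ⟨S, ψ, e⟩
    by_cases h : DepC c A (insert ψ S) e ∧ ¬ DepC c A S e
    · obtain ⟨P, h1, h2, h3, h4, h5⟩ := exists_cert c H hH A hHt S ψ e h.1 h.2
      refine ⟨(MvPolynomial.pderiv ψ P).map (Int.castRingHom ℂ), ⟨?_, ?_⟩,
        fun _ _ => ⟨P, h1, h2, h3, h4, rfl⟩⟩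
      · exact (totalDegree_map_int_le _).trans ((totalDegree_pderiv_le ψ P).trans
          (h2.trans (Nat.lt_succ_iff.1 e.2)))
      · rwa [van_map_iff]
    · refine ⟨1, ⟨by simp, fun hv => ?_⟩, fun h1 h2 => absurd ⟨h1, h2⟩ h⟩
      obtain ⟨z, hz⟩ := hA
      simpa using hv z hz
  choose R hR hR' using key
  obtain ⟨hdeg, hnv⟩ := not_van_prod hA hE hp R hR Finset.univ
    (by rw [Finset.card_univ]; exact hE3)
  have hdegN : (∏ t, R t).totalDegree ≤ N := by
    refine hdeg.trans ?_
    rw [Finset.card_univ]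
    exact hE3
  refine ⟨∏ t, R t, hdegN, hnv, fun Y hY => ?_⟩
  have hYA : Y ⊆ A := fun z hz => ((hY z).1 hz).1
  have trans : ∀ f : MvPolynomial (Var d) ℂ, f.totalDegree ≤ N → Van c Y f → Van c A f := by
    intro f hf hv
    have : Van c A (f * ∏ t, R t) := by
      intro z hz
      rw [map_mul]
      by_cases h0 : MvPolynomial.aeval (co ℂ c z) (∏ t, R t) = 0
      · rw [h0, mul_zero]
      · rw [hv z ((hY z).2 ⟨hz, h0⟩), zero_mul]
    exact (hp _ _ hf hdegN this).resolve_right hnv
  refine ⟨fun f g hf hg hv => ?_, fun S ψ e he hdep hind => ?_, fun q hq => by simp at hq⟩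
  · have h1 : Van c A (f * g) :=
      trans _ ((MvPolynomial.totalDegree_mul _ _).trans (by omega)) hv
    rcases hp f g (hf.trans hE) (hg.trans hE) h1 with h | h
    · exact Or.inl (h.mono hYA)
    · exact Or.inr (h.mono hYA)
  · have hdep' : DepC c A (insert ψ S) e := by
      obtain ⟨P, h1, h2, h3, h4⟩ := hdep
      exact ⟨P, h1, h2, h3, trans P (h3.trans (he.trans hE)) h4⟩
    have hind' : ¬ DepC c A S e := by
      rintro ⟨P, h1, h2, h3, h4⟩
      exact hind ⟨P, h1, h2, h3, h4.mono hYA⟩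
    obtain ⟨P, h1, h2, h3, h4, h5⟩ := hR' (S, ψ, ⟨e, Nat.lt_succ_iff.2 he⟩) hdep' hind'
    refine ⟨P, h1, h2, h3, h4.mono hYA, fun z hz => ?_⟩
    have h0 := ((hY z).1 hz).2
    rw [map_prod] at h0
    have := Finset.prod_ne_zero_iff.1 h0 (S, ψ, ⟨e, Nat.lt_succ_iff.2 he⟩) (Finset.mem_univ _)
    rw [h5, aeval_map_int] at this
    exact this

/-- One step of the partition process. -/
theorem nice_step {c : Fin d} {H E N : ℕ} (hH : 1 ≤ H) (Qs : Finset ℕ)
    (hN : E * (Fintype.card (Finset (Var d) × Var d × Fin (E + 1)) + 2) ≤ N)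
    (A : Finset (Pt d)) (hHt : ∀ z ∈ A, Ht c H z) :
    ∃ π, IsPart A π ∧ (A.image π).card ≤ E + 2 ∧
      ∀ x ∈ A, Nice c H E Qs (π x) ∨
        PhiA c N (π x) + PhiB Qs (π x) < PhiA c N A + PhiB Qs A := by
  classical
  rcases A.eq_empty_or_nonempty with rfl | hA
  · exact ⟨fun _ => ∅, fun x hx => by simp at hx, by simp, fun x hx => by simp at hx⟩
  have hbool : ∀ lab : Pt d → Prop, (A.image lab).card ≤ E + 2 := fun lab => by
    have := Finset.card_le_univ (A.image lab)
    simp only [Fintype.card_prop] at this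
    omega
  by_cases hp : ∀ f g : MvPolynomial (Var d) ℂ, f.totalDegree ≤ N → g.totalDegree ≤ N →
      Van c A (f * g) → Van c A f ∨ Van c A g
  · obtain ⟨R, hdeg, hnv, hnice⟩ := exists_good_R hH hA hHt hN hp
    set Y := A.filter fun z => MvPolynomial.aeval (co ℂ c z) R ≠ 0 with hYdef
    have hY := hnice Y fun z => Finset.mem_filter
    have hzero : ∀ B : Finset (Pt d), B ⊆ A → Van c B R →
        PhiA c N B + PhiB Qs B < PhiA c N A + PhiB Qs A := fun B hB hv =>
      Nat.add_lt_add_of_lt_of_le (PhiA_lt hB hdeg hv hnv) (PhiB_le hB)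
    by_cases hncl : ∀ q ∈ Qs, (Y.image fun z => z.n % (q : ℤ)).card ≤ 1 ∨
        E < (Y.image fun z => z.n % (q : ℤ)).card
    · obtain ⟨h1, h2⟩ := isPart_fiber A fun z => MvPolynomial.aeval (co ℂ c z) R = 0
      refine ⟨_, h1, h2.trans (hbool _), fun x hx => ?_⟩
      by_cases h0 : MvPolynomial.aeval (co ℂ c x) R = 0
      · refine Or.inr (hzero _ (Finset.filter_subset _ _) fun z hz => ?_)
        have := (Finset.mem_filter.1 hz).2
        exact this.mpr h0
      · left
        have : (A.filter fun y => (MvPolynomial.aeval (co ℂ c y) R = 0) =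
            (MvPolynomial.aeval (co ℂ c x) R = 0)) = Y := by
          rw [hYdef]
          refine Finset.filter_congr fun y _ => ?_
          exact ⟨fun h hy => h0 (h.mp hy), fun h => propext ⟨fun hy => absurd hy h,
            fun hx => absurd hx h0⟩⟩
        rw [this]
        exact ⟨hY.irr, hY.cert, hncl⟩
    · push Not at hncl
      obtain ⟨q, hq, hq1, hq2⟩ := hncl
      obtain ⟨h1, h2⟩ := isPart_fiber A fun z =>
        if MvPolynomial.aeval (co ℂ c z) R = 0 then (none : Option ℤ) else some (z.n % (q : ℤ))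
      refine ⟨_, h1, h2.trans ?_, fun x hx => Or.inr ?_⟩
      · have hsub : (A.image fun z => if MvPolynomial.aeval (co ℂ c z) R = 0 then
            (none : Option ℤ) else some (z.n % (q : ℤ))) ⊆
            insert none ((Y.image fun z => z.n % (q : ℤ)).image some) := by
          intro l hl
          obtain ⟨z, hz, rfl⟩ := Finset.mem_image.1 hl
          by_cases h0 : MvPolynomial.aeval (co ℂ c z) R = 0
          · simp [h0]
          · rw [if_neg h0]
            exact Finset.mem_insert_of_mem (Finset.mem_image_of_mem _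
              (Finset.mem_image_of_mem _ (Finset.mem_filter.2 ⟨hz, h0⟩)))
        refine (Finset.card_le_card hsub).trans ((Finset.card_insert_le _ _).trans ?_)
        have := Finset.card_image_le (s := Y.image fun z => z.n % (q : ℤ)) (f := some)
        omega
      · by_cases h0 : MvPolynomial.aeval (co ℂ c x) R = 0
        · refine hzero _ (Finset.filter_subset _ _) fun z hz => ?_
          have := (Finset.mem_filter.1 hz).2
          by_contra hne
          rw [if_pos h0, if_neg hne] at this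
          exact absurd this (by simp)
        · refine Nat.add_lt_add_of_le_of_lt (PhiA_le (Finset.filter_subset _ _))
            (PhiB_lt (Finset.filter_subset _ _) hq (hq1.trans_le (Finset.card_le_card
              (Finset.image_subset_image (Finset.filter_subset _ _)))) ?_)
          refine Finset.card_le_one.2 fun a ha b hb => ?_
          have aux : ∀ a ∈ (A.filter fun y => (if MvPolynomial.aeval (co ℂ c y) R = 0 then
              (none : Option ℤ) else some (y.n % (q : ℤ))) =
              if MvPolynomial.aeval (co ℂ c x) R = 0 then (none : Option ℤ)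
              else some (x.n % (q : ℤ))).image fun z => z.n % (q : ℤ), a = x.n % (q : ℤ) := by
            intro a ha
            obtain ⟨z, hz, rfl⟩ := Finset.mem_image.1 ha
            have := (Finset.mem_filter.1 hz).2
            rw [if_neg h0] at this
            by_cases hz0 : MvPolynomial.aeval (co ℂ c z) R = 0
            · simp [hz0] at this
            · rw [if_neg hz0] at this
              exact Option.some.inj this
          rw [aux a ha, aux b hb]
  · push Not at hp
    obtain ⟨f, g, hf, hg, hfg, hnf, hng⟩ := hp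
    obtain ⟨h1, h2⟩ := isPart_fiber A fun z => MvPolynomial.aeval (co ℂ c z) f = 0
    refine ⟨_, h1, h2.trans (hbool _), fun x hx => Or.inr ?_⟩
    refine Nat.add_lt_add_of_lt_of_le ?_ (PhiB_le (Finset.filter_subset _ _))
    by_cases h0 : MvPolynomial.aeval (co ℂ c x) f = 0
    · refine PhiA_lt (Finset.filter_subset _ _) hf (fun z hz => ?_) hnf
      exact (Finset.mem_filter.1 hz).2.mpr h0
    · refine PhiA_lt (Finset.filter_subset _ _) hg (fun z hz => ?_) hng
      obtain ⟨hzA, hz⟩ := Finset.mem_filter.1 hz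
      have h3 := hfg z hzA
      rw [map_mul] at h3
      exact (mul_eq_zero.1 h3).resolve_left fun h => h0 (hz.mp h)

end Aux

/-- Recipe.  Let `T = Finset (Var d) × Var d × Fin (E+1)`, `E' = E * (card T + 2)`,
`W = MvPolynomial.restrictTotalDegree (Var d) ℂ E'` (finite dimensional),
`V A = {P ∈ W | Van c A P}` (a submodule, antitone in `A`),
`Φ A = (finrank W - finrank (V A)) + #{q ∈ Qs | A meets ≥ 2 classes of n mod q} ≤ finrank W + s`,
`m = E + 2`.  Step:
* If there are `f, g` of degree `≤ E'` with `f g` vanishing on `A` and neither `f` nor `g`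
  vanishing, split by `f = 0` / `f ≠ 0`: `V` strictly increases on both pieces.
* Otherwise, for each `t = (S, ψ, e)` satisfying the hypotheses of `exists_cert` on `A` let `R t`
  be the image in `ℂ` of `∂_ψ P_t` (and `R t = 1` otherwise), `R = ∏ t, R t` (degree
  `≤ E * card T`).  If `A` is nonempty, `R` does not vanish identically on `A` (induction over
  the product).  Put `Y = A.filter (R ≠ 0)`.  On `A \ Y`, `V` strictly increases.
  For `f` of degree `≤ E'`: `Van Y f → Van A (f R) → Van A f`.  This gives `irr` (degree of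
  `f g ≤ 2E`) and `cert` for `Y`.  If `ncl` holds for `Y`, then `Y` is final (label: `R = 0` or
  not).  Otherwise for some `q ∈ Qs`, `Y` meets between `2` and `E` classes: label by
  `if R = 0 then none else some (n % q)`; on the pieces inside `Y` the second summand drops. -/
theorem exists_nice_partition (d E s : ℕ) : ∃ K : ℕ, ∀ (c : Fin d) (H : ℕ), 1 ≤ H →
    ∀ Qs : Finset ℕ, Qs.card ≤ s → ∀ A : Finset (Pt d), (∀ z ∈ A, Ht c H z) →
    ∃ π : Pt d → Finset (Pt d), IsPart A π ∧ (A.image π).card ≤ K ∧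
      ∀ z ∈ A, Nice c H E Qs (π z) := by
  set N := E * (Fintype.card (Finset (Var d) × Var d × Fin (E + 1)) + 2) with hN
  refine ⟨(E + 2 + 1) ^
    (Module.finrank ℂ (MvPolynomial.restrictTotalDegree (Var d) ℂ N) + s + 1),
    fun c H hH Qs hQs A hA => ?_⟩
  obtain ⟨π, h1, h2, h3⟩ := exists_partition (fun A => PhiA c N A + PhiB Qs A)
    (Nice c H E Qs) (fun A => ∀ z ∈ A, Ht c H z) (E + 2)
    (fun _ _ hBA h z hz => h z (hBA hz)) (fun A hA => nice_step hH Qs hN.ge A hA) A hA
  refine ⟨π, h1, h2.trans (Nat.pow_le_pow_right (Nat.succ_pos _) ?_), h3⟩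
  have h4 : PhiA c N A ≤ Module.finrank ℂ (MvPolynomial.restrictTotalDegree (Var d) ℂ N) :=
    Nat.sub_le _ _
  have h5 : PhiB Qs A ≤ s := (Finset.card_filter_le _ _).trans hQs
  omega

end Crest.Agent.R22
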