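import Crest.Agent.R22.Jet
import Crest.Agent.R22.Bonus
import Crest.Agent.R22.Asym

/-! # Row 22: rank lower bound, horizontal case (power series) -/

set_option autoImplicit false

open Module MvPowerSeries

namespace Crest.Agent.R22

/-- Recipe: `W = (U₁ U₂)^j U₁^((k-1) j)` is `Full _ ((k+1) j)`.  If moreover `γ ∈ Val U₁₁` has
degree `o ≥ 3`, then for `1 ≤ a ≤ j` and `α` of degree `(k+1) j - 2a` the exponent `a • γ + α`
lies in `Val W` (`W = U₁₁^a * (U₁₁^(j-a) U₁^((k-1) j))`), has degree `(k+1) j + (o-2) a`; these are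
distinct, of degree `> (k+1) j`, and there are `≥ j * ((k-1) j + n).choose n` of them. -/
theorem finrank_ge_bonus {K : Type*} [Field K] {n k : ℕ} (hk : 1 ≤ k)
    (U₁ U₁₁ : Submodule K (MvPowerSeries (Fin (n + 1)) K)) [Module.Finite K U₁]
    [Module.Finite K U₁₁] (h₁ : Full U₁ 1) (h₂ : Full U₁₁ 2) (γ : Fin (n + 1) →₀ ℕ)
    (hγ : γ ∈ Val U₁₁) (h3 : 3 ≤ γ.degree) (j : ℕ) :
    ((k + 1) * j + (n + 1)).choose (n + 1) + j * ((k - 1) * j + n).choose n ≤
      finrank K (U₁₁ ^ j * U₁ ^ ((k - 1) * j) : Submodule K _) := by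
  classical
  obtain ⟨k, rfl⟩ := Nat.exists_eq_add_of_le' hk
  rw [Nat.add_sub_cancel]
  have := pow_finite U₁₁ j
  have := pow_finite U₁ (k * j)
  have := mul_finite (U₁₁ ^ j) (U₁ ^ (k * j))
  have hfull : Full (U₁₁ ^ j * U₁ ^ (k * j)) ((k + 1 + 1) * j) := by
    have := (h₂.pow j).mul (h₁.pow (k * j))
    convert this using 1
    ring
  let φ : ℕ × (Fin (n + 1) →₀ ℕ) → (Fin (n + 1) →₀ ℕ) :=
    fun p => p.1 • γ + Finsupp.single 0 ((j - p.1) * 2) + p.2
  let S := Finset.Icc 1 j ×ˢ degEq (n + 1) (k * j)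
  obtain ⟨o, ho⟩ := Nat.exists_eq_add_of_le' h3
  have hdeg : ∀ p ∈ S, (φ p).degree = (k + 1 + 1) * j + p.1 * (o + 1) := by
    rintro ⟨a, α⟩ hp
    obtain ⟨ha, hα⟩ := Finset.mem_product.1 hp
    obtain ⟨b, rfl⟩ := Nat.exists_eq_add_of_le (Finset.mem_Icc.1 ha).2
    simp only [φ, map_add, map_nsmul, Finsupp.degree_single, mem_degEq.1 hα, ho, smul_eq_mul,
      Nat.add_sub_cancel_left]
    ring
  have hinj : Set.InjOn φ S := by
    rintro ⟨a, α⟩ hp ⟨a', α'⟩ hp' h
    have h1 := hdeg _ hp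
    rw [h, hdeg _ hp'] at h1
    have h2 : a' = a := Nat.eq_of_mul_eq_mul_right (Nat.succ_pos o) (Nat.add_left_cancel h1)
    subst h2
    have h3 : α = α' := add_left_cancel h
    rw [h3]
  have hdisj : Disjoint (degLE (n + 1) ((k + 1 + 1) * j)) (S.image φ) := by
    rw [Finset.disjoint_left]
    intro α hα hα'
    obtain ⟨p, hp, rfl⟩ := Finset.mem_image.1 hα'
    have h1 := mem_degLE.1 hα
    rw [hdeg p hp] at h1
    have h2 : 1 ≤ p.1 := (Finset.mem_Icc.1 (Finset.mem_product.1 hp).1).1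
    have h3 : 0 < p.1 * (o + 1) := Nat.mul_pos h2 (Nat.succ_pos o)
    omega
  have hsub : ((degLE (n + 1) ((k + 1 + 1) * j) ∪ S.image φ : Finset _) : Set _) ⊆
      Val (U₁₁ ^ j * U₁ ^ (k * j)) := by
    intro α hα
    rcases Finset.mem_union.1 (Finset.mem_coe.1 hα) with h | h
    · exact hfull α (mem_degLE.1 h)
    · obtain ⟨⟨a, β⟩, hp, rfl⟩ := Finset.mem_image.1 h
      obtain ⟨ha, hβ⟩ := Finset.mem_product.1 hp
      obtain ⟨b, rfl⟩ := Nat.exists_eq_add_of_le (Finset.mem_Icc.1 ha).2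
      refine add_mem_Val_mul ?_ (h₁.pow _ β (by rw [mem_degEq.1 hβ, mul_one]))
      rw [pow_add]
      refine add_mem_Val_mul (nsmul_mem_Val_pow hγ a) (h₂.pow b _ ?_)
      rw [Finsupp.degree_single, Nat.add_sub_cancel_left]
  have h := card_le_finrank _ _ hsub
  rw [Finset.card_union_of_disjoint hdisj, Finset.card_image_of_injOn hinj, Finset.card_product,
    card_degLE, card_degEq, Nat.card_Icc, Nat.add_sub_cancel] at h
  exact h

/-- Recipe: `(U₁ U₂)^j U₁^((k-1) j) = U₁^(k j) U₂^j ≤ Lev j`.  If `i ≠ k + 1`: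
`Full.choose_le_finrank`, `pow_div_factorial_le_choose`, `grow_of_lower` with `a' = 0`.  If
`i = k + 1` (so `d = i + 1`): `finrank_bonus` exceeds `card (degLE i 2) = (2+i).choose i` as
`i ≥ 3`, so `exists_finset_val` gives `γ` of degree `≥ 3`; `finrank_ge_bonus` with `n = k`. -/
theorem grow_H {K : Type*} [Field K] [CharZero K] {i d k : ℕ} (hk : k + 2 = d) (h2 : 2 ≤ k)
    (hi : 1 ≤ i) (θ : Fin d → K) (hθ : Function.Injective θ)
    (ξ ζ : Fin d → MvPowerSeries (Fin i) K) (hJ : Jets ξ ζ) (ν : MvPowerSeries (Fin i) K)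
    (hν : ∀ σ, constantCoeff ν ≠ θ σ) :
    Grow (fun j => finrank K (Lev K k ξ (tau k θ ζ ν) j)) (pw i false) (gam k i false) := by
  have hf1 := sp_finite (K := K) ξ
  have hf2 := sp_finite (K := K) (tau k θ ζ ν)
  have hf3 := mul_finite (sp K ξ) (sp K (tau k θ ζ ν))
  have h₁ := hJ.full
  have h₂ := full_two h2 (by omega) θ hθ ξ ζ hJ ν hν
  have hle : ∀ j, finrank K ((sp K ξ * sp K (tau k θ ζ ν)) ^ j * sp K ξ ^ ((k - 1) * j) :
      Submodule K _) ≤ finrank K (Lev K k ξ (tau k θ ζ ν) j) := fun j => by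
    have := Lev_finite (K := K) (k := k) ξ (tau k θ ζ ν) j
    refine Submodule.finrank_mono (le_trans (le_of_eq ?_) (pow_mul_pow_le_Lev _ _ le_rfl))
    have : k * j = j + (k - 1) * j := by
      obtain ⟨k, rfl⟩ := Nat.exists_eq_add_of_le' (show 1 ≤ k by omega)
      rw [Nat.add_sub_cancel]
      ring
    rw [this, pow_add, mul_pow, mul_right_comm]
  have hpw : pw i false = i := by simp [pw]
  rw [hpw]
  by_cases hik : i = k + 1
  · subst hik
    subst hk
    obtain ⟨γ, hγ, h3⟩ : ∃ γ ∈ Val (sp K ξ * sp K (tau k θ ζ ν)), 3 ≤ γ.degree := by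
      by_contra hc
      push Not at hc
      obtain ⟨s, hs, hcard⟩ := exists_finset_val (sp K ξ * sp K (tau k θ ζ ν))
      have h4 : s ⊆ degLE (k + 1) 2 := fun α hα =>
        mem_degLE.2 (Nat.lt_succ_iff.1 (hc α (hs hα)))
      have h5 := Finset.card_le_card h4
      have h6 := finrank_bonus h2 θ hθ ξ ζ hJ ν hν
      rw [card_degLE, hcard, ← Nat.choose_symm_add, Nat.choose_two_right] at h5
      have h7 := h6.trans h5
      rw [Nat.le_div_iff_mul_le two_pos, show 2 + (k + 1) - 1 = k + 2 by omega] at h7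
      nlinarith
    have hg := grow_of_lower (fun j => finrank K (Lev K k ξ (tau k θ ζ ν) j)) (k + 1)
      (1 / ((k + 1).factorial : ℝ)) (1 / (k.factorial : ℝ)) ((k : ℝ) + 1) ((k : ℝ) - 1) 0
      (by positivity) (by positivity) (Filter.Eventually.of_forall fun j => by
        have h4 := (finrank_ge_bonus (by omega) _ _ h₁ h₂ γ hγ h3 j).trans (hle j)
        have h5 := pow_div_factorial_le_choose ((k + 1) * j) (k + 1)
        have h6 := pow_div_factorial_le_choose ((k - 1) * j) k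
        have h7 : ((((k + 1) * j + (k + 1)).choose (k + 1) + j * ((k - 1) * j + k).choose k : ℕ) : ℝ)
          ≤ (finrank K (Lev K k ξ (tau k θ ζ ν) j) : ℝ) := by exact_mod_cast h4
        refine le_trans ?_ h7
        rw [Nat.cast_add, Nat.cast_mul, Nat.add_sub_cancel, sub_zero, sub_zero]
        rw [Nat.cast_mul, Nat.cast_sub (by omega)] at h6
        rw [Nat.cast_mul] at h5
        push_cast at h5 h6 ⊢
        have h8 := mul_le_mul_of_nonneg_left h6 (Nat.cast_nonneg (α := ℝ) j)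
        refine add_le_add (le_trans (le_of_eq ?_) h5) (le_trans (le_of_eq ?_) h8)
        · ring
        · ring) (by omega)
    convert hg using 1
    simp only [gam, Bool.false_eq_true, if_false, if_true, Nat.add_sub_cancel]
    ring
  · have hg := grow_of_lower (fun j => finrank K (Lev K k ξ (tau k θ ζ ν) j)) i
      (1 / (i.factorial : ℝ)) 0 ((k : ℝ) + 1) 0 0
      (by positivity) le_rfl (Filter.Eventually.of_forall fun j => by
        have := pow_finite (sp K ξ * sp K (tau k θ ζ ν)) j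
        have := pow_finite (sp K ξ) ((k - 1) * j)
        have := mul_finite ((sp K ξ * sp K (tau k θ ζ ν)) ^ j) (sp K ξ ^ ((k - 1) * j))
        have h4 := ((h₂.pow j).mul (h₁.pow ((k - 1) * j))).choose_le_finrank.trans (hle j)
        have h3 : j * 2 + (k - 1) * j * 1 = (k + 1) * j := by
          obtain ⟨k, rfl⟩ := Nat.exists_eq_add_of_le' (show 1 ≤ k by omega)
          rw [Nat.add_sub_cancel]
          ring
        rw [h3] at h4
        have h5 := pow_div_factorial_le_choose ((k + 1) * j) i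
        have h7 : ((((k + 1) * j + i).choose i : ℕ) : ℝ)
          ≤ (finrank K (Lev K k ξ (tau k θ ζ ν) j) : ℝ) := by exact_mod_cast h4
        refine le_trans (le_trans (le_of_eq ?_) h5) h7
        push_cast
        ring) hi
    convert hg using 1
    simp only [gam, Bool.false_eq_true, if_false, if_neg hik]
    ring

end Crest.Agent.R22
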