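import Crest.Agent.R22.Defs

/-! # Row 22: Taylor expansion at the generic point -/

set_option autoImplicit false
set_option linter.style.haveILetI false

open Polynomial

namespace Crest.Agent.R22

theorem eval₂_optionEquivLeft {F : Type*} [Field F] {ι L : Type*} [CommRing L] [Algebra F L]
    (ρ : MvPolynomial ι F →ₐ[F] L) (a : L) (q : MvPolynomial (Option ι) F) :
    (MvPolynomial.optionEquivLeft F ι q).eval₂ ρ.toRingHom a =
      MvPolynomial.aeval (fun o : Option ι => o.elim a fun j => ρ (MvPolynomial.X j)) q := by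
  induction q using MvPolynomial.induction_on with
  | C r =>
    rw [MvPolynomial.optionEquivLeft_C, eval₂_C, MvPolynomial.aeval_C]
    exact ρ.commutes r
  | add p q hp hq => rw [map_add, eval₂_add, hp, hq, map_add]
  | mul_X p o hp =>
    rw [map_mul, eval₂_mul, hp, map_mul, MvPolynomial.aeval_X]
    cases o with
    | none => rw [MvPolynomial.optionEquivLeft_X_none, eval₂_X]; rfl
    | some j => rw [MvPolynomial.optionEquivLeft_X_some, eval₂_C]; rfl

theorem lift_aux {R L S : Type*} [CommRing R] [IsDomain R] [CharZero R] [Field L] [CommRing S]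
    (ι : R →+* L) (hι : Function.Injective ι)
    (halg : ∀ a : L, ∃ m : R[X], m ≠ 0 ∧ m.eval₂ ι a = 0) (φ₀ : R →+* S) (I : Ideal S)
    [IsAdicComplete I S] (f : L →+* S ⧸ I) (hf : f.comp ι = (Ideal.Quotient.mk I).comp φ₀) :
    ∃ g : L →+* S, (Ideal.Quotient.mk I).comp g = f ∧ g.comp ι = φ₀ := by
  letI := ι.toAlgebra
  letI := φ₀.toAlgebra
  haveI : FaithfulSMul R L := (faithfulSMul_iff_algebraMap_injective R L).2 hι
  letI := FractionRing.liftAlgebra R L
  haveI : IsScalarTower R (FractionRing R) L := FractionRing.isScalarTower_liftAlgebra R L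
  haveI : Algebra.IsAlgebraic R L := ⟨fun a => by
    obtain ⟨m, hm, h0⟩ := halg a
    exact ⟨m, hm, h0⟩⟩
  haveI : Algebra.IsAlgebraic (FractionRing R) L :=
    Algebra.IsAlgebraic.extendScalars (IsFractionRing.injective R (FractionRing R))
  haveI : Algebra.FormallyEtale (FractionRing R) L := Algebra.FormallyEtale.of_isSeparable _ _
  haveI : Algebra.FormallySmooth R (FractionRing R) :=
    Algebra.FormallySmooth.of_isLocalization (nonZeroDivisors R)
  haveI : Algebra.FormallySmooth R L := Algebra.FormallySmooth.comp R (FractionRing R) L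
  let f' : L →ₐ[R] S ⧸ I :=
    { f with commutes' := fun r => by exact DFunLike.congr_fun hf r }
  obtain ⟨g, hg⟩ := Algebra.FormallySmooth.exists_mkₐ_comp_eq_of_isAdicComplete f'
  refine ⟨g.toRingHom, ?_, ?_⟩
  · ext a
    exact DFunLike.congr_fun hg a
  · ext r
    exact g.commutes r

theorem hom_clear {F A E : Type*} [Field F] [CommRing A] [Algebra F A] [Field E] [Algebra F E]
    (h : A →ₐ[F] E) (m : F[X]) (P P' : A) (h0 : h P' ≠ 0) :
    h (∑ n ∈ Finset.range (m.natDegree + 1), m.coeff n • (P ^ n * P' ^ (m.natDegree - n))) =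
      h P' ^ m.natDegree * aeval (h P / h P') m := by
  rw [aeval_eq_sum_range, map_sum, Finset.mul_sum]
  refine Finset.sum_congr rfl fun n hn => ?_
  have hn' : n ≤ m.natDegree := Nat.lt_succ_iff.1 (Finset.mem_range.1 hn)
  obtain ⟨l, hl⟩ := Nat.exists_eq_add_of_le hn'
  rw [map_smul, map_mul, map_pow, map_pow, mul_smul_comm, hl, Nat.add_sub_cancel_left, pow_add,
    div_pow]
  congr 1
  field_simp


/-- Dependence modulo a prime means algebraicity.  `A = MvPolynomial V F ⧸ 𝔭` is algebraic over
`MvPolynomial (Fin i) F` acting through `rename ι` (each generator is a root of a nonzero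
polynomial: `MvPolynomial.optionEquivLeft` after `exists_rename_eq_of_vars_subset_range`; the
algebraic elements form a subalgebra over a domain, `Subalgebra.algebraicClosure`/
`IsAlgebraic.add`, `.mul`). Stated for a hom into any domain. -/
theorem isAlgebraic_of_dep {F : Type} [Field F] {V : Type} [Fintype V] [DecidableEq V]
    (𝔭 : Ideal (MvPolynomial V F)) {i : ℕ} (ι : Fin i ↪ V)
    (hdep : ∀ v, v ∉ Finset.univ.map ι → DepI 𝔭 (insert v (Finset.univ.map ι)))
    {L : Type} [Field L] [Algebra F L] (π : MvPolynomial V F →ₐ[F] L)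
    (hπ : ∀ P, P ∈ 𝔭 → π P = 0) (P : MvPolynomial V F) :
    ∃ m : (MvPolynomial (Fin i) F)[X], m ≠ 0 ∧
      m.eval₂ (π.comp (MvPolynomial.rename ι)).toRingHom (π P) = 0 := by
  classical
  set ρ := π.comp (MvPolynomial.rename ι) with hρ
  letI : Algebra (MvPolynomial (Fin i) F) L := ρ.toRingHom.toAlgebra
  have hX : ∀ v, IsAlgebraic (MvPolynomial (Fin i) F) (π (MvPolynomial.X v)) := by
    intro v
    by_cases hv : v ∈ Finset.univ.map ι
    · obtain ⟨j, -, rfl⟩ := Finset.mem_map.1 hv
      have : π (MvPolynomial.X (ι j)) = algebraMap (MvPolynomial (Fin i) F) L (MvPolynomial.X j) := by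
        change _ = ρ (MvPolynomial.X j)
        simp [hρ]
      rw [this]
      exact isAlgebraic_algebraMap _
    · obtain ⟨Q, hQ, hQ0, hQv⟩ := hdep v hv
      let κ : Option (Fin i) → V := fun o => o.elim v ι
      have hκ : Function.Injective κ := by
        intro o o' h
        cases o with
        | none =>
          cases o' with
          | none => rfl
          | some j => exact absurd (Finset.mem_map.2 ⟨j, Finset.mem_univ _, h.symm⟩) hv
        | some j =>
          cases o' with
          | none => exact absurd (Finset.mem_map.2 ⟨j, Finset.mem_univ _, h⟩) hv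
          | some j' => exact congrArg some (ι.injective h)
      obtain ⟨q, rfl⟩ := MvPolynomial.exists_rename_eq_of_vars_subset_range Q κ hκ (by
        intro w hw
        rcases Finset.mem_insert.1 (hQv (Finset.mem_coe.1 hw)) with rfl | hw
        · exact ⟨none, rfl⟩
        · obtain ⟨j, -, rfl⟩ := Finset.mem_map.1 hw
          exact ⟨some j, rfl⟩)
      refine ⟨MvPolynomial.optionEquivLeft F (Fin i) q, ?_, ?_⟩
      · intro h
        apply hQ0
        rw [(map_eq_zero_iff _ (MvPolynomial.optionEquivLeft F (Fin i)).injective).1 h, map_zero]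
      · have h1 := eval₂_optionEquivLeft ρ (π (MvPolynomial.X v)) q
        have h2 : MvPolynomial.aeval (fun o : Option (Fin i) => o.elim (π (MvPolynomial.X v))
            fun j => ρ (MvPolynomial.X j)) = π.comp (MvPolynomial.rename κ) := by
          ext o
          cases o <;> simp [hρ, κ]
        rw [h2] at h1
        exact h1.trans (hπ _ hQ)
  have hall : IsAlgebraic (MvPolynomial (Fin i) F) (π P) := by
    induction P using MvPolynomial.induction_on with
    | C r =>
      have : π (MvPolynomial.C r) = algebraMap (MvPolynomial (Fin i) F) L (MvPolynomial.C r) := by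
        change _ = ρ (MvPolynomial.C r)
        simp [hρ]
      rw [this]
      exact isAlgebraic_algebraMap _
    | add p q hp hq => rw [map_add]; exact hp.add hq
    | mul_X p v hp => rw [map_mul]; exact hp.mul (hX v)
  obtain ⟨m, hm, h0⟩ := hall
  exact ⟨m, hm, h0⟩

/-- Lifting.  `R₀ = MvPolynomial (Fin i) F` embeds in the field `L` by `X j ↦ s j`, and `L` is
algebraic over it.  Recipe: `φ₀ : R₀ →ₐ L⟦u⟧`, `X j ↦ C (s j) + X j`, has
`constantCoeff ∘ φ₀ = aeval s`, so nonzero elements go to units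
(`MvPowerSeries.isUnit_iff_constantCoeff`) and `φ₀` extends to `L₀ = FractionRing R₀`
(`IsLocalization.lift`/`IsFractionRing.lift`).  Make `L` and `L⟦u⟧` algebras over `L₀`
(`RingHom.toAlgebra`; use a type synonym or local instances).  `L / L₀` is algebraic in
characteristic zero, so separable and formally étale (`Algebra.FormallyEtale.of_isSeparable`).
With `I = span (range X)` (complete: instance in `RingTheory/AdicCompletion/Completeness`), the
map `L → L⟦u⟧ ⧸ I`, `a ↦ mk (C a)` is an `L₀`-algebra map (elements with zero constant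
coefficient lie in `I`), and lifts by
`Algebra.FormallySmooth.exists_mkₐ_comp_eq_of_isAdicComplete`. -/
theorem exists_lift {F : Type} [Field F] [CharZero F] {L : Type} [Field L] [Algebra F L] {i : ℕ}
    (s : Fin i → L) (hs : AlgebraicIndependent F s)
    (halg : ∀ a : L, ∃ m : (MvPolynomial (Fin i) F)[X], m ≠ 0 ∧
      m.eval₂ (MvPolynomial.aeval s : MvPolynomial (Fin i) F →ₐ[F] L).toRingHom a = 0) :
    ∃ φ : L →ₐ[F] MvPowerSeries (Fin i) L, (∀ a, MvPowerSeries.constantCoeff (φ a) = a) ∧
      ∀ j, φ (s j) = MvPowerSeries.C (s j) + MvPowerSeries.X j := by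
  let I : Ideal (MvPowerSeries (Fin i) L) := Ideal.span (Set.range MvPowerSeries.X)
  let φ₀ : MvPolynomial (Fin i) F →ₐ[F] MvPowerSeries (Fin i) L :=
    MvPolynomial.aeval fun j => MvPowerSeries.C (s j) + MvPowerSeries.X j
  haveI : CharZero (MvPolynomial (Fin i) F) :=
    charZero_of_injective_algebraMap (MvPolynomial.C_injective (Fin i) F)
  obtain ⟨g, hg, hg'⟩ := lift_aux
    (MvPolynomial.aeval s : MvPolynomial (Fin i) F →ₐ[F] L).toRingHom hs halg φ₀.toRingHom I
    ((Ideal.Quotient.mk I).comp (MvPowerSeries.C : L →+* MvPowerSeries (Fin i) L)) (by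
      refine MvPolynomial.ringHom_ext (fun r => ?_) (fun j => ?_)
      · simp [φ₀, MvPowerSeries.algebraMap_apply]
      · have : Ideal.Quotient.mk I (MvPowerSeries.X j) = 0 :=
          Ideal.Quotient.eq_zero_iff_mem.2 (Ideal.subset_span ⟨j, rfl⟩)
        simp [φ₀, this])
  have hI : ∀ f ∈ I, MvPowerSeries.constantCoeff f = 0 := by
    have : I ≤ RingHom.ker (MvPowerSeries.constantCoeff : MvPowerSeries (Fin i) L →+* L) := by
      rw [Ideal.span_le]
      rintro _ ⟨j, rfl⟩
      simp
    exact fun f hf => this hf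
  refine ⟨{ g with commutes' := fun r => ?_ }, fun a => ?_, fun j => ?_⟩
  · have := DFunLike.congr_fun hg' (MvPolynomial.C r)
    simpa [φ₀] using this
  · have h1 : Ideal.Quotient.mk I (g a) = Ideal.Quotient.mk I (MvPowerSeries.C a) :=
      DFunLike.congr_fun hg a
    have h2 := hI _ (Ideal.Quotient.eq.1 h1)
    rw [map_sub, MvPowerSeries.constantCoeff_C, sub_eq_zero] at h2
    exact h2
  · have := DFunLike.congr_fun hg' (MvPolynomial.X j)
    simpa [φ₀] using this

/-- Constants of the Taylor map are algebraic.  Recipe: apply `φ` to `m(s, a) = 0`: the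
polynomial `R = ∑ n, map (algebraMap F L) (m.coeff n) * C a ^ n ∈ MvPolynomial (Fin i) L`
satisfies `aeval (C s + X) R = 0` in `L⟦u⟧`; `MvPolynomial.coe_injective` and invertibility of
the shift give `R = 0`; take a monomial occurring in some `m.coeff n`. -/
theorem isAlgebraic_of_const {F : Type} [Field F] {L : Type} [Field L] [Algebra F L] {i : ℕ}
    (s : Fin i → L) (φ : L →ₐ[F] MvPowerSeries (Fin i) L)
    (hφ : ∀ j, φ (s j) = MvPowerSeries.C (s j) + MvPowerSeries.X j) (a : L)
    (m : (MvPolynomial (Fin i) F)[X]) (hm : m ≠ 0)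
    (h0 : m.eval₂ (MvPolynomial.aeval s : MvPolynomial (Fin i) F →ₐ[F] L).toRingHom a = 0)
    (ha : φ a = MvPowerSeries.C a) : IsAlgebraic F a := by
  classical
  let sh : MvPolynomial (Fin i) L →ₐ[L] MvPolynomial (Fin i) L :=
    MvPolynomial.aeval fun j => MvPolynomial.C (s j) + MvPolynomial.X j
  let sh' : MvPolynomial (Fin i) L →ₐ[L] MvPolynomial (Fin i) L :=
    MvPolynomial.aeval fun j => MvPolynomial.X j - MvPolynomial.C (s j)
  have hsh : sh'.comp sh = AlgHom.id L _ := by
    ext1 j
    simp [sh, sh']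
  have hshi : Function.Injective sh :=
    Function.LeftInverse.injective (g := sh') fun p => DFunLike.congr_fun hsh p
  let ψ : MvPolynomial (Fin i) L →+* MvPowerSeries (Fin i) L :=
    MvPolynomial.coeToMvPowerSeries.ringHom.comp sh.toRingHom
  have hψ : Function.Injective ψ := (MvPolynomial.coe_injective _ _).comp hshi
  have hcomp : φ.toRingHom.comp (MvPolynomial.aeval s : MvPolynomial (Fin i) F →ₐ[F] L).toRingHom =
      ψ.comp (MvPolynomial.map (algebraMap F L)) := by
    refine MvPolynomial.ringHom_ext (fun r => ?_) (fun j => ?_)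
    · simp [ψ, sh, MvPowerSeries.algebraMap_apply]
    · simp [ψ, sh, hφ]
  have hR : m.eval₂ (MvPolynomial.map (algebraMap F L)) (MvPolynomial.C a) = 0 := by
    apply hψ
    have h1 := congrArg φ.toRingHom h0
    rw [hom_eval₂, hcomp, map_zero] at h1
    rw [hom_eval₂, map_zero, ← h1]
    congr 1
    simp [ψ, sh, ha]
  obtain ⟨n₀, hn₀⟩ : ∃ n, m.coeff n ≠ 0 := by
    by_contra h
    push Not at h
    exact hm (Polynomial.ext h)
  obtain ⟨β, hβ⟩ := MvPolynomial.ne_zero_iff.1 hn₀
  refine ⟨∑ n ∈ m.support, monomial n ((m.coeff n).coeff β), ?_, ?_⟩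
  · intro h
    have := congrArg (fun p => Polynomial.coeff p n₀) h
    simp only [finsetSum_coeff, coeff_monomial, coeff_zero, Finset.sum_ite_eq',
      mem_support_iff] at this
    rw [if_pos hn₀] at this
    exact hβ this
  · have := congrArg (MvPolynomial.coeff β) hR
    rw [eval₂_eq_sum, Polynomial.sum, MvPolynomial.coeff_sum, MvPolynomial.coeff_zero] at this
    rw [map_sum, ← this]
    refine Finset.sum_congr rfl fun n _ => ?_
    rw [aeval_monomial, ← map_pow, mul_comm _ (MvPolynomial.C _), MvPolynomial.coeff_C_mul,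
      MvPolynomial.coeff_map, mul_comm]

/-- Recipe: `K = FractionRing (MvPolynomial V F ⧸ 𝔭)`, `π` the natural map (kernel `𝔭`),
`s j = π (X (ι j))` (independent by `hind`), every element of `K` is a quotient of two algebraic
elements, `Φ = φ.comp π`.  Last clause: `a = π P / π P'`, `φ a = C a`, so `a` is a root of
`m ≠ 0`; `∑ n, m.coeff n • P^n * P'^(deg - n) ∈ 𝔭`. -/
theorem exists_taylor {F : Type} [Field F] [CharZero F] {V : Type} [Fintype V] [DecidableEq V]
    (𝔭 : Ideal (MvPolynomial V F)) (h𝔭 : 𝔭.IsPrime) {i : ℕ} (ι : Fin i ↪ V)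
    (hind : ¬ DepI 𝔭 (Finset.univ.map ι))
    (hdep : ∀ v, v ∉ Finset.univ.map ι → DepI 𝔭 (insert v (Finset.univ.map ι))) :
    ∃ (K : Type) (_ : Field K) (_ : Algebra F K)
      (Φ : MvPolynomial V F →ₐ[F] MvPowerSeries (Fin i) K),
      (∀ P, P ∈ 𝔭 → Φ P = 0) ∧ (∀ P, MvPowerSeries.constantCoeff (Φ P) = 0 → P ∈ 𝔭) ∧
      (∀ j, ∃ a : K, Φ (MvPolynomial.X (ι j)) = MvPowerSeries.C a + MvPowerSeries.X j) ∧
      ∀ (P P' : MvPolynomial V F) (a : K), P' ∉ 𝔭 → Φ P = a • Φ P' →
        ∃ m : F[X], m ≠ 0 ∧ ∀ y : V → F, (∀ R ∈ 𝔭, MvPolynomial.aeval y R = 0) →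
          MvPolynomial.aeval y P' ≠ 0 →
          m.eval (MvPolynomial.aeval y P / MvPolynomial.aeval y P') = 0 := by
  let A := MvPolynomial V F ⧸ 𝔭
  let K := FractionRing A
  let π : MvPolynomial V F →ₐ[F] K := (IsScalarTower.toAlgHom F A K).comp (Ideal.Quotient.mkₐ F 𝔭)
  have hπ : ∀ P, π P = 0 ↔ P ∈ 𝔭 := by
    intro P
    change algebraMap A K (Ideal.Quotient.mk 𝔭 P) = 0 ↔ _
    rw [map_eq_zero_iff _ (IsFractionRing.injective A K), Ideal.Quotient.eq_zero_iff_mem]
  let s : Fin i → K := fun j => π (MvPolynomial.X (ι j))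
  have hsρ : (MvPolynomial.aeval s : MvPolynomial (Fin i) F →ₐ[F] K) =
      π.comp (MvPolynomial.rename ι) := by
    ext j
    simp [s]
  have hs : AlgebraicIndependent F s := by
    rw [algebraicIndependent_iff]
    intro p hp
    by_contra hp0
    apply hind
    refine ⟨MvPolynomial.rename ι p, ?_, ?_, ?_⟩
    · rw [← hπ]
      rw [hsρ] at hp
      exact hp
    · intro h
      exact hp0 (MvPolynomial.rename_injective _ ι.injective (by rw [h, map_zero]))
    · intro v hv
      obtain ⟨j, -, rfl⟩ := Finset.mem_image.1 (MvPolynomial.vars_rename _ _ hv)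
      exact Finset.mem_map_of_mem _ (Finset.mem_univ _)
  have halg : ∀ a : K, ∃ m : (MvPolynomial (Fin i) F)[X], m ≠ 0 ∧
      m.eval₂ (MvPolynomial.aeval s : MvPolynomial (Fin i) F →ₐ[F] K).toRingHom a = 0 := by
    intro a
    rw [hsρ]
    letI : Algebra (MvPolynomial (Fin i) F) K :=
      (π.comp (MvPolynomial.rename ι)).toRingHom.toAlgebra
    have h1 : ∀ P, IsAlgebraic (MvPolynomial (Fin i) F) (π P) := fun P => by
      obtain ⟨m, hm, h0⟩ := isAlgebraic_of_dep 𝔭 ι hdep π (fun P hP => (hπ P).2 hP) P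
      exact ⟨m, hm, h0⟩
    obtain ⟨x, y, -, rfl⟩ := IsFractionRing.div_surjective (A := A) a
    obtain ⟨P, rfl⟩ := Ideal.Quotient.mk_surjective x
    obtain ⟨P', rfl⟩ := Ideal.Quotient.mk_surjective y
    have h2 : IsAlgebraic (MvPolynomial (Fin i) F) (π P / π P') := by
      rw [div_eq_mul_inv]
      exact (h1 P).mul (h1 P').inv
    obtain ⟨m, hm, h0⟩ := h2
    exact ⟨m, hm, h0⟩
  obtain ⟨φ, hφ0, hφ⟩ := exists_lift s hs halg
  refine ⟨K, inferInstance, inferInstance, φ.comp π, fun P hP => ?_, fun P hP => ?_,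
    fun j => ⟨s j, hφ j⟩, fun P P' a hP' h => ?_⟩
  · rw [AlgHom.comp_apply, (hπ P).2 hP, map_zero]
  · rw [AlgHom.comp_apply, hφ0] at hP
    exact (hπ P).1 hP
  · have hP0 : π P' ≠ 0 := fun h => hP' ((hπ P').1 h)
    change φ (π P) = a • φ (π P') at h
    have h1 : π P = a * π P' := by
      have := congrArg MvPowerSeries.constantCoeff h
      rwa [MvPowerSeries.constantCoeff_smul, hφ0, hφ0, smul_eq_mul] at this
    have h2 : φ a = MvPowerSeries.C a := by
      have h3 : φ (π P') ≠ 0 := fun h => hP0 (by rw [← hφ0 (π P'), h, map_zero])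
      rw [h1, map_mul, MvPowerSeries.smul_eq_C_mul] at h
      exact mul_right_cancel₀ h3 h
    obtain ⟨m₀, hm₀, h0⟩ := halg a
    obtain ⟨m, hm, hma⟩ := isAlgebraic_of_const s φ hφ a m₀ hm₀ h0 h2
    refine ⟨m, hm, fun y hy hy' => ?_⟩
    have h4 := hom_clear π m P P' hP0
    rw [h1, mul_div_cancel_right₀ _ hP0, hma, mul_zero, hπ] at h4
    have h5 := hom_clear (MvPolynomial.aeval y : MvPolynomial V F →ₐ[F] F) m P P' hy'
    rw [hy _ h4, coe_aeval_eq_eval] at h5
    exact (mul_eq_zero.1 h5.symm).resolve_left (pow_ne_zero _ hy')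

end Crest.Agent.R22
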