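import Crest.Agent.R22.Basic
import Crest.Agent.R22.Taylor
import Crest.Agent.R22.RankH

/-! # Row 22: rank lower bound on a point set, common part and horizontal case -/

set_option autoImplicit false

open Module Polynomial

namespace Crest.Agent.R22

/-- The polynomial `x_σ = ∑ s_i θ_σ^i`. -/
noncomputable def xp {F : Type*} [Field F] {d : ℕ} (t : F) : MvPolynomial (Var d) F :=
  cj (fun i => MvPolynomial.X (some i)) (MvPolynomial.C t)

theorem algHom_xp {F : Type*} [Field F] {B : Type*} [CommRing B] [Algebra F B] {d : ℕ}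
    (Φ : MvPolynomial (Var d) F →ₐ[F] B) (t : F) :
    Φ (xp t) = cj (fun i => Φ (MvPolynomial.X (some i))) (algebraMap F B t) := by
  have := map_cj Φ.toRingHom (fun i : Fin d => (MvPolynomial.X (some i) : MvPolynomial (Var d) F))
    (MvPolynomial.C t)
  simpa [xp] using this

theorem aeval_xp {F : Type*} [Field F] {d : ℕ} (θ : Fin d → F) (𝒴 : Set (Var d → F)) (σ : Fin d)
    (y : 𝒴) : MvPolynomial.aeval y.1 (xp (θ σ)) = xf θ 𝒴 σ y := by
  rw [algHom_xp]; simp [xf]

/-- Relations between the functions `xf, mf` survive under `Φ`.  Recipe: let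
`xp σ = cj (fun i => X (some i)) (C (θ σ))`, `N = ∏ σ, xp σ ^ k`.  By induction on `P`
(`MvPolynomial.induction_on`): there are `m` and `P̃ : MvPolynomial (Var d) F` with
`aeval y N ^ m * (aeval .. P) y = aeval y P̃` for all `y ∈ 𝒴` and
`Φ N ^ m * aeval .. P = Φ P̃`.  `Φ N` is a unit. -/
theorem ker_transfer {F : Type*} [Field F] {B : Type*} [CommRing B] [Algebra F B] {d : ℕ} (k : ℕ)
    (θ : Fin d → F) (c : Fin d) (𝒴 : Set (Var d → F)) (hG : GeoSet θ c 𝒴)
    (Φ : MvPolynomial (Var d) F →ₐ[F] B) (hΦ : ∀ P ∈ MvPolynomial.vanishingIdeal F 𝒴, Φ P = 0)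
    (x ζ : Fin d → B)
    (hx : ∀ σ, x σ = cj (fun i => Φ (MvPolynomial.X (some i))) (algebraMap F B (θ σ)))
    (hζ : ∀ σ, x σ * ζ σ = 1) (P : MvPolynomial (Fin d ⊕ Fin d) F)
    (h : MvPolynomial.aeval (Sum.elim (xf θ 𝒴) (mf k θ 𝒴)) P = 0) :
    MvPolynomial.aeval (Sum.elim x fun σ =>
      (Φ (MvPolynomial.X none) - algebraMap F B (θ σ)) * ζ σ ^ k) P = 0 := by
  classical
  set N : MvPolynomial (Var d) F := ∏ σ, xp (θ σ) ^ k with hN
  have hx' : ∀ σ, Φ (xp (θ σ)) = x σ := fun σ => by rw [algHom_xp, hx]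
  set μ' : Fin d → B := fun σ => (Φ (MvPolynomial.X none) - algebraMap F B (θ σ)) * ζ σ ^ k
  have key : ∀ P : MvPolynomial (Fin d ⊕ Fin d) F, ∃ (m : ℕ) (P' : MvPolynomial (Var d) F),
      (∀ y : 𝒴, MvPolynomial.aeval y.1 N ^ m *
        MvPolynomial.aeval (Sum.elim (xf θ 𝒴) (mf k θ 𝒴)) P y = MvPolynomial.aeval y.1 P') ∧
      Φ N ^ m * MvPolynomial.aeval (Sum.elim x μ') P = Φ P' := by
    intro P
    induction P using MvPolynomial.induction_on with
    | C a => exact ⟨0, MvPolynomial.C a, fun y => by simp, by simp⟩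
    | add p q hp hq =>
      obtain ⟨m, p', h1, h2⟩ := hp
      obtain ⟨n, q', h3, h4⟩ := hq
      refine ⟨m + n, N ^ n * p' + N ^ m * q', fun y => ?_, ?_⟩
      · simp only [map_add, map_mul, map_pow, Pi.add_apply, ← h1 y, ← h3 y]; ring
      · simp only [map_add, map_mul, map_pow, ← h2, ← h4]; ring
    | mul_X p v hp =>
      obtain ⟨m, p', h1, h2⟩ := hp
      cases v with
      | inl σ =>
        refine ⟨m, p' * xp (θ σ), fun y => ?_, ?_⟩
        · simp only [map_mul, MvPolynomial.aeval_X, Sum.elim_inl, Pi.mul_apply, ← h1 y, aeval_xp]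
          ring
        · simp only [map_mul, MvPolynomial.aeval_X, Sum.elim_inl, ← h2, hx']; ring
      | inr σ =>
        have hN' : N = xp (θ σ) ^ k * ∏ ρ ∈ Finset.univ.erase σ, xp (θ ρ) ^ k :=
          (Finset.mul_prod_erase _ (fun ρ => xp (θ ρ) ^ k) (Finset.mem_univ σ)).symm
        refine ⟨m + 1, p' * ((MvPolynomial.X none - MvPolynomial.C (θ σ)) *
          ∏ ρ ∈ Finset.univ.erase σ, xp (θ ρ) ^ k), fun y => ?_, ?_⟩
        · have h0 := hG.hx σ y
          simp only [map_mul, MvPolynomial.aeval_X, Sum.elim_inr, Pi.mul_apply, ← h1 y, map_sub,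
            MvPolynomial.aeval_C, Algebra.algebraMap_self, RingHom.id_apply, mf]
          rw [pow_succ]
          nth_rewrite 2 [hN']
          rw [map_mul, map_pow, aeval_xp]
          field_simp
        · have h0 : x σ ^ k * ζ σ ^ k = 1 := by rw [← mul_pow, hζ, one_pow]
          simp only [map_mul, MvPolynomial.aeval_X, Sum.elim_inr, ← h2, map_sub,
            MvPolynomial.algHom_C, μ']
          rw [pow_succ]
          nth_rewrite 2 [hN']
          rw [map_mul, map_pow, hx']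
          linear_combination (Φ N ^ m * MvPolynomial.aeval (Sum.elim x μ') p *
            (Φ (MvPolynomial.X none) - algebraMap F B (θ σ)) *
            Φ (∏ ρ ∈ Finset.univ.erase σ, xp (θ ρ) ^ k)) * h0
  obtain ⟨m, P', h1, h2⟩ := key P
  have h3 : Φ P' = 0 := hΦ P' fun y hy => by
    have := h1 ⟨y, hy⟩
    rw [h] at this
    simpa using this.symm
  have hu : IsUnit (Φ N ^ m) := by
    refine IsUnit.pow _ ?_
    rw [hN, map_prod]
    refine IsUnit.prod_univ_iff.2 fun σ => ?_
    rw [map_pow, hx']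
    exact (IsUnit.of_mul_eq_one _ (hζ σ)).pow _
  exact hu.mul_right_eq_zero.1 (h2.trans h3)

/-- Jets from Taylor data: `S i` are the images of the `s_i`.  Recipe: `mem_sp_cj`,
`MvPowerSeries.isUnit_iff_constantCoeff`. -/
theorem exists_jets {K : Type*} [Field K] {i d : ℕ} (θ : Fin d → K) (hθ : Function.Injective θ)
    (S : Fin d → MvPowerSeries (Fin i) K) (c : Fin d) (hc : S c = 1)
    (hX : ∀ j, ∃ (l : Fin d) (a : K), S l = MvPowerSeries.C a + MvPowerSeries.X j)
    (h0 : ∀ σ, MvPowerSeries.constantCoeff (cj S (algebraMap K _ (θ σ))) ≠ 0) :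
    ∃ ζ, Jets (fun σ => cj S (algebraMap K (MvPowerSeries (Fin i) K) (θ σ))) ζ := by
  have hu : ∀ σ, ∃ ζ, cj S (algebraMap K (MvPowerSeries (Fin i) K) (θ σ)) * ζ = 1 := fun σ =>
    (MvPowerSeries.isUnit_iff_constantCoeff.2 (h0 σ).isUnit).exists_right_inv
  choose ζ hζ using hu
  have h1 := mem_sp_cj θ hθ S c
  rw [hc] at h1
  refine ⟨ζ, hζ, h1, fun j => ?_⟩
  obtain ⟨l, a, hl⟩ := hX j
  have h2 := mem_sp_cj θ hθ S l
  have h3 := Submodule.sub_mem _ h2 (Submodule.smul_mem _ a h1)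
  rw [hl] at h3
  convert h3 using 1
  rw [MvPowerSeries.smul_eq_C_mul]; ring

/-- Enumeration of `J`. -/
noncomputable def enumJ {d : ℕ} (J : Finset (Fin d)) : Fin J.card ↪ Fin d :=
  (J.orderEmbOfFin rfl).toEmbedding

theorem map_enumJ {d : ℕ} (J : Finset (Fin d)) : Finset.univ.map (enumJ J) = J := by
  ext j
  simp only [Finset.mem_map, Finset.mem_univ, true_and]
  have := J.range_orderEmbOfFin rfl
  rw [← Finset.mem_coe, ← this]
  rfl

theorem nonempty_of_prime {F : Type*} [Field F] {V : Type*} {𝒴 : Set (V → F)}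
    (hp : (MvPolynomial.vanishingIdeal F 𝒴).IsPrime) : 𝒴.Nonempty := by
  by_contra h
  rw [Set.not_nonempty_iff_eq_empty] at h
  exact hp.ne_top ((Ideal.eq_top_iff_one _).2 fun y hy => by simp [h] at hy)

/-- Recipe: `ι = (J.orderEmbOfFin rfl).toEmbedding.trans Function.Embedding.some`
(`univ.map ι = sv J`), `exists_taylor` with `V = Var d`, `charZero_of_injective_algebraMap`;
`𝒴` is nonempty since the ideal is not `⊤`, so `xp σ` and `X none - C (θ σ)` are not in the
ideal, and `X (some c) - 1` is; `exists_jets`, `grow_H`, `finrank_Lev_le`, `ker_transfer`. -/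
theorem grow_rank_H {F : Type} [Field F] [CharZero F] {d k : ℕ} (hk : k + 2 = d) (h2 : 2 ≤ k)
    (θ : Fin d → F) (c : Fin d) (𝒴 : Set (Var d → F)) (hG : GeoSet θ c 𝒴)
    (hp : (MvPolynomial.vanishingIdeal F 𝒴).IsPrime) (J : Finset (Fin d)) (hJ : 1 ≤ J.card)
    (hind : ¬ DepI (MvPolynomial.vanishingIdeal F 𝒴) (sv J))
    (hdep : ∀ ψ, ψ ∉ sv J → DepI (MvPolynomial.vanishingIdeal F 𝒴) (insert ψ (sv J))) :
    Grow (fun j => finrank F (Lev F k (xf θ 𝒴) (mf k θ 𝒴) j)) (pw J.card false)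
      (gam k J.card false) := by
  classical
  set ι : Fin J.card ↪ Var d := (enumJ J).trans Function.Embedding.some with hι
  have hmap : Finset.univ.map ι = sv J := by
    rw [hι, ← Finset.map_map, map_enumJ]; rfl
  obtain ⟨K, _, _, Φ, hΦ0, hΦc, hΦX, -⟩ := exists_taylor _ hp ι (hmap ▸ hind) (hmap ▸ hdep)
  haveI : CharZero K := charZero_of_injective_algebraMap (algebraMap F K).injective
  obtain ⟨y₀, hy₀⟩ := nonempty_of_prime hp
  set θ' : Fin d → K := fun σ => algebraMap F K (θ σ)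
  have hθ' : Function.Injective θ' := (algebraMap F K).injective.comp hG.inj
  have halg : ∀ σ, algebraMap K (MvPowerSeries (Fin J.card) K) (θ' σ) =
      algebraMap F (MvPowerSeries (Fin J.card) K) (θ σ) := fun σ =>
    (IsScalarTower.algebraMap_apply F K _ _).symm
  set Sv : Fin d → MvPowerSeries (Fin J.card) K := fun l => Φ (MvPolynomial.X (some l))
  obtain ⟨ζ, hJet⟩ := exists_jets θ' hθ' Sv c
    (by
      have := hΦ0 (MvPolynomial.X (some c) - 1) fun y hy => by simp [hG.hc y hy]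
      rwa [map_sub, map_one, sub_eq_zero] at this)
    (fun j => by
      obtain ⟨a, ha⟩ := hΦX j
      exact ⟨enumJ J j, a, ha⟩)
    (fun σ h => by
      rw [halg, ← algHom_xp] at h
      have := hΦc _ h y₀ hy₀
      exact hG.hx σ ⟨y₀, hy₀⟩ ((aeval_xp θ 𝒴 σ ⟨y₀, hy₀⟩).symm.trans this))
  have hν : ∀ σ, MvPowerSeries.constantCoeff (Φ (MvPolynomial.X none)) ≠ θ' σ := fun σ h => by
    have h1 : MvPowerSeries.constantCoeff (Φ (MvPolynomial.X none - MvPolynomial.C (θ σ))) = 0 := by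
      rw [map_sub, map_sub, h, MvPolynomial.algHom_C, ← halg, MvPowerSeries.algebraMap_apply,
        MvPowerSeries.constantCoeff_C]
      simp
    have := hΦc _ h1 y₀ hy₀
    simp only [map_sub, MvPolynomial.aeval_X, MvPolynomial.aeval_C, Algebra.algebraMap_self,
      RingHom.id_apply, sub_eq_zero] at this
    exact hG.hn y₀ hy₀ σ this
  have hgrow := grow_H hk h2 hJ θ' hθ' _ ζ hJet (Φ (MvPolynomial.X none)) hν
  intro γ₁ hγ₁
  filter_upwards [hgrow γ₁ hγ₁] with j hj
  refine hj.trans (Nat.cast_le.2 (finrank_Lev_le _ _ _ _ (fun P hP => ?_) j))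
  have := ker_transfer k θ c 𝒴 hG Φ hΦ0 _ ζ (fun σ => by rw [← halg]) hJet.inv P hP
  have e : tau k θ' ζ (Φ (MvPolynomial.X none)) = fun σ => (Φ (MvPolynomial.X none) -
      algebraMap F (MvPowerSeries (Fin J.card) K) (θ σ)) * ζ σ ^ k := by
    funext σ
    rw [← halg]
    rfl
  rw [e]
  exact this

end Crest.Agent.R22
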