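import Crest.Agent.R22.Val

/-! # Row 22: surfaces, the ideal of relations is principal -/

set_option autoImplicit false

open Module MvPowerSeries

namespace Crest.Agent.R22

/-- A prime ideal of `R[X]` (`R` a UFD) meeting `R` trivially is principal.  Recipe: if `I ≠ ⊥`
take an irreducible factor `G ∈ I` of a nonzero element; it has positive degree, so it is
primitive and irreducible over `Frac R` (Gauss,
`Polynomial.IsPrimitive.irreducible_iff_irreducible_map_fraction_map`).  For `P ∈ I` not divisible
by `G`, `G` and `P` are coprime over `Frac R`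
(`IsPrimitive.dvd_of_fraction_map_dvd_fraction_map`-type lemma), and clearing denominators in a
Bezout identity (`IsLocalization.integerNormalization`) gives a nonzero constant in `I`.
Alternatively: height one primes of a UFD are principal. -/
theorem prime_principal {R : Type*} [CommRing R] [IsDomain R] [UniqueFactorizationMonoid R]
    (I : Ideal (Polynomial R)) (hI : I.IsPrime) (h : ∀ a : R, Polynomial.C a ∈ I → a = 0) :
    ∃ G, I = Ideal.span {G} := by
  by_cases hbot : I = ⊥
  · exact ⟨0, by simp [hbot]⟩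
  obtain ⟨G, hG, hp⟩ := hI.exists_mem_prime_of_ne_bot hbot
  refine ⟨G, le_antisymm (fun P hP => ?_) ((Ideal.span_singleton_le_iff_mem _).2 hG)⟩
  rw [Ideal.mem_span_singleton]
  have hprim : G.IsPrimitive := by
    rintro r ⟨Q, hQ⟩
    rcases hp.irreducible.isUnit_or_isUnit hQ with hu | hu
    · exact Polynomial.isUnit_C.1 hu
    · obtain ⟨u, rfl⟩ := hu
      have h1 : Polynomial.C r ∈ I := by
        have := I.mul_mem_right (↑u⁻¹) hG
        rwa [hQ, Units.mul_inv_cancel_right] at this
      rw [h r h1] at hQ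
      exact absurd (by simpa using hQ) hp.ne_zero
  have hirr := (hprim.irreducible_iff_irreducible_map_fraction_map (K := FractionRing R)).1
    hp.irreducible
  by_contra hn
  have hn' := fun h => hn (hprim.dvd_of_fraction_map_dvd_fraction_map (K := FractionRing R) h)
  obtain ⟨a, b, hab⟩ := (hirr.coprime_iff_not_dvd).2 hn'
  obtain ⟨c, c0, hc⟩ := IsLocalization.integerNormalization_spec (nonZeroDivisors R) a
  obtain ⟨d, d0, hd⟩ := IsLocalization.integerNormalization_spec (nonZeroDivisors R) b
  rw [Algebra.smul_def, Polynomial.algebraMap_apply] at hc hd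
  rw [mem_nonZeroDivisors_iff_ne_zero] at c0 d0
  have h1 : Polynomial.C (c * d) =
      Polynomial.C d * IsLocalization.integerNormalization (nonZeroDivisors R) a * G +
      Polynomial.C c * IsLocalization.integerNormalization (nonZeroDivisors R) b * P := by
    apply Polynomial.map_injective (algebraMap R (FractionRing R)) (IsFractionRing.injective _ _)
    simp only [Polynomial.map_mul, Polynomial.map_add, hc, hd, Polynomial.map_C, map_mul]
    linear_combination (-(Polynomial.C (algebraMap R (FractionRing R) c) *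
      Polynomial.C (algebraMap R (FractionRing R) d))) * hab
  exact mul_ne_zero c0 d0 (h _ (h1 ▸ I.add_mem (I.mul_mem_left _ hG) (I.mul_mem_left _ hP)))

section V2aAux

variable {K A σ : Type*} [Field K] [CommRing A] [Algebra K A]

/-- Evaluation remembering the degree. -/
noncomputable def V2a_ev (K : Type*) [Field K] [Algebra K A] (ξ : σ → A) :
    MvPolynomial σ K →ₐ[K] Polynomial A :=
  MvPolynomial.aeval fun a => Polynomial.C (ξ a) * Polynomial.X

theorem V2a_ev_monomial (ξ : σ → A) (d : σ →₀ ℕ) (c : K) :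
    V2a_ev K ξ (MvPolynomial.monomial d c) =
      Polynomial.monomial d.degree (MvPolynomial.aeval ξ (MvPolynomial.monomial d c)) := by
  rw [V2a_ev, MvPolynomial.aeval_monomial, MvPolynomial.aeval_monomial,
    ← Polynomial.C_mul_X_pow_eq_monomial, Polynomial.algebraMap_apply, Finsupp.prod, Finsupp.prod,
    Finsupp.degree_apply]
  simp only [mul_pow, Finset.prod_mul_distrib, Finset.prod_pow_eq_pow_sum, map_mul, map_prod,
    map_pow, mul_assoc]

theorem V2a_coeff_ev (ξ : σ → A) (P : MvPolynomial σ K) (n : ℕ) :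
    (V2a_ev K ξ P).coeff n = MvPolynomial.aeval ξ (MvPolynomial.homogeneousComponent n P) := by
  induction P using MvPolynomial.induction_on' with
  | monomial d c =>
    rw [V2a_ev_monomial, Polynomial.coeff_monomial,
      MvPolynomial.homogeneousComponent_of_mem (MvPolynomial.isHomogeneous_monomial c rfl)]
    by_cases h : d.degree = n
    · rw [if_pos h, if_pos h.symm]
    · rw [if_neg h, if_neg (Ne.symm h), map_zero]
  | add p q hp hq => simp only [map_add, Polynomial.coeff_add, hp, hq]

theorem V2a_ev_eq_zero_iff (ξ : σ → A) (P : MvPolynomial σ K) :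
    V2a_ev K ξ P = 0 ↔ ∀ n, MvPolynomial.aeval ξ (MvPolynomial.homogeneousComponent n P) = 0 := by
  rw [Polynomial.ext_iff]
  simp only [V2a_coeff_ev, Polynomial.coeff_zero]

theorem V2a_ev_eq_zero_of_homog (ξ : σ → A) {P : MvPolynomial σ K} {m : ℕ}
    (hP : P.IsHomogeneous m) : V2a_ev K ξ P = 0 ↔ MvPolynomial.aeval ξ P = 0 := by
  rw [V2a_ev_eq_zero_iff]
  constructor
  · intro h
    have := h m
    rwa [MvPolynomial.homogeneousComponent_eq_self hP] at this
  · intro h n
    rw [MvPolynomial.homogeneousComponent_of_mem hP]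
    split_ifs
    · exact h
    · exact map_zero _

theorem V2a_finSuccEquiv_rename {n : ℕ} (a : MvPolynomial (Fin n) K) :
    MvPolynomial.finSuccEquiv K n (MvPolynomial.rename Fin.succ a) = Polynomial.C a := by
  induction a using MvPolynomial.induction_on with
  | C c => simp [MvPolynomial.finSuccEquiv_apply]
  | add p q hp hq => simp only [map_add, hp, hq]
  | mul_X p i hp =>
    simp only [map_mul, hp, MvPolynomial.rename_X, MvPolynomial.finSuccEquiv_X_succ]

/-- A polynomial dividing its top homogeneous component is homogeneous. -/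
theorem V2a_homog_of_dvd {G : MvPolynomial σ K} (hG : G ≠ 0)
    (h : G ∣ MvPolynomial.homogeneousComponent G.totalDegree G) :
    G.IsHomogeneous G.totalDegree := by
  have hH := MvPolynomial.homogeneousComponent_isHomogeneous G.totalDegree G
  have hne : MvPolynomial.homogeneousComponent G.totalDegree G ≠ 0 := by
    obtain ⟨d, hd, hd'⟩ := Finset.exists_mem_eq_sup G.support
      (MvPolynomial.support_nonempty.2 hG) (fun s => s.sum fun _ e => e)
    intro h0
    have := MvPolynomial.coeff_homogeneousComponent G.totalDegree G d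
    rw [h0, if_pos (by rw [MvPolynomial.totalDegree, hd']; rfl)] at this
    exact MvPolynomial.mem_support_iff.1 hd this.symm
  obtain ⟨Q, hQ⟩ := h
  have hQ0 : Q ≠ 0 := by rintro rfl; exact hne (by simpa using hQ)
  have h1 := hH.totalDegree hne
  rw [hQ, MvPolynomial.totalDegree_mul_of_isDomain hG hQ0] at h1
  have h2 : Q.totalDegree = 0 := by omega
  rw [MvPolynomial.totalDegree_eq_zero_iff_eq_C] at h2
  have hc : Q.coeff 0 ≠ 0 := fun h => hQ0 (by rw [h2, h, map_zero])
  have h3 : G = MvPolynomial.C (Q.coeff 0)⁻¹ * (G * Q) := by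
    conv_rhs => rw [h2]
    rw [MvPolynomial.coeff_zero_C, mul_left_comm, ← map_mul, inv_mul_cancel₀ hc, map_one, mul_one]
  have h4 := hH.C_mul (Q.coeff 0)⁻¹
  rwa [hQ, ← h3] at h4

end V2aAux

/-- Recipe.  `ev : MvPolynomial (Fin 4) K →ₐ (PS)[t]`, `X a ↦ C (ξ a) * t`, sends a homogeneous
`P` of degree `n` to `C (aeval ξ P) * t^n`; its kernel `I` is prime, contains `P` iff it contains
all homogeneous components, and meets `K[X 1, X 2, X 3]` trivially (`eq_zero_of_homog`).  Via
`MvPolynomial.finSuccEquiv` and `prime_principal`, `I = (G)`.  If `G = 0` use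
`X 0 + X 1 + X 2` instead.  Otherwise the top homogeneous component of `G` is a nonzero multiple of
`G` of the same total degree (`totalDegree_mul_of_isDomain`), so `G` is homogeneous.  One term is
impossible (units), two terms contradict `NoBinom`. -/
theorem exists_generator {K : Type*} [Field K] (ξ ζ : Fin 4 → MvPowerSeries (Fin 2) K)
    (hinv : ∀ a, ξ a * ζ a = 1) (hF : Full (sp K fun a : Fin 3 => ξ a.succ) 1)
    (hB : NoBinom ξ) : ∃ (G : MvPolynomial (Fin 4) K) (m : ℕ), G.IsHomogeneous m ∧
      3 ≤ G.support.card ∧ ∀ (P : MvPolynomial (Fin 4) K) (n : ℕ), P.IsHomogeneous n →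
        MvPolynomial.aeval ξ P = 0 → G ∣ P := by
  classical
  have : IsDomain (MvPowerSeries (Fin 2) K) := NoZeroDivisors.to_isDomain _
  let J : Ideal (Polynomial (MvPolynomial (Fin 3) K)) :=
    (RingHom.ker (V2a_ev K ξ)).comap (MvPolynomial.finSuccEquiv K 3).symm
  have hJ : ∀ P, MvPolynomial.finSuccEquiv K 3 P ∈ J ↔ V2a_ev K ξ P = 0 := fun P => by
    simp [J, RingHom.mem_ker]
  have hJp : J.IsPrime := Ideal.comap_isPrime _ _ (H := RingHom.ker_isPrime _)
  obtain ⟨G', hG'⟩ := prime_principal J hJp (fun a ha => by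
    rw [← V2a_finSuccEquiv_rename, hJ, V2a_ev, MvPolynomial.aeval_rename] at ha
    have h1 := (V2a_ev_eq_zero_iff (fun a : Fin 3 => ξ a.succ) a).1 ha
    rw [← MvPolynomial.sum_homogeneousComponent a]
    exact Finset.sum_eq_zero fun n _ => eq_zero_of_homog _ hF _ n
      (MvPolynomial.homogeneousComponent_isHomogeneous n a) (h1 n))
  obtain ⟨G, rfl⟩ := (MvPolynomial.finSuccEquiv K 3).surjective G'
  have hdvd : ∀ P, V2a_ev K ξ P = 0 ↔ G ∣ P := fun P => by
    rw [← hJ, hG', Ideal.mem_span_singleton, map_dvd_iff]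
  by_cases hG : G = 0
  · refine ⟨MvPolynomial.X 0 + MvPolynomial.X 1 + MvPolynomial.X 2, 1,
      ((MvPolynomial.isHomogeneous_X _ _).add (MvPolynomial.isHomogeneous_X _ _)).add
        (MvPolynomial.isHomogeneous_X _ _), ?_, fun P n hP h0 => ?_⟩
    · have hsub : (Finset.univ : Finset (Fin 3)).map
          ⟨fun a => Finsupp.single a.castSucc 1, fun a b h => Fin.castSucc_injective _
            (Finsupp.single_left_injective one_ne_zero h)⟩ ⊆
          (MvPolynomial.X 0 + MvPolynomial.X 1 + MvPolynomial.X 2 :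
            MvPolynomial (Fin 4) K).support := by
        intro d hd
        obtain ⟨a, -, rfl⟩ := Finset.mem_map.1 hd
        rw [MvPolynomial.mem_support_iff]
        fin_cases a <;>
          simp [MvPolynomial.coeff_X, Finsupp.single_eq_single_iff]
      simpa using Finset.card_le_card hsub
    · have := (hdvd P).1 ((V2a_ev_eq_zero_of_homog ξ hP).2 h0)
      rw [hG, zero_dvd_iff] at this
      rw [this]; exact dvd_zero _
  have hG0 := (hdvd G).2 dvd_rfl
  have hhom : G.IsHomogeneous G.totalDegree := V2a_homog_of_dvd hG ((hdvd _).1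
    ((V2a_ev_eq_zero_of_homog ξ (MvPolynomial.homogeneousComponent_isHomogeneous _ _)).2
      ((V2a_ev_eq_zero_iff ξ G).1 hG0 _)))
  refine ⟨G, _, hhom, ?_, fun P n hP h0 => (hdvd P).1 ((V2a_ev_eq_zero_of_homog ξ hP).2 h0)⟩
  have h0 := (V2a_ev_eq_zero_of_homog ξ hhom).1 hG0
  rw [MvPolynomial.aeval_def, MvPolynomial.eval₂_eq'] at h0
  have hne : ∀ d : Fin 4 →₀ ℕ, ∏ a, ξ a ^ d a ≠ 0 := fun d =>
    Finset.prod_ne_zero_iff.2 fun a _ => pow_ne_zero _ (left_ne_zero_of_mul_eq_one (hinv a))
  by_contra hlt
  have hcard : G.support.card = 1 ∨ G.support.card = 2 := by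
    have := Finset.card_pos.2 (MvPolynomial.support_nonempty.2 hG)
    omega
  rcases hcard with h1 | h2
  · obtain ⟨d, hd⟩ := Finset.card_eq_one.1 h1
    rw [hd, Finset.sum_singleton, mul_eq_zero] at h0
    have hd' : G.coeff d ≠ 0 := MvPolynomial.mem_support_iff.1 (by simp [hd])
    rcases h0 with h0 | h0
    · exact hd' ((map_eq_zero_iff _ (algebraMap K _).injective).1 h0)
    · exact hne d h0
  · obtain ⟨d, d', hdd, hd⟩ := Finset.card_eq_two.1 h2
    rw [hd, Finset.sum_pair hdd] at h0
    have hd1 : G.coeff d ≠ 0 := MvPolynomial.mem_support_iff.1 (by simp [hd])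
    have hd2 : G.coeff d' ≠ 0 := MvPolynomial.mem_support_iff.1 (by simp [hd])
    have hdeg : ∀ s : Fin 4 →₀ ℕ, G.coeff s ≠ 0 → ∑ a, s a = G.totalDegree := fun s hs => by
      by_contra hn
      exact hs (hhom.coeff_eq_zero (by rwa [Finsupp.degree_eq_sum]))
    refine hB d d' (fun h => hdd (DFunLike.coe_injective h)) ((hdeg d hd1).trans (hdeg d' hd2).symm)
      (-(G.coeff d' / G.coeff d)) ?_
    rw [← Algebra.smul_def, ← Algebra.smul_def] at h0
    have h3 : G.coeff d • ∏ a, ξ a ^ d a = -(G.coeff d' • ∏ a, ξ a ^ d' a) :=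
      eq_neg_of_add_eq_zero_left h0
    rw [← inv_smul_smul₀ hd1 (∏ a, ξ a ^ d a), h3, smul_neg, smul_smul, neg_smul,
      div_eq_inv_mul]

end Crest.Agent.R22
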