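import Crest.Agent.R22.V3
import Crest.Agent.R22.V2a

/-! # Row 22: surfaces, boundary layers of the cuboctahedron -/

set_option autoImplicit false

open Module MvPowerSeries

namespace Crest.Agent.R22

/-- `J`-degree of a polynomial. -/
def degJ {σ R : Type*} [CommSemiring R] (J : Finset σ) (P : MvPolynomial σ R) : ℕ :=
  P.support.sup fun e => ∑ a ∈ J, e a

open Classical in
/-- The substitution `X a ↦ X a * t^[a ∈ J]`. -/
noncomputable def subJ {σ K : Type*} [Field K] (J : Finset σ) :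
    MvPolynomial σ K →ₐ[K] Polynomial (MvPolynomial σ K) :=
  MvPolynomial.aeval fun a => Polynomial.C (MvPolynomial.X a) *
    Polynomial.X ^ (if a ∈ J then 1 else 0)

theorem subJ_monomial {σ K : Type*} [Field K] (J : Finset σ) (e : σ →₀ ℕ) (c : K) :
    subJ J (MvPolynomial.monomial e c) =
      Polynomial.C (MvPolynomial.monomial e c) * Polynomial.X ^ (∑ a ∈ J, e a) := by
  classical
  have h : ∑ a ∈ e.support, (if a ∈ J then 1 else 0) * e a = ∑ a ∈ J, e a := by
    simp only [ite_mul, one_mul, zero_mul]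
    rw [← Finset.sum_filter, Finset.filter_mem_eq_inter]
    refine Finset.sum_subset Finset.inter_subset_right fun a ha hna => ?_
    by_contra h0
    exact hna (Finset.mem_inter.2 ⟨Finsupp.mem_support_iff.2 h0, ha⟩)
  rw [subJ, MvPolynomial.aeval_monomial, MvPolynomial.monomial_eq, Finsupp.prod, Finsupp.prod]
  simp only [mul_pow, ← pow_mul, Finset.prod_mul_distrib, Finset.prod_pow_eq_pow_sum, h,
    map_mul, map_prod, map_pow, Polynomial.algebraMap_apply, MvPolynomial.algebraMap_eq]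
  ring

theorem coeff_subJ {σ K : Type*} [Field K] (J : Finset σ) (P : MvPolynomial σ K) (n : ℕ)
    (e : σ →₀ ℕ) : MvPolynomial.coeff e ((subJ J P).coeff n) =
      if ∑ a ∈ J, e a = n then MvPolynomial.coeff e P else 0 := by
  classical
  induction P using MvPolynomial.induction_on' with
  | monomial u c =>
    rw [subJ_monomial, Polynomial.coeff_C_mul_X_pow]
    by_cases hu : u = e
    · subst hu
      by_cases h : n = ∑ a ∈ J, u a
      · simp [h]
      · rw [if_neg h, if_neg (Ne.symm h)]; simp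
    · split_ifs <;> simp [MvPolynomial.coeff_monomial, hu]
  | add p q hp hq =>
    rw [map_add, Polynomial.coeff_add, MvPolynomial.coeff_add, hp, hq, MvPolynomial.coeff_add]
    split_ifs <;> simp

theorem natDegree_subJ {σ K : Type*} [Field K] (J : Finset σ) (P : MvPolynomial σ K) :
    (subJ J P).natDegree = degJ J P := by
  refine le_antisymm (Polynomial.natDegree_le_iff_coeff_eq_zero.2 fun n hn => ?_)
    (Finset.sup_le fun e he => Polynomial.le_natDegree_of_ne_zero fun h => ?_)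
  · ext e
    rw [coeff_subJ]
    split_ifs with h
    · by_contra h0
      have := Finset.le_sup (f := fun e : σ →₀ ℕ => ∑ a ∈ J, e a)
        (MvPolynomial.mem_support_iff.2 h0)
      exact absurd (h ▸ this) (not_le.2 hn)
    · rfl
  · have := coeff_subJ J P (∑ a ∈ J, e a) e
    rw [h, if_pos rfl] at this
    exact MvPolynomial.mem_support_iff.1 he this.symm

theorem subJ_ne_zero {σ K : Type*} [Field K] (J : Finset σ) (P : MvPolynomial σ K) (hP : P ≠ 0) :
    subJ J P ≠ 0 := by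
  intro h
  obtain ⟨e, he⟩ := MvPolynomial.ne_zero_iff.1 hP
  have := coeff_subJ J P (∑ a ∈ J, e a) e
  rw [h, if_pos rfl] at this
  exact he this.symm

theorem degJ_mul {σ K : Type*} [Field K] (J : Finset σ) (P Q : MvPolynomial σ K) (hP : P ≠ 0)
    (hQ : Q ≠ 0) : degJ J (P * Q) = degJ J P + degJ J Q := by
  rw [← natDegree_subJ, map_mul, Polynomial.natDegree_mul (subJ_ne_zero J P hP)
    (subJ_ne_zero J Q hQ), natDegree_subJ, natDegree_subJ]

theorem le_degJ {σ R : Type*} [CommSemiring R] (J : Finset σ) {P : MvPolynomial σ R}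
    {e : σ →₀ ℕ} (he : e ∈ P.support) : ∑ a ∈ J, e a ≤ degJ J P :=
  Finset.le_sup (f := fun e : σ →₀ ℕ => ∑ a ∈ J, e a) he

theorem exists_vertex {K : Type*} [Field K] {n : ℕ} (G : MvPolynomial (Fin n) K) (hG : G ≠ 0) :
    ∃ v ∈ G.support, ∀ (P : MvPolynomial (Fin n) K) (b : Finset (Fin n) → ℕ), G ∣ P →
      (∀ e ∈ P.support, ∀ J, ∑ a ∈ J, e a ≤ b J) →
      (∀ e ∈ P.support, ∃ J, b J + ∑ a ∈ J, v a < ∑ a ∈ J, e a + degJ J G) → P = 0 := by
  let m : MonomialOrder (Fin n) := MonomialOrder.lex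
  refine ⟨m.degree G, m.degree_mem_support hG, ?_⟩
  rintro _ b ⟨H, rfl⟩ h1 h2
  by_contra h0
  have hH : H ≠ 0 := fun h => h0 (by rw [h, mul_zero])
  obtain ⟨J, hJ⟩ := h2 _ (m.degree_mem_support h0)
  rw [m.degree_mul hG hH] at hJ
  simp only [Finsupp.coe_add, Pi.add_apply, Finset.sum_add_distrib] at hJ
  have h3 : degJ J (G * H) ≤ b J := Finset.sup_le fun e he => h1 e he J
  rw [degJ_mul J G H hG hH] at h3
  have h4 := le_degJ J (m.degree_mem_support hH)
  omega

/-- Twice the area of the facet `J` of the cuboctahedron. -/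
def area2 (J : Finset (Fin 4)) : ℕ := if J.card = 2 then 2 else if J.card = 1 ∨ J.card = 3 then 1 else 0

theorem sum_area2 (w : Finset (Fin 4) → ℕ) : ∑ J : Finset (Fin 4), area2 J * w J =
    (w {0} + w {1, 2, 3}) + (w {1} + w {0, 2, 3}) + (w {2} + w {0, 1, 3}) + (w {3} + w {0, 1, 2}) +
    2 * (w {0, 1} + w {2, 3}) + 2 * (w {0, 2} + w {1, 3}) + 2 * (w {0, 3} + w {1, 2}) := by
  have : (Finset.univ : Finset (Finset (Fin 4))) = {∅, {0}, {1}, {2}, {3}, {0, 1}, {0, 2}, {0, 3},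
      {1, 2}, {1, 3}, {2, 3}, {0, 1, 2}, {0, 1, 3}, {0, 2, 3}, {1, 2, 3}, {0, 1, 2, 3}} := by
    decide
  rw [this]
  repeat rw [Finset.sum_insert (by decide)]
  rw [Finset.sum_singleton]
  have a0 : area2 ∅ = 0 := by decide
  have a1 : area2 {0} = 1 := by decide
  have a2 : area2 {1} = 1 := by decide
  have a3 : area2 {2} = 1 := by decide
  have a4 : area2 {3} = 1 := by decide
  have a5 : area2 {0, 1} = 2 := by decide
  have a6 : area2 {0, 2} = 2 := by decide
  have a7 : area2 {0, 3} = 2 := by decide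
  have a8 : area2 {1, 2} = 2 := by decide
  have a9 : area2 {1, 3} = 2 := by decide
  have a10 : area2 {2, 3} = 2 := by decide
  have a11 : area2 {0, 1, 2} = 1 := by decide
  have a12 : area2 {0, 1, 3} = 1 := by decide
  have a13 : area2 {0, 2, 3} = 1 := by decide
  have a14 : area2 {1, 2, 3} = 1 := by decide
  have a15 : area2 {0, 1, 2, 3} = 0 := by decide
  rw [a0, a1, a2, a3, a4, a5, a6, a7, a8, a9, a10, a11, a12, a13, a14, a15]
  ring

theorem six_le (a b c d : ℤ) (h : a + b + c + d = 0) (h0 : ¬ (a = 0 ∧ b = 0 ∧ c = 0 ∧ d = 0)) :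
    6 ≤ |a| + |b| + |c| + |d| + 2 * |a + b| + 2 * |a + c| + 2 * |a + d| := by
  simp only [Int.abs_eq_natAbs]
  omega

theorem width3 (W x y z : ℤ) (h : ∀ s ∈ [x, y, z], ∀ t ∈ [x, y, z], s - t ≤ W) :
    |x - y| + |x - z| + |y - z| ≤ 2 * W := by
  have h1 := h x (by simp) y (by simp)
  have h2 := h y (by simp) x (by simp)
  have h3 := h x (by simp) z (by simp)
  have h4 := h z (by simp) x (by simp)
  have h5 := h y (by simp) z (by simp)
  have h6 := h z (by simp) y (by simp)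
  simp only [Int.abs_eq_natAbs]
  omega

theorem nine_le_sum_area {K : Type*} [Field K] (G : MvPolynomial (Fin 4) K) (m : ℕ)
    (hG : G.IsHomogeneous m) (h3 : 3 ≤ G.support.card) (v : Fin 4 →₀ ℕ) (hv : v ∈ G.support) :
    9 ≤ ∑ J : Finset (Fin 4), area2 J * (degJ J G - ∑ a ∈ J, v a) := by
  obtain ⟨p, hp, q, hq, r, hr, hpq, hpr, hqr⟩ := Finset.two_lt_card.1 (show 2 < G.support.card by omega)
  have hdeg : ∀ e ∈ G.support, e 0 + e 1 + e 2 + e 3 = m := fun e he => by
    have := hG (MvPolynomial.mem_support_iff.1 he)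
    rw [Finsupp.weight_apply, Finsupp.sum_fintype _ _ (by simp), Fin.sum_univ_four] at this
    simpa using this
  have key : ∀ J J' : Finset (Fin 4), (∀ e : Fin 4 → ℕ, ∑ a ∈ J, e a + ∑ a ∈ J', e a =
      e 0 + e 1 + e 2 + e 3) →
      |((∑ a ∈ J, p a : ℕ) : ℤ) - (∑ a ∈ J, q a : ℕ)| + |((∑ a ∈ J, p a : ℕ) : ℤ) - (∑ a ∈ J, r a : ℕ)|
       + |((∑ a ∈ J, q a : ℕ) : ℤ) - (∑ a ∈ J, r a : ℕ)| ≤
      2 * (((degJ J G - ∑ a ∈ J, v a) + (degJ J' G - ∑ a ∈ J', v a) : ℕ) : ℤ) := by
    intro J J' hJ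
    have hst : ∀ s ∈ G.support, ∀ t ∈ G.support, ((∑ a ∈ J, s a : ℕ) : ℤ) - (∑ a ∈ J, t a : ℕ) ≤
        (((degJ J G - ∑ a ∈ J, v a) + (degJ J' G - ∑ a ∈ J', v a) : ℕ) : ℤ) := by
      intro s hs t ht
      have := le_degJ J hs
      have := le_degJ J' ht
      have := le_degJ J hv
      have := le_degJ J' hv
      have := hJ t
      have := hJ v
      have := hdeg t ht
      have := hdeg v hv
      omega
    refine width3 _ _ _ _ ?_
    simp only [List.mem_cons, List.not_mem_nil, or_false]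
    rintro _ (rfl | rfl | rfl) _ (rfl | rfl | rfl) <;> apply hst <;> assumption
  have k0 := key {0} {1, 2, 3} (fun e => by simp; ring)
  have k1 := key {1} {0, 2, 3} (fun e => by simp; ring)
  have k2 := key {2} {0, 1, 3} (fun e => by simp; ring)
  have k3 := key {3} {0, 1, 2} (fun e => by simp; ring)
  have k4 := key {0, 1} {2, 3} (fun e => by simp; ring)
  have k5 := key {0, 2} {1, 3} (fun e => by simp; ring)
  have k6 := key {0, 3} {1, 2} (fun e => by simp; ring)
  have hsix : ∀ s ∈ G.support, ∀ t ∈ G.support, s ≠ t → 6 ≤ |(s 0 : ℤ) - t 0| + |(s 1 : ℤ) - t 1| +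
      |(s 2 : ℤ) - t 2| + |(s 3 : ℤ) - t 3| + 2 * |(s 0 : ℤ) + s 1 - (t 0 + t 1)| +
      2 * |(s 0 : ℤ) + s 2 - (t 0 + t 2)| + 2 * |(s 0 : ℤ) + s 3 - (t 0 + t 3)| := by
    intro s hs t ht hst
    have h1 := hdeg s hs
    have h2 := hdeg t ht
    have := six_le ((s 0 : ℤ) - t 0) ((s 1 : ℤ) - t 1) ((s 2 : ℤ) - t 2) ((s 3 : ℤ) - t 3)
      (by omega) (fun h => hst (by
        ext a
        fin_cases a <;> simp <;> omega))
    convert this using 4 <;> ring_nf
  have s1 := hsix p hp q hq hpq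
  have s2 := hsix p hp r hr hpr
  have s3 := hsix q hq r hr hqr
  rw [sum_area2 fun J => degJ J G - ∑ a ∈ J, v a]
  rw [Finset.sum_singleton, Finset.sum_singleton, Finset.sum_singleton] at k0 k1 k2 k3
  rw [Finset.sum_pair (by decide), Finset.sum_pair (by decide), Finset.sum_pair (by decide)]
    at k4 k5 k6
  zify
  push_cast at k0 k1 k2 k3 k4 k5 k6
  linarith

theorem card_piAntidiag_ge {ι : Type*} [DecidableEq ι] (J : Finset ι) (r n : ℕ)
    (h : J.card = r + 1) (N : ℝ) (hN0 : 0 ≤ N) (hN : N ≤ n) :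
    N ^ r / (r.factorial : ℝ) ≤ (Finset.piAntidiag J n).card := by
  have h1 := Finset.card_finsuppAntidiag_nat_eq_choose (s := J) n
  rw [Finset.finsuppAntidiag, Finset.card_map, Finset.card_attach, h] at h1
  rw [h1, show r + 1 + n - 1 = n + r by omega, Nat.choose_symm_add]
  refine le_trans ?_ (pow_div_factorial_le_choose n r)
  gcongr

/-- One layer. -/
def layer (M : ℕ) (J : Finset (Fin 4)) (l : ℕ) : Finset ((Fin 4 → ℕ) × (Fin 4 → ℕ)) :=
  ((Finset.piAntidiag J (M - l - J.card)).map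
    (addRightEmbedding fun a => if a ∈ J then 1 else 0)) ×ˢ Finset.piAntidiag Jᶜ (M - l)

theorem mem_layer {M l : ℕ} {J : Finset (Fin 4)} (h : l + J.card ≤ M)
    {p : (Fin 4 → ℕ) × (Fin 4 → ℕ)} (hp : p ∈ layer M J l) :
    (∀ a, p.1 a ≠ 0 ↔ a ∈ J) ∧ (∀ a ∈ J, p.2 a = 0) ∧ ∑ a ∈ J, p.1 a = M - l ∧
      ∑ a, p.1 a = M - l ∧ ∑ a, p.2 a = M - l := by
  obtain ⟨h1, h2⟩ := Finset.mem_product.1 hp
  obtain ⟨α, hα, he⟩ := Finset.mem_map.1 h1
  rw [Finset.mem_piAntidiag] at hα h2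
  have he' : ∀ a, p.1 a = α a + if a ∈ J then 1 else 0 := fun a => by rw [← he]; rfl
  have e1 : ∀ a, p.1 a ≠ 0 ↔ a ∈ J := fun a => by
    rw [he']
    by_cases ha : a ∈ J
    · simp [ha]
    · have : α a = 0 := by
        by_contra h0; exact ha (hα.2 a h0)
      simp [ha, this]
  have e2 : ∀ a ∈ J, p.2 a = 0 := fun a ha => by
    by_contra h0
    exact Finset.mem_compl.1 (h2.2 a h0) ha
  have e3 : ∑ a ∈ J, p.1 a = M - l := by
    rw [Finset.sum_congr rfl fun a ha => (he' a).trans (by rw [if_pos ha]),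
      Finset.sum_add_distrib, hα.1]
    simp only [Finset.sum_const, smul_eq_mul, mul_one]
    omega
  refine ⟨e1, e2, e3, ?_, ?_⟩
  · rw [← e3]
    refine (Finset.sum_subset (Finset.subset_univ _) fun a _ ha => ?_).symm
    by_contra h0
    exact ha ((e1 a).1 h0)
  · rw [← h2.1]
    refine (Finset.sum_subset (Finset.subset_univ _) fun a _ ha => ?_).symm
    by_contra h0
    exact ha (h2.2 a h0)

theorem card_layer (M l : ℕ) (J : Finset (Fin 4)) (N : ℝ) (hN0 : 0 ≤ N)
    (hN : N ≤ (M - l - J.card : ℕ)) : (area2 J : ℝ) / 2 * N ^ 2 ≤ (layer M J l).card := by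
  have hc : Jᶜ.card = 4 - J.card := by rw [Finset.card_compl, Fintype.card_fin]
  have hN' : N ≤ (M - l : ℕ) := hN.trans (by exact_mod_cast Nat.sub_le _ _)
  have key : ∀ r r', J.card = r + 1 → Jᶜ.card = r' + 1 →
      N ^ r / (r.factorial : ℝ) * (N ^ r' / (r'.factorial : ℝ)) ≤ (layer M J l).card := by
    intro r r' h1 h2
    rw [layer, Finset.card_product, Finset.card_map, Nat.cast_mul]
    exact mul_le_mul (card_piAntidiag_ge J r _ h1 N hN0 hN) (card_piAntidiag_ge Jᶜ r' _ h2 N hN0 hN')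
      (by positivity) (Nat.cast_nonneg _)
  unfold area2
  split_ifs with h1 h2
  · refine le_trans (le_of_eq ?_) (key 1 1 h1 (by omega))
    simp; ring
  · rcases h2 with h2 | h2
    · refine le_trans (le_of_eq ?_) (key 0 2 h2 (by omega))
      simp; ring
    · refine le_trans (le_of_eq ?_) (key 2 0 h2 (by omega))
      simp; ring
  · simp

theorem exists_layers (w : Finset (Fin 4) → ℕ) : ∃ c₀ : ℕ, ∀ M, c₀ ≤ M →
    ∃ s : Finset ((Fin 4 → ℕ) × (Fin 4 → ℕ)),
      (∀ p ∈ s, ∑ a, p.1 a = ∑ a, p.2 a ∧ ∑ a, p.1 a ≤ M ∧ (∀ a, p.1 a = 0 ∨ p.2 a = 0) ∧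
        ∃ J : Finset (Fin 4), (∀ a ∈ J, p.2 a = 0) ∧ M < ∑ a ∈ J, p.1 a + w J) ∧
      ((∑ J : Finset (Fin 4), area2 J * w J : ℕ) : ℝ) / 2 * ((M : ℝ) - c₀) ^ 2 ≤ s.card := by
  classical
  refine ⟨Finset.univ.sup w + 4, fun M hM => ?_⟩
  set T : Finset (Σ _ : Finset (Fin 4), ℕ) := Finset.univ.sigma fun J => Finset.range (w J)
  have hT : ∀ t ∈ T, t.2 < w t.1 ∧ t.2 + t.1.card + (M - (Finset.univ.sup w + 4)) ≤ M := by
    intro t ht
    have h1 := Finset.mem_range.1 (Finset.mem_sigma.1 ht).2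
    have h2 : w t.1 ≤ Finset.univ.sup w := Finset.le_sup (Finset.mem_univ _)
    have h3 : t.1.card ≤ 4 := by simpa using Finset.card_le_univ t.1
    omega
  refine ⟨T.biUnion fun t => layer M t.1 t.2, fun p hp => ?_, ?_⟩
  · obtain ⟨t, ht, hp⟩ := Finset.mem_biUnion.1 hp
    obtain ⟨h1, h2⟩ := hT t ht
    obtain ⟨e1, e2, e3, e4, e5⟩ := mem_layer (by omega) hp
    refine ⟨by omega, by omega, fun a => ?_, t.1, e2, by omega⟩
    by_cases ha : a ∈ t.1
    · exact Or.inr (e2 a ha)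
    · left
      by_contra h0
      exact ha ((e1 a).1 h0)
  · rw [Finset.card_biUnion]
    · have hN0 : (0 : ℝ) ≤ (M : ℝ) - ((Finset.univ.sup w + 4 : ℕ) : ℝ) := by
        have : ((Finset.univ.sup w + 4 : ℕ) : ℝ) ≤ M := by exact_mod_cast hM
        linarith
      have : ∑ t ∈ T, (area2 t.1 : ℝ) / 2 * ((M : ℝ) - ((Finset.univ.sup w + 4 : ℕ) : ℝ)) ^ 2 ≤
          ∑ t ∈ T, ((layer M t.1 t.2).card : ℝ) := Finset.sum_le_sum fun t ht => by
        refine card_layer M t.2 t.1 _ hN0 ?_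
        rw [← Nat.cast_sub hM]
        have := (hT t ht).2
        exact_mod_cast (by omega : M - (Finset.univ.sup w + 4) ≤ M - t.2 - t.1.card)
      rw [Nat.cast_sum T]
      refine le_trans (le_of_eq ?_) this
      rw [Finset.sum_sigma]
      simp only [Finset.sum_const, Finset.card_range, nsmul_eq_mul]
      rw [Nat.cast_sum, Finset.sum_div, Finset.sum_mul]
      refine Finset.sum_congr rfl fun J _ => ?_
      push_cast; ring
    · intro t ht t' ht' hne
      rw [Function.onFun, Finset.disjoint_left]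
      intro p hp hp'
      have a1 := hT t ht
      have a2 := hT t' ht'
      obtain ⟨e1, -, -, e4, -⟩ := mem_layer (by omega) hp
      obtain ⟨e1', -, -, e4', -⟩ := mem_layer (by omega) hp'
      refine hne (Sigma.ext ?_ (heq_of_eq (by omega)))
      ext a
      rw [← e1, e1']

theorem LM_lower_of_generator {K A : Type*} [Field K] [CommRing A] [Algebra K A]
    (ξ ζ : Fin 4 → A) (hinv : ∀ a, ξ a * ζ a = 1) (G : MvPolynomial (Fin 4) K) (m : ℕ)
    (hG : G.IsHomogeneous m) (h3 : 3 ≤ G.support.card)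
    (hdvd : ∀ (P : MvPolynomial (Fin 4) K) (n : ℕ), P.IsHomogeneous n →
      MvPolynomial.aeval ξ P = 0 → G ∣ P) :
    ∃ c₀ : ℕ, ∀ M, c₀ ≤ M → (9 : ℝ) / 2 * ((M : ℝ) - c₀) ^ 2 ≤ finrank K (LM K ξ ζ M) := by
  classical
  have hG0 : G ≠ 0 := fun h => by simp [h] at h3
  obtain ⟨v, hv, hvert⟩ := exists_vertex G hG0
  obtain ⟨c₀, hc₀⟩ := exists_layers fun J => degJ J G - ∑ a ∈ J, v a
  refine ⟨c₀, fun M hM => ?_⟩
  obtain ⟨s, hs, hcard⟩ := hc₀ M hM
  have h9 : (9 : ℝ) ≤ ((∑ J : Finset (Fin 4), area2 J * (degJ J G - ∑ a ∈ J, v a) : ℕ) : ℝ) := by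
    exact_mod_cast nine_le_sum_area G m hG h3 v hv
  refine le_trans (le_trans (mul_le_mul_of_nonneg_right (div_le_div_of_nonneg_right h9
    (by norm_num)) (sq_nonneg _)) hcard) ?_
  clear hcard h9 hc₀
  set pad : s → Fin 4 → ℕ := fun t => Pi.single 0 (M - ∑ a, t.1.1 a) with hpad
  have hpads : ∀ t, ∑ a, pad t a = M - ∑ a, t.1.1 a := fun t => by simp [hpad]
  have hβle : ∀ (t : s) a, t.1.2 a + pad t a ≤ M := fun t a => by
    have h1 := Finset.single_le_sum (f := fun a => t.1.2 a + pad t a)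
      (fun _ _ => Nat.zero_le _) (Finset.mem_univ a)
    rw [Finset.sum_add_distrib, hpads] at h1
    have := hs t.1 t.2
    omega
  set E : s → Fin 4 →₀ ℕ := fun t => Finsupp.equivFunOnFinite.symm
    fun a => M - (t.1.2 a + pad t a) + (t.1.1 a + pad t a) with hE
  have hEa : ∀ t a, E t a + t.1.2 a = M + t.1.1 a := fun t a => by
    have := hβle t a
    simp only [hE, Finsupp.equivFunOnFinite_symm_apply_apply]
    omega
  have hEJ : ∀ t (J : Finset (Fin 4)), ∑ a ∈ J, E t a + ∑ a ∈ J, t.1.2 a =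
      M * J.card + ∑ a ∈ J, t.1.1 a := fun t J => by
    rw [← Finset.sum_add_distrib, Finset.sum_congr rfl fun a _ => hEa t a,
      Finset.sum_add_distrib, Finset.sum_const, smul_eq_mul, mul_comm]
  have hEinj : Function.Injective E := by
    intro t t' h
    have h1 : ∀ a, t.1.1 a = t'.1.1 a ∧ t.1.2 a = t'.1.2 a := fun a => by
      have e1 := hEa t a
      have e2 := hEa t' a
      rw [h] at e1
      have := (hs t.1 t.2).2.2.1 a
      have := (hs t'.1 t'.2).2.2.1 a
      omega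
    exact Subtype.ext (Prod.ext (funext fun a => (h1 a).1) (funext fun a => (h1 a).2))
  have hli : LinearIndependent K fun t : s =>
      ∏ a, ξ a ^ (M - (t.1.2 a + pad t a) + (t.1.1 a + pad t a)) := by
    rw [Fintype.linearIndependent_iff]
    intro g hg t₀
    set P : MvPolynomial (Fin 4) K := ∑ t, MvPolynomial.monomial (E t) (g t) with hP
    have hsupp : ∀ e ∈ P.support, ∃ t, E t = e := fun e he => by
      by_contra hne
      push Not at hne
      refine MvPolynomial.mem_support_iff.1 he ?_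
      rw [hP, MvPolynomial.coeff_sum]
      exact Finset.sum_eq_zero fun t _ => by rw [MvPolynomial.coeff_monomial, if_neg (hne t)]
    have hhom : P.IsHomogeneous (M * 4) := by
      refine MvPolynomial.IsHomogeneous.sum _ _ _ fun t _ =>
        MvPolynomial.isHomogeneous_monomial _ ?_
      have h1 := hEJ t Finset.univ
      have h2 := (hs t.1 t.2).1
      rw [Finsupp.degree_eq_sum]
      simp only [Finset.card_univ, Fintype.card_fin] at h1
      omega
    have hev : MvPolynomial.aeval ξ P = 0 := by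
      rw [hP, map_sum, ← hg]
      refine Finset.sum_congr rfl fun t _ => ?_
      rw [MvPolynomial.aeval_monomial, Finsupp.prod_fintype _ _ (by simp), Algebra.smul_def]
      rfl
    have hP0 : P = 0 := hvert P (fun J => M * J.card + M) (hdvd P _ hhom hev)
      (fun e he J => by
        obtain ⟨t, rfl⟩ := hsupp e he
        have h1 := hEJ t J
        have h2 := (hs t.1 t.2).2.1
        have h3 : ∑ a ∈ J, t.1.1 a ≤ ∑ a, t.1.1 a :=
          Finset.sum_le_sum_of_subset (Finset.subset_univ _)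
        omega)
      (fun e he => by
        obtain ⟨t, rfl⟩ := hsupp e he
        obtain ⟨J, h1, h2⟩ := (hs t.1 t.2).2.2.2
        refine ⟨J, ?_⟩
        have h3 := hEJ t J
        rw [Finset.sum_eq_zero h1] at h3
        have h4 := le_degJ J hv
        omega)
    have := congrArg (MvPolynomial.coeff (E t₀)) hP0
    rw [hP, MvPolynomial.coeff_sum, Finset.sum_eq_single t₀ (fun t _ ht => by
      rw [MvPolynomial.coeff_monomial, if_neg fun h => ht (hEinj h)]) (by simp)] at this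
    simpa using this
  have := card_le_finrank_LM ξ ζ hinv M (fun (t : s) a => t.1.1 a + pad t a)
    (fun t a => t.1.2 a + pad t a)
    (fun t => by
      rw [Finset.sum_add_distrib, hpads]
      have := (hs t.1 t.2).2.1
      omega)
    (fun t => by
      rw [Finset.sum_add_distrib, hpads]
      have := hs t.1 t.2
      omega) hli
  rw [Fintype.card_coe] at this
  exact_mod_cast this

theorem prod_extend {d d' : ℕ} (ε : Fin d' ↪ Fin d) {M : Type*} [CommMonoid M] (e : Fin d' → ℕ)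
    (f : Fin d → ℕ → M) (hf : ∀ σ, f σ 0 = 1) :
    ∏ σ, f σ (Function.extend ε e 0 σ) = ∏ a, f (ε a) (e a) := by
  classical
  rw [← Finset.prod_subset (Finset.subset_univ (Finset.univ.map ε)), Finset.prod_map]
  · exact Finset.prod_congr rfl fun a _ => by rw [ε.injective.extend_apply]
  · intro σ _ hσ
    rw [Function.extend_apply' _ _ _ (fun ⟨a, ha⟩ => hσ (Finset.mem_map.2
      ⟨a, Finset.mem_univ _, ha⟩))]
    exact hf σ

theorem NoBinom.comp {K : Type*} [Field K] {i d d' : ℕ} {ξ : Fin d → MvPowerSeries (Fin i) K}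
    (h : NoBinom ξ) (ε : Fin d' ↪ Fin d) : NoBinom (ξ ∘ ε) := by
  classical
  intro e e' hne hsum a hrel
  have key' : ∀ e : Fin d' → ℕ, ∑ σ, Function.extend ε e 0 σ = ∑ a, e a := fun e =>
    prod_extend ε (M := Multiplicative ℕ) e (fun _ n => Multiplicative.ofAdd n) (fun _ => rfl)
  refine h (Function.extend ε e 0) (Function.extend ε e' 0) (fun he => hne (funext fun a => ?_))
    (by rw [key', key', hsum]) a ?_
  · have := congrFun he (ε a)
    rwa [ε.injective.extend_apply, ε.injective.extend_apply] at this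
  · rw [prod_extend ε e (fun σ n => ξ σ ^ n) (fun _ => pow_zero _),
      prod_extend ε e' (fun σ n => ξ σ ^ n) (fun _ => pow_zero _)]
    exact hrel

theorem LM_lower_two {K : Type*} [Field K] {d : ℕ} (hd : 4 ≤ d)
    (ξ ζ : Fin d → MvPowerSeries (Fin 2) K) (hJ : Jets ξ ζ) (hB : NoBinom ξ) :
    ∃ c₀ : ℕ, ∀ M, c₀ ≤ M → (9 : ℝ) / 2 * ((M : ℝ) - c₀) ^ 2 ≤ finrank K (LM K ξ ζ M) := by
  classical
  obtain ⟨ε, hε⟩ := exists_sub_full ξ hJ.full
  obtain ⟨σ₀, hσ₀⟩ : ∃ σ₀, σ₀ ∉ Set.range ε := by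
    by_contra h
    push Not at h
    have := Fintype.card_le_of_surjective ε h
    simp only [Fintype.card_fin] at this
    omega
  let ε' : Fin 4 ↪ Fin d := ⟨Fin.cons σ₀ ε, Fin.cons_injective_iff.2 ⟨hσ₀, ε.injective⟩⟩
  obtain ⟨G, m, h1, h2, h3⟩ := exists_generator (ξ ∘ ε') (ζ ∘ ε') (fun a => hJ.inv _) hε
    (hB.comp ε')
  obtain ⟨c₀, hc₀⟩ := LM_lower_of_generator (ξ ∘ ε') (ζ ∘ ε') (fun a => hJ.inv _) G m h1 h2 h3
  refine ⟨c₀, fun M hM => (hc₀ M hM).trans ?_⟩
  haveI := LM_finite (K := K) ξ ζ M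
  exact_mod_cast Submodule.finrank_mono (LM_comp_le ε' ξ ζ M)

end Crest.Agent.R22
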