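import Crest.Agent.R22.V1
import Crest.Agent.R22.V2b
import Crest.Agent.R22.Asym

/-! # Row 22: rank lower bound, vertical case (polynomials over power series) -/

set_option autoImplicit false

open Module Polynomial

namespace Crest.Agent.R22

theorem LM_lower {K : Type*} [Field K] {i d : ℕ} (hi : 1 ≤ i) (hd : 4 ≤ d)
    (ξ ζ : Fin d → MvPowerSeries (Fin i) K) (hJ : Jets ξ ζ) (hB : NoBinom ξ) :
    ∃ c₀ : ℕ, ∀ M, c₀ ≤ M →
      (Om i : ℝ) / (i.factorial : ℝ) * ((M : ℝ) - c₀) ^ i ≤ finrank K (LM K ξ ζ M) := by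
  by_cases h1 : i = 1
  · subst h1
    refine ⟨0, fun M _ => ?_⟩
    have h := LM_lower_one hd ξ ζ hJ.inv hB M
    have h' : ((4 * M : ℕ) : ℝ) ≤ finrank K (LM K ξ ζ M) := by exact_mod_cast h
    simpa [Om] using h'
  by_cases h2 : i = 2
  · subst h2
    obtain ⟨c₀, hc⟩ := LM_lower_two hd ξ ζ hJ hB
    refine ⟨c₀, fun M hM => ?_⟩
    simpa [Om, Nat.factorial] using hc M hM
  · refine ⟨i, fun M hM => ?_⟩
    simpa [Om, h1, h2] using LM_lower_gen ξ ζ hJ M hM

/-- Recipe: `sp_pow_eq_span_monomials`, `Submodule.span_mul_span`.  For `|α| = |β| = k (j - d)`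
put `β' σ = β σ / k + 1` (sum `≤ j`), pad `β'` at one index to have sum `j`, and
`α' = α + k β' - β` (sum `k j`): `ξ^α ζ^β = ξ^α' (ζ^k)^β'`. -/
theorem LM_le {K A : Type*} [Field K] [CommRing A] [Algebra K A] {d k : ℕ} (hk : 1 ≤ k)
    (hd : 1 ≤ d) (ξ ζ : Fin d → A) (hinv : ∀ a, ξ a * ζ a = 1) (j : ℕ) (hj : d ≤ j) :
    LM K ξ ζ (k * (j - d)) ≤ sp K ξ ^ (k * j) * sp K (fun σ => ζ σ ^ k) ^ j := by
  classical
  unfold LM
  conv_lhs => rw [sp_pow_eq_span_monomials, sp_pow_eq_span_monomials, Submodule.span_mul_span]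
  refine Submodule.span_le.2 ?_
  rintro f ⟨a, ⟨α, hα, rfl⟩, b, ⟨β, hβ, rfl⟩, rfl⟩
  have h1 : ∑ σ, (β σ / k + 1) ≤ j := by
    rw [Finset.sum_add_distrib, Finset.sum_const, Finset.card_univ, Fintype.card_fin, smul_eq_mul,
      mul_one]
    have h2 : k * ∑ σ, β σ / k ≤ k * (j - d) := by
      rw [← hβ, Finset.mul_sum]
      exact Finset.sum_le_sum fun σ _ => Nat.mul_div_le _ _
    have := Nat.le_of_mul_le_mul_left h2 hk
    omega
  obtain ⟨β', hβ'1, hβ'2⟩ : ∃ β' : Fin d → ℕ, ∑ σ, β' σ = j ∧ ∀ σ, β σ ≤ k * β' σ := by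
    refine ⟨fun σ => (β σ / k + 1) + (if σ = ⟨0, hd⟩ then j - ∑ σ, (β σ / k + 1) else 0), ?_,
      fun σ => ?_⟩
    · rw [Finset.sum_add_distrib, Finset.sum_ite_eq' Finset.univ, if_pos (Finset.mem_univ _)]
      omega
    · refine le_trans ?_ (Nat.mul_le_mul_left k (Nat.le_add_right _ _))
      exact (Nat.lt_mul_div_succ (β σ) hk).le
  choose γ hγ using fun σ => Nat.exists_eq_add_of_le (hβ'2 σ)
  have hsum : ∑ σ, (α σ + γ σ) = k * j := by
    have h3 : ∑ σ, k * β' σ = ∑ σ, (β σ + γ σ) := Finset.sum_congr rfl fun σ _ => hγ σ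
    rw [← Finset.mul_sum, hβ'1, Finset.sum_add_distrib, hβ] at h3
    rw [Finset.sum_add_distrib, hα, h3]
  have key : (∏ σ, ξ σ ^ α σ) * ∏ σ, ζ σ ^ β σ =
      (∏ σ, ξ σ ^ (α σ + γ σ)) * ∏ σ, (ζ σ ^ k) ^ β' σ := by
    rw [← Finset.prod_mul_distrib, ← Finset.prod_mul_distrib]
    refine Finset.prod_congr rfl fun σ _ => ?_
    rw [← pow_mul, hγ σ, pow_add, pow_add]
    calc ξ σ ^ α σ * ζ σ ^ β σ = ξ σ ^ α σ * ζ σ ^ β σ * (ξ σ * ζ σ) ^ γ σ := by
          rw [hinv, one_pow, mul_one]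
      _ = _ := by ring
  change (∏ σ, ξ σ ^ α σ) * ∏ σ, ζ σ ^ β σ ∈ _
  rw [key, ← hsum]
  refine Submodule.mul_mem_mul (prod_pow_mem_sp_pow ξ _) ?_
  have := prod_pow_mem_sp_pow (K := K) (fun σ => ζ σ ^ k) β'
  rwa [hβ'1] at this

theorem finrank_add_le_of_map {K V W : Type*} [Field K] [AddCommGroup V] [Module K V]
    [AddCommGroup W] [Module K W] (φ : V →ₗ[K] W) (U U' : Submodule K V) [Module.Finite K U]
    (S : Submodule K W) (hU : U' ≤ U) (hker : ∀ x ∈ U', φ x = 0) (hS : S ≤ U.map φ) :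
    finrank K U' + finrank K S ≤ finrank K U := by
  have h1 := LinearMap.finrank_range_add_finrank_ker (φ.domRestrict U)
  rw [LinearMap.range_domRestrict] at h1
  have h2 : finrank K S ≤ finrank K (U.map φ) := Submodule.finrank_mono hS
  have h3 : U'.comap U.subtype ≤ LinearMap.ker (φ.domRestrict U) := fun x hx => hker _ hx
  have h4 := Submodule.finrank_mono h3
  rw [(Submodule.comapSubtypeEquivOfLe hU).finrank_eq] at h4
  omega

theorem word_val_poly {A : Type*} [CommRing A] {d k : ℕ} (ξ η t : Fin d → A) (w : Word d k) :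
    w.val (fun σ => (C (ξ σ) : A[X])) (fun σ => (X - C (t σ)) * C (η σ)) =
      C (w.val ξ η) * ∏ l, (X - C (t (w.β l))) := by
  simp only [Word.val, map_mul, map_prod, Finset.prod_mul_distrib]
  ring

theorem coeff_prod_X_sub_C_self {A : Type*} [CommRing A] {n : ℕ} (s : Fin n → A) :
    (∏ l, (X - C (s l)) : A[X]).coeff n = 1 ∧
      ∀ m, n < m → (∏ l, (X - C (s l)) : A[X]).coeff m = 0 := by
  nontriviality A
  have h1 : (∏ l, (X - C (s l)) : A[X]).Monic :=
    monic_prod_of_monic _ _ fun l _ => monic_X_sub_C _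
  have h2 : (∏ l, (X - C (s l)) : A[X]).natDegree = n := by
    rw [natDegree_prod_of_monic _ _ fun l _ => monic_X_sub_C _]
    simp
  refine ⟨?_, fun m hm => coeff_eq_zero_of_natDegree_lt (by omega)⟩
  have := h1.coeff_natDegree
  rwa [h2] at this

/-- Leading coefficients.  Recipe: induction on `j`.  A word of level `j'` has `natDegree ≤ j'` and
its `j'`-th coefficient is the word in `ξ, η` (`coeff_prod_of_natDegree_le`, or `C(..) * monic`).
The map `lcoeff j` restricted to `Lev j` has kernel `⊇ Lev (j-1)` and range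
`⊇ sp ξ ^ (k j) * sp η ^ j` (`sp_pow_eq_span_words`); rank-nullity. -/
theorem sum_finrank_le {K A : Type*} [Field K] [CommRing A] [Algebra K A] {d k : ℕ}
    (ξ η t : Fin d → A) (j : ℕ) :
    ∑ j' ∈ Finset.range (j + 1), finrank K (sp K ξ ^ (k * j') * sp K η ^ j' : Submodule K A) ≤
      finrank K (Lev K k (fun σ => (C (ξ σ) : A[X])) (fun σ => (X - C (t σ)) * C (η σ)) j) := by
  have hrange : ∀ j : ℕ, (sp K ξ ^ (k * j) * sp K η ^ j : Submodule K A) ≤
      (Lev K k (fun σ => (C (ξ σ) : A[X])) (fun σ => (X - C (t σ)) * C (η σ)) j).map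
        ((lcoeff A j).restrictScalars K) := fun j => by
    rw [sp_pow_eq_span_words, sp_pow_eq_span_words, Submodule.span_mul_span]
    refine Submodule.span_le.2 ?_
    rintro f ⟨a, ⟨α, rfl⟩, b, ⟨β, rfl⟩, rfl⟩
    refine ⟨_, Submodule.subset_span ⟨⟨j, α, β⟩, le_rfl, rfl⟩, ?_⟩
    rw [word_val_poly, LinearMap.restrictScalars_apply, lcoeff_apply, coeff_C_mul,
      (coeff_prod_X_sub_C_self _).1, mul_one]
    rfl
  have hker : ∀ j : ℕ, ∀ x ∈ Lev K k (fun σ => (C (ξ σ) : A[X]))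
      (fun σ => (X - C (t σ)) * C (η σ)) j, ((lcoeff A (j + 1)).restrictScalars K) x = 0 := by
    intro j
    change _ ≤ LinearMap.ker _
    refine Submodule.span_le.2 ?_
    rintro f ⟨w, hw, rfl⟩
    rw [SetLike.mem_coe, LinearMap.mem_ker, word_val_poly, LinearMap.restrictScalars_apply,
      lcoeff_apply, coeff_C_mul, (coeff_prod_X_sub_C_self _).2 _ (by omega), mul_zero]
  induction j with
  | zero =>
    have := Lev_finite (K := K) (k := k) (fun σ => (C (ξ σ) : A[X]))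
      (fun σ => (X - C (t σ)) * C (η σ)) 0
    have h := finrank_add_le_of_map _ _ ⊥ _ bot_le (fun x hx => by
      rw [(Submodule.mem_bot K).1 hx, map_zero]) (hrange 0)
    rw [Finset.sum_range_one]
    omega
  | succ j ih =>
    have := Lev_finite (K := K) (k := k) (fun σ => (C (ξ σ) : A[X]))
      (fun σ => (X - C (t σ)) * C (η σ)) (j + 1)
    have h := finrank_add_le_of_map _ _ _ _ (Lev_mono _ _ (Nat.le_succ j)) (hker j) (hrange (j + 1))
    rw [Finset.sum_range_succ]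
    exact (Nat.add_le_add_right ih _).trans h

/-- Recipe: `grow_sum` with `a = Om i / i!`, `b = k`, `c = k d + c₀`. -/
theorem grow_V {K : Type*} [Field K] {i d k : ℕ} (hk : k + 2 = d) (h2 : 2 ≤ k) (hi : 1 ≤ i)
    (t : Fin d → MvPowerSeries (Fin i) K) (ξ ζ : Fin d → MvPowerSeries (Fin i) K)
    (hJ : Jets ξ ζ) (hB : NoBinom ξ) :
    Grow (fun j => finrank K (Lev K k (fun σ => (C (ξ σ) : (MvPowerSeries (Fin i) K)[X]))
      (fun σ => (X - C (t σ)) * C (ζ σ ^ k)) j)) (pw i true) (gam k i true) := by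
  obtain ⟨c₀, hc⟩ := LM_lower hi (by omega) ξ ζ hJ hB
  have h := grow_sum (fun j => finrank K (Lev K k (fun σ => (C (ξ σ) : (MvPowerSeries (Fin i) K)[X]))
      (fun σ => (X - C (t σ)) * C (ζ σ ^ k)) j))
    (fun j => finrank K (sp K ξ ^ (k * j) * sp K (fun σ => ζ σ ^ k) ^ j : Submodule K _)) i
    (d + c₀) ((Om i : ℝ) / (i.factorial : ℝ)) k ((k : ℝ) * d + c₀) (by positivity)
    (by exact_mod_cast (by omega : 0 < k)) (fun j hj => ?_)
    (fun j => sum_finrank_le ξ (fun σ => ζ σ ^ k) t j)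
  · have e1 : pw i true = i + 1 := rfl
    have e2 : gam k i true = (Om i : ℝ) / (i.factorial : ℝ) * (k : ℝ) ^ i / ((i : ℝ) + 1) := by
      simp only [gam, if_true, Nat.factorial_succ]
      push_cast
      field_simp
    rw [e1, e2]
    exact h
  · have h1 := hc (k * (j - d)) (le_trans (by omega : c₀ ≤ j - d) (Nat.le_mul_of_pos_left _ (by omega)))
    have := sp_finite (K := K) ξ
    have := sp_finite (K := K) (fun σ => ζ σ ^ k)
    have := pow_finite (sp K ξ) (k * j)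
    have := pow_finite (sp K (fun σ => ζ σ ^ k)) j
    have := mul_finite (sp K ξ ^ (k * j)) (sp K (fun σ => ζ σ ^ k) ^ j)
    have h3 := Submodule.finrank_mono
      (LM_le (K := K) (k := k) (by omega) (by omega) ξ ζ hJ.inv j (by omega))
    have e : ((k * (j - d) : ℕ) : ℝ) - c₀ = (k : ℝ) * j - ((k : ℝ) * d + c₀) := by
      rw [Nat.cast_mul, Nat.cast_sub (by omega : d ≤ j)]
      ring
    rw [e] at h1
    exact h1.trans (by exact_mod_cast h3)

end Crest.Agent.R22
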