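import Crest.Agent.R22.RankA
import Crest.Agent.R22.RankV

/-! # Row 22: rank lower bound on a point set, vertical case -/

set_option autoImplicit false

open Module Polynomial

namespace Crest.Agent.R22

theorem algHom_option {F B σ : Type*} [CommRing F] [CommRing B] [Algebra F B]
    (φ : MvPolynomial (Option σ) F →ₐ[F] B) (P : MvPolynomial (Option σ) F) :
    φ P = (MvPolynomial.optionEquivLeft F σ P).eval₂ (φ.comp (MvPolynomial.rename some)).toRingHom
      (φ (MvPolynomial.X none)) := by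
  induction P using MvPolynomial.induction_on with
  | C a => simp
  | add p q hp hq => simp only [map_add, eval₂_add, hp, hq]
  | mul_X p v hp =>
    rw [map_mul, map_mul, eval₂_mul, ← hp]
    cases v <;> simp

theorem isAlgebraic_of_root {R L : Type*} [CommRing R] [IsDomain R] [Field L] [Algebra R L]
    (p : L[X]) (hp : p ≠ 0) (hc : ∀ n, IsAlgebraic R (p.coeff n)) (a : L) (ha : p.eval a = 0) :
    IsAlgebraic R a := by
  set E := Subalgebra.algebraicClosure R L
  haveI : Algebra.IsAlgebraic R E := ⟨fun x => (Subalgebra.isAlgebraic_iff_isAlgebraic_val).2 x.2⟩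
  have hl : p ∈ lifts (algebraMap E L) :=
    (lifts_iff_coeff_lifts p).2 fun n => ⟨⟨p.coeff n, hc n⟩, rfl⟩
  obtain ⟨p', hp'⟩ := (mem_lifts p).1 hl
  have : IsAlgebraic E a := ⟨p', fun h => hp (by rw [← hp', h, Polynomial.map_zero]), by
    rw [aeval_def, eval₂_eq_eval_map, hp', ha]⟩
  exact this.restrictScalars R

theorem depI_comap {F : Type*} [Field F] {d : ℕ} (𝔓 : Ideal (MvPolynomial (Var d) F))
    (J : Finset (Fin d)) :
    DepI (𝔓.comap (MvPolynomial.rename some : MvPolynomial (Fin d) F →ₐ[F] _)) J ↔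
      DepI 𝔓 (sv J) := by
  classical
  have hinj := MvPolynomial.rename_injective (R := F) _ (Option.some_injective (Fin d))
  constructor
  · rintro ⟨P, h1, h2, h3⟩
    refine ⟨_, h1, fun h => h2 (hinj (by rw [h, map_zero])), fun v hv => ?_⟩
    obtain ⟨j, hj, rfl⟩ := MvPolynomial.mem_vars_rename _ _ hv
    exact mem_sv.2 (h3 hj)
  · rintro ⟨P, h1, h2, h3⟩
    obtain ⟨P', rfl⟩ := MvPolynomial.exists_rename_eq_of_vars_subset_range P
      (fun j : J => (some j.1 : Var d)) (fun a b h => Subtype.ext (Option.some_injective _ h))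
      (fun v hv => by
        obtain ⟨j, hj, rfl⟩ := Finset.mem_map.1 (h3 hv)
        exact ⟨⟨j, hj⟩, rfl⟩)
    refine ⟨MvPolynomial.rename Subtype.val P', ?_, fun h => h2 ?_, fun v hv => ?_⟩
    · rw [Ideal.mem_comap, MvPolynomial.rename_rename]; exact h1
    · have := congrArg (MvPolynomial.rename (R := F) (some : Fin d → Var d)) h
      rwa [MvPolynomial.rename_rename, map_zero] at this
    · obtain ⟨j, -, rfl⟩ := MvPolynomial.mem_vars_rename _ _ hv
      exact j.2

/-- If `n` is independent over `s_J` and all `s_j` depend on `s_J`, then `𝔓` is extended from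
`F[s]`.  Recipe: `L = FractionRing (MvPolynomial (Var d) F ⧸ 𝔓)`, `R₀ = MvPolynomial (Fin i) F`
acting by the `s_j`, `j ∈ J` (injectively).  All `s̄_j` are algebraic over `R₀`
(`isAlgebraic_of_dep` for `𝔭 = 𝔓.comap (rename some)`).  If some coefficient of
`optionEquivLeft P` is not in `𝔭`, then `n̄` is algebraic over the subalgebra generated by the
`s̄_j`, hence over `R₀` (`IsAlgebraic.restrictScalars` / `Algebra.IsAlgebraic.trans`), which gives
a nonzero element of `𝔓` in the variables `insert none (sv J)`. -/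
theorem coeff_mem_of_vertical {F : Type} [Field F] {d : ℕ} (𝔓 : Ideal (MvPolynomial (Var d) F))
    (hp : 𝔓.IsPrime) (J : Finset (Fin d))
    (hdep : ∀ j, j ∉ J → DepI 𝔓 (insert (some j) (sv J)))
    (hv : ¬ DepI 𝔓 (insert none (sv J))) (P : MvPolynomial (Var d) F) (hP : P ∈ 𝔓) (m : ℕ) :
    MvPolynomial.rename some ((MvPolynomial.optionEquivLeft F (Fin d) P).coeff m) ∈ 𝔓 := by
  classical
  by_contra hm
  set A := MvPolynomial (Var d) F ⧸ 𝔓
  set L := FractionRing A
  set π : MvPolynomial (Var d) F →ₐ[F] L :=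
    (IsScalarTower.toAlgHom F A L).comp (Ideal.Quotient.mkₐ F 𝔓) with hπ
  have hker : ∀ R, π R = 0 ↔ R ∈ 𝔓 := fun R => by
    rw [hπ, AlgHom.comp_apply, IsScalarTower.coe_toAlgHom',
      map_eq_zero_iff _ (IsFractionRing.injective A L)]
    exact Ideal.Quotient.eq_zero_iff_mem
  set π' : MvPolynomial (Fin d) F →ₐ[F] L := π.comp (MvPolynomial.rename some) with hπ'
  have halg := isAlgebraic_of_dep
    (𝔓.comap (MvPolynomial.rename some : MvPolynomial (Fin d) F →ₐ[F] _)) (enumJ J)
    (fun j hj => by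
      rw [map_enumJ] at hj ⊢
      rw [depI_comap, sv_insert]
      exact hdep j hj) π' (fun R hR => (hker _).2 hR)
  letI : Algebra (MvPolynomial (Fin J.card) F) L :=
    (π'.comp (MvPolynomial.rename (enumJ J))).toRingHom.toAlgebra
  have hn : IsAlgebraic (MvPolynomial (Fin J.card) F) (π (MvPolynomial.X none)) := by
    refine isAlgebraic_of_root ((MvPolynomial.optionEquivLeft F (Fin d) P).map π'.toRingHom)
      (fun h => hm ?_) (fun n => ?_) _ ?_
    · have := congrArg (fun p => coeff p m) h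
      simp only [coeff_map, coeff_zero] at this
      exact (hker _).1 this
    · rw [coeff_map]
      exact halg _
    · rw [← eval₂_eq_eval_map, ← algHom_option π P]
      exact (hker _).2 hP
  obtain ⟨q, hq0, hq⟩ := hn
  set Q := (MvPolynomial.optionEquivLeft F (Fin J.card)).symm q with hQ
  have hinj : Function.Injective (Option.map (enumJ J) : Option (Fin J.card) → Var d) :=
    Option.map_injective (enumJ J).injective
  refine hv ⟨MvPolynomial.rename (Option.map (enumJ J)) Q, (hker _).1 ?_, fun h => hq0 ?_,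
    fun v hv => ?_⟩
  · have := algHom_option (π.comp (MvPolynomial.rename (Option.map (enumJ J)))) Q
    rw [AlgHom.comp_apply] at this
    rw [this, hQ, AlgEquiv.apply_symm_apply, ← hq, aeval_def]
    congr 1
    · refine congrArg AlgHom.toRingHom (MvPolynomial.algHom_ext fun j => ?_)
      simp [hπ']
    · simp
  · have h1 : Q = 0 := MvPolynomial.rename_injective _ hinj (by rw [h, map_zero])
    rw [hQ] at h1
    simpa using h1
  · obtain ⟨u, -, rfl⟩ := MvPolynomial.mem_vars_rename _ _ hv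
    cases u with
    | none => exact Finset.mem_insert_self _ _
    | some j =>
      refine Finset.mem_insert_of_mem (mem_sv.2 ?_)
      have := Finset.mem_map_of_mem (enumJ J) (Finset.mem_univ j)
      rwa [map_enumJ] at this

/-- A finite point set has no independent coordinate: `∏ y, (X j - C (y j))`. -/
theorem infinite_of_indep {F : Type*} [Field F] {d : ℕ} (𝒴 : Set (Var d → F))
    (J : Finset (Fin d)) (hJ : 1 ≤ J.card)
    (hind : ¬ DepI (MvPolynomial.vanishingIdeal F 𝒴) (sv J)) : 𝒴.Infinite := by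
  classical
  intro hfin
  obtain ⟨j, hj⟩ := Finset.card_pos.1 hJ
  refine hind ⟨∏ y ∈ hfin.toFinset, (MvPolynomial.X (some j) - MvPolynomial.C (y (some j))),
    fun y hy => ?_, Finset.prod_ne_zero_iff.2 fun y _ => ?_, ?_⟩
  · rw [map_prod]
    exact Finset.prod_eq_zero (hfin.mem_toFinset.2 hy) (by simp)
  · intro h
    have := congrArg (MvPolynomial.eval fun _ => y (some j) + 1) h
    simp at this
  · refine (MvPolynomial.vars_prod _).trans (Finset.biUnion_subset.2 fun y _ => ?_)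
    refine (MvPolynomial.vars_sub_subset _).trans ?_
    rw [MvPolynomial.vars_X, MvPolynomial.vars_C, Finset.union_empty, Finset.singleton_subset_iff]
    exact mem_sv.2 hj

/-- Recipe: if `∏ ξ^e = a • ∏ ξ^e'`, the last clause of `exists_taylor` (`hconst`) with
`P = ∏ xp^e`, `P' = ∏ xp^e'` shows that `y ↦ ∏ x^e / ∏ x^e'` takes finitely many values on `𝒴`;
each fibre is finite by `GeoSet.mi`; so `𝒴` is finite. -/
theorem noBinom_of_geo {F : Type} [Field F] {d : ℕ} (θ : Fin d → F) (c : Fin d)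
    (𝒴 : Set (Var d → F)) (hG : GeoSet θ c 𝒴) (hinf : 𝒴.Infinite) {K : Type} [Field K]
    [Algebra F K] {i : ℕ} (Φ : MvPolynomial (Fin d) F →ₐ[F] MvPowerSeries (Fin i) K)
    (𝔭 : Ideal (MvPolynomial (Fin d) F))
    (h𝔭 : ∀ P, P ∈ 𝔭 ↔ MvPolynomial.rename some P ∈ MvPolynomial.vanishingIdeal F 𝒴)
    (hconst : ∀ (P P' : MvPolynomial (Fin d) F) (a : K), P' ∉ 𝔭 → Φ P = a • Φ P' →
      ∃ m : F[X], m ≠ 0 ∧ ∀ y : Fin d → F, (∀ R ∈ 𝔭, MvPolynomial.aeval y R = 0) →
        MvPolynomial.aeval y P' ≠ 0 →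
        m.eval (MvPolynomial.aeval y P / MvPolynomial.aeval y P') = 0) :
    NoBinom fun σ => cj (fun l => Φ (MvPolynomial.X l))
      (algebraMap K (MvPowerSeries (Fin i) K) (algebraMap F K (θ σ))) := by
  classical
  intro e e' hne hsum a hrel
  set xq : Fin d → MvPolynomial (Fin d) F := fun σ =>
    cj (fun l => MvPolynomial.X l) (MvPolynomial.C (θ σ)) with hxq
  have hΦ : ∀ σ, Φ (xq σ) = cj (fun l => Φ (MvPolynomial.X l))
      (algebraMap K (MvPowerSeries (Fin i) K) (algebraMap F K (θ σ))) := fun σ => by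
    have := map_cj Φ.toRingHom (fun l : Fin d => (MvPolynomial.X l : MvPolynomial (Fin d) F))
      (MvPolynomial.C (θ σ))
    rw [← IsScalarTower.algebraMap_apply]
    simpa [hxq] using this
  have hev : ∀ (y : 𝒴) σ, MvPolynomial.aeval (fun l => y.1 (some l)) (xq σ) = xf θ 𝒴 σ y :=
    fun y σ => by
      have := map_cj (MvPolynomial.aeval (R := F) (fun l => y.1 (some l))).toRingHom
        (fun l : Fin d => (MvPolynomial.X l : MvPolynomial (Fin d) F)) (MvPolynomial.C (θ σ))
      simpa [hxq, xf] using this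
  have hevp : ∀ (y : 𝒴) (e : Fin d → ℕ), MvPolynomial.aeval (fun l => y.1 (some l))
      (∏ σ, xq σ ^ e σ) = ∏ σ, xf θ 𝒴 σ y ^ e σ := fun y e => by
    simp only [map_prod, map_pow, hev]
  have hnz : ∀ (y : 𝒴) (e : Fin d → ℕ), ∏ σ, xf θ 𝒴 σ y ^ e σ ≠ 0 := fun y e =>
    Finset.prod_ne_zero_iff.2 fun σ _ => pow_ne_zero _ (hG.hx σ y)
  have hz : ∀ (y : 𝒴), ∀ R ∈ 𝔭, MvPolynomial.aeval (fun l => y.1 (some l)) R = 0 :=
    fun y R hR => by
      have := (h𝔭 R).1 hR y.1 y.2
      rwa [MvPolynomial.aeval_rename] at this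
  obtain ⟨y₀, hy₀⟩ := hinf.nonempty
  obtain ⟨m, hm0, hm⟩ := hconst (∏ σ, xq σ ^ e σ) (∏ σ, xq σ ^ e' σ) a
    (fun h => hnz ⟨y₀, hy₀⟩ e' (by rw [← hevp]; exact hz _ _ h))
    (by simpa only [map_prod, map_pow, hΦ] using hrel)
  haveI : Infinite 𝒴 := hinf.to_subtype
  set f : 𝒴 → F := fun y => (∏ σ, xf θ 𝒴 σ y ^ e σ) / ∏ σ, xf θ 𝒴 σ y ^ e' σ with hf
  have hroot : ∀ y, f y ∈ m.rootSet F := fun y => by
    have := hm _ (hz y) (by rw [hevp]; exact hnz y e')
    rw [hevp, hevp] at this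
    rw [mem_rootSet_of_ne hm0]
    simpa [hf] using this
  refine Set.infinite_univ (α := 𝒴) (Set.Finite.of_finite_fibers f
    ((m.rootSet_finite F).subset (by rintro _ ⟨y, -, rfl⟩; exact hroot y)) ?_)
  rintro _ ⟨y, -, rfl⟩
  refine (hG.mi e e' hne hsum y).subset fun y' hy' => ?_
  have h1 : f y' = f y := hy'.2
  simp only [hf] at h1
  rw [div_eq_div_iff (hnz y' e') (hnz y e')] at h1
  simp only [Set.mem_setOf_eq]
  rw [← h1, mul_comm]

/-- Recipe: `𝔭 = 𝔓.comap (rename some)`, `exists_taylor` with `V = Fin d` gives `Φ₀`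
(`exists_rename_some`-type arguments for `hind`, `hdep`).  `Φ = aeval (fun | none => X |
some l => C (Φ₀ (X l)))` into `(MvPowerSeries ..)[X]` equals `(optionEquivLeft P).map Φ₀`, and kills
`𝔓` by `coeff_mem_of_vertical`.  Then `exists_jets`, `noBinom_of_geo`, `grow_V`,
`finrank_Lev_le`, `ker_transfer`. -/
theorem grow_rank_V {F : Type} [Field F] [CharZero F] {d k : ℕ} (hk : k + 2 = d) (h2 : 2 ≤ k)
    (θ : Fin d → F) (c : Fin d) (𝒴 : Set (Var d → F)) (hG : GeoSet θ c 𝒴)
    (hp : (MvPolynomial.vanishingIdeal F 𝒴).IsPrime) (J : Finset (Fin d)) (hJ : 1 ≤ J.card)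
    (hind : ¬ DepI (MvPolynomial.vanishingIdeal F 𝒴) (sv J))
    (hdep : ∀ j, j ∉ J → DepI (MvPolynomial.vanishingIdeal F 𝒴) (insert (some j) (sv J)))
    (hv : ¬ DepI (MvPolynomial.vanishingIdeal F 𝒴) (insert none (sv J))) :
    Grow (fun j => finrank F (Lev F k (xf θ 𝒴) (mf k θ 𝒴) j)) (pw J.card true)
      (gam k J.card true) := by
  classical
  set 𝔓 := MvPolynomial.vanishingIdeal F 𝒴 with h𝔓
  set 𝔭 := 𝔓.comap (MvPolynomial.rename some : MvPolynomial (Fin d) F →ₐ[F] _) with h𝔭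
  obtain ⟨K, _, _, Φ₀, hΦ0, hΦc, hΦX, hconst⟩ := exists_taylor 𝔭 (Ideal.IsPrime.comap _) (enumJ J)
    (by rw [map_enumJ, depI_comap]; exact hind)
    (fun j hj => by
      rw [map_enumJ] at hj ⊢
      rw [depI_comap, sv_insert]
      exact hdep j hj)
  obtain ⟨y₀, hy₀⟩ := nonempty_of_prime hp
  set θ' : Fin d → K := fun σ => algebraMap F K (θ σ)
  have hθ' : Function.Injective θ' := (algebraMap F K).injective.comp hG.inj
  have halg : ∀ σ, algebraMap K (MvPowerSeries (Fin J.card) K) (θ' σ) =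
      algebraMap F (MvPowerSeries (Fin J.card) K) (θ σ) := fun σ =>
    (IsScalarTower.algebraMap_apply F K _ _).symm
  set Sv : Fin d → MvPowerSeries (Fin J.card) K := fun l => Φ₀ (MvPolynomial.X l)
  obtain ⟨ζ, hJet⟩ := exists_jets θ' hθ' Sv c
    (by
      have := hΦ0 (MvPolynomial.X c - 1) fun y hy => by simp [hG.hc y hy]
      rwa [map_sub, map_one, sub_eq_zero] at this)
    (fun j => by
      obtain ⟨a, ha⟩ := hΦX j
      exact ⟨enumJ J j, a, ha⟩)
    (fun σ h => by
      have h1 := map_cj Φ₀.toRingHom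
        (fun l : Fin d => (MvPolynomial.X l : MvPolynomial (Fin d) F)) (MvPolynomial.C (θ σ))
      simp only [AlgHom.toRingHom_eq_coe, RingHom.coe_coe, MvPolynomial.algHom_C] at h1
      rw [halg, ← h1] at h
      have h2 := hΦc _ h y₀ hy₀
      refine hG.hx σ ⟨y₀, hy₀⟩ ((aeval_xp θ 𝒴 σ ⟨y₀, hy₀⟩).symm.trans ?_)
      have h3 := map_cj (MvPolynomial.rename (R := F) (some : Fin d → Var d)).toRingHom
        (fun l : Fin d => (MvPolynomial.X l : MvPolynomial (Fin d) F)) (MvPolynomial.C (θ σ))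
      simp only [AlgHom.toRingHom_eq_coe, RingHom.coe_coe, MvPolynomial.rename_C,
        MvPolynomial.rename_X] at h3
      rw [h3] at h2
      exact h2)
  have hB := noBinom_of_geo θ c 𝒴 hG (infinite_of_indep 𝒴 J hJ hind) Φ₀ 𝔭 (fun P => Iff.rfl) hconst
  have hgrow := grow_V hk h2 hJ (fun σ => algebraMap K (MvPowerSeries (Fin J.card) K) (θ' σ))
    _ ζ hJet hB
  set Φ : MvPolynomial (Var d) F →ₐ[F] (MvPowerSeries (Fin J.card) K)[X] :=
    MvPolynomial.aeval fun v => Option.elim v X fun l => C (Φ₀ (MvPolynomial.X l)) with hΦ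
  have hΦs : ∀ R, Φ (MvPolynomial.rename some R) = C (Φ₀ R) := fun R => by
    have : Φ.comp (MvPolynomial.rename some) = (CAlgHom (R := F)).comp Φ₀ :=
      MvPolynomial.algHom_ext fun l => by simp [hΦ]
    exact congrArg (fun f => f R) this
  have hΦk : ∀ P ∈ 𝔓, Φ P = 0 := fun P hP => by
    rw [algHom_option Φ P, eval₂_eq_sum_range]
    refine Finset.sum_eq_zero fun m _ => ?_
    have := hΦs ((MvPolynomial.optionEquivLeft F (Fin d) P).coeff m)
    rw [hΦ0 _ (coeff_mem_of_vertical 𝔓 hp J hdep hv P hP m), map_zero] at this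
    change Φ (MvPolynomial.rename some _) * _ = 0
    rw [this, zero_mul]
  have halg' : ∀ σ, algebraMap F (MvPowerSeries (Fin J.card) K)[X] (θ σ) =
      C (algebraMap K (MvPowerSeries (Fin J.card) K) (θ' σ)) := fun σ => by
    rw [halg, Polynomial.algebraMap_apply]
  intro γ₁ hγ₁
  filter_upwards [hgrow γ₁ hγ₁] with j hj
  refine hj.trans (Nat.cast_le.2 (finrank_Lev_le _ _ _ _ (fun P hP => ?_) j))
  have := ker_transfer k θ c 𝒴 hG Φ hΦk
    (fun σ => C (cj Sv (algebraMap K (MvPowerSeries (Fin J.card) K) (θ' σ)))) (fun σ => C (ζ σ))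
    (fun σ => by
      rw [map_cj, halg']
      congr 1
      funext l
      simp [hΦ, Sv])
    (fun σ => by rw [← map_mul, hJet.inv, map_one]) P hP
  have e : (fun σ => (X - C (algebraMap K (MvPowerSeries (Fin J.card) K) (θ' σ))) * C (ζ σ ^ k)) =
      fun σ => (Φ (MvPolynomial.X none) - algebraMap F _ (θ σ)) * C (ζ σ) ^ k := by
    funext σ
    rw [halg', map_pow]
    simp [hΦ]
  rw [e]
  exact this

end Crest.Agent.R22
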