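import Crest.Agent.R22.Basic

/-! # Row 22: integer relations of small height -/

set_option autoImplicit false

namespace Crest.Agent.R22

/-- The functional `u ↦ ∑ u i * v i`. -/
noncomputable def dotL {ι : Type*} [Fintype ι] (v : ι → ℂ) : (ι → ℂ) →ₗ[ℂ] ℂ where
  toFun u := ∑ i, u i * v i
  map_add' u w := by simp [add_mul, Finset.sum_add_distrib]
  map_smul' a u := by simp [Finset.mul_sum, mul_assoc]

theorem dotL_apply {ι : Type*} [Fintype ι] (v u : ι → ℂ) : dotL v u = ∑ i, u i * v i := rfl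

attribute [local instance] Matrix.seminormedAddCommGroup in
theorem siegel_aux {α ι : Type*} [Fintype α] [Fintype ι] (M : Matrix α ι ℤ) (A : ℕ)
    (hA1 : 1 ≤ A) (hA : ∀ z i, |M z i| ≤ A) (hn : Fintype.card α < Fintype.card ι)
    (hm : 0 < Fintype.card α) :
    ∃ t : ι → ℤ, t ≠ 0 ∧ (∀ z, ∑ i, M z i * t i = 0) ∧
      ∀ i, |t i| ≤ ((Fintype.card ι * A) ^ Fintype.card ι : ℕ) := by
  obtain ⟨t, ht0, ht, hle⟩ := Int.Matrix.exists_ne_zero_int_vec_norm_le M hn hm
  refine ⟨t, ht0, fun z => ?_, fun i => ?_⟩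
  · have := congrFun ht z
    simpa [Matrix.mulVec, dotProduct] using this
  · have hA1' : (1 : ℝ) ≤ A := by exact_mod_cast hA1
    have hM : ‖M‖ ≤ (A : ℝ) := by
      rw [Matrix.norm_le_iff (by positivity)]
      intro z j
      rw [Int.norm_eq_abs]
      have := hA z j
      exact_mod_cast this
    have hmax : max 1 ‖M‖ ≤ (A : ℝ) := max_le hA1' hM
    have hn1 : (1 : ℝ) ≤ Fintype.card ι := by
      have : 1 ≤ Fintype.card ι := by omega
      exact_mod_cast this
    have hmn : (Fintype.card α : ℝ) + 1 ≤ Fintype.card ι := by exact_mod_cast hn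
    have hexp : (Fintype.card α : ℝ) / ((Fintype.card ι : ℝ) - Fintype.card α)
        ≤ (Fintype.card ι : ℝ) := by
      rw [div_le_iff₀ (by linarith)]
      have h0 : (0 : ℝ) ≤ Fintype.card α := by positivity
      nlinarith
    have hb1 : (1 : ℝ) ≤ (Fintype.card ι : ℝ) * max 1 ‖M‖ := by
      have : (1 : ℝ) ≤ max 1 ‖M‖ := le_max_left _ _
      nlinarith
    have h1 : ((Fintype.card ι : ℝ) * max 1 ‖M‖) ^
        ((Fintype.card α : ℝ) / ((Fintype.card ι : ℝ) - Fintype.card α))
        ≤ ((Fintype.card ι : ℝ) * max 1 ‖M‖) ^ (Fintype.card ι : ℝ) :=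
      Real.rpow_le_rpow_of_exponent_le hb1 hexp
    have h2 : ((Fintype.card ι : ℝ) * max 1 ‖M‖) ^ (Fintype.card ι : ℝ)
        ≤ ((Fintype.card ι : ℝ) * A) ^ Fintype.card ι := by
      rw [Real.rpow_natCast]
      gcongr
    have h3 : ‖t i‖ ≤ ‖t‖ := norm_le_pi_norm t i
    rw [Int.norm_eq_abs] at h3
    have h4 : |(t i : ℝ)| ≤ ((Fintype.card ι : ℝ) * A) ^ Fintype.card ι :=
      h3.trans (hle.trans (h1.trans h2))
    have h5 : ((|t i| : ℤ) : ℝ) ≤ ((((Fintype.card ι * A) ^ Fintype.card ι : ℕ) : ℤ) : ℝ) := by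
      push_cast
      exact h4
    exact_mod_cast h5

theorem exists_small_kernel {ι Z : Type*} [Fintype ι] (M : Z → ι → ℤ) (T : Finset Z) (A : ℕ)
    (hA1 : 1 ≤ A) (hA : ∀ z ∈ T, ∀ i, |M z i| ≤ A) (v : ι → ℂ) (hv : v ≠ 0)
    (hker : ∀ z ∈ T, ∑ i, (M z i : ℂ) * v i = 0) :
    ∃ t : ι → ℤ, t ≠ 0 ∧ (∀ z ∈ T, ∑ i, M z i * t i = 0) ∧
      ∀ i, |t i| ≤ ((Fintype.card ι * A) ^ Fintype.card ι : ℕ) := by
  classical
  set row : Z → ι → ℂ := fun z i => (M z i : ℂ) with hrow
  obtain ⟨b, hbT, -, hspan, hli⟩ :=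
    exists_linearIndepOn_extension (K := ℂ) (v := row) (s := ∅) (t := (T : Set Z))
      (linearIndepOn_empty _ _) (Set.empty_subset _)
  have hbfin : b.Finite := T.finite_toSet.subset hbT
  have : Fintype b := hbfin.fintype
  obtain ⟨i₀, hi₀⟩ : ∃ i, v i ≠ 0 := by
    by_contra h
    push Not at h
    exact hv (funext h)
  have hker_ne : LinearMap.ker (dotL v) ≠ ⊤ := by
    intro h
    have : (Pi.single i₀ 1 : ι → ℂ) ∈ LinearMap.ker (dotL v) := by rw [h]; trivial
    rw [LinearMap.mem_ker, dotL_apply, Finset.sum_eq_single i₀] at this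
    · simp at this
      exact hi₀ this
    · intro j _ hj
      simp [Pi.single_eq_of_ne hj]
    · simp
  have hcard : Fintype.card b < Fintype.card ι := by
    have h1 : Module.finrank ℂ (Submodule.span ℂ (Set.range fun z : b => row z))
        = Fintype.card b := finrank_span_eq_card hli
    have h2 : Submodule.span ℂ (Set.range fun z : b => row z) ≤ LinearMap.ker (dotL v) := by
      rw [Submodule.span_le]
      rintro _ ⟨z, rfl⟩
      exact hker z (hbT z.2)
    have h3 := Submodule.finrank_mono h2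
    have h4 : Module.finrank ℂ (LinearMap.ker (dotL v)) < Module.finrank ℂ (ι → ℂ) :=
      Submodule.finrank_lt hker_ne
    rw [Module.finrank_fintype_fun_eq_card] at h4
    omega
  have key : ∀ t : ι → ℤ, (∀ z : b, ∑ i, M z i * t i = 0) → ∀ z ∈ T, ∑ i, M z i * t i = 0 := by
    intro t ht z hz
    have h2 : Submodule.span ℂ (row '' b) ≤ LinearMap.ker (dotL fun i => (t i : ℂ)) := by
      rw [Submodule.span_le]
      rintro _ ⟨z, hz, rfl⟩
      have := ht ⟨z, hz⟩
      have h' : ((∑ i, M z i * t i : ℤ) : ℂ) = 0 := by exact_mod_cast this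
      push_cast at h'
      exact h'
    have h3 := h2 (hspan ⟨z, hz, rfl⟩)
    rw [LinearMap.mem_ker, dotL_apply] at h3
    have h' : ((∑ i, M z i * t i : ℤ) : ℂ) = 0 := by
      push_cast
      exact h3
    exact_mod_cast h'
  rcases Nat.eq_zero_or_pos (Fintype.card b) with h0 | hpos
  · have : IsEmpty b := Fintype.card_eq_zero_iff.1 h0
    refine ⟨Pi.single i₀ 1, ?_, key _ fun z => isEmptyElim z, fun i => ?_⟩
    · intro h
      have := congrFun h i₀
      simp at this
    · have h1 : 1 ≤ (Fintype.card ι * A) ^ Fintype.card ι :=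
        Nat.one_le_pow _ _ (Nat.mul_pos (by omega) hA1)
      have h2 : |(Pi.single i₀ 1 : ι → ℤ) i| ≤ 1 := by
        by_cases h : i = i₀
        · subst h; simp
        · simp [Pi.single_eq_of_ne h]
      have h3 : (1 : ℤ) ≤ ((Fintype.card ι * A) ^ Fintype.card ι : ℕ) := by exact_mod_cast h1
      exact h2.trans h3
  · obtain ⟨t, ht0, ht, hle⟩ := siegel_aux (Matrix.of fun (z : b) i => M z i) A hA1
      (fun z i => hA z (hbT z.2) i) hcard hpos
    exact ⟨t, ht0, key t ht, hle⟩

open MvPolynomial in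
theorem hv_monomial {d : ℕ} (c : Fin d) (e : ℕ) (m : Var d →₀ ℕ) (z : Pt d) :
    hv c e (monomial m 1) z =
      z.n ^ m none * (∏ i, z.a i ^ m (some i)) * z.a c ^ (e - ∑ i, m (some i)) := by
  classical
  simp [hv, support_monomial]

theorem sum_var_le {R : Type*} [CommRing R] {d e : ℕ} {P : MvPolynomial (Var d) R}
    (hdeg : P.totalDegree ≤ e) {m : Var d →₀ ℕ} (hm : m ∈ P.support) :
    m none + ∑ i, m (some i) ≤ e := by
  have h1 := (MvPolynomial.le_totalDegree hm).trans hdeg
  rw [Finsupp.sum_fintype _ _ (fun _ => rfl), Fintype.sum_option] at h1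
  exact h1

open MvPolynomial in
theorem hv_monomial_abs_le {d : ℕ} (c : Fin d) (e H : ℕ) (hH : 1 ≤ H) (m : Var d →₀ ℕ) (z : Pt d)
    (hz : Ht c H z) (hm : m none + ∑ i, m (some i) ≤ e) :
    |hv c e (monomial m 1) z| ≤ (H ^ (2 * e) : ℕ) := by
  rw [hv_monomial, abs_mul, abs_mul, abs_pow, abs_pow, Finset.abs_prod]
  have hH' : (1 : ℤ) ≤ H := by exact_mod_cast hH
  have h1 : |z.n| ^ m none ≤ (H : ℤ) ^ e :=
    (pow_le_pow_left₀ (abs_nonneg _) hz.hn _).trans (pow_le_pow_right₀ hH' (by omega))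
  have h2 : ∏ i, |z.a i ^ m (some i)| ≤ (H : ℤ) ^ (∑ i, m (some i)) := by
    rw [← Finset.prod_pow_eq_pow_sum]
    refine Finset.prod_le_prod (fun i _ => abs_nonneg _) fun i _ => ?_
    rw [abs_pow]
    exact pow_le_pow_left₀ (abs_nonneg _) (hz.ha i) _
  have h3 : |z.a c| ^ (e - ∑ i, m (some i)) ≤ (H : ℤ) ^ (e - ∑ i, m (some i)) :=
    pow_le_pow_left₀ (abs_nonneg _) (hz.ha c) _
  calc |z.n| ^ m none * (∏ i, |z.a i ^ m (some i)|) * |z.a c| ^ (e - ∑ i, m (some i))
      ≤ (H : ℤ) ^ e * (H : ℤ) ^ (∑ i, m (some i)) * (H : ℤ) ^ (e - ∑ i, m (some i)) := by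
        gcongr
    _ = (H ^ (2 * e) : ℕ) := by
        push_cast
        rw [← pow_add, ← pow_add]
        congr 1
        omega

open MvPolynomial in
theorem exists_int_poly {d : ℕ} (c : Fin d) (H : ℕ) (hH : 1 ≤ H) (Y : Finset (Pt d))
    (hY : ∀ z ∈ Y, Ht c H z) (e : ℕ) (P : MvPolynomial (Var d) ℂ) (h0 : P ≠ 0)
    (hdeg : P.totalDegree ≤ e) (hvan : Van c Y P) :
    ∃ P' : MvPolynomial (Var d) ℤ, P' ≠ 0 ∧ P'.support ⊆ P.support ∧
      (∀ m, |P'.coeff m| ≤ cb d e H) ∧ Van c Y P' := by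
  classical
  have hcast : ∀ z ∈ Y, ∀ m ∈ P.support, ((hv c e (monomial m 1) z : ℤ) : ℂ) =
      (z.a c : ℂ) ^ e * m.prod fun i k => co ℂ c z i ^ k := by
    intro z hz m hm
    have hu : IsUnit ((z.a c : ℤ) : ℂ) := by
      refine IsUnit.mk0 _ ?_
      exact_mod_cast (hY z hz).chart
    rw [hv_cast ℂ c e (monomial m 1) z hu, aeval_monomial]
    · simp
    · refine (totalDegree_monomial_le _ _).trans ?_
      exact (MvPolynomial.le_totalDegree hm).trans hdeg
  obtain ⟨t, ht0, ht, hle⟩ := exists_small_kernel (ι := P.support)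
    (fun z m => hv c e (monomial m.1 1) z) Y (H ^ (2 * e)) (Nat.one_le_pow _ _ hH)
    (fun z hz m => hv_monomial_abs_le c e H hH m.1 z (hY z hz) (sum_var_le hdeg m.2))
    (fun m => P.coeff m.1) (by
      intro h
      obtain ⟨m, hm⟩ := support_nonempty.2 h0
      exact (mem_support_iff.1 hm) (congrFun h ⟨m, hm⟩)) (by
      intro z hz
      have h1 := hvan z hz
      rw [P.as_sum, map_sum, ← Finset.sum_coe_sort] at h1
      have h2 : ∑ m : P.support, ((hv c e (monomial m.1 1) z : ℤ) : ℂ) * P.coeff m.1 =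
          (z.a c : ℂ) ^ e * ∑ m : P.support, aeval (co ℂ c z) (monomial m.1 (P.coeff m.1)) := by
        rw [Finset.mul_sum]
        refine Finset.sum_congr rfl fun m _ => ?_
        rw [hcast z hz m.1 m.2, aeval_monomial]
        simp only [Algebra.algebraMap_self, RingHom.id_apply]
        ring
      rw [h2, h1, mul_zero])
  set P' : MvPolynomial (Var d) ℤ := ∑ m : P.support, monomial m.1 (t m) with hP'
  have hco : ∀ m : P.support, P'.coeff m.1 = t m := by
    intro m
    rw [hP', coeff_sum, Finset.sum_eq_single m]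
    · simp
    · intro j _ hj
      rw [coeff_monomial, if_neg]
      exact fun h => hj (Subtype.ext h)
    · simp
  have hco' : ∀ m, m ∉ P.support → P'.coeff m = 0 := by
    intro m hm
    rw [hP', coeff_sum]
    refine Finset.sum_eq_zero fun j _ => ?_
    rw [coeff_monomial, if_neg]
    rintro rfl
    exact hm j.2
  refine ⟨P', ?_, ?_, ?_, ?_⟩
  · intro h
    apply ht0
    funext m
    rw [← hco m, h]
    simp
  · intro m hm
    by_contra h
    exact (mem_support_iff.1 hm) (hco' m h)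
  · intro m
    by_cases hm : m ∈ P.support
    · rw [hco ⟨m, hm⟩]
      refine (hle _).trans ?_
      have hc : Fintype.card P.support ≤ (e + 1) ^ (d + 1) := by
        rw [Fintype.card_coe]
        exact card_support_le P hdeg
      have : (Fintype.card P.support * H ^ (2 * e)) ^ Fintype.card P.support ≤ cb d e H := by
        unfold cb
        calc (Fintype.card P.support * H ^ (2 * e)) ^ Fintype.card P.support
            ≤ ((e + 1) ^ (d + 1) * H ^ (2 * e)) ^ Fintype.card P.support := by gcongr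
          _ ≤ ((e + 1) ^ (d + 1) * H ^ (2 * e)) ^ ((e + 1) ^ (d + 1)) :=
            Nat.pow_le_pow_right (by positivity) hc
      exact_mod_cast this
    · rw [hco' m hm]
      simp
  · intro z hz
    have h1 := ht z hz
    have h2 : ((∑ m : P.support, hv c e (monomial m.1 1) z * t m : ℤ) : ℂ) =
        (z.a c : ℂ) ^ e * aeval (co ℂ c z) P' := by
      rw [hP', map_sum, Finset.mul_sum]
      push_cast
      refine Finset.sum_congr rfl fun m _ => ?_
      rw [hcast z hz m.1 m.2, aeval_monomial]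
      simp only [algebraMap_int_eq, eq_intCast]
      ring
    rw [h1] at h2
    have hne : ((z.a c : ℤ) : ℂ) ^ e ≠ 0 := by
      refine pow_ne_zero _ ?_
      exact_mod_cast (hY z hz).chart
    simpa [hne] using h2.symm

open MvPolynomial in
theorem vars_mono_of_support {V R S : Type*} [CommRing R] [CommRing S] {P : MvPolynomial V R}
    {Q : MvPolynomial V S} (h : P.support ⊆ Q.support) : P.vars ⊆ Q.vars := by
  classical
  intro i hi
  obtain ⟨m, hm, him⟩ := (mem_vars_iff_mem_support i).1 hi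
  exact (mem_vars_iff_mem_support i).2 ⟨m, h hm, him⟩

open MvPolynomial in
theorem totalDegree_mono_of_support {V R S : Type*} [CommRing R] [CommRing S]
    {P : MvPolynomial V R} {Q : MvPolynomial V S} (h : P.support ⊆ Q.support) :
    P.totalDegree ≤ Q.totalDegree :=
  Finset.sup_mono h

open MvPolynomial in
theorem degreeOf_mono_of_support {V R S : Type*} [CommRing R] [CommRing S]
    {P : MvPolynomial V R} {Q : MvPolynomial V S} (h : P.support ⊆ Q.support) (v : V) :
    P.degreeOf v ≤ Q.degreeOf v := by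
  rw [degreeOf_le_iff]
  intro m hm
  exact monomial_le_degreeOf v (h hm)

open MvPolynomial in
theorem add_single_mem_support {V R : Type*} [CommRing R] (v : V) (P : MvPolynomial V R)
    {m : V →₀ ℕ} (hm : m ∈ (pderiv v P).support) : m + Finsupp.single v 1 ∈ P.support := by
  rw [mem_support_iff] at hm ⊢
  intro h
  apply hm
  rw [coeff_pderiv, h, zero_mul]

open MvPolynomial in
theorem vars_pderiv_subset {V R : Type*} [CommRing R] (v : V) (P : MvPolynomial V R) :
    (pderiv v P).vars ⊆ P.vars := by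
  classical
  intro i hi
  obtain ⟨m, hm, him⟩ := (mem_vars_iff_mem_support i).1 hi
  refine (mem_vars_iff_mem_support i).2 ⟨_, add_single_mem_support v P hm, ?_⟩
  rw [Finsupp.mem_support_iff] at him ⊢
  simp only [Finsupp.coe_add, Pi.add_apply]
  omega

open MvPolynomial in
theorem degreeOf_pderiv_lt {V R : Type*} [CommRing R] (v : V) (P : MvPolynomial V R)
    (h : pderiv v P ≠ 0) : (pderiv v P).degreeOf v < P.degreeOf v := by
  classical
  obtain ⟨m₀, hm₀⟩ := support_nonempty.2 h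
  have h0 := monomial_le_degreeOf v (add_single_mem_support v P hm₀)
  simp only [Finsupp.coe_add, Pi.add_apply, Finsupp.single_eq_same] at h0
  have : (pderiv v P).degreeOf v ≤ P.degreeOf v - 1 := by
    rw [degreeOf_le_iff]
    intro m hm
    have h1 := monomial_le_degreeOf v (add_single_mem_support v P hm)
    simp only [Finsupp.coe_add, Pi.add_apply, Finsupp.single_eq_same] at h1
    omega
  omega

open MvPolynomial in
theorem notMem_vars_of_pderiv_eq_zero {V : Type*} (v : V) (P : MvPolynomial V ℤ)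
    (h : pderiv v P = 0) : v ∉ P.vars := by
  classical
  intro hv
  obtain ⟨m, hm, hvm⟩ := (mem_vars_iff_mem_support v).1 hv
  have hle : Finsupp.single v 1 ≤ m := by
    rw [Finsupp.single_le_iff]
    have := Finsupp.mem_support_iff.1 hvm
    omega
  have h1 := coeff_pderiv (i := v) P (m - Finsupp.single v 1)
  rw [h, tsub_add_cancel_of_le hle, coeff_zero] at h1
  rcases mul_eq_zero.1 h1.symm with h2 | h2
  · exact (mem_support_iff.1 hm) h2
  · have : (0 : ℤ) < (((m - Finsupp.single v 1 : V →₀ ℕ) v : ℕ) : ℤ) + 1 := by positivity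
    exact this.ne' h2

open MvPolynomial in
theorem exists_cert {d : ℕ} (c : Fin d) (H : ℕ) (hH : 1 ≤ H) (Y : Finset (Pt d))
    (hY : ∀ z ∈ Y, Ht c H z) (S : Finset (Var d)) (ψ : Var d) (e : ℕ)
    (hdep : DepC c Y (insert ψ S) e) (hind : ¬ DepC c Y S e) :
    ∃ P : MvPolynomial (Var d) ℤ, P.vars ⊆ insert ψ S ∧ P.totalDegree ≤ e ∧
      (∀ m, |P.coeff m| ≤ cb d e H) ∧ Van c Y P ∧ ¬ Van c Y (MvPolynomial.pderiv ψ P) := by
  classical
  have hex : ∃ n, ∃ P : MvPolynomial (Var d) ℂ,
      (P ≠ 0 ∧ P.vars ⊆ insert ψ S ∧ P.totalDegree ≤ e ∧ Van c Y P) ∧ P.degreeOf ψ = n := by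
    obtain ⟨P, hP⟩ := hdep
    exact ⟨_, P, hP, rfl⟩
  obtain ⟨P, ⟨hP0, hPv, hPd, hPvan⟩, hPn⟩ := Nat.find_spec hex
  obtain ⟨P', h0, hsub, hle, hvan⟩ := exists_int_poly c H hH Y hY e P hP0 hPd hPvan
  have hv' : P'.vars ⊆ insert ψ S := (vars_mono_of_support hsub).trans hPv
  have hd' : P'.totalDegree ≤ e := (totalDegree_mono_of_support hsub).trans hPd
  have hinj : Function.Injective (Int.castRingHom ℂ) := Int.cast_injective
  refine ⟨P', hv', hd', hle, hvan, fun hder => ?_⟩
  by_cases hz : pderiv ψ P' = 0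
  · apply hind
    have hs : (P'.map (Int.castRingHom ℂ)).support = P'.support :=
      support_map_of_injective _ hinj
    refine ⟨P'.map (Int.castRingHom ℂ), ?_, ?_, ?_, (van_map_iff c Y P').2 hvan⟩
    · intro h
      exact h0 (map_injective _ hinj (by rw [h, map_zero]))
    · intro i hi
      have hi' := vars_mono_of_support hs.subset hi
      rcases Finset.mem_insert.1 (hv' hi') with rfl | h
      · exact absurd hi' (notMem_vars_of_pderiv_eq_zero _ _ hz)
      · exact h
    · exact (totalDegree_mono_of_support hs.subset).trans hd'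
  · have hs : ((pderiv ψ P').map (Int.castRingHom ℂ)).support = (pderiv ψ P').support :=
      support_map_of_injective _ hinj
    have hlt : ((pderiv ψ P').map (Int.castRingHom ℂ)).degreeOf ψ < Nat.find hex := by
      rw [← hPn]
      exact (degreeOf_mono_of_support hs.subset ψ).trans_lt
        ((degreeOf_pderiv_lt ψ P' hz).trans_le (degreeOf_mono_of_support hsub ψ))
    refine Nat.find_min hex hlt ⟨_, ⟨?_, ?_, ?_, (van_map_iff c Y _).2 hder⟩, rfl⟩
    · intro h
      exact hz (map_injective _ hinj (by rw [h, map_zero]))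
    · exact (vars_mono_of_support hs.subset).trans ((vars_pderiv_subset ψ P').trans hv')
    · exact (totalDegree_mono_of_support hs.subset).trans
        ((totalDegree_pderiv_le ψ P').trans hd')

open MvPolynomial in
/-- A nonzero integer polynomial is `q ^ n` times a polynomial that is nonzero modulo `q`. -/
theorem exists_not_dvd {V : Type*} (q : ℕ) (hq : q.Prime) (P : MvPolynomial V ℤ) (h0 : P ≠ 0) :
    ∃ (n : ℕ) (Q : MvPolynomial V ℤ), P = C ((q : ℤ) ^ n) * Q ∧
      Q.map (Int.castRingHom (ZMod q)) ≠ 0 := by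
  classical
  obtain ⟨m₀, hm₀⟩ := support_nonempty.2 h0
  have hm₀' := mem_support_iff.1 hm₀
  have hex : ∃ n : ℕ, ¬ C ((q : ℤ) ^ (n + 1)) ∣ P := by
    refine ⟨(P.coeff m₀).natAbs, fun h => ?_⟩
    have h1 := (C_dvd_iff_dvd_coeff _ _).1 h m₀
    have h2 : q ^ ((P.coeff m₀).natAbs + 1) ∣ (P.coeff m₀).natAbs := by
      have := Int.natAbs_dvd_natAbs.2 h1
      simpa [Int.natAbs_pow] using this
    have h3 := Nat.le_of_dvd (Int.natAbs_pos.2 hm₀') h2
    have h4 : (P.coeff m₀).natAbs + 1 < q ^ ((P.coeff m₀).natAbs + 1) :=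
      Nat.lt_pow_self hq.one_lt
    omega
  have hdvd : C ((q : ℤ) ^ Nat.find hex) ∣ P := by
    rcases Nat.eq_zero_or_pos (Nat.find hex) with h | h
    · rw [h]; simp
    · have := Nat.find_min hex (m := Nat.find hex - 1) (by omega)
      rw [not_not, Nat.sub_add_cancel h] at this
      exact this
  obtain ⟨Q, hQ⟩ := hdvd
  refine ⟨Nat.find hex, Q, hQ, fun h => Nat.find_spec hex ?_⟩
  have h1 : C (q : ℤ) ∣ Q := by
    rw [C_dvd_iff_dvd_coeff]
    intro m
    have := congrArg (coeff m) h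
    rw [coeff_map, coeff_zero] at this
    exact (ZMod.intCast_zmod_eq_zero_iff_dvd _ _).1 this
  obtain ⟨Q', hQ'⟩ := h1
  refine ⟨Q', ?_⟩
  rw [pow_succ, map_mul, mul_assoc, ← hQ']
  exact hQ

open MvPolynomial in
theorem exists_poly_mod {d : ℕ} (c : Fin d) (H : ℕ) (hH : 1 ≤ H) (Y : Finset (Pt d))
    (hY : ∀ z ∈ Y, Ht c H z) (S : Finset (Var d)) (e : ℕ) (hdep : DepC c Y S e) (q : ℕ)
    (hq : q.Prime) :
    ∃ P : MvPolynomial (Var d) (ZMod q), P ≠ 0 ∧ P.vars ⊆ S ∧ P.totalDegree ≤ e ∧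
      ∀ z ∈ Y, ¬ (q : ℤ) ∣ z.a c → MvPolynomial.eval (co (ZMod q) c z) P = 0 := by
  classical
  obtain ⟨P, hP0, hPv, hPd, hPvan⟩ := hdep
  obtain ⟨P', h0, hsub, -, hvan⟩ := exists_int_poly c H hH Y hY e P hP0 hPd hPvan
  obtain ⟨n, Q, hQ, hQ0⟩ := exists_not_dvd q hq P' h0
  have hqn : ((q : ℤ) ^ n) ≠ 0 := pow_ne_zero _ (by exact_mod_cast hq.ne_zero)
  have hQs : Q.support ⊆ P'.support := by
    intro m hm
    rw [mem_support_iff] at hm ⊢
    rw [hQ, coeff_C_mul]
    exact mul_ne_zero hqn hm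
  have hs : (Q.map (Int.castRingHom (ZMod q))).support ⊆ P.support :=
    (support_map_subset _ _).trans (hQs.trans hsub)
  refine ⟨Q.map (Int.castRingHom (ZMod q)), hQ0, (vars_mono_of_support hs).trans hPv,
    (totalDegree_mono_of_support hs).trans hPd, fun z hz hnd => ?_⟩
  have : Fact q.Prime := ⟨hq⟩
  have hu : IsUnit ((z.a c : ℤ) : ZMod q) := by
    refine IsUnit.mk0 _ ?_
    rwa [Ne, ZMod.intCast_zmod_eq_zero_iff_dvd]
  have h1 : aeval (co ℂ c z) Q = 0 := by
    have h2 := hvan z hz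
    rw [hQ, map_mul, aeval_C] at h2
    refine (mul_eq_zero.1 h2).resolve_left ?_
    simp only [algebraMap_int_eq, eq_intCast]
    exact_mod_cast hqn
  have h3 := aeval_co_eq_zero (ZMod q) c Q z (hY z hz).chart hu h1
  rw [eval_map, ← h3, aeval_def]
  rfl

end Crest.Agent.R22
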