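import Crest.Agent.R22.GermB
import Crest.Agent.R22.Cost
import Crest.Agent.R22.Ramsey

/-! # Row 22: the limit primes of a system; cost of a refinement -/

set_option autoImplicit false

open Filter Polynomial

namespace Crest.Agent.R22

namespace Sys

variable {d : ℕ} {g : ℤ[X]} {θ : Fin d → ℂ} {k : ℕ} {γ : ℤ} {c : Fin d} {B : ℕ} {η : ℝ}
  (S : Sys g θ k γ c B η)

/-- The limit prime. -/
noncomputable def P (Q : Finset ℕ) : Ideal (MvPolynomial (Var d) FF) := IF c (S.Y Q)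

theorem nonempty (Q : Finset ℕ) (r : ℕ) : (S.Y Q r).Nonempty := ⟨_, S.mem Q r⟩

theorem one_le_H (r : ℕ) : 1 ≤ S.H r := le_trans (Nat.le_add_left 1 r) (S.hH r)

theorem ht (Q : Finset ℕ) (r : ℕ) : ∀ z ∈ S.Y Q r, Ht c (S.H r) z :=
  fun z hz => (S.good r z (S.sub Q r hz)).ht

theorem ev_sub (Q : Finset ℕ) : ∀ᶠ r in (UF : Filter ℕ), Q ⊆ Finset.range r := by
  have h : ∀ᶠ r in (UF : Filter ℕ), Q.sup id + 1 ≤ r := UF_le_atTop (eventually_ge_atTop _)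
  filter_upwards [h] with r hr x hx
  have := Finset.le_sup (f := id) hx
  simp only [id] at this
  exact Finset.mem_range.2 (by omega)

theorem prime (Q : Finset ℕ) : (S.P Q).IsPrime := by
  refine IF_isPrime c (S.nonempty Q) fun E => ?_
  have h : ∀ᶠ r in (UF : Filter ℕ), E ≤ r := UF_le_atTop (eventually_ge_atTop _)
  filter_upwards [h, ev_sub Q] with r h1 h2 f f' hf hf' hv
  exact (S.nice Q r h2).irr f f' (hf.trans h1) (hf'.trans h1) hv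

theorem P_mono {Q Q' : Finset ℕ} (h : Q ⊆ Q') : S.P Q ≤ S.P Q' :=
  IF_anti c fun r => S.anti Q Q' r h

theorem dimS_le (Q : Finset ℕ) : dimS (S.P Q) + 1 ≤ d := by
  refine dimS_succ_le _ c ?_
  rintro _ ⟨z, hz, rfl⟩
  rw [map_sub, MvPolynomial.aeval_X, map_one, sub_eq_zero]
  refine Germ.coe_eq.2 ?_
  filter_upwards [hz] with r hr
  have h0 : ((z r).a c : ℂ) ≠ 0 := by exact_mod_cast (S.ht Q r _ hr).chart
  simp [co, h0]

theorem ev_dep (Q : Finset ℕ) : ∃ e, ∀ᶠ r in (UF : Filter ℕ), ∀ J : Finset (Fin d),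
    J.card = dimS (S.P Q) + 1 → DepC c (S.Y Q r) (sv J) e := by
  classical
  obtain ⟨J, -, -, hmax⟩ := exists_maxJ (S.P Q) (S.prime Q).ne_top
  have h1 : ∀ J : Finset (Fin d), ∃ e, J.card = dimS (S.P Q) + 1 →
      ∀ᶠ r in (UF : Filter ℕ), DepC c (S.Y Q r) (sv J) e := by
    intro J
    by_cases hJ : J.card = dimS (S.P Q) + 1
    · obtain ⟨e, he⟩ := (depI_iff c (S.nonempty Q) _).1 (hmax J hJ)
      exact ⟨e, fun _ => he⟩
    · exact ⟨0, fun h => absurd h hJ⟩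
  choose ef hef using h1
  refine ⟨Finset.univ.sup ef, eventually_all.2 fun J => ?_⟩
  by_cases hJ : J.card = dimS (S.P Q) + 1
  · exact (hef J hJ).mono fun r h _ => h.mono (Finset.le_sup (Finset.mem_univ J))
  · exact Eventually.of_forall fun r h => absurd h hJ

/-- Recipe: `exists_maxJ`, `depI_iff` for each of the finitely many `J'` (common `e` by
`DepC.mono`, `Filter.eventually_all`), `card_cls_le`, `qhi`. -/
theorem cost (hη : 0 ≤ η) (Q : Finset ℕ) (i : ℕ) :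
    Le S.H (fun r => (((S.Y Q r).image (cls c (S.q r i))).card : ℝ)) (η * dimS (S.P Q)) := by
  obtain ⟨e, he⟩ := S.ev_dep Q
  set m := dimS (S.P Q)
  have h := Le.mul S.hH (Le.const S.hH ((((e ^ 2 + 1) ^ d + 1 : ℕ) : ℝ) * (2 ^ (i + 2)) ^ m))
    (Le.rpow S.hH (η * m)) (fun _ => by positivity) (fun _ => by positivity)
  rw [zero_add] at h
  refine Le.of_le h ?_
  filter_upwards [he] with r hr
  have h1 := card_cls_le c (S.H r) (S.one_le_H r) _ (S.ht Q r) _ (S.qp r i) m e hr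
  have h2 : ((S.q r i : ℝ)) ^ m ≤ (2 ^ (i + 2) * (S.H r : ℝ) ^ η) ^ m :=
    pow_le_pow_left₀ (Nat.cast_nonneg _) (S.qhi r i) m
  rw [mul_pow, ← Real.rpow_natCast ((S.H r : ℝ) ^ η), ← Real.rpow_mul (Nat.cast_nonneg _)] at h2
  calc (((S.Y Q r).image (cls c (S.q r i))).card : ℝ)
      ≤ (((e ^ 2 + 1) ^ d + 1 : ℕ) : ℝ) * (S.q r i : ℝ) ^ m := by exact_mod_cast h1
    _ ≤ (((e ^ 2 + 1) ^ d + 1 : ℕ) : ℝ) * ((2 ^ (i + 2)) ^ m * (S.H r : ℝ) ^ (η * m)) :=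
        mul_le_mul_of_nonneg_left h2 (Nat.cast_nonneg _)
    _ = _ := by ring

/-- Recipe: `exists_maxJ`, `depI_iff`, `card_le_of_dim_zero`. -/
theorem zero_dim (hd : 2 ≤ d) (Q : Finset ℕ) (h : dimS (S.P Q) = 0) :
    Le S.H (fun r => ((S.Y Q r).card : ℝ)) 0 := by
  obtain ⟨e, he⟩ := S.ev_dep Q
  refine Le.of_le (Le.const S.hH ((e ^ d * B : ℕ) : ℝ)) ?_
  filter_upwards [he] with r hr
  exact_mod_cast card_le_of_dim_zero hd c θ B _ _ (S.mi r) (S.sub Q r)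
    (fun z hz => (S.ht Q r z hz).chart) e (fun j => hr {j} (by rw [h]; simp))

/-- One refinement step (`cardS`, `cost`, `Le.of_pow_le`). -/
theorem le_step (hη : 0 ≤ η) (Q : Finset ℕ) (i : ℕ) (κ : ℝ)
    (h : Le S.H (fun r => ((S.Y (insert i Q) r).card : ℝ)) κ) :
    Le S.H (fun r => ((S.Y Q r).card : ℝ)) (κ + η * dimS (S.P Q)) := by
  have h1 := Le.mul S.hH (Le.mul S.hH (Le.of_pow_le S.hH S.hK) (S.cost hη Q i)
    (fun _ => Nat.cast_nonneg _) (fun _ => Nat.cast_nonneg _)) h (fun _ => by positivity)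
    (fun _ => Nat.cast_nonneg _)
  rw [zero_add, add_comm] at h1
  refine Le.of_le h1 ?_
  have h2 : ∀ᶠ r in (UF : Filter ℕ), i + 1 ≤ r := UF_le_atTop (eventually_ge_atTop _)
  filter_upwards [h2, ev_sub Q] with r r1 r2
  exact_mod_cast S.cardS Q r r2 i r1

theorem rpow_le_of_dvd (r : ℕ) (Q : Finset ℕ) (W : ℕ) (Δ : ℤ) (h0 : Δ ≠ 0)
    (h : ∀ i ∈ Q, (S.q r i : ℤ) ^ W ∣ Δ) : (S.H r : ℝ) ^ (η * Q.card * W) ≤ |(Δ : ℝ)| := by
  have h1 : ∏ i ∈ Q, (S.q r i : ℤ) ^ W ∣ Δ := by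
    refine Finset.prod_dvd_of_coprime (fun i _ j _ hij => ?_) h
    refine IsCoprime.pow ?_
    rw [Nat.isCoprime_iff_coprime]
    exact (Nat.coprime_primes (S.qp r i) (S.qp r j)).2 fun he => hij (S.qinj r he)
  have h2 : ∏ i ∈ Q, (S.q r i : ℤ) ^ W ≤ |Δ| :=
    Int.le_of_dvd (abs_pos.2 h0) ((dvd_abs _ _).2 h1)
  have h3 : ∏ i ∈ Q, (S.q r i : ℝ) ^ W ≤ |(Δ : ℝ)| := by
    rw [← Int.cast_abs]; exact_mod_cast h2
  refine le_trans ?_ h3
  have h4 : (S.H r : ℝ) ^ (η * Q.card * W) = ∏ _i ∈ Q, ((S.H r : ℝ) ^ η) ^ W := by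
    rw [Finset.prod_const, ← pow_mul, ← Real.rpow_natCast, ← Real.rpow_mul (Nat.cast_nonneg _)]
    congr 1; push_cast; ring
  rw [h4]
  exact Finset.prod_le_prod (fun _ _ => by positivity)
    fun i _ => pow_le_pow_left₀ (by positivity) (S.qlo r i) W

/-- Finitely many of the primes divide a nonzero integer of polynomial size.  Recipe: for a finite
subset `B'` of the set, eventually `∏_{i ∈ B'} q r i ∣ Θ r` (`Finset.prod_primes_dvd` or
coprimality), so `H^(η |B'|) ≤ |Θ r|` and `η |B'| ≤ κ` (`Le.le_of_rpow_le`). -/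
theorem bad_finite (hη : 0 < η) (Θ : ℕ → ℤ) (κ : ℝ) (h0 : ∀ᶠ r in (UF : Filter ℕ), Θ r ≠ 0)
    (hΘ : Le S.H (fun r => |(Θ r : ℝ)|) κ) :
    {i : ℕ | ∀ᶠ r in (UF : Filter ℕ), (S.q r i : ℤ) ∣ Θ r}.Finite := by
  by_contra hinf
  obtain ⟨n, hn⟩ := exists_nat_gt (κ / η)
  obtain ⟨B', hB', hcard⟩ := Set.Infinite.exists_subset_card_eq hinf n
  have h1 : ∀ᶠ r in (UF : Filter ℕ), ∀ i ∈ B', (S.q r i : ℤ) ∣ Θ r :=
    (Finset.eventually_all B').2 fun i hi => hB' hi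
  have h2 := Le.le_of_rpow_le S.hH (a := η * B'.card * (1 : ℕ)) hΘ (by
    filter_upwards [h0, h1] with r r0 r1
    exact S.rpow_le_of_dvd r B' 1 _ r0 fun i hi => by simpa using r1 i hi)
  rw [hcard, Nat.cast_one, mul_one] at h2
  rw [div_lt_iff₀ hη] at hn
  linarith

theorem det_contra (Q : Finset ℕ) (W : ℕ) (Δ : ℕ → ℤ) (κ : ℝ)
    (h0 : ∀ᶠ r in (UF : Filter ℕ), Δ r ≠ 0 ∧ ∀ i ∈ Q, (S.q r i : ℤ) ^ W ∣ Δ r)
    (hΔ : Le S.H (fun r => |(Δ r : ℝ)|) κ) : η * Q.card * W ≤ κ :=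
  Le.le_of_rpow_le S.hH hΔ (h0.mono fun r h => S.rpow_le_of_dvd r Q W _ h.1 h.2)

end Sys

end Crest.Agent.R22
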