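import Crest.Agent.R22.SysA
import Crest.Agent.R22.Local
import Crest.Agent.R22.RankB

/-! # Row 22: the determinant step -/

set_option autoImplicit false

open Filter Polynomial

namespace Crest.Agent.R22

theorem Le.nat_mul_pow {H : ℕ → ℕ} (hH : ∀ r, r + 1 ≤ H r) (a b : ℕ) :
    Le H (fun r => ((a * H r ^ b : ℕ) : ℝ)) b := by
  have h := Le.mul hH (Le.const hH (a : ℝ)) (Le.rpow hH (b : ℝ)) (fun _ => Nat.cast_nonneg _)
    (fun r => by positivity)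
  rw [zero_add] at h
  refine Le.of_le h (Eventually.of_forall fun r => ?_)
  rw [Real.rpow_natCast]; push_cast; exact le_rfl

theorem abs_cast_le_of {x : ℤ} {n : ℕ} (h : |x| ≤ (n : ℕ)) : |(x : ℝ)| ≤ (n : ℝ) := by
  rw [← Int.cast_abs]; exact_mod_cast h

namespace Sys

variable {d : ℕ} {g : ℤ[X]} {θ : Fin d → ℂ} {k : ℕ} {γ : ℤ} {c : Fin d} {B : ℕ} {η : ℝ}
  (S : Sys g θ k γ c B η)

/-- Certificates at the typical point. -/
theorem exists_certs (Q : Finset ℕ) (J : Finset (Fin d)) (hind : ¬ DepI (S.P Q) (sv J))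
    (Ψ : Finset (Var d)) (hdep : ∀ ψ ∈ Ψ, DepI (S.P Q) (insert ψ (sv J))) :
    ∃ (e : ℕ) (R : ℕ → Var d → MvPolynomial (Var d) ℤ) (κ : ℝ),
      (∀ᶠ r in (UF : Filter ℕ), ∀ ψ ∈ Ψ, (R r ψ).vars ⊆ insert ψ (sv J) ∧
        (R r ψ).totalDegree ≤ e ∧ Van c (S.Y Q r) (R r ψ) ∧
        hv c e (MvPolynomial.pderiv ψ (R r ψ)) (S.x r) ≠ 0) ∧
      Le S.H (fun r =>
        |((∏ ψ ∈ Ψ, hv c e (MvPolynomial.pderiv ψ (R r ψ)) (S.x r) : ℤ) : ℝ)|) κ := by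
  classical
  have hne := S.nonempty Q
  have h1 : ∀ ψ, ∃ e, ψ ∈ Ψ → ∀ᶠ r in (UF : Filter ℕ), DepC c (S.Y Q r) (insert ψ (sv J)) e := by
    intro ψ
    by_cases hψ : ψ ∈ Ψ
    · obtain ⟨e, he⟩ := (depI_iff c hne _).1 (hdep ψ hψ)
      exact ⟨e, fun _ => he⟩
    · exact ⟨0, fun h => absurd h hψ⟩
  choose ef hef using h1
  set e := Ψ.sup ef with he
  have h2 : ∀ᶠ r in (UF : Filter ℕ), ∀ ψ ∈ Ψ, DepC c (S.Y Q r) (insert ψ (sv J)) e :=
    (Finset.eventually_all Ψ).2 fun ψ hψ =>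
      (hef ψ hψ).mono fun r h => h.mono (Finset.le_sup hψ)
  have h3 : ∀ᶠ r in (UF : Filter ℕ), ¬ DepC c (S.Y Q r) (sv J) e :=
    Ultrafilter.eventually_not.2 fun h => hind ((depI_iff c hne _).2 ⟨e, h⟩)
  have h4 : ∀ᶠ r in (UF : Filter ℕ), e ≤ r := UF_le_atTop (eventually_ge_atTop e)
  have key : ∀ r ψ, ∃ P : MvPolynomial (Var d) ℤ, P.totalDegree ≤ e ∧
      (∀ m, |P.coeff m| ≤ cb d e (S.H r)) ∧
      ((Q ⊆ Finset.range r ∧ e ≤ r ∧ DepC c (S.Y Q r) (insert ψ (sv J)) e ∧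
        ¬ DepC c (S.Y Q r) (sv J) e) → P.vars ⊆ insert ψ (sv J) ∧ Van c (S.Y Q r) P ∧
        MvPolynomial.aeval (co ℂ c (S.x r)) (MvPolynomial.pderiv ψ P) ≠ 0) := by
    intro r ψ
    by_cases hh : Q ⊆ Finset.range r ∧ e ≤ r ∧ DepC c (S.Y Q r) (insert ψ (sv J)) e ∧
        ¬ DepC c (S.Y Q r) (sv J) e
    · obtain ⟨P, p1, p2, p3, p4, p5⟩ := (S.nice Q r hh.1).cert _ ψ e hh.2.1 hh.2.2.1 hh.2.2.2
      exact ⟨P, p2, p3, fun _ => ⟨p1, p4, p5 _ (S.mem Q r)⟩⟩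
    · exact ⟨0, by simp, fun m => by simp, fun h => absurd h hh⟩
  choose R hR1 hR2 hR3 using key
  set Mn := (e + 1) ^ (d + 1) with hMn
  refine ⟨e, R, ∑ _ψ ∈ Ψ, ((2 * e * Mn + 2 * e : ℕ) : ℝ), ?_, ?_⟩
  · filter_upwards [h2, h3, h4, ev_sub Q] with r r2 r3 r4 r5 ψ hψ
    obtain ⟨q1, q2, q3⟩ := hR3 r ψ ⟨r5, r4, r2 ψ hψ, r3⟩
    exact ⟨q1, hR1 r ψ, q2, hv_ne_zero c e _ _ (S.ht Q r _ (S.mem Q r)).chart
      ((totalDegree_pderiv_le _ _).trans (hR1 r ψ)) q3⟩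
  · have := Le.prod S.hH Ψ
      (fun ψ r => |((hv c e (MvPolynomial.pderiv ψ (R r ψ)) (S.x r) : ℤ) : ℝ)|)
      (fun _ => ((2 * e * Mn + 2 * e : ℕ) : ℝ)) (fun ψ _ => by
        refine Le.of_le (Le.nat_mul_pow S.hH (Mn * (e * Mn ^ Mn)) _)
          (Eventually.of_forall fun r => abs_cast_le_of ?_)
        have hb := hv_abs_le c e (S.H r) (e * cb d e (S.H r)) (MvPolynomial.pderiv ψ (R r ψ))
          (S.x r) (S.one_le_H r) (S.ht Q r _ (S.mem Q r))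
          ((totalDegree_pderiv_le _ _).trans (hR1 r ψ))
          (coeff_pderiv_abs_le ψ _ (hR1 r ψ) (hR2 r ψ))
        refine hb.trans (le_of_eq ?_)
        congr 1
        simp only [cb, ← hMn, mul_pow, ← pow_mul, pow_add]
        ring) (fun _ _ _ => abs_nonneg _)
    refine Le.of_le this (Eventually.of_forall fun r => le_of_eq ?_)
    rw [Int.cast_prod, Finset.abs_prod]

/-- Local divisibility for a set `Q'` of good indices. -/
theorem ev_dvd (hr : Roots g θ) (Q' : Finset ℕ) (J : Finset (Fin d)) (v : Bool) (e : ℕ)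
    (R : ℕ → Var d → MvPolynomial (Var d) ℤ)
    (hR : ∀ᶠ r in (UF : Filter ℕ), ∀ i ∈ Q', ¬ (S.q r i : ℤ) ∣ (S.x r).a c ∧
      ¬ (S.q r i : ℤ) ∣ γ * g.eval (S.x r).n ∧
      ∀ ψ, ψ ∉ sv J → (ψ = none → v = false) → (R r ψ).vars ⊆ insert ψ (sv J) ∧
        (R r ψ).totalDegree ≤ e ∧ Van c (S.Y Q' r) (R r ψ) ∧
        ¬ (S.q r i : ℤ) ∣ hv c e (MvPolynomial.pderiv ψ (R r ψ)) (S.x r))
    (D T n : ℕ) (w : Fin n → Word d k) (hw : ∀ h, (w h).j ≤ D) :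
    ∀ᶠ r in (UF : Filter ℕ), ∀ y : Fin n → Pt d, (∀ m, y m ∈ S.Y Q' r) → ∀ i ∈ Q',
      (S.q r i : ℤ) ^ (∑ τ ∈ Finset.range T, (n - cnt J.card v D τ)) ∣
        (Matrix.of fun h m => (w h).val (y m).a (y m).b).det := by
  have h4 : ∀ᶠ r in (UF : Filter ℕ), e ≤ r := UF_le_atTop (eventually_ge_atTop e)
  filter_upwards [hR, h4, ev_sub Q'] with r r1 r4 r5 y hy i hi
  obtain ⟨a1, a2, a3⟩ := r1 i hi
  have hx := S.mem Q' r
  refine local_dvd g hr.monic hr.deg γ c _ (S.qp r i) (S.x r)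
    (S.good r _ (S.sub Q' r hx)).rel y (fun m => (S.good r _ (S.sub Q' r (hy m))).rel)
    (fun m => S.hcls Q' r i hi _ (hy m)) a1 a2 J v e (R r) (fun ψ h1 h2 => ?_) (fun hv0 m => ?_)
    D T w hw
  · obtain ⟨b1, b2, b3, b4⟩ := a3 ψ h1 h2
    exact ⟨b1, b2, fun m => b3 _ (hy m), b4⟩
  · obtain ⟨b1, b2, b3, b4⟩ := a3 none (none_not_mem_sv J) (fun _ => hv0)
    have hle := ncl_card_le c _ (S.qp r i) (S.x r) e _ _ b2 b3 (S.hcls Q' r i hi) a1 b4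
    rcases (S.nice Q' r r5).ncl _ (Finset.mem_image_of_mem _ hi) with h | h
    · exact Finset.card_le_one.1 h _ (Finset.mem_image_of_mem _ (hy m)) _
        (Finset.mem_image_of_mem _ hx)
    · omega

theorem det_step (hr : Roots g θ) (hγ : γ ≠ 0) (hk : k + 2 = d) (h2 : 2 ≤ k) (hη : 0 < η)
    (M : Set ℕ) (hM : M.Infinite) (Q₀ : Finset ℕ)
    (hall : ∀ Q' : Finset ℕ, (Q' : Set ℕ) ⊆ M → Q'.card = Q₀.card → S.P Q' = S.P Q₀)
    (h1 : 1 ≤ dimS (S.P Q₀)) :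
    ∃ v, ¬ Crit (dimS (S.P Q₀)) v (gam k (dimS (S.P Q₀)) v) (η * Q₀.card) := by
  classical
  obtain ⟨J, hind, hJ, hmax⟩ := exists_maxJ (S.P Q₀) (S.prime Q₀).ne_top
  have hdepJ : ∀ j, j ∉ J → DepI (S.P Q₀) (insert (some j) (sv J)) := fun j hj => by
    rw [← sv_insert]
    exact hmax _ (by rw [Finset.card_insert_of_notMem hj, hJ])
  set v : Bool := decide (¬ DepI (S.P Q₀) (insert none (sv J))) with hvdef
  have hvf : v = false → DepI (S.P Q₀) (insert none (sv J)) := fun h => by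
    simpa [hvdef] using h
  have hvt : v = true → ¬ DepI (S.P Q₀) (insert none (sv J)) := fun h => by
    simpa [hvdef] using h
  refine ⟨v, fun hcrit => ?_⟩
  rw [← hJ] at hcrit h1
  set Ψ : Finset (Var d) := Finset.univ.filter fun ψ => ψ ∉ sv J ∧ (ψ = none → v = false)
    with hΨ
  have hdepΨ : ∀ ψ ∈ Ψ, DepI (S.P Q₀) (insert ψ (sv J)) := by
    intro ψ hψ
    obtain ⟨p1, p2⟩ := (Finset.mem_filter.1 hψ).2
    cases ψ with
    | none => exact hvf (p2 rfl)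
    | some j => exact hdepJ j (fun h => p1 (mem_sv.2 h))
  obtain ⟨e, R, κ, hR, hκ⟩ := S.exists_certs Q₀ J hind Ψ hdepΨ
  obtain ⟨Cg, hCg⟩ := exists_eval_abs_le g
  set Θ : ℕ → ℤ := fun r => (S.x r).a c * (γ * g.eval (S.x r).n) *
    ∏ ψ ∈ Ψ, hv c e (MvPolynomial.pderiv ψ (R r ψ)) (S.x r) with hΘ
  have hΘ0 : ∀ᶠ r in (UF : Filter ℕ), Θ r ≠ 0 := by
    filter_upwards [hR] with r r1
    exact mul_ne_zero (mul_ne_zero (S.ht Q₀ r _ (S.mem Q₀ r)).chart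
      (mul_ne_zero hγ (hr.eval_ne_zero _))) (Finset.prod_ne_zero_iff.2 fun ψ hψ => (r1 ψ hψ).2.2.2)
  have hΘle : Le S.H (fun r => |(Θ r : ℝ)|) (((g.natDegree + 1 : ℕ) : ℝ) + κ) := by
    have := Le.mul S.hH (Le.nat_mul_pow S.hH (γ.natAbs * Cg) (g.natDegree + 1)) hκ
      (fun _ => Nat.cast_nonneg _) (fun _ => abs_nonneg _)
    refine Le.of_le this (Eventually.of_forall fun r => ?_)
    simp only [hΘ]
    rw [Int.cast_mul, abs_mul]
    refine mul_le_mul_of_nonneg_right (abs_cast_le_of ?_) (abs_nonneg _)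
    have b1 := (S.ht Q₀ r _ (S.mem Q₀ r)).ha c
    have b2 := hCg (S.H r) _ (S.one_le_H r) (S.ht Q₀ r _ (S.mem Q₀ r)).hn
    rw [abs_mul, abs_mul]
    push_cast at b2 ⊢
    calc |(S.x r).a c| * (|γ| * |eval (S.x r).n g|)
        ≤ (S.H r : ℤ) * (|γ| * (Cg * (S.H r : ℤ) ^ g.natDegree)) := by gcongr
      _ = |γ| * Cg * (S.H r : ℤ) ^ (g.natDegree + 1) := by ring
  have hbad := S.bad_finite hη Θ _ hΘ0 hΘle
  obtain ⟨Q', hQ'sub, hQ'card⟩ := (hM.diff hbad).exists_subset_card_eq Q₀.card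
  have hPQ : S.P Q' = S.P Q₀ := hall Q' (fun x hx => (hQ'sub hx).1) hQ'card
  have hvan : ∀ᶠ r in (UF : Filter ℕ), ∀ ψ ∈ Ψ, Van c (S.Y Q' r) (R r ψ) :=
    (Finset.eventually_all Ψ).2 fun ψ hψ =>
      van_transfer c (S.nonempty Q₀) (S.nonempty Q') (le_of_eq hPQ.symm) (fun r => R r ψ) e
        (hR.mono fun r h => ⟨(h ψ hψ).2.1, (h ψ hψ).2.2.1⟩)
  have hgoodi : ∀ᶠ r in (UF : Filter ℕ), ∀ i ∈ Q', ¬ (S.q r i : ℤ) ∣ Θ r :=
    (Finset.eventually_all Q').2 fun i hi => Ultrafilter.eventually_not.2 (hQ'sub hi).2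
  have hR' : ∀ᶠ r in (UF : Filter ℕ), ∀ i ∈ Q', ¬ (S.q r i : ℤ) ∣ (S.x r).a c ∧
      ¬ (S.q r i : ℤ) ∣ γ * g.eval (S.x r).n ∧
      ∀ ψ, ψ ∉ sv J → (ψ = none → v = false) → (R r ψ).vars ⊆ insert ψ (sv J) ∧
        (R r ψ).totalDegree ≤ e ∧ Van c (S.Y Q' r) (R r ψ) ∧
        ¬ (S.q r i : ℤ) ∣ hv c e (MvPolynomial.pderiv ψ (R r ψ)) (S.x r) := by
    filter_upwards [hR, hvan, hgoodi] with r r1 r2 r3 i hi
    have r4 := r3 i hi
    refine ⟨fun h => r4 ((h.mul_right _).mul_right _), fun h => r4 ((h.mul_left _).mul_right _),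
      fun ψ p1 p2 => ?_⟩
    have hψ : ψ ∈ Ψ := Finset.mem_filter.2 ⟨Finset.mem_univ _, p1, p2⟩
    exact ⟨(r1 ψ hψ).1, (r1 ψ hψ).2.1, r2 ψ hψ, fun h => r4 ((h.trans
      (Finset.dvd_prod_of_mem (fun ψ => hv c e (MvPolynomial.pderiv ψ (R r ψ)) (S.x r))
        hψ)).mul_left _)⟩
  have hgam := gam_pos k J.card v h2
  have hlam : 0 < η * Q₀.card := by
    rcases Nat.eq_zero_or_pos Q₀.card with h0 | h0
    · exfalso
      obtain ⟨t, -, ht⟩ := hcrit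
      rw [h0, Nat.cast_zero, mul_zero, zero_mul] at ht
      have : 0 ≤ gam k J.card v * (pw J.card v : ℝ) / ((pw J.card v : ℝ) + 1) := by positivity
      linarith
    · have : (0 : ℝ) < Q₀.card := by exact_mod_cast h0
      positivity
  have hgeo := geoSet_PtsF hr hγ (by omega : 1 ≤ k) c B S.H S.X (S.Y Q') S.good S.mi (S.sub Q')
  have hI : MvPolynomial.vanishingIdeal FF (PtsF c (S.Y Q')) = S.P Q₀ := hPQ
  have hgrow : Grow (fun j => Module.finrank FF (Lev FF k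
      (xf (fun σ => cst (θ σ)) (PtsF c (S.Y Q'))) (mf k (fun σ => cst (θ σ)) (PtsF c (S.Y Q'))) j))
      (pw J.card v) (gam k J.card v) := by
    cases hv' : v with
    | false =>
      refine grow_rank_H hk h2 _ c _ hgeo (hI ▸ S.prime Q₀) J h1 (hI ▸ hind) (fun ψ hψ => ?_)
      rw [hI]
      exact hdepΨ ψ (Finset.mem_filter.2 ⟨Finset.mem_univ _, hψ, fun _ => hv'⟩)
    | true =>
      exact grow_rank_V hk h2 _ c _ hgeo (hI ▸ S.prime Q₀) J h1 (hI ▸ hind) (hI ▸ hdepJ)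
        (hI ▸ hvt hv')
  obtain ⟨D, T, Hn, hHn, hlt⟩ := asym J.card h1 v _ _ hgam hlam _ hgrow hcrit
  obtain ⟨w, y, hw, hsum, hdet⟩ := exists_det hr hγ (by omega : 1 ≤ k) c S.H (S.Y Q')
    (fun r z hz => S.good r z (S.sub Q' r hz)) D Hn hHn
  have hdvd := S.ev_dvd hr Q' J v e R hR' D T Hn w hw
  have hfin := S.det_contra Q' (∑ τ ∈ Finset.range T, (Hn - cnt J.card v D τ))
    (fun r => (Matrix.of fun h m => (w h).val (y m r).a (y m r).b).det)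
    ((∑ h, (w h).j : ℕ) : ℝ)
    (by
      filter_upwards [hdet, hdvd] with r r1 r2
      exact ⟨r1.2, r2 (fun m => y m r) r1.1⟩)
    (by
      refine Le.of_le (Le.nat_mul_pow S.hH Hn.factorial _) ?_
      filter_upwards [hdet] with r r1
      exact abs_cast_le_of (det_words_abs_le w (fun m => y m r)
        fun m => S.good r _ (S.sub Q' r (r1.1 m))))
  rw [hQ'card] at hfin
  have hsum' : ((∑ h, (w h).j : ℕ) : ℝ) ≤ _ := Nat.cast_le.2 hsum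
  linarith

end Sys

end Crest.Agent.R22
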