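import Crest.Agent.R22.Val

/-! # Row 22: curves -/

set_option autoImplicit false

open Module MvPowerSeries

namespace Crest.Agent.R22

/-- Recipe: `exists_finset_val` for `V` and `W` (nonempty finsets `s, t`), `s + t ⊆ Val (V W)`,
Cauchy–Davenport in the linearly ordered cancel monoid `Lex (Fin i →₀ ℕ)` or `DegLex _`
(`cauchy_davenport_add_of_linearOrder_isCancelAdd`). -/
theorem finrank_mul_ge {K : Type*} [Field K] {i : ℕ}
    (V W : Submodule K (MvPowerSeries (Fin i) K)) [Module.Finite K V] [Module.Finite K W]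
    (hV : V ≠ ⊥) (hW : W ≠ ⊥) :
    finrank K V + finrank K W ≤ finrank K (V * W : Submodule K _) + 1 := by
  classical
  obtain ⟨s, hs, hs'⟩ := exists_finset_val V
  obtain ⟨t, ht, ht'⟩ := exists_finset_val W
  have := mul_finite V W
  have hV' : 0 < finrank K V := Nat.pos_of_ne_zero fun h => hV (Submodule.finrank_eq_zero.1 h)
  have hW' : 0 < finrank K W := Nat.pos_of_ne_zero fun h => hW (Submodule.finrank_eq_zero.1 h)
  have h1 := cauchy_davenport_add_of_linearOrder_isCancelAdd (α := Lex (Fin i →₀ ℕ))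
    (s := s) (t := t) (Finset.card_pos.1 (hs'.symm ▸ hV')) (Finset.card_pos.1 (ht'.symm ▸ hW'))
  have h2 := card_le_finrank (V * W) (Finset.image₂ (· + ·) s t) fun γ hγ => by
    obtain ⟨α, hα, β, hβ, rfl⟩ := Finset.mem_image₂.1 (Finset.mem_coe.1 hγ)
    exact add_mem_Val_mul (hs hα) (ht hβ)
  have h3 : s.card + t.card - 1 ≤ (Finset.image₂ (· + ·) s t).card := by
    refine h1.trans (Finset.card_le_card fun γ hγ => ?_)
    obtain ⟨α, hα, β, hβ, rfl⟩ := (@Finset.mem_add _ (_) _ _ _ _).1 hγ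
    exact Finset.mem_image₂_of_mem (f := (· + ·)) hα hβ
  omega

theorem v1_pow_ne_bot {K : Type*} [Field K] {i : ℕ}
    (V : Submodule K (MvPowerSeries (Fin i) K)) (hV : V ≠ ⊥) (M : ℕ) : V ^ M ≠ ⊥ := by
  obtain ⟨f, hf, hf0⟩ := (Submodule.ne_bot_iff V).1 hV
  exact (Submodule.ne_bot_iff _).2 ⟨f ^ M, Submodule.pow_mem_pow V hf M, pow_ne_zero _ hf0⟩

theorem finrank_pow_ge {K : Type*} [Field K] {i : ℕ}
    (V : Submodule K (MvPowerSeries (Fin i) K)) [Module.Finite K V] (hV : V ≠ ⊥) (M : ℕ) :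
    M * finrank K V + 1 ≤ finrank K (V ^ M : Submodule K _) + M := by
  have hV' : 0 < finrank K V := Nat.pos_of_ne_zero fun h => hV (Submodule.finrank_eq_zero.1 h)
  induction M with
  | zero =>
    have := pow_finite V 0
    have h : finrank K (V ^ 0 : Submodule K _) ≠ 0 := fun h =>
      v1_pow_ne_bot V hV 0 (Submodule.finrank_eq_zero.1 h)
    omega
  | succ M ih =>
    have := pow_finite V M
    have h := finrank_mul_ge (V ^ M) V (v1_pow_ne_bot V hV M) hV
    rw [pow_succ, add_mul]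
    omega

theorem v1_transc {K : Type*} [Field K] {i : ℕ} {w : MvPowerSeries (Fin i) K} (hw : w ≠ 0)
    (h0 : constantCoeff w = 0) (P : Polynomial K) (hP : Polynomial.aeval w P = 0) : P = 0 := by
  by_contra hP0
  obtain ⟨q, hq0, hq⟩ := IsAlgebraic.exists_nonzero_coeff_and_aeval_eq_zero ⟨P, hP0, hP⟩
    (mem_nonZeroDivisors_of_ne_zero hw)
  obtain ⟨p, hp⟩ := Polynomial.X_dvd_sub_C (p := q)
  have h1 := congrArg (fun r => constantCoeff (Polynomial.aeval w r)) hp
  simp only [map_sub, hq, map_mul, Polynomial.aeval_X, h0, zero_mul, Polynomial.aeval_C, map_zero,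
    zero_sub, neg_eq_zero] at h1
  exact hq0 (by simpa [MvPowerSeries.algebraMap_apply] using h1)

theorem v1_pair {K A : Type*} [Field K] [AddCommGroup A] [Module K A] {u v : A} (hv : v ≠ 0)
    (h : ∀ t : K, u ≠ t • v) : finrank K (Submodule.span K {v, u}) = 2 := by
  have h1 : LinearIndependent K ![v, u] :=
    (LinearIndependent.pair_iff' hv).2 fun t ht => h t ht.symm
  have h2 := finrank_span_eq_card h1
  rwa [Matrix.range_cons_cons_empty, Fintype.card_fin] at h2

/-- Four pairwise non-proportional units in a plane have independent inverses.  Recipe: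
`y 0, y 1` is a basis of the plane `V`, `y a = α a • y 0 + β a • y 1` with
`α a β b - α b β a ≠ 0`.  `V^3` has rank `≥ 4` (`finrank_pow_ge`) and is spanned by the four
cubic monomials in `y 0, y 1`, which are thus independent.  A relation `∑ c a • z a = 0` times
`∏ y` reads `∑ c a • ∏_{b ≠ a} y b = 0`; compare the four coefficients (with `α 0 = β 1 = 1`,
`α 1 = β 0 = 0`) and solve. -/
theorem four_le_finrank_inv {K : Type*} [Field K] {i : ℕ} (y z : Fin 4 → MvPowerSeries (Fin i) K)
    (hinv : ∀ a, y a * z a = 1) (hnp : ∀ a b, a ≠ b → ∀ t : K, y a ≠ t • y b)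
    (h2 : finrank K (sp K y) ≤ 2) : LinearIndependent K z := by
  classical
  have hy : ∀ a, y a ≠ 0 := fun a => left_ne_zero_of_mul_eq_one (hinv a)
  have hz : ∀ a, z a ≠ 0 := fun a => right_ne_zero_of_mul_eq_one (hinv a)
  have := sp_finite (K := K) y
  have hsp : Submodule.span K {y 0, y 1} = sp K y :=
    Submodule.eq_of_le_of_finrank_le (Submodule.span_mono (by
      rintro _ (rfl | rfl) <;> exact ⟨_, rfl⟩)) (by rwa [v1_pair (hy 0) (hnp 1 0 (by decide))])
  obtain ⟨c, hc⟩ : ∃ c, c = constantCoeff (y 1 * z 0) := ⟨_, rfl⟩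
  obtain ⟨w, hw⟩ : ∃ w, w = y 1 * z 0 - c • 1 := ⟨_, rfl⟩
  have hcan : ∀ (a b) (t : K), y a * z 0 = t • (y b * z 0) → y a = t • y b := fun a b t h =>
    mul_right_cancel₀ (hz 0) (by rw [h, smul_mul_assoc])
  have hw0 : w ≠ 0 := fun h => hnp 1 0 (by decide) c (hcan _ _ _ (by
    rw [hinv, ← sub_eq_zero, ← hw, h]))
  have hw1 : constantCoeff w = 0 := by rw [hw, map_sub, ← hc]; simp
  have hlin : ∀ a, ∃ α β : K, y a * z 0 = α • 1 + β • w := fun a => by
    obtain ⟨s, t, h⟩ := Submodule.mem_span_pair.1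
      (hsp ▸ Submodule.subset_span ⟨a, rfl⟩ : y a ∈ Submodule.span K {y 0, y 1})
    refine ⟨s + t * c, t, ?_⟩
    rw [← h, hw, add_mul, smul_mul_assoc, smul_mul_assoc, hinv]
    module
  choose α β hl using hlin
  have hdet : ∀ a b, a ≠ b → α a * β b ≠ α b * β a := fun a b hab h => by
    by_cases hb : β b = 0
    · have hα : α b ≠ 0 := fun h' => mul_ne_zero (hy b) (hz 0) (by rw [hl, hb, h']; simp)
      have ha : β a = 0 := by
        rw [hb, mul_zero] at h
        exact (mul_eq_zero.1 h.symm).resolve_left hα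
      refine hnp a b hab (α a / α b) (hcan _ _ _ ?_)
      rw [hl, hl, ha, hb, smul_add, smul_smul, div_mul_cancel₀ _ hα]
      simp
    · refine hnp a b hab (β a / β b) (hcan _ _ _ ?_)
      rw [hl, hl, smul_add, smul_smul, smul_smul, div_mul_cancel₀ _ hb]
      congr 2
      field_simp
      rw [h]; ring
  rw [Fintype.linearIndependent_iff]
  intro g hg
  let L : Fin 4 → Polynomial K := fun a => Polynomial.C (α a) + Polynomial.C (β a) * Polynomial.X
  have hL : ∀ a, Polynomial.aeval w (L a) = y a * z 0 := fun a => by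
    rw [hl]; simp [L, Algebra.smul_def]
  have hP : ∑ a, g a • ∏ b ∈ Finset.univ.erase a, L b = 0 := by
    refine v1_transc hw0 hw1 _ (mul_left_cancel₀ (hz 0) ?_)
    have h1 := congrArg (· * ∏ b, (y b * z 0)) hg
    simp only [zero_mul, Finset.sum_mul] at h1
    rw [mul_zero, ← h1, map_sum, Finset.mul_sum]
    refine Finset.sum_congr rfl fun a _ => ?_
    rw [map_smul, map_prod, ← Finset.mul_prod_erase _ _ (Finset.mem_univ a)]
    simp only [hL, mul_smul_comm, smul_mul_assoc]
    congr 1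
    linear_combination (-(z 0 * ∏ b ∈ Finset.univ.erase a, (y b * z 0))) * hinv a
  have h1 : ∀ a, β a ≠ 0 → g a = 0 := fun a ha => by
    have h2 := congrArg (Polynomial.eval (-α a / β a)) hP
    rw [Polynomial.eval_finsetSum, Finset.sum_eq_single a, Polynomial.eval_smul,
      Polynomial.eval_prod, Polynomial.eval_zero, smul_eq_mul, mul_eq_zero] at h2
    · refine h2.resolve_right (Finset.prod_ne_zero_iff.2 fun b hb h => ?_)
      refine hdet a b (Finset.ne_of_mem_erase hb).symm ?_
      simp only [L, Polynomial.eval_add, Polynomial.eval_C, Polynomial.eval_mul,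
        Polynomial.eval_X] at h
      field_simp at h
      linear_combination -h
    · intro b _ hb
      rw [Polynomial.eval_smul, Polynomial.eval_prod,
        Finset.prod_eq_zero (Finset.mem_erase.2 ⟨hb.symm, Finset.mem_univ a⟩), smul_zero]
      simp only [L, Polynomial.eval_add, Polynomial.eval_C, Polynomial.eval_mul, Polynomial.eval_X]
      field_simp
      ring
    · simp
  intro a
  by_cases ha : β a = 0
  · rw [Finset.sum_eq_single a] at hg
    · exact (smul_eq_zero.1 hg).resolve_right (hz a)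
    · intro b _ hb
      rw [h1 b fun h => hdet a b hb.symm (by rw [ha, h, mul_zero, mul_zero]), zero_smul]
    · simp
  · exact h1 a ha

theorem v1_ranks {K : Type*} [Field K] {i d : ℕ} (hd : 4 ≤ d)
    (ξ ζ : Fin d → MvPowerSeries (Fin i) K) (hinv : ∀ σ, ξ σ * ζ σ = 1)
    (hnp : ∀ a b, a ≠ b → ∀ t : K, ξ a ≠ t • ξ b) :
    2 ≤ finrank K (sp K ξ) ∧ (finrank K (sp K ξ) ≤ 2 → 4 ≤ finrank K (sp K ζ)) := by
  have := sp_finite (K := K) ξ
  have := sp_finite (K := K) ζ
  have hsub : ∀ x : Fin d → MvPowerSeries (Fin i) K, sp K (x ∘ Fin.castLE hd) ≤ sp K x := fun x =>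
    Submodule.span_mono (Set.range_comp_subset_range _ _)
  refine ⟨?_, fun h => ?_⟩
  · rw [← v1_pair (left_ne_zero_of_mul_eq_one (hinv ⟨0, by omega⟩))
      (hnp ⟨1, by omega⟩ ⟨0, by omega⟩ (by simp))]
    exact Submodule.finrank_mono (Submodule.span_mono (by rintro _ (rfl | rfl) <;> exact ⟨_, rfl⟩))
  · have h1 := four_le_finrank_inv (ξ ∘ Fin.castLE hd) (ζ ∘ Fin.castLE hd) (fun a => hinv _)
      (fun a b hab => hnp _ _ fun h => hab (Fin.castLE_injective hd h))
      ((Submodule.finrank_mono (hsub ξ)).trans h)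
    have h2 := finrank_span_eq_card h1
    rw [Fintype.card_fin] at h2
    exact h2.ge.trans (Submodule.finrank_mono (hsub ζ))

/-- Recipe: `NoBinom` with `e = Pi.single a 1`, `e' = Pi.single b 1` gives pairwise
non-proportionality of the `ξ`, hence of the `ζ`; so both spans have rank `≥ 2`, and if one has
rank `2` the other has rank `≥ 4` (use the first four indices `Fin.castLE`).  So the ranks add up
to `≥ 6`; `finrank_pow_ge`, `finrank_mul_ge`. -/
theorem LM_lower_one {K : Type*} [Field K] {i d : ℕ} (hd : 4 ≤ d)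
    (ξ ζ : Fin d → MvPowerSeries (Fin i) K) (hinv : ∀ σ, ξ σ * ζ σ = 1) (hB : NoBinom ξ)
    (M : ℕ) : 4 * M ≤ finrank K (LM K ξ ζ M) := by
  classical
  have hs : ∀ a, ∏ σ, ξ σ ^ (Pi.single a 1 : Fin d → ℕ) σ = ξ a := fun a => by
    rw [Finset.prod_eq_single a (fun b _ hb => by simp [hb]) (by simp)]; simp
  have hnp : ∀ a b, a ≠ b → ∀ t : K, ξ a ≠ t • ξ b := fun a b hab t => by
    have := hB (Pi.single a 1) (Pi.single b 1)
      (fun h => by simpa [hab] using congrFun h a) (by simp) t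
    rwa [hs, hs] at this
  have hnp' : ∀ a b, a ≠ b → ∀ t : K, ζ a ≠ t • ζ b := fun a b hab t h => by
    refine hnp b a hab.symm t ?_
    have h1 := hinv a
    rw [h, mul_smul_comm] at h1
    calc ξ b = ξ b * (t • (ξ a * ζ b)) := by rw [h1, mul_one]
      _ = t • (ξ a * (ξ b * ζ b)) := by rw [mul_smul_comm, mul_left_comm]
      _ = _ := by rw [hinv, mul_one]
  obtain ⟨h1, h2⟩ := v1_ranks hd ξ ζ hinv hnp
  obtain ⟨h3, h4⟩ := v1_ranks hd ζ ξ (fun σ => by rw [mul_comm, hinv]) hnp'
  have := sp_finite (K := K) ξ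
  have := sp_finite (K := K) ζ
  have := pow_finite (sp K ξ) M
  have := pow_finite (sp K ζ) M
  have hξ : sp K ξ ≠ ⊥ := fun h => by rw [h, finrank_bot] at h1; omega
  have hζ : sp K ζ ≠ ⊥ := fun h => by rw [h, finrank_bot] at h3; omega
  have h5 := finrank_pow_ge (sp K ξ) hξ M
  have h6 := finrank_pow_ge (sp K ζ) hζ M
  have h7 := finrank_mul_ge _ _ (v1_pow_ne_bot _ hξ M) (v1_pow_ne_bot _ hζ M)
  have h8 : M * 6 ≤ M * finrank K (sp K ξ) + M * finrank K (sp K ζ) := by
    rw [← mul_add]; exact Nat.mul_le_mul_left _ (by omega)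
  unfold LM
  omega

end Crest.Agent.R22
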