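import Crest.Agent.R22.Val

/-! # Row 22: Laurent monomials in algebraically independent units -/

set_option autoImplicit false

open Module MvPowerSeries

namespace Crest.Agent.R22

/-- the pair attached to a sign pattern `L` and the coordinates on `L` and off `L` -/
def V3_pair {i : ℕ} (x : Σ L : Finset (Fin i), ({j // j ∈ L} → ℕ) × ({j // j ∉ L} → ℕ)) :
    (Fin i → ℕ) × (Fin i → ℕ) :=
  (fun j => if h : j ∈ x.1 then x.2.1 ⟨j, h⟩ + 1 else 0,
    fun j => if h : j ∈ x.1 then 0 else x.2.2 ⟨j, h⟩)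

theorem V3_pair_inj {i : ℕ} : Function.Injective (V3_pair (i := i)) := by
  rintro ⟨L, a, b⟩ ⟨L', a', b'⟩ h
  have h1 := congrArg Prod.fst h
  have h2 := congrArg Prod.snd h
  have hL : L = L' := by
    ext j
    have := congrFun h1 j
    simp only [V3_pair] at this
    by_cases hj : j ∈ L <;> by_cases hj' : j ∈ L' <;> simp [hj, hj'] at this ⊢
  subst hL
  have ha : a = a' := by
    funext j
    have := congrFun h1 j.1
    simpa [V3_pair, j.2] using this
  have hb : b = b' := by
    funext j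
    have := congrFun h2 j.1
    simpa [V3_pair, j.2] using this
  rw [ha, hb]

theorem V3_sum (i : ℕ) : ∑ L : Finset (Fin i),
    (1 : ℝ) / ((L.card.factorial : ℝ) * ((i - L.card).factorial : ℝ)) =
    ((2 * i).choose i : ℝ) / (i.factorial : ℝ) := by
  have h := Finset.sum_powerset_apply_card (x := (Finset.univ : Finset (Fin i)))
    fun l => (1 : ℝ) / ((l.factorial : ℝ) * ((i - l).factorial : ℝ))
  rw [Finset.powerset_univ, Finset.card_univ, Fintype.card_fin] at h
  rw [h, ← Nat.sum_range_choose_sq]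
  push_cast
  rw [Finset.sum_div]
  refine Finset.sum_congr rfl fun l hl => ?_
  have hl' : l ≤ i := Nat.lt_succ_iff.1 (Finset.mem_range.1 hl)
  have h1 : ((i.choose l : ℝ) * (l.factorial : ℝ) * ((i - l).factorial : ℝ)) = i.factorial := by
    exact_mod_cast Nat.choose_mul_factorial_mul_factorial hl'
  have h2 : (0 : ℝ) < i.choose l := by exact_mod_cast Nat.choose_pos hl'
  rw [nsmul_eq_mul, ← h1]
  field_simp

theorem V3_split {i : ℕ} (L : Finset (Fin i)) (f : Fin i → ℕ) :
    ∑ j, f j = ∑ j : {j // j ∈ L}, f j + ∑ j : {j // j ∉ L}, f j := by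
  convert (Fintype.sum_subtype_add_sum_subtype (· ∈ L) f).symm

/-- Lattice points of `M (Δ - Δ)`: pairs `(α, β)` with disjoint supports and `|α|, |β| ≤ M`.
Recipe: for `L : Finset (Fin i)` take `α j = 1 + α' j` on `L` (`α' ∈ simplex L (M - i)`), `0` off
`L`, and `β ∈ simplex Lᶜ (M - i)` extended by `0`; `L = {j | α j ≠ 0}` is determined by the pair.
`card_simplex`, `pow_div_factorial_le_choose`, `Finset.sum_powerset`/`card_powersetCard`,
`Nat.sum_range_choose_sq`: `∑_L 1/(l! (i-l)!) = (2i).choose i / i!`. -/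
theorem exists_lattice (i M : ℕ) (hM : i ≤ M) : ∃ s : Finset ((Fin i → ℕ) × (Fin i → ℕ)),
    (∀ p ∈ s, ∑ j, p.1 j ≤ M ∧ ∑ j, p.2 j ≤ M ∧ ∀ j, p.1 j = 0 ∨ p.2 j = 0) ∧
      ((2 * i).choose i : ℝ) / (i.factorial : ℝ) * ((M : ℝ) - i) ^ i ≤ s.card := by
  refine ⟨((Finset.univ : Finset (Finset (Fin i))).sigma fun L =>
    simplex {j // j ∈ L} (M - i) ×ˢ simplex {j // j ∉ L} (M - i)).image V3_pair, ?_, ?_⟩
  · intro p hp
    obtain ⟨⟨L, a, b⟩, hx, rfl⟩ := Finset.mem_image.1 hp
    obtain ⟨ha, hb⟩ := Finset.mem_product.1 (Finset.mem_sigma.1 hx).2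
    have ha' : ∑ j, a j ≤ M - i := mem_simplex.1 ha
    have hb' : ∑ j, b j ≤ M - i := mem_simplex.1 hb
    have hL : L.card ≤ i := by simpa using Finset.card_le_univ L
    refine ⟨?_, ?_, fun j => ?_⟩
    · rw [V3_split L]
      have e1 : ∑ j : {j // j ∈ L}, (V3_pair ⟨L, a, b⟩).1 j = ∑ j, (a j + 1) :=
        Finset.sum_congr rfl fun j _ => by simp [V3_pair, j.2]
      have e2 : ∑ j : {j // j ∉ L}, (V3_pair ⟨L, a, b⟩).1 j = 0 :=
        Finset.sum_eq_zero fun j _ => by simp [V3_pair, j.2]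
      rw [e1, e2, Finset.sum_add_distrib]
      simp only [Finset.sum_const, Finset.card_univ, Fintype.card_coe, smul_eq_mul, mul_one]
      omega
    · rw [V3_split L]
      have e1 : ∑ j : {j // j ∈ L}, (V3_pair ⟨L, a, b⟩).2 j = 0 :=
        Finset.sum_eq_zero fun j _ => by simp [V3_pair, j.2]
      have e2 : ∑ j : {j // j ∉ L}, (V3_pair ⟨L, a, b⟩).2 j = ∑ j, b j :=
        Finset.sum_congr rfl fun j _ => by simp [V3_pair, j.2]
      rw [e1, e2]
      omega
    · by_cases hj : j ∈ L <;> simp [V3_pair, hj]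
  · rw [Finset.card_image_of_injective _ V3_pair_inj, Finset.card_sigma, ← V3_sum,
      Finset.sum_mul]
    push_cast
    refine Finset.sum_le_sum fun L _ => ?_
    have hL : L.card ≤ i := by simpa using Finset.card_le_univ L
    have hc : Fintype.card {j // j ∉ L} = i - L.card := by
      rw [Fintype.card_subtype_compl, Fintype.card_fin, Fintype.card_coe]
    rw [Finset.card_product, card_simplex, card_simplex, hc, Fintype.card_coe]
    push_cast
    have h1 := pow_div_factorial_le_choose (M - i) L.card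
    have h2 := pow_div_factorial_le_choose (M - i) (i - L.card)
    refine le_trans (le_of_eq ?_) (mul_le_mul h1 h2 (by positivity) (by positivity))
    rw [div_mul_div_comm, ← pow_add, Nat.add_sub_cancel' hL, Nat.cast_sub hM]
    ring

/-- Laurent monomials: independence after multiplication by `(∏ ξ)^M`.  For `t ∈ s` the element
`∏ ξ^(α t) * ∏ ζ^(β t)` lies in `LM`; multiplied by the unit `∏ a, ξ a ^ M` it becomes the
monomial with exponent `M + α t - β t`. -/
theorem card_le_finrank_LM {K A : Type*} [Field K] [CommRing A] [Algebra K A] {d : ℕ}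
    (ξ ζ : Fin d → A) (hinv : ∀ a, ξ a * ζ a = 1) (M : ℕ) {T : Type*} [Fintype T]
    (α β : T → Fin d → ℕ) (hα : ∀ t, ∑ a, α t a = M) (hβ : ∀ t, ∑ a, β t a = M)
    (hli : LinearIndependent K fun t => ∏ a, ξ a ^ (M - β t a + α t a)) :
    Fintype.card T ≤ finrank K (LM K ξ ζ M) := by
  have hmem : ∀ t, (∏ a, ξ a ^ α t a) * ∏ a, ζ a ^ β t a ∈ LM K ξ ζ M := fun t => by
    have h1 := prod_pow_mem_sp_pow (K := K) ξ (α t)
    have h2 := prod_pow_mem_sp_pow (K := K) ζ (β t)
    rw [hα] at h1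
    rw [hβ] at h2
    exact Submodule.mul_mem_mul h1 h2
  have hli' : LinearIndependent K fun t => (∏ a, ξ a ^ α t a) * ∏ a, ζ a ^ β t a := by
    refine LinearIndependent.of_comp (LinearMap.mulLeft K (∏ a, ξ a ^ M)) ?_
    suffices e : (LinearMap.mulLeft K (∏ a, ξ a ^ M)) ∘
        (fun t => (∏ a, ξ a ^ α t a) * ∏ a, ζ a ^ β t a) =
        fun t => ∏ a, ξ a ^ (M - β t a + α t a) by
      rw [e]
      exact hli
    funext t
    simp only [Function.comp, LinearMap.mulLeft_apply, ← Finset.prod_mul_distrib]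
    refine Finset.prod_congr rfl fun a _ => ?_
    have hle : β t a ≤ M := by
      rw [← hβ t]
      exact Finset.single_le_sum (f := β t) (fun _ _ => Nat.zero_le _) (Finset.mem_univ a)
    obtain ⟨c, hc⟩ := Nat.exists_eq_add_of_le hle
    rw [hc, Nat.add_sub_cancel_left]
    calc ξ a ^ (β t a + c) * (ξ a ^ α t a * ζ a ^ β t a)
        = (ξ a * ζ a) ^ β t a * ξ a ^ (c + α t a) := by ring
      _ = _ := by rw [hinv, one_pow, one_mul]
  have := LM_finite (K := K) ξ ζ M
  have h4 : LinearIndependent K fun t => (⟨_, hmem t⟩ : LM K ξ ζ M) :=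
    LinearIndependent.of_comp (LM K ξ ζ M).subtype hli'
  exact h4.fintype_card_le_finrank

/-- Recipe: `exists_sub_full`, `LM_comp_le`; pad `(α, β)` from `exists_lattice` with
`Fin.cons (M - |α|) α`, `Fin.cons (M - |β|) β`; the exponents `M - β + α` have total degree
`(i+1) M` and are distinct; `monomials_li`, `LinearIndependent.comp`. -/
theorem LM_lower_gen {K : Type*} [Field K] {i d : ℕ} (ξ ζ : Fin d → MvPowerSeries (Fin i) K)
    (hJ : Jets ξ ζ) (M : ℕ) (hM : i ≤ M) :
    ((2 * i).choose i : ℝ) / (i.factorial : ℝ) * ((M : ℝ) - i) ^ i ≤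
      finrank K (LM K ξ ζ M) := by
  obtain ⟨ε, hε⟩ := exists_sub_full ξ hJ.full
  obtain ⟨s, hs, hcard⟩ := exists_lattice i M hM
  refine hcard.trans ?_
  have := LM_finite (K := K) ξ ζ M
  have h1 := Submodule.finrank_mono (LM_comp_le (K := K) ε ξ ζ M)
  obtain ⟨α, hα⟩ : ∃ α : s → Fin (i + 1) → ℕ,
      ∀ t, α t = Fin.cons (M - ∑ j, t.1.1 j) t.1.1 := ⟨_, fun _ => rfl⟩
  obtain ⟨β, hβ⟩ : ∃ β : s → Fin (i + 1) → ℕ,
      ∀ t, β t = Fin.cons (M - ∑ j, t.1.2 j) t.1.2 := ⟨_, fun _ => rfl⟩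
  have hα1 : ∀ t, ∑ a, α t a = M := fun t => by
    have := (hs t.1 t.2).1
    rw [hα, Fin.sum_univ_succ]
    simp only [Fin.cons_zero, Fin.cons_succ]
    omega
  have hβ1 : ∀ t, ∑ a, β t a = M := fun t => by
    have := (hs t.1 t.2).2.1
    rw [hβ, Fin.sum_univ_succ]
    simp only [Fin.cons_zero, Fin.cons_succ]
    omega
  have hle : ∀ t a, β t a ≤ M := fun t a => by
    rw [← hβ1 t]
    exact Finset.single_le_sum (f := β t) (fun _ _ => Nat.zero_le _) (Finset.mem_univ a)
  have hmem : ∀ t, (fun a => M - β t a + α t a) ∈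
      Finset.piAntidiag (Finset.univ : Finset (Fin (i + 1))) ((i + 1) * M) := fun t => by
    have e : ∑ a, (M - β t a) + ∑ a, β t a = (i + 1) * M := by
      rw [← Finset.sum_add_distrib, Finset.sum_congr rfl fun a _ => Nat.sub_add_cancel (hle t a)]
      simp
    rw [Finset.mem_piAntidiag]
    refine ⟨?_, fun _ _ => Finset.mem_univ _⟩
    rw [Finset.sum_add_distrib, hα1]
    rw [hβ1] at e
    exact e
  have hinj : Function.Injective fun t : s => (⟨_, hmem t⟩ :
      Finset.piAntidiag (Finset.univ : Finset (Fin (i + 1))) ((i + 1) * M)) := by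
    intro t t' h
    have h2 : ∀ j, t.1.1 j = t'.1.1 j ∧ t.1.2 j = t'.1.2 j := fun j => by
      have e := congrFun (congrArg Subtype.val h) j.succ
      have e1 := hle t j.succ
      have e2 := hle t' j.succ
      have e3 := (hs t.1 t.2).2.2 j
      have e4 := (hs t'.1 t'.2).2.2 j
      simp only [hα, hβ, Fin.cons_succ] at e e1 e2
      omega
    exact Subtype.ext (Prod.ext (funext fun j => (h2 j).1) (funext fun j => (h2 j).2))
  have h2 := (monomials_li (ξ ∘ ε) hε ((i + 1) * M)).comp _ hinj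
  have h2' : LinearIndependent K fun t : s => ∏ a, (ξ ∘ ε) a ^ (M - β t a + α t a) := by
    simpa only [Function.comp_def] using h2
  have h3 := card_le_finrank_LM (K := K) (ξ ∘ ε) (ζ ∘ ε) (fun a => hJ.inv (ε a)) M α β hα1 hβ1 h2'
  rw [Fintype.card_coe] at h3
  exact_mod_cast h3.trans h1

end Crest.Agent.R22
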