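import Crest.Agent.R22.Count
import Crest.Agent.R22.LevAlg

/-! # Row 22: leading exponents of power series -/

set_option autoImplicit false

open Module MvPowerSeries

namespace Crest.Agent.R22

variable {K : Type*} [Field K] {i : ℕ}

/-- `Finsupp.DegLex.wellFoundedLT`. -/
theorem exists_isLead (f : MvPowerSeries (Fin i) K) (hf : f ≠ 0) : ∃ α, IsLead f α := by
  obtain ⟨a, ha, hmin⟩ := (wellFounded_lt (α := DegLex (Fin i →₀ ℕ))).has_min
    {a | coeff (ofDegLex a) f ≠ 0} (by
      by_contra h
      refine hf (MvPowerSeries.ext fun α => ?_)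
      by_contra hα
      exact h ⟨toDegLex α, by simpa using hα⟩)
  refine ⟨ofDegLex a, ha, fun β hβ => ?_⟩
  by_contra h
  exact hmin (toDegLex β) h hβ

theorem IsLead.ne_zero {f : MvPowerSeries (Fin i) K} {α : Fin i →₀ ℕ} (h : IsLead f α) :
    f ≠ 0 := by
  rintro rfl
  exact h.1 (map_zero _)

/-- Recipe: `MvPowerSeries.coeff_mul`; in the antidiagonal of `γ` with `toDegLex γ ≤ toDegLex (α+β)`
a pair `(α', β')` has `α' < α` or `β' < β` or equals `(α, β)` (`DegLex` is an ordered cancel
additive monoid, `toDegLex_add`). -/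
theorem IsLead.mul {f g : MvPowerSeries (Fin i) K} {α β : Fin i →₀ ℕ} (hf : IsLead f α)
    (hg : IsLead g β) : IsLead (f * g) (α + β) := by
  classical
  have key : ∀ p : (Fin i →₀ ℕ) × (Fin i →₀ ℕ), toDegLex (p.1 + p.2) ≤ toDegLex (α + β) →
      p ≠ (α, β) → coeff p.1 f * coeff p.2 g = 0 := by
    intro p hγ hne
    by_contra h0
    have h1 : toDegLex α ≤ toDegLex p.1 :=
      not_lt.1 fun h => left_ne_zero_of_mul h0 (hf.2 _ h)
    have h2 : toDegLex β ≤ toDegLex p.2 :=
      not_lt.1 fun h => right_ne_zero_of_mul h0 (hg.2 _ h)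
    rw [toDegLex_add, toDegLex_add] at hγ
    rcases h1.eq_or_lt with h1 | h1
    · rcases h2.eq_or_lt with h2 | h2
      · exact hne (Prod.ext (toDegLex_inj.1 h1).symm (toDegLex_inj.1 h2).symm)
      · exact absurd hγ (not_le.2 (add_lt_add_of_le_of_lt h1.le h2))
    · exact absurd hγ (not_le.2 (add_lt_add_of_lt_of_le h1 h2))
  refine ⟨?_, fun γ hγ => ?_⟩
  · rw [coeff_mul, Finset.sum_eq_single (α, β)]
    · exact mul_ne_zero hf.1 hg.1
    · intro p hp hne
      rw [Finset.HasAntidiagonal.mem_antidiagonal] at hp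
      exact key p (by rw [hp]) hne
    · intro h
      simp at h
  · rw [coeff_mul]
    refine Finset.sum_eq_zero fun p hp => ?_
    rw [Finset.HasAntidiagonal.mem_antidiagonal] at hp
    subst hp
    refine key p hγ.le ?_
    rintro rfl
    exact lt_irrefl _ hγ

theorem isLead_one : IsLead (1 : MvPowerSeries (Fin i) K) 0 := by
  refine ⟨by simp, fun β hβ => ?_⟩
  exact absurd hβ (not_lt.2 (bot_le (a := toDegLex β)))

theorem isLead_X (j : Fin i) : IsLead (X j : MvPowerSeries (Fin i) K) (Finsupp.single j 1) := by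
  classical
  refine ⟨by simp [coeff_X], fun β hβ => ?_⟩
  rw [coeff_X, if_neg]
  rintro rfl
  exact lt_irrefl _ hβ

theorem IsLead.pow {f : MvPowerSeries (Fin i) K} {α : Fin i →₀ ℕ} (hf : IsLead f α) (n : ℕ) :
    IsLead (f ^ n) (n • α) := by
  induction n with
  | zero => simpa using isLead_one
  | succ n ih => rw [pow_succ, succ_nsmul]; exact ih.mul hf

/-- A triangular family is linearly independent. -/
theorem val_tri_li {T V L : Type*} [AddCommGroup V] [Module K V] [LinearOrder L] (v : T → V)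
    (φ : T → V →ₗ[K] K) (α : T → L) (hα : Function.Injective α) (h1 : ∀ t, φ t (v t) ≠ 0)
    (h2 : ∀ t t', α t < α t' → φ t (v t') = 0) : LinearIndependent K v := by
  classical
  rw [linearIndependent_iff']
  intro s g hg
  by_contra hne
  push Not at hne
  obtain ⟨t₁, ht₁, hg₁⟩ := hne
  obtain ⟨t, ht, hmin⟩ := Finset.exists_min_image (s.filter fun t => g t ≠ 0) α
    ⟨t₁, Finset.mem_filter.2 ⟨ht₁, hg₁⟩⟩
  obtain ⟨hts, hgt⟩ := Finset.mem_filter.1 ht
  have h3 := congrArg (φ t) hg
  rw [map_sum, map_zero, Finset.sum_eq_single t] at h3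
  · rw [map_smul, smul_eq_mul] at h3
    exact mul_ne_zero hgt (h1 t) h3
  · intro t' ht' hne
    rw [map_smul, smul_eq_mul]
    by_cases h0 : g t' = 0
    · rw [h0, zero_mul]
    · rw [h2 t t' (lt_of_le_of_ne (hmin t' (Finset.mem_filter.2 ⟨ht', h0⟩))
        fun h => hne (hα h).symm), mul_zero]
  · exact fun h => absurd hts h

/-- Take the smallest exponent among the terms with nonzero coefficient. -/
theorem linearIndependent_of_isLead {T : Type*} (f : T → MvPowerSeries (Fin i) K)
    (α : T → Fin i →₀ ℕ) (hα : Function.Injective α) (h : ∀ t, IsLead (f t) (α t)) :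
    LinearIndependent K f := by
  exact val_tri_li f (fun t => coeff (α t)) (fun t => toDegLex (α t))
    (toDegLex_injective.comp hα) (fun t => (h t).1) fun t t' htt => (h t').2 _ htt

theorem card_le_finrank (U : Submodule K (MvPowerSeries (Fin i) K)) [Module.Finite K U]
    (s : Finset (Fin i →₀ ℕ)) (hs : (s : Set (Fin i →₀ ℕ)) ⊆ Val U) : s.card ≤ finrank K U := by
  choose f hf using fun a : s => hs a.2
  have h1 := linearIndependent_of_isLead f (fun a => a.1) Subtype.val_injective fun a => (hf a).2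
  have h2 : LinearIndependent K fun a : s => (⟨f a, (hf a).1⟩ : U) :=
    LinearIndependent.of_comp U.subtype h1
  simpa using h2.fintype_card_le_finrank

/-- Recipe: induction on `finrank K U`: let `α` be the smallest element of `Val U`,
`U' = U ⊓ ker (coeff α)` has rank one less and `α ∉ Val U'`. -/
theorem exists_finset_val (U : Submodule K (MvPowerSeries (Fin i) K)) [Module.Finite K U] :
    ∃ s : Finset (Fin i →₀ ℕ), (s : Set (Fin i →₀ ℕ)) ⊆ Val U ∧ s.card = finrank K U := by
  have hfin : (Val U).Finite := by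
    by_contra h
    obtain ⟨t, ht, hc⟩ := Set.Infinite.exists_subset_card_eq h (finrank K U + 1)
    have := card_le_finrank U t ht
    omega
  refine ⟨hfin.toFinset, by simp, le_antisymm (card_le_finrank U _ (by simp)) ?_⟩
  let φ : U →ₗ[K] (hfin.toFinset → K) := LinearMap.pi fun a => coeff a.1 ∘ₗ U.subtype
  have hφ : Function.Injective φ := by
    rw [injective_iff_map_eq_zero]
    intro f hf
    by_contra h0
    obtain ⟨α, hα⟩ := exists_isLead f.1 fun h => h0 (Subtype.ext h)
    exact hα.1 (congrFun hf ⟨α, hfin.mem_toFinset.2 ⟨f.1, f.2, hα⟩⟩)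
  simpa using LinearMap.finrank_le_finrank_of_injective hφ

theorem Val_mono {U V : Submodule K (MvPowerSeries (Fin i) K)} (h : U ≤ V) : Val U ⊆ Val V := by
  rintro α ⟨f, hf, hα⟩
  exact ⟨f, h hf, hα⟩

theorem add_mem_Val_mul {U V : Submodule K (MvPowerSeries (Fin i) K)} {α β : Fin i →₀ ℕ}
    (hα : α ∈ Val U) (hβ : β ∈ Val V) : α + β ∈ Val (U * V) := by
  obtain ⟨f, hf, hα⟩ := hα
  obtain ⟨g, hg, hβ⟩ := hβ
  exact ⟨f * g, Submodule.mul_mem_mul hf hg, hα.mul hβ⟩

theorem nsmul_mem_Val_pow {U : Submodule K (MvPowerSeries (Fin i) K)} {α : Fin i →₀ ℕ}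
    (hα : α ∈ Val U) (n : ℕ) : n • α ∈ Val (U ^ n) := by
  obtain ⟨f, hf, hα⟩ := hα
  exact ⟨f ^ n, Submodule.pow_mem_pow _ hf n, hα.pow n⟩

theorem Full.mono {U V : Submodule K (MvPowerSeries (Fin i) K)} {m : ℕ} (h : Full U m)
    (hUV : U ≤ V) : Full V m := by
  exact fun α hα => Val_mono hUV (h α hα)

/-- An exponent of degree `≤ m + m'` splits (`Finsupp.exists_le_degree_eq` or induction). -/
theorem Full.mul {U V : Submodule K (MvPowerSeries (Fin i) K)} {m m' : ℕ} (h : Full U m)
    (h' : Full V m') : Full (U * V) (m + m') := by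
  intro α hα
  by_cases h1 : α.degree ≤ m
  · have := add_mem_Val_mul (h α h1) (h' 0 (by simp))
    rwa [add_zero] at this
  · obtain ⟨β, hβ, hm⟩ := Finsupp.exists_le_degree_eq α m (not_le.1 h1).le
    obtain ⟨γ, rfl⟩ := le_iff_exists_add.1 hβ
    rw [map_add] at hα
    exact add_mem_Val_mul (h β hm.le) (h' γ (by omega))

theorem Full.pow {U : Submodule K (MvPowerSeries (Fin i) K)} {m : ℕ} (h : Full U m) (n : ℕ) :
    Full (U ^ n) (n * m) := by
  induction n with
  | zero =>
    intro α hα
    have : α = 0 := (Finsupp.degree_eq_zero_iff α).1 (by omega)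
    subst this
    exact ⟨1, by rw [pow_zero]; exact Submodule.one_le.1 le_rfl, isLead_one⟩
  | succ n ih => rw [pow_succ, Nat.succ_mul]; exact ih.mul h

theorem Jets.full {d : ℕ} {ξ ζ : Fin d → MvPowerSeries (Fin i) K} (h : Jets ξ ζ) :
    Full (sp K ξ) 1 := by
  intro α hα
  rcases Nat.le_one_iff_eq_zero_or_eq_one.1 hα with h0 | h1
  · rw [(Finsupp.degree_eq_zero_iff α).1 h0]
    exact ⟨1, h.one, isLead_one⟩
  · have : α ∈ Set.range fun a : Fin i => Finsupp.single a 1 := by
      rw [Finsupp.range_single_one]; exact h1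
    obtain ⟨j, rfl⟩ := this
    exact ⟨X j, h.hX j, isLead_X j⟩

theorem Full.choose_le_finrank {U : Submodule K (MvPowerSeries (Fin i) K)} [Module.Finite K U]
    {m : ℕ} (h : Full U m) : (m + i).choose i ≤ finrank K U := by
  rw [← card_degLE]
  exact card_le_finrank U _ fun α hα => h α (mem_degLE.1 hα)

/-- The `m`-jet. -/
noncomputable def jet (K : Type*) [Field K] (i m : ℕ) :
    MvPowerSeries (Fin i) K →ₗ[K] (degLE i m → K) :=
  LinearMap.pi fun α => coeff α.1

/-- Recipe: `←`: a preimage of `Pi.single α 1` has leading exponent `α`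
(`DegLex.monotone_degree`).  `→`: the jets of elements with leading exponents `α ∈ degLE i m`
are independent (triangular) and there are `finrank` many of them. -/
theorem full_iff_jet (U : Submodule K (MvPowerSeries (Fin i) K)) (m : ℕ) :
    Full U m ↔ U.map (jet K i m) = ⊤ := by
  classical
  constructor
  · intro h
    choose f hf using fun a : degLE i m => h a.1 (mem_degLE.1 a.2)
    have h1 : LinearIndependent K fun a => jet K i m (f a) :=
      val_tri_li _ (fun a => LinearMap.proj a) (fun a => toDegLex a.1)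
        (toDegLex_injective.comp Subtype.val_injective) (fun a => (hf a).2.1)
        fun a a' haa => (hf a').2.2 _ haa
    rw [eq_top_iff, ← h1.span_eq_top_of_card_eq_finrank' (by simp), Submodule.span_le]
    rintro _ ⟨a, rfl⟩
    exact Submodule.mem_map_of_mem (hf a).1
  · intro h α hα
    have h1 : (Pi.single ⟨α, mem_degLE.2 hα⟩ 1 : degLE i m → K) ∈ U.map (jet K i m) := by
      rw [h]; trivial
    obtain ⟨f, hf, hfe⟩ := h1
    refine ⟨f, hf, ?_, fun β hβ => ?_⟩
    · have := congrFun hfe ⟨α, mem_degLE.2 hα⟩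
      rw [Pi.single_eq_same] at this
      exact fun h0 => one_ne_zero (this.symm.trans h0)
    · have h2 : β.degree ≤ m := (Finsupp.DegLex.monotone_degree hβ.le).trans hα
      have := congrFun hfe ⟨β, mem_degLE.2 h2⟩
      rw [Pi.single_eq_of_ne] at this
      · exact this
      · intro h3
        rw [Subtype.mk.inj h3] at hβ
        exact lt_irrefl _ hβ

/-- Dual form (`Submodule.exists_dual_forall_apply_eq_zero`-type lemma, `Module.Dual` of a
finite product). -/
theorem full_of_dual (U : Submodule K (MvPowerSeries (Fin i) K)) (m : ℕ)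
    (h : ∀ lam : (Fin i →₀ ℕ) → K, (∀ f ∈ U, ∑ α ∈ degLE i m, lam α * coeff α f = 0) →
      ∀ α ∈ degLE i m, lam α = 0) : Full U m := by
  classical
  rw [full_iff_jet]
  by_contra hne
  obtain ⟨φ, hφ, hle⟩ := Submodule.exists_le_ker_of_lt_top _ (lt_top_iff_ne_top.2 hne)
  let lam : (Fin i →₀ ℕ) → K := fun α =>
    if hα : α ∈ degLE i m then φ fun b => if (⟨α, hα⟩ : degLE i m) = b then 1 else 0 else 0
  have hlam : ∀ a : degLE i m, lam a.1 = φ fun b => if a = b then 1 else 0 := fun a =>
    dif_pos a.2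
  have h1 := h lam fun f hf => by
    have h2 : φ (jet K i m f) = 0 := hle (Submodule.mem_map_of_mem hf)
    rw [LinearMap.pi_apply_eq_sum_univ] at h2
    rw [← h2, ← Finset.sum_coe_sort]
    refine Finset.sum_congr rfl fun a _ => ?_
    rw [hlam, smul_eq_mul, mul_comm]
    rfl
  refine hφ (LinearMap.ext fun x => ?_)
  rw [LinearMap.pi_apply_eq_sum_univ]
  refine Finset.sum_eq_zero fun a _ => ?_
  rw [← hlam, h1 _ a.2, smul_zero]

/-- Recipe: the degree-`m` monomials span `sp K ξ ^ m` (`sp_pow_eq_span_monomials`), which is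
`Full _ m`, so has rank `≥ (m+i).choose i = card (piAntidiag univ m)`;
`linearIndependent_iff_card_le_finrank_span`. -/
theorem monomials_li (ξ : Fin (i + 1) → MvPowerSeries (Fin i) K) (h : Full (sp K ξ) 1) (m : ℕ) :
    LinearIndependent K fun e : Finset.piAntidiag (Finset.univ : Finset (Fin (i + 1))) m =>
      ∏ a, ξ a ^ e.1 a := by
  have h1 : sp K ξ ^ m = Submodule.span K (Set.range
      fun e : Finset.piAntidiag (Finset.univ : Finset (Fin (i + 1))) m => ∏ a, ξ a ^ e.1 a) := by
    rw [sp_pow_eq_span_monomials]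
    congr 1
    ext f
    constructor
    · rintro ⟨e, he, rfl⟩
      exact ⟨⟨e, Finset.mem_piAntidiag.2 ⟨he, fun _ _ => Finset.mem_univ _⟩⟩, rfl⟩
    · rintro ⟨e, rfl⟩
      exact ⟨e.1, (Finset.mem_piAntidiag.1 e.2).1, rfl⟩
  have := sp_finite (K := K) ξ
  have := pow_finite (sp K ξ) m
  have h2 := (h.pow m).choose_le_finrank
  rw [h1, mul_one] at h2
  rw [linearIndependent_iff_card_le_finrank_span, Fintype.card_coe,
    card_piAntidiag_univ (Fintype.card_fin _)]
  exact h2

theorem eq_zero_of_homog (ξ : Fin (i + 1) → MvPowerSeries (Fin i) K) (h : Full (sp K ξ) 1)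
    (P : MvPolynomial (Fin (i + 1)) K) (m : ℕ) (hP : P.IsHomogeneous m)
    (h0 : MvPolynomial.aeval ξ P = 0) : P = 0 := by
  have hmem : ∀ e : P.support, (⇑e.1 : Fin (i + 1) → ℕ) ∈
      Finset.piAntidiag (Finset.univ : Finset (Fin (i + 1))) m := fun e => by
    refine Finset.mem_piAntidiag.2 ⟨?_, fun _ _ => Finset.mem_univ _⟩
    by_contra hne
    refine MvPolynomial.mem_support_iff.1 e.2 (hP.coeff_eq_zero ?_)
    rwa [Finsupp.degree_eq_sum]
  have h1 := (monomials_li ξ h m).comp (fun e : P.support => ⟨_, hmem e⟩)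
    fun e e' hee => Subtype.ext (DFunLike.coe_injective (Subtype.mk.inj hee))
  have h2 := Fintype.linearIndependent_iff.1 h1 (fun e => P.coeff e.1) (by
    rw [← h0, MvPolynomial.aeval_def, MvPolynomial.eval₂_eq', ← Finset.sum_coe_sort P.support]
    refine Finset.sum_congr rfl fun e _ => ?_
    rw [Algebra.smul_def]
    rfl)
  ext e
  by_contra hne
  exact hne (h2 ⟨e, MvPolynomial.mem_support_iff.2 hne⟩)

/-- Recipe: `full_iff_jet`; the jets of the `ξ σ` span a space of dimension `i + 1`
(`card_degLE`); extract a basis (`exists_linearIndependent'`) and index it by `Fin (i+1)`. -/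
theorem exists_sub_full {d : ℕ} (ξ : Fin d → MvPowerSeries (Fin i) K) (h : Full (sp K ξ) 1) :
    ∃ ε : Fin (i + 1) ↪ Fin d, Full (sp K (ξ ∘ ε)) 1 := by
  rw [full_iff_jet, Submodule.map_span, ← Set.range_comp] at h
  obtain ⟨κ, a, ha, hspan, hli⟩ := exists_linearIndependent' K (jet K i 1 ∘ ξ)
  have : Finite κ := Finite.of_injective a ha
  have : Fintype κ := Fintype.ofFinite κ
  have hcard : Fintype.card κ = i + 1 := by
    rw [← finrank_span_eq_card hli, hspan, h, finrank_top, Module.finrank_fintype_fun_eq_card,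
      Fintype.card_coe, card_degLE, add_comm 1 i, Nat.choose_succ_self_right]
  let e := (Fintype.equivFinOfCardEq hcard).symm
  refine ⟨⟨a ∘ e, ha.comp e.injective⟩, ?_⟩
  rw [full_iff_jet, Submodule.map_span, ← Set.range_comp, ← h, ← hspan]
  congr 1
  exact e.surjective.range_comp ((jet K i 1 ∘ ξ) ∘ a)

end Crest.Agent.R22
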